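import Mathlib.Algebra.BigOperators.Pi
import Mathlib.Tactic.Abel
import Vale.Agent.P263.H83.CupI

/-!
# P263: cup-i products with values in a pairing

The coboundary formula of `H83.CupI` for functions with values in additive groups of exponent two
and a biadditive pairing `μ : M → N → P`: `cupM μ j f g = ∑_J μ (f (fA S J)) (g (fB S J))`.
The proof is the one of `H83.dd_cupJ`.
-/

open Finset

namespace Vale.Agent.P263.TJ

open Vale.Agent.P263.H83

variable {M N P : Type*} [AddCommGroup M] [AddCommGroup N] [AddCommGroup P]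

/-- the coboundary of a function on finite sets -/
def ddM (f : Finset ℕ → M) : Finset ℕ → M := fun S => ∑ k ∈ S, f (S.erase k)

/-- the product `f ∪_{j-1} g` with respect to the pairing `μ` -/
def cupM (μ : M →+ N →+ P) (j : ℕ) (f : Finset ℕ → M) (g : Finset ℕ → N) : Finset ℕ → P :=
  fun S => ∑ J ∈ S.powersetCard j, μ (f (fA S J)) (g (fB S J))

variable (μ : M →+ N →+ P) (hP : ∀ x : P, x + x = 0)

/-- the two terms which omit the break point `k` -/
theorem pair_eqM {f : Finset ℕ → M} {g : Finset ℕ → N} {S J : Finset ℕ} {k : ℕ} (hS : k ∈ S)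
    (h : k ∉ J) :
    μ (f ((fA S (insert k J)).erase k)) (g (fB S (insert k J))) +
      μ (f (fA S (insert k J))) (g ((fB S (insert k J)).erase k)) =
    μ (f (bA S J k)) (g (bB S J k)) + μ (f (bA S J (k + 1))) (g (bB S J (k + 1))) := by
  by_cases hp : par J k k
  · have hp' : ¬ par J (k + 1) k := fun hc => par_self_succ.1 hc hp
    have e1 : (fA S (insert k J)).erase k = bA S J (k + 1) := by
      ext v
      rw [mem_erase, mem_fA_insert h, bA, mem_filter]
      constructor
      · rintro ⟨h1, h2, h3⟩
        exact ⟨h2, h3.resolve_left h1⟩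
      · rintro ⟨h1, h2⟩
        have hv : v ≠ k := by
          rintro rfl
          exact h2.elim h hp'
        exact ⟨hv, h1, Or.inr h2⟩
    have e2 : fB S (insert k J) = bB S J (k + 1) := by
      ext v
      rw [mem_fB_insert h, bB, mem_filter]
      refine and_congr_right fun _ => ⟨?_, Or.inr⟩
      rintro (rfl | h3)
      · exact Or.inr hp'
      · exact h3
    have e3 : fA S (insert k J) = bA S J k := by
      ext v
      rw [mem_fA_insert h, bA, mem_filter]
      refine and_congr_right fun _ => ?_
      by_cases hv : v = k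
      · subst hv
        simp [hp]
      · rw [par_succ hv]
        simp [hv]
    have e4 : (fB S (insert k J)).erase k = bB S J k := by
      ext v
      rw [mem_erase, mem_fB_insert h, bB, mem_filter]
      by_cases hv : v = k
      · subst hv
        simp [hp, h]
      · rw [par_succ hv]
        simp [hv]
    rw [e4, e1, e2, e3, add_comm]
  · have hp' : par J (k + 1) k := par_self_succ.2 hp
    have e1 : (fA S (insert k J)).erase k = bA S J k := by
      ext v
      rw [mem_erase, mem_fA_insert h, bA, mem_filter]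
      by_cases hv : v = k
      · subst hv
        simp [hp, h]
      · rw [par_succ hv]
        simp [hv]
    have e2 : fB S (insert k J) = bB S J k := by
      ext v
      rw [mem_fB_insert h, bB, mem_filter]
      refine and_congr_right fun _ => ?_
      by_cases hv : v = k
      · subst hv
        simp [hp]
      · rw [par_succ hv]
        simp [hv]
    have e3 : fA S (insert k J) = bA S J (k + 1) := by
      ext v
      rw [mem_fA_insert h, bA, mem_filter]
      refine and_congr_right fun _ => ⟨?_, Or.inr⟩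
      rintro (rfl | h3)
      · exact Or.inr hp'
      · exact h3
    have e4 : (fB S (insert k J)).erase k = bB S J (k + 1) := by
      ext v
      rw [mem_erase, mem_fB_insert h, bB, mem_filter]
      constructor
      · rintro ⟨h1, h2, h3⟩
        exact ⟨h2, h3.resolve_left h1⟩
      · rintro ⟨h1, h2⟩
        have hv : v ≠ k := by
          rintro rfl
          exact h2.elim h fun hc => hc hp'
        exact ⟨hv, h1, Or.inr h2⟩
    rw [e4, e1, e2, e3]

include hP in
theorem telescopeM (G : ℕ → P) (N : ℕ) : ∑ k ∈ range N, (G k + G (k + 1)) = G 0 + G N := by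
  induction N with
  | zero => rw [sum_range_zero, hP]
  | succ N ih =>
    rw [sum_range_succ, ih]
    have := hP (G N)
    calc G 0 + G N + (G N + G (N + 1)) = G 0 + (G N + G N) + G (N + 1) := by abel
      _ = _ := by rw [this, add_zero]

include hP in
/-- the terms with one break point omitted -/
theorem sum_breakM (f : Finset ℕ → M) (g : Finset ℕ → N) (S J : Finset ℕ) :
    ∑ k ∈ S \ J, (μ (f (bA S J k)) (g (bB S J k)) +
        μ (f (bA S J (k + 1))) (g (bB S J (k + 1)))) =
      μ (f (fA S J)) (g (fB S J)) + μ (f (fB S J)) (g (fA S J)) := by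
  obtain ⟨N, hN⟩ : ∃ N, ∀ v ∈ S, v < N := ⟨S.sup id + 1, fun v hv =>
    Nat.lt_succ_of_le (le_sup (f := id) hv)⟩
  have h1 : ∑ k ∈ S \ J, (μ (f (bA S J k)) (g (bB S J k)) +
        μ (f (bA S J (k + 1))) (g (bB S J (k + 1)))) =
      ∑ k ∈ range N, (μ (f (bA S J k)) (g (bB S J k)) +
        μ (f (bA S J (k + 1))) (g (bB S J (k + 1)))) := by
    refine sum_subset (fun k hk => mem_range.2 (hN k (mem_sdiff.1 hk).1)) fun k _ hk => ?_
    have h : k ∉ S ∨ k ∈ J := by
      by_contra hc
      push Not at hc
      exact hk (mem_sdiff.2 ⟨hc.1, hc.2⟩)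
    rw [bA_succ h, bB_succ h, hP]
  rw [h1, telescopeM hP (fun k => μ (f (bA S J k)) (g (bB S J k))), bA_zero, bB_zero, bA_top hN,
    bB_top hN, add_comm]

include hP in
/-- **The coboundary formula** of the cup-i products with values in a pairing. -/
theorem ddM_cupM (j : ℕ) (f : Finset ℕ → M) (g : Finset ℕ → N) :
    ddM (cupM μ (j + 1) f g) =
      cupM μ (j + 1) (ddM f) g + cupM μ (j + 1) f (ddM g) + cupM μ j f g + cupM μ.flip j g f := by
  funext S
  simp only [Pi.add_apply]
  -- the left side as a sum over `J`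
  have hL : ddM (cupM μ (j + 1) f g) S = ∑ J ∈ S.powersetCard (j + 1), ∑ k ∈ S \ J,
      μ (f ((fA S J).erase k)) (g ((fB S J).erase k)) := by
    simp only [ddM, cupM]
    rw [sum_comm' (t' := S.powersetCard (j + 1)) (s' := fun J => S \ J)]
    · refine sum_congr rfl fun J _ => sum_congr rfl fun k _ => ?_
      rw [fA_erase, fB_erase]
    · intro k J
      simp only [mem_powersetCard, mem_sdiff]
      constructor
      · rintro ⟨h1, h2, h3⟩
        exact ⟨⟨h1, fun hk => notMem_erase k S (h2 hk)⟩, h2.trans (erase_subset _ _), h3⟩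
      · rintro ⟨⟨h1, h2⟩, h3, h4⟩
        exact ⟨h1, fun v hv => mem_erase.2 ⟨fun hc => h2 (hc ▸ hv), h3 hv⟩, h4⟩
  have hsplit : ∀ J ∈ S.powersetCard (j + 1),
      μ (ddM f (fA S J)) (g (fB S J)) + μ (f (fA S J)) (ddM g (fB S J)) =
        ∑ k ∈ S \ J, μ (f ((fA S J).erase k)) (g ((fB S J).erase k)) +
          ∑ k ∈ J, (μ (f ((fA S J).erase k)) (g (fB S J)) +
            μ (f (fA S J)) (g ((fB S J).erase k))) := by
    intro J hJ
    have hJS := (mem_powersetCard.1 hJ).1
    have hA : fA S J = J ∪ (S \ J).filter (ev J) := by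
      ext v
      simp only [fA, mem_filter, mem_union, mem_sdiff]
      constructor
      · rintro ⟨h1, h2⟩
        by_cases hv : v ∈ J
        · exact Or.inl hv
        · exact Or.inr ⟨⟨h1, hv⟩, h2.resolve_left hv⟩
      · rintro (h | ⟨⟨h1, h2⟩, h3⟩)
        · exact ⟨hJS h, Or.inl h⟩
        · exact ⟨h1, Or.inr h3⟩
    have hB : fB S J = J ∪ (S \ J).filter (fun v => ¬ ev J v) := by
      ext v
      simp only [fB, mem_filter, mem_union, mem_sdiff]
      constructor
      · rintro ⟨h1, h2⟩
        by_cases hv : v ∈ J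
        · exact Or.inl hv
        · exact Or.inr ⟨⟨h1, hv⟩, h2.resolve_left hv⟩
      · rintro (h | ⟨⟨h1, h2⟩, h3⟩)
        · exact ⟨hJS h, Or.inl h⟩
        · exact ⟨h1, Or.inr h3⟩
    have dA : Disjoint J ((S \ J).filter (ev J)) := disjoint_left.2 fun v hv h =>
      (mem_sdiff.1 (mem_filter.1 h).1).2 hv
    have dB : Disjoint J ((S \ J).filter (fun v => ¬ ev J v)) := disjoint_left.2 fun v hv h =>
      (mem_sdiff.1 (mem_filter.1 h).1).2 hv
    have e1 : ddM f (fA S J) = ∑ k ∈ J, f ((fA S J).erase k) +
        ∑ k ∈ (S \ J).filter (ev J), f ((fA S J).erase k) := by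
      rw [ddM]
      conv_lhs => rw [hA]
      rw [sum_union dA, ← hA]
    have e2 : ddM g (fB S J) = ∑ k ∈ J, g ((fB S J).erase k) +
        ∑ k ∈ (S \ J).filter (fun v => ¬ ev J v), g ((fB S J).erase k) := by
      rw [ddM]
      conv_lhs => rw [hB]
      rw [sum_union dB, ← hB]
    have e3 : ∑ k ∈ S \ J, μ (f ((fA S J).erase k)) (g ((fB S J).erase k)) =
        μ (∑ k ∈ (S \ J).filter (ev J), f ((fA S J).erase k)) (g (fB S J)) +
        μ (f (fA S J)) (∑ k ∈ (S \ J).filter (fun v => ¬ ev J v), g ((fB S J).erase k)) := by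
      rw [← sum_filter_add_sum_filter_not (S \ J) (ev J), map_sum, map_sum,
        AddMonoidHom.finsetSum_apply]
      congr 1
      · refine sum_congr rfl fun k hk => ?_
        obtain ⟨h1, h2⟩ := mem_filter.1 hk
        rw [erase_eq_of_notMem (s := fB S J)]
        simp only [fB, mem_filter, not_and, not_or, not_not]
        exact fun _ => ⟨(mem_sdiff.1 h1).2, h2⟩
      · refine sum_congr rfl fun k hk => ?_
        obtain ⟨h1, h2⟩ := mem_filter.1 hk
        rw [erase_eq_of_notMem (s := fA S J)]
        simp only [fA, mem_filter, not_and, not_or]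
        exact fun _ => ⟨(mem_sdiff.1 h1).2, h2⟩
    rw [e1, e2, e3, sum_add_distrib, map_add, map_add, AddMonoidHom.add_apply, map_sum μ,
      AddMonoidHom.finsetSum_apply, map_sum (μ (f (fA S J))) _ J]
    abel
  have hR : cupM μ (j + 1) (ddM f) g S + cupM μ (j + 1) f (ddM g) S =
      ∑ J ∈ S.powersetCard (j + 1), ∑ k ∈ S \ J,
        μ (f ((fA S J).erase k)) (g ((fB S J).erase k)) +
      ∑ J ∈ S.powersetCard (j + 1), ∑ k ∈ J,
        (μ (f ((fA S J).erase k)) (g (fB S J)) + μ (f (fA S J)) (g ((fB S J).erase k))) := by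
    rw [cupM, cupM, ← sum_add_distrib, ← sum_add_distrib]
    exact sum_congr rfl hsplit
  have hK : ∑ J ∈ S.powersetCard (j + 1), ∑ k ∈ J,
        (μ (f ((fA S J).erase k)) (g (fB S J)) + μ (f (fA S J)) (g ((fB S J).erase k))) =
      cupM μ j f g S + cupM μ.flip j g f S := by
    have h1 : ∑ J ∈ S.powersetCard (j + 1), ∑ k ∈ J,
        (μ (f ((fA S J).erase k)) (g (fB S J)) + μ (f (fA S J)) (g ((fB S J).erase k))) =
        ∑ J ∈ S.powersetCard j, ∑ k ∈ S \ J,
          (μ (f ((fA S (insert k J)).erase k)) (g (fB S (insert k J))) +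
            μ (f (fA S (insert k J))) (g ((fB S (insert k J)).erase k))) := by
      rw [sum_sigma', sum_sigma']
      refine sum_bij' (fun a _ => ⟨a.1.erase a.2, a.2⟩) (fun a _ => ⟨insert a.2 a.1, a.2⟩)
        ?_ ?_ ?_ ?_ ?_
      · rintro ⟨J, k⟩ h
        simp only [mem_sigma, mem_powersetCard] at h
        simp only [mem_sigma, mem_powersetCard, mem_sdiff]
        refine ⟨⟨(erase_subset _ _).trans h.1.1, ?_⟩, h.1.1 h.2, notMem_erase _ _⟩
        rw [card_erase_of_mem h.2, h.1.2]
        rfl
      · rintro ⟨J, k⟩ h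
        simp only [mem_sigma, mem_powersetCard, mem_sdiff] at h
        simp only [mem_sigma, mem_powersetCard]
        refine ⟨⟨insert_subset h.2.1 h.1.1, ?_⟩, mem_insert_self _ _⟩
        rw [card_insert_of_notMem h.2.2, h.1.2]
      · rintro ⟨J, k⟩ h
        simp only [mem_sigma] at h
        simp [insert_erase h.2]
      · rintro ⟨J, k⟩ h
        simp only [mem_sigma, mem_sdiff] at h
        simp [erase_insert h.2.2]
      · rintro ⟨J, k⟩ h
        simp only [mem_sigma] at h
        simp only [insert_erase h.2]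
    rw [h1, cupM, cupM, ← sum_add_distrib]
    refine sum_congr rfl fun J hJ => ?_
    rw [AddMonoidHom.flip_apply, ← sum_breakM μ hP f g S J]
    exact sum_congr rfl fun k hk => pair_eqM μ (mem_sdiff.1 hk).1 (mem_sdiff.1 hk).2
  have hh := hP (cupM μ j f g S + cupM μ.flip j g f S)
  rw [hL, hR, hK]
  rw [add_assoc, add_assoc, hh, add_zero]

end Vale.Agent.P263.TJ
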