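import Mathlib.Algebra.Module.ZMod
import Mathlib.Data.Finset.Sort
import Vale.Agent.P263.S.Core
import Vale.Agent.P263.TJ.CupM

/-!
# P263: Steenrod's cup-i products on cosimplicial `F_2`-modules

`Tot A` : cochains of mixed degree of a cosimplicial module. `fc A p u S` : the value of `u` on the
face of `[p]` with vertex set `S` (`0` if `S` is empty or not contained in `{0..p}`).
`cupT μ j u v` : the product `u ∪_{j-1} v` for a natural pairing `μ : A × B → C`.
`D_cupT` : the coboundary formula.
-/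

open Finset

namespace Vale.Agent.P263.TJ

open Vale.Agent.P263.S Vale.Agent.P263.H83

variable {A B C : CosMod (ZMod 2)}

theorem two_zero {M : Type*} [AddCommGroup M] [Module (ZMod 2) M] (x : M) : x + x = 0 :=
  ZModModule.add_self x

theorem sn_two {M : Type*} [AddCommGroup M] [Module (ZMod 2) M] (k : ℕ) (x : M) : sn k x = x := by
  induction k with
  | zero => simp [sn]
  | succ k ih => rw [sn_succ, ih, neg_eq_iff_add_eq_zero, two_zero]

/-- the cochains of mixed degree -/
abbrev Tot (A : CosMod (ZMod 2)) : Type := ∀ m, A.obj m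

/-- the total differential -/
def D (u : Tot A) : Tot A
  | 0 => 0
  | m + 1 => A.d m (u m)

@[simp] theorem D_zero_apply (u : Tot A) : D u 0 = 0 := rfl

@[simp] theorem D_succ_apply (u : Tot A) (m : ℕ) : D u (m + 1) = A.d m (u m) := rfl

theorem D_D (u : Tot A) : D (D u) = 0 := by
  funext p
  cases p with
  | zero => rfl
  | succ p =>
    cases p with
    | zero => exact map_zero _
    | succ p => exact A.d_d p (u p)

theorem d_eq (p : ℕ) (x : A.obj p) : A.d p x = ∑ i ∈ range (p + 2), A.map (dl p i) x := by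
  rw [CosMod.d_apply]
  exact sum_congr rfl fun i _ => sn_two _ _

/-- the set of values of a monotone map -/
def im {m p : ℕ} (f : Op m p) : Finset ℕ := univ.image fun x => (f x).1

theorem mem_im {m p : ℕ} {f : Op m p} {v : ℕ} : v ∈ im f ↔ ∃ x, (f x).1 = v := by
  simp [im]

theorem im_subset {m p : ℕ} (f : Op m p) : im f ⊆ range (p + 1) := by
  intro v hv
  obtain ⟨x, rfl⟩ := mem_im.1 hv
  exact mem_range.2 (f x).2

theorem card_im {m p : ℕ} {f : Op m p} (hf : StrictMono f) : (im f).card = m + 1 := by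
  rw [im, card_image_of_injective _ fun x y h => hf.injective (Fin.ext h), card_univ,
    Fintype.card_fin]

theorem im_nonempty {m p : ℕ} (f : Op m p) : (im f).Nonempty := ⟨(f 0).1, mem_im.2 ⟨0, rfl⟩⟩

/-- the inclusion of a nonempty subset of `{0..p}` -/
def inc (p : ℕ) (S : Finset ℕ) (h : S.Nonempty) (hp : S ⊆ range (p + 1)) : Op (S.card - 1) p where
  toFun x := ⟨S.orderEmbOfFin (k := S.card - 1 + 1) (by have := h.card_pos; omega) x,
    mem_range.1 (hp (orderEmbOfFin_mem _ _ _))⟩
  monotone' x y hxy := by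
    simp only [Fin.le_def]
    exact (S.orderEmbOfFin _).monotone hxy

theorem inc_strictMono (p : ℕ) (S : Finset ℕ) (h : S.Nonempty) (hp : S ⊆ range (p + 1)) :
    StrictMono (inc p S h hp) := fun x y hxy => by
  rw [Fin.lt_def]
  exact (S.orderEmbOfFin _).strictMono hxy

theorem im_inc (p : ℕ) (S : Finset ℕ) (h : S.Nonempty) (hp : S ⊆ range (p + 1)) :
    im (inc p S h hp) = S := by
  refine eq_of_subset_of_card_le (fun v hv => ?_) ?_
  · obtain ⟨x, rfl⟩ := mem_im.1 hv
    exact orderEmbOfFin_mem _ _ _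
  · rw [card_im (inc_strictMono p S h hp)]
    omega

theorem exists_im {p : ℕ} {S : Finset ℕ} (h : S.Nonempty) (hp : S ⊆ range (p + 1)) :
    ∃ (m : ℕ) (f : Op m p), StrictMono f ∧ im f = S :=
  ⟨_, inc p S h hp, inc_strictMono p S h hp, im_inc p S h hp⟩

theorem map_congr_deg {A : CosMod (ZMod 2)} {m m' p : ℕ} (e : m' = m) (g : Op m' p) (f : Op m p)
    (h : ∀ x : Fin (m' + 1), g x = f (Fin.cast (by omega) x)) (u : Tot A) :
    A.map g (u m') = A.map f (u m) := by
  subst e
  have : g = f := by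
    ext x
    rw [h x]
    rfl
  rw [this]

/-- the value of `u` on the face of `[p]` with vertex set `S` -/
def fc (A : CosMod (ZMod 2)) (p : ℕ) (u : Tot A) (S : Finset ℕ) : A.obj p :=
  if h : S.Nonempty ∧ S ⊆ range (p + 1) then A.map (inc p S h.1 h.2) (u (S.card - 1)) else 0

@[simp] theorem fc_empty (p : ℕ) (u : Tot A) : fc A p u ∅ = 0 := by
  rw [fc, dif_neg]
  simp

theorem fc_im {m p : ℕ} {f : Op m p} (hf : StrictMono f) (u : Tot A) :
    fc A p u (im f) = A.map f (u m) := by
  rw [fc, dif_pos ⟨im_nonempty f, im_subset f⟩]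
  have hc := card_im hf
  refine map_congr_deg (by omega) _ _ (fun x => ?_) u
  apply Fin.ext
  change (im f).orderEmbOfFin _ x = (f _).1
  have := orderEmbOfFin_unique (s := im f) (k := (im f).card - 1 + 1)
    (by omega) (f := fun x => (f (Fin.cast (by omega) x)).1)
    (fun x => mem_im.2 ⟨_, rfl⟩) (fun x y hxy => by
      have h1 : (Fin.cast (by omega) x : Fin (m + 1)) < Fin.cast (by omega) y := hxy
      exact hf h1)
  exact (congrFun this x).symm

theorem fc_range (p : ℕ) (u : Tot A) : fc A p u (range (p + 1)) = u p := by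
  have h : im (OrderHom.id : Op p p) = range (p + 1) := by
    ext v
    rw [mem_im, mem_range]
    exact ⟨fun ⟨x, hx⟩ => hx ▸ x.2, fun h => ⟨⟨v, h⟩, rfl⟩⟩
  rw [← h, fc_im (fun x y hxy => hxy), A.map_id_apply]

theorem fc_add (p : ℕ) (u v : Tot A) (S : Finset ℕ) :
    fc A p (u + v) S = fc A p u S + fc A p v S := by
  simp only [fc]
  split_ifs
  · exact map_add _ _ _
  · exact (add_zero _).symm

theorem fc_zero (p : ℕ) (S : Finset ℕ) : fc A p 0 S = 0 := by
  simp only [fc]
  split_ifs
  · exact map_zero _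
  · rfl

/-- naturality with respect to injective maps -/
theorem fc_image {p q : ℕ} {g : Op p q} (hg : StrictMono g) {φ : ℕ → ℕ}
    (hφ : ∀ x : Fin (p + 1), φ x = (g x).1) (u : Tot A) {S : Finset ℕ} (hS : S ⊆ range (p + 1)) :
    fc A q u (S.image φ) = A.map g (fc A p u S) := by
  rcases S.eq_empty_or_nonempty with rfl | h
  · rw [image_empty, fc_empty, fc_empty, map_zero]
  · obtain ⟨m, f, hf, rfl⟩ := exists_im h hS
    have e : (im f).image φ = im (g.comp f) := by
      ext v
      simp only [mem_image, mem_im, exists_exists_eq_and]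
      exact exists_congr fun x => by rw [hφ]; rfl
    rw [e, fc_im (f := g.comp f) (fun _ _ h => hg (hf h)), fc_im hf, A.map_map]

/-- the coboundary on the faces of a simplex -/
theorem ddM_fc (p : ℕ) (u : Tot A) {S : Finset ℕ} (hS : S ⊆ range (p + 1)) :
    ddM (fc A p u) S = fc A p (D u) S := by
  rcases S.eq_empty_or_nonempty with rfl | h
  · rw [ddM, sum_empty, fc_empty]
  · obtain ⟨m, f, hf, rfl⟩ := exists_im h hS
    rw [fc_im hf]
    cases m with
    | zero =>
      rw [D_zero_apply, map_zero, ddM]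
      refine sum_eq_zero fun k hk => ?_
      obtain ⟨x, rfl⟩ := mem_im.1 hk
      have : (im f).erase (f x).1 = ∅ := by
        rw [← card_eq_zero, card_erase_of_mem hk, card_im hf]
      rw [this, fc_empty]
    | succ m =>
      rw [D_succ_apply, d_eq, map_sum, ddM, im, sum_image fun x _ y _ hxy =>
        hf.injective (Fin.ext hxy), Finset.sum_range]
      refine sum_congr rfl fun x _ => ?_
      have hx := x.2
      have hs : StrictMono (dl m x.1) := fun a b hab => by
        rw [Fin.lt_def] at *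
        rw [dl_val, dl_val]
        split_ifs <;> omega
      have e : (univ.image fun y => (f y).1).erase (f x).1 = im (f.comp (dl m x.1)) := by
        ext v
        simp only [mem_erase, mem_image, mem_univ, true_and, mem_im]
        constructor
        · rintro ⟨h1, y, rfl⟩
          have hyx : y ≠ x := fun hc => h1 (by rw [hc])
          have hyx' : y.1 ≠ x.1 := fun hc => hyx (Fin.ext hc)
          have hy := y.2
          by_cases hlt : y.1 < x.1
          · refine ⟨⟨y.1, by omega⟩, ?_⟩
            have : dl m x.1 ⟨y.1, by omega⟩ = y := Fin.ext (by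
              rw [dl_val]; exact if_pos hlt)
            change (f (dl m x.1 _)).1 = _
            rw [this]
          · refine ⟨⟨y.1 - 1, by omega⟩, ?_⟩
            have : dl m x.1 ⟨y.1 - 1, by omega⟩ = y := Fin.ext (by
              rw [dl_val]; dsimp only; rw [if_neg (by omega)]; omega)
            change (f (dl m x.1 _)).1 = _
            rw [this]
        · rintro ⟨z, rfl⟩
          refine ⟨fun hc => ?_, dl m x.1 z, rfl⟩
          have := hf.injective (Fin.ext hc)
          have h2 := congrArg Fin.val this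
          rw [dl_val] at h2
          split_ifs at h2 <;> omega
      rw [e, fc_im (f := f.comp (dl m x.1)) (fun _ _ h => hf (hs h)), A.map_map]

/-- A natural pairing of cosimplicial modules. -/
structure Pair (A B C : CosMod (ZMod 2)) where
  /-- the components -/
  app : ∀ p, A.obj p →+ B.obj p →+ C.obj p
  nat : ∀ {p q : ℕ} (f : Op p q) (a : A.obj p) (b : B.obj p),
    C.map f (app p a b) = app q (A.map f a) (B.map f b)

/-- the opposite pairing -/
def Pair.flip (μ : Pair A B C) : Pair B A C where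
  app p := (μ.app p).flip
  nat f a b := μ.nat f b a

/-- the product `u ∪_{j-1} v` -/
def cupT (μ : Pair A B C) (j : ℕ) (u : Tot A) (v : Tot B) : Tot C :=
  fun p => cupM (μ.app p) j (fc A p u) (fc B p v) (range (p + 1))

section cupM

variable {M N P M' N' P' : Type*} [AddCommGroup M] [AddCommGroup N] [AddCommGroup P]
  [AddCommGroup M'] [AddCommGroup N'] [AddCommGroup P']

theorem fA_subset (S J : Finset ℕ) : fA S J ⊆ S := filter_subset _ _

theorem fB_subset (S J : Finset ℕ) : fB S J ⊆ S := filter_subset _ _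

theorem cupM_congr (μ : M →+ N →+ P) (j : ℕ) {f f' : Finset ℕ → M} {g g' : Finset ℕ → N}
    {S : Finset ℕ} (hf : ∀ T ⊆ S, f T = f' T) (hg : ∀ T ⊆ S, g T = g' T) :
    cupM μ j f g S = cupM μ j f' g' S :=
  sum_congr rfl fun J _ => by rw [hf _ (fA_subset S J), hg _ (fB_subset S J)]

theorem map_cupM (μ : M →+ N →+ P) (μ' : M' →+ N' →+ P') (α : M → M') (β : N → N') (γ : P →+ P')
    (h : ∀ a b, γ (μ a b) = μ' (α a) (β b)) (j : ℕ) (f : Finset ℕ → M) (g : Finset ℕ → N)
    (S : Finset ℕ) :
    γ (cupM μ j f g S) = cupM μ' j (fun T => α (f T)) (fun T => β (g T)) S := by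
  rw [cupM, map_sum]
  exact sum_congr rfl fun J _ => h _ _

theorem ev_image {φ : ℕ → ℕ} (hφ : StrictMono φ) (J : Finset ℕ) (v : ℕ) :
    ev (J.image φ) (φ v) ↔ ev J v := by
  rw [ev, ev]
  have : (J.image φ).filter (· < φ v) = (J.filter (· < v)).image φ := by
    ext w
    simp only [mem_filter, mem_image]
    constructor
    · rintro ⟨⟨x, hx, rfl⟩, h⟩
      exact ⟨x, ⟨hx, hφ.lt_iff_lt.1 h⟩, rfl⟩
    · rintro ⟨x, ⟨hx, h⟩, rfl⟩
      exact ⟨⟨x, hx, rfl⟩, hφ h⟩
  rw [this, card_image_of_injective _ hφ.injective]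

theorem fA_image {φ : ℕ → ℕ} (hφ : StrictMono φ) (S J : Finset ℕ) :
    fA (S.image φ) (J.image φ) = (fA S J).image φ := by
  ext w
  simp only [mem_fA, mem_image]
  constructor
  · rintro ⟨⟨x, hx, rfl⟩, h⟩
    refine ⟨x, ⟨hx, ?_⟩, rfl⟩
    rcases h with ⟨y, hy, h⟩ | h
    · exact Or.inl (hφ.injective h ▸ hy)
    · exact Or.inr ((ev_image hφ J x).1 h)
  · rintro ⟨x, ⟨hx, h⟩, rfl⟩
    refine ⟨⟨x, hx, rfl⟩, ?_⟩
    rcases h with h | h
    · exact Or.inl ⟨x, h, rfl⟩
    · exact Or.inr ((ev_image hφ J x).2 h)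

theorem fB_image {φ : ℕ → ℕ} (hφ : StrictMono φ) (S J : Finset ℕ) :
    fB (S.image φ) (J.image φ) = (fB S J).image φ := by
  ext w
  simp only [mem_fB, mem_image]
  constructor
  · rintro ⟨⟨x, hx, rfl⟩, h⟩
    refine ⟨x, ⟨hx, ?_⟩, rfl⟩
    rcases h with ⟨y, hy, h⟩ | h
    · exact Or.inl (hφ.injective h ▸ hy)
    · exact Or.inr fun hc => h ((ev_image hφ J x).2 hc)
  · rintro ⟨x, ⟨hx, h⟩, rfl⟩
    refine ⟨⟨x, hx, rfl⟩, ?_⟩
    rcases h with h | h
    · exact Or.inl ⟨x, h, rfl⟩
    · exact Or.inr fun hc => h ((ev_image hφ J x).1 hc)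

/-- relabelling -/
theorem cupM_image (μ : M →+ N →+ P) (j : ℕ) (f : Finset ℕ → M) (g : Finset ℕ → N)
    {φ : ℕ → ℕ} (hφ : StrictMono φ) (S : Finset ℕ) :
    cupM μ j f g (S.image φ) =
      cupM μ j (fun T => f (T.image φ)) (fun T => g (T.image φ)) S := by
  rw [cupM, cupM]
  refine (sum_bij (fun J _ => J.image φ) (fun J hJ => ?_) (fun J _ J' _ h => ?_)
    (fun J hJ => ?_) (fun J _ => ?_)).symm
  · rw [mem_powersetCard] at *
    exact ⟨image_subset_image hJ.1, by rw [card_image_of_injective _ hφ.injective, hJ.2]⟩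
  · exact image_injective hφ.injective h
  · rw [mem_powersetCard] at hJ
    obtain ⟨J', hJ', rfl⟩ := subset_image_iff.1 hJ.1
    refine ⟨J', mem_powersetCard.2 ⟨hJ', ?_⟩, rfl⟩
    rw [← hJ.2, card_image_of_injective _ hφ.injective]
  · rw [fA_image hφ, fB_image hφ]

theorem cupM_empty (μ : M →+ N →+ P) (j : ℕ) (f : Finset ℕ → M) (g : Finset ℕ → N) :
    cupM μ (j + 1) f g ∅ = 0 := by
  rw [cupM]
  refine sum_eq_zero fun J hJ => ?_
  rw [mem_powersetCard] at hJ
  have := card_le_card hJ.1
  rw [card_empty] at this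
  omega

end cupM

/-- the coface on all natural numbers -/
def dlN (k v : ℕ) : ℕ := if v < k then v else v + 1

theorem dlN_strictMono (k : ℕ) : StrictMono (dlN k) := fun a b h => by
  simp only [dlN]
  split_ifs <;> omega

theorem dl_strictMono (p k : ℕ) : StrictMono (dl p k) := fun a b hab => by
  rw [Fin.lt_def] at *
  rw [dl_val, dl_val]
  split_ifs <;> omega

theorem image_dlN {p k : ℕ} (hk : k ∈ range (p + 2)) :
    (range (p + 1)).image (dlN k) = (range (p + 2)).erase k := by
  rw [mem_range] at hk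
  ext v
  simp only [mem_image, mem_range, mem_erase, dlN]
  constructor
  · rintro ⟨x, hx, rfl⟩
    split_ifs <;> omega
  · rintro ⟨h1, h2⟩
    by_cases h : v < k
    · exact ⟨v, by omega, if_pos h⟩
    · exact ⟨v - 1, by omega, by rw [if_neg (by omega)]; omega⟩

/-- a product evaluated after a coface -/
theorem map_dl_cupT (μ : Pair A B C) (j : ℕ) (u : Tot A) (v : Tot B) {p k : ℕ}
    (hk : k ∈ range (p + 2)) :
    C.map (dl p k) (cupT μ j u v p) =
      cupM (μ.app (p + 1)) j (fc A (p + 1) u) (fc B (p + 1) v) ((range (p + 2)).erase k) := by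
  rw [← image_dlN hk, cupM_image _ _ _ _ (dlN_strictMono k)]
  refine (map_cupM (μ.app p) (μ.app (p + 1)) (A.map (dl p k)) (B.map (dl p k))
    (C.map (dl p k)).toAddMonoidHom (fun a b => μ.nat _ a b) j _ _ _).trans ?_
  refine cupM_congr _ _ (fun T hT => ?_) (fun T hT => ?_)
  · exact (fc_image (dl_strictMono p k) (fun x => rfl) u hT).symm
  · exact (fc_image (dl_strictMono p k) (fun x => rfl) v hT).symm

/-- **The coboundary formula** for the cup-i products of cosimplicial modules. -/
theorem D_cupT (μ : Pair A B C) (j : ℕ) (u : Tot A) (v : Tot B) :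
    D (cupT μ (j + 1) u v) =
      cupT μ (j + 1) (D u) v + cupT μ (j + 1) u (D v) + cupT μ j u v + cupT μ.flip j v u := by
  have key : ∀ p, ddM (cupM (μ.app p) (j + 1) (fc A p u) (fc B p v)) (range (p + 1)) =
      (cupT μ (j + 1) (D u) v + cupT μ (j + 1) u (D v) + cupT μ j u v +
        cupT μ.flip j v u) p := by
    intro p
    rw [ddM_cupM _ (fun x => two_zero x)]
    simp only [Pi.add_apply]
    congr 1
    congr 1
    congr 1
    · exact cupM_congr _ _ (fun T hT => ddM_fc p u hT) (fun _ _ => rfl)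
    · exact cupM_congr _ _ (fun _ _ => rfl) (fun T hT => ddM_fc p v hT)
  funext p
  rw [← key]
  cases p with
  | zero =>
    rw [D_zero_apply, ddM, range_one, sum_singleton]
    have : ({0} : Finset ℕ).erase 0 = ∅ := by decide
    rw [this, cupM_empty]
  | succ p =>
    rw [D_succ_apply, d_eq, ddM]
    exact sum_congr rfl fun k hk => map_dl_cupT μ (j + 1) u v hk

/-- `∪_{-1} = 0` -/
theorem cupT_zero (μ : Pair A B C) (u : Tot A) (v : Tot B) : cupT μ 0 u v = 0 := by
  funext p
  rw [cupT, cupM, powersetCard_zero, sum_singleton]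
  have : fB (range (p + 1)) ∅ = ∅ := by
    ext w
    rw [mem_fB]
    simp [ev]
  rw [this, fc_empty, map_zero]
  rfl

theorem cupT_add_left (μ : Pair A B C) (j : ℕ) (u u' : Tot A) (v : Tot B) :
    cupT μ j (u + u') v = cupT μ j u v + cupT μ j u' v := by
  funext p
  simp only [cupT, cupM, Pi.add_apply, fc_add, map_add, AddMonoidHom.add_apply, sum_add_distrib]

theorem cupT_add_right (μ : Pair A B C) (j : ℕ) (u : Tot A) (v v' : Tot B) :
    cupT μ j u (v + v') = cupT μ j u v + cupT μ j u v' := by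
  funext p
  simp only [cupT, cupM, Pi.add_apply, fc_add, map_add, sum_add_distrib]

end Vale.Agent.P263.TJ
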