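import Vale.Agent.P263.S.Pow
import Vale.Agent.P263.TJ.CupS

/-!
# P263: the explicit cocycle of the power operation `P`

`Theta μ c K x = ∑_{k<K} u^k ∪ (x ∪_k x)^` : the explicit `C2`-equivariant cochain on `EC2` built
from Steenrod's cup-i products (flips at the front). For a cocycle `x` of degree `n` and `K > n + 1`
it is a cocycle, and its restriction to the trivial group is the cup product `x × x`.
-/

noncomputable section

open Finset

namespace Vale.Agent.P263.TJ

open Vale.Agent.P263.S Vale.Agent.P263.H83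

variable {A B C : CosMod (ZMod 2)}

/-- a bilinear pairing as a biadditive pairing -/
def ofBil (μ : Bil A B C) : Pair A B C where
  app p := AddMonoidHom.mk' (fun a => (μ.app p a).toAddMonoidHom) fun a a' => by
    ext b
    simp
  nat f a b := (μ.nat f a b).symm

@[simp] theorem ofBil_app (μ : Bil A B C) (p : ℕ) (a : A.obj p) (b : B.obj p) :
    (ofBil μ).app p a b = μ.app p a b := rfl

/-! ### Homogeneous cochains -/

theorem fc_single_ne {n : ℕ} (x : A.obj n) (p : ℕ) {S : Finset ℕ} (h : S.card ≠ n + 1) :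
    fc A p (Pi.single n x) S = 0 := by
  rw [fc]
  split_ifs with hS
  · have h1 := hS.1.card_pos
    have : (Pi.single n x : Tot A) (S.card - 1) = 0 := Pi.single_eq_of_ne (by omega) x
    rw [this, map_zero]
  · rfl

theorem fc_single_im {n p : ℕ} (x : A.obj n) {f : Op n p} (hf : StrictMono f) :
    fc A p (Pi.single n x) (im f) = A.map f x := by
  rw [fc_im hf, Pi.single_eq_same]

theorem D_single {n : ℕ} {x : A.obj n} (hx : A.d n x = 0) : D (Pi.single n x : Tot A) = 0 := by
  funext m
  cases m with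
  | zero => rfl
  | succ m =>
    rw [D_succ_apply]
    by_cases h : m = n
    · subst h
      rw [Pi.single_eq_same, hx]; rfl
    · have : (Pi.single n x : Tot A) m = 0 := Pi.single_eq_of_ne h x
      rw [this, map_zero]; rfl

theorem subset_fA {S J : Finset ℕ} (h : J ⊆ S) : J ⊆ fA S J := fun _ hv =>
  mem_fA.2 ⟨h hv, Or.inl hv⟩

/-- too many break points -/
theorem cupT_single_eq_zero (μ : Pair A B C) {j n : ℕ} (hj : n + 1 < j) (x : A.obj n) (v : Tot B) :
    cupT μ j (Pi.single n x) v = 0 := by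
  funext p
  rw [cupT, cupM]
  refine sum_eq_zero fun J hJ => ?_
  rw [mem_powersetCard] at hJ
  have h1 := card_le_card (subset_fA hJ.1)
  rw [fc_single_ne x p (by omega), map_zero]
  rfl

/-! ### Operators on equivariant cochains -/

variable (c : Act C2 C)

/-- the nontrivial element -/
abbrev tau : C2 := Multiplicative.ofAdd 1

/-- the involution -/
def inv (w : Tot C) : Tot C := fun m => c.act m tau (w m)

/-- the equivariant extension of a cochain, `s ↦ s_0 · w` -/
def hatG (w : Tot C) : Tot (hG c) := fun m =>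
  hG.mk c (fun s => c.act m (s 0) (w m)) fun g s => by
    rw [map_mul]; rfl

@[simp] theorem hatG_fn (w : Tot C) (m : ℕ) (s : Fin (m + 1) → C2) :
    hG.fn (hatG c w m) s = c.act m (s 0) (w m) := rfl

theorem hatG_add (w w' : Tot C) : hatG c (w + w') = hatG c w + hatG c w' := by
  funext m
  exact hG.ext fun s => map_add _ _ _

theorem hatG_zero : hatG c (0 : Tot C) = 0 := by
  funext m
  exact hG.ext fun s => map_zero _

/-- the product with the generator `u` of `H^1(BC2)` (in front) -/
def U (m : ℕ) : (hG c).obj m →ₗ[ZMod 2] (hG c).obj (m + 1) where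
  toFun f := hG.mk c (fun s => if s 0 = s 1 then 0 else C.map (dl m 0) (hG.fn f (s ∘ dl m 0)))
    fun g s => by
      by_cases h : s 0 = s 1
      · rw [if_pos h, if_pos (show g * s 0 = g * s 1 by rw [h]), map_zero]
      · rw [if_neg h, if_neg (fun hc => h (mul_left_cancel hc)), c.nat, ← hG.fn_mul]
        rfl
  map_add' f f' := hG.ext fun s => by
    simp only [hG.fn_mk, hG.fn_add]
    split_ifs
    · rw [add_zero]
    · rw [map_add]
  map_smul' r f := hG.ext fun s => by
    simp only [hG.fn_mk, hG.fn_smul, RingHom.id_apply]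
    split_ifs
    · rw [smul_zero]
    · rw [map_smul]

theorem U_fn (m : ℕ) (f : (hG c).obj m) (s : Fin (m + 2) → C2) :
    hG.fn (U c m f) s = if s 0 = s 1 then 0 else C.map (dl m 0) (hG.fn f (s ∘ dl m 0)) := rfl

/-- the product with `u` on cochains of mixed degree -/
def UT (f : Tot (hG c)) : Tot (hG c)
  | 0 => 0
  | m + 1 => U c m (f m)

@[simp] theorem UT_zero_apply (f : Tot (hG c)) : UT c f 0 = 0 := rfl

@[simp] theorem UT_succ_apply (f : Tot (hG c)) (m : ℕ) : UT c f (m + 1) = U c m (f m) := rfl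

theorem UT_add (f g : Tot (hG c)) : UT c (f + g) = UT c f + UT c g := by
  funext m
  cases m with
  | zero => exact (add_zero _).symm
  | succ m => exact map_add _ _ _

theorem UT_zero : UT c 0 = 0 := by
  funext m
  cases m with
  | zero => rfl
  | succ m => exact map_zero _

theorem D_add (u v : Tot A) : D (u + v) = D u + D v := by
  funext m
  cases m with
  | zero => exact (add_zero _).symm
  | succ m => exact map_add _ _ _

theorem D_zero : D (0 : Tot A) = 0 := by
  funext m
  cases m with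
  | zero => rfl
  | succ m => exact map_zero _

theorem C2_cases (g : C2) : g = 1 ∨ g = tau := by
  revert g
  decide

theorem C2_xor (a b e : C2) {M : Type*} [AddCommGroup M] [Module (ZMod 2) M] (y : M) :
    (if b = e then 0 else y) + (if a = e then 0 else y) = if a = b then 0 else y := by
  have h1 : (1 : C2) ≠ tau := by decide
  rcases C2_cases a with rfl | rfl <;> rcases C2_cases b with rfl | rfl <;>
    rcases C2_cases e with rfl | rfl <;> simp [two_zero, h1, h1.symm]

theorem fn_d (m : ℕ) (f : (hG c).obj m) (s : Fin (m + 2) → C2) :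
    hG.fn ((hG c).d m f) s = ∑ i ∈ range (m + 2), C.map (dl m i) (hG.fn f (s ∘ dl m i)) := by
  rw [d_eq]
  have : ∀ (t : Finset ℕ) (F : ℕ → (hG c).obj (m + 1)),
      hG.fn (∑ i ∈ t, F i) s = ∑ i ∈ t, hG.fn (F i) s := by
    intro t F
    classical
    induction t using Finset.induction_on with
    | empty => rfl
    | insert a t ha ih => rw [sum_insert ha, sum_insert ha, hG.fn_add, ih]
  rw [this]
  rfl

/-- `d (u ∪ f) = u ∪ d f` -/
theorem d_U (m : ℕ) (f : (hG c).obj m) : (hG c).d (m + 1) (U c m f) = U c (m + 1) ((hG c).d m f) := by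
  refine hG.ext fun s => ?_
  rw [fn_d, U_fn, fn_d, sum_range_succ', sum_range_succ', map_sum]
  simp only [U_fn]
  have e0 : ∀ i : ℕ, (s ∘ dl (m + 1) (i + 2)) 0 = s 0 := fun i => by
    change s _ = s 0
    congr 1
  have e1 : ∀ i : ℕ, (s ∘ dl (m + 1) (i + 2)) 1 = s 1 := fun i => by
    change s _ = s 1
    congr 1
  have e2 : (s ∘ dl (m + 1) 0) 0 = s 1 := by
    change s _ = s 1
    congr 1
  have e3 : (s ∘ dl (m + 1) 0) 1 = s 2 := by
    change s _ = s 2
    congr 1
  have e4 : (s ∘ dl (m + 1) 1) 0 = s 0 := by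
    change s _ = s 0
    congr 1
  have e5 : (s ∘ dl (m + 1) 1) 1 = s 2 := by
    change s _ = s 2
    congr 1
  have hm : ∀ i : ℕ, (dl (m + 1) (i + 2)).comp (dl m 0) = (dl (m + 1) 0).comp (dl m (i + 1)) :=
    fun i => by
      have := dl_dl (p := m) (i := 0) (j := i + 1) (by omega)
      exact this
  have h1 : (dl (m + 1) 1).comp (dl m 0) = (dl (m + 1) 0).comp (dl m 0) := dl_dl (by omega)
  have t2 : ∀ i ∈ range (m + 1), C.map (dl (m + 1) (i + 1 + 1))
      (if (s ∘ dl (m + 1) (i + 1 + 1)) 0 = (s ∘ dl (m + 1) (i + 1 + 1)) 1 then 0 else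
        C.map (dl m 0) (hG.fn f ((s ∘ dl (m + 1) (i + 1 + 1)) ∘ dl m 0))) =
      if s 0 = s 1 then 0 else C.map (dl (m + 1) 0) (C.map (dl m (i + 1))
        (hG.fn f ((s ∘ dl (m + 1) 0) ∘ dl m (i + 1)))) := by
    intro i _
    rw [e0, e1]
    split_ifs
    · rw [map_zero]
    · rw [C.map_map, C.map_map, hm i]
      congr 2
      funext y
      exact congrArg s (congrArg (fun k : Op m (m + 2) => k y) (hm i))
  rw [sum_congr rfl t2]
  have t1 : C.map (dl (m + 1) (0 + 1)) (if (s ∘ dl (m + 1) (0 + 1)) 0 =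
      (s ∘ dl (m + 1) (0 + 1)) 1 then 0 else
        C.map (dl m 0) (hG.fn f ((s ∘ dl (m + 1) (0 + 1)) ∘ dl m 0))) =
      if s 0 = s 2 then 0 else C.map (dl (m + 1) 0) (C.map (dl m 0)
        (hG.fn f ((s ∘ dl (m + 1) 0) ∘ dl m 0))) := by
    rw [zero_add, e4, e5]
    split_ifs
    · rw [map_zero]
    · rw [C.map_map, C.map_map, h1]
      congr 2
  have t0 : C.map (dl (m + 1) 0) (if (s ∘ dl (m + 1) 0) 0 = (s ∘ dl (m + 1) 0) 1 then 0 else
        C.map (dl m 0) (hG.fn f ((s ∘ dl (m + 1) 0) ∘ dl m 0))) =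
      if s 1 = s 2 then 0 else C.map (dl (m + 1) 0) (C.map (dl m 0)
        (hG.fn f ((s ∘ dl (m + 1) 0) ∘ dl m 0))) := by
    rw [e2, e3]
    split_ifs
    · rw [map_zero]
    · rfl
  have hx := C2_xor (s 0) (s 1) (s 2) (C.map (dl (m + 1) 0) (C.map (dl m 0)
    (hG.fn f ((s ∘ dl (m + 1) 0) ∘ dl m 0))))
  rw [t1, t0]
  refine (add_assoc _ _ _).trans ?_
  rw [(add_comm _ _).trans hx]
  have hs : (if s 0 = s 1 then (0 : C.obj (m + 1 + 1)) else
      ∑ x ∈ range (m + 2), C.map (dl (m + 1) 0)
        (C.map (dl m x) (hG.fn f ((s ∘ dl (m + 1) 0) ∘ dl m x)))) =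
      ∑ x ∈ range (m + 2), (if s 0 = s 1 then (0 : C.obj (m + 1 + 1)) else C.map (dl (m + 1) 0)
        (C.map (dl m x) (hG.fn f ((s ∘ dl (m + 1) 0) ∘ dl m x)))) := by
    split_ifs
    · rw [sum_const_zero]
    · rfl
  rw [hs]
  exact (sum_range_succ' (fun x => if s 0 = s 1 then (0 : C.obj (m + 1 + 1)) else
    C.map (dl (m + 1) 0) (C.map (dl m x) (hG.fn f ((s ∘ dl (m + 1) 0) ∘ dl m x)))) (m + 1)).symm

theorem D_UT (f : Tot (hG c)) : D (UT c f) = UT c (D f) := by
  funext m
  cases m with
  | zero => rfl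
  | succ m =>
    cases m with
    | zero =>
      rw [D_succ_apply, UT_zero_apply, map_zero, UT_succ_apply, D_zero_apply, map_zero]
    | succ m =>
      rw [D_succ_apply, UT_succ_apply, UT_succ_apply, D_succ_apply, d_U]

theorem act_add_act {m : ℕ} {g h : C2} (hgh : g ≠ h) (x : C.obj m) :
    c.act m g x + c.act m h x = c.act m h (x + c.act m tau x) := by
  have ht : tau * tau = (1 : C2) := by decide
  rcases C2_cases g with rfl | rfl <;> rcases C2_cases h with rfl | rfl
  · exact absurd rfl hgh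
  · rw [map_add, ← Module.End.mul_apply, ← map_mul, ht, add_comm]
  · rw [map_one, Module.End.one_apply, Module.End.one_apply, add_comm]
  · exact absurd rfl hgh

/-- `d ŵ = (dw)^ + u ∪ ((1 + T) w)^` -/
theorem D_hatG (w : Tot C) : D (hatG c w) = hatG c (D w) + UT c (hatG c (w + inv c w)) := by
  funext m
  cases m with
  | zero =>
    refine hG.ext fun s => ?_
    change 0 = c.act 0 (s 0) 0 + 0
    rw [map_zero, add_zero]
  | succ m =>
    refine hG.ext fun s => ?_
    have hR : hG.fn ((hatG c (D w) + UT c (hatG c (w + inv c w))) (m + 1)) s =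
        c.act (m + 1) (s 0) (∑ i ∈ range (m + 2), C.map (dl m i) (w m)) +
        if s 0 = s 1 then 0 else C.map (dl m 0) (c.act m ((s ∘ dl m 0) 0) (w m + inv c w m)) := by
      rw [← d_eq]; rfl
    have hE : c.act (m + 1) (s 0) (∑ i ∈ range (m + 2), C.map (dl m i) (w m)) =
        ∑ i ∈ range (m + 1), c.act (m + 1) (s 0) (C.map (dl m (i + 1)) (w m)) +
          c.act (m + 1) (s 0) (C.map (dl m 0) (w m)) := by
      rw [map_sum, sum_range_succ']
    rw [hR, hE, D_succ_apply, fn_d, sum_range_succ']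
    simp only [hatG_fn]
    have e0 : ∀ i : ℕ, (s ∘ dl m (i + 1)) 0 = s 0 := fun i => by
      change s _ = s 0
      congr 1
    have e1 : (s ∘ dl m 0) 0 = s 1 := by
      change s _ = s 1
      congr 1
    simp only [e0, e1, ← c.nat]
    refine Eq.trans ?_ (add_assoc _ _ _).symm
    congr 1
    by_cases h : s 0 = s 1
    · rw [if_pos h, h, add_zero]
    · rw [if_neg h, inv]
      have h3 := act_add_act c h (C.map (dl m 0) (w m))
      have h4 := two_zero (c.act (m + 1) (s 0) (C.map (dl m 0) (w m)))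
      rw [map_add (C.map (dl m 0)), ← c.nat, ← h3]
      exact ((add_assoc _ _ _).symm.trans (by rw [h4, zero_add])).symm

/-! ### The cocycle -/

variable (μ : Bil A A C)

/-- the pairing is symmetric up to the action -/
def SymB : Prop := ∀ p (a b : A.obj p), c.act p tau (μ.app p a b) = μ.app p b a

variable {c μ}

theorem inv_cupT (h : SymB c μ) (j : ℕ) (x : Tot A) :
    inv c (cupT (ofBil μ) j x x) = cupT (ofBil μ).flip j x x := by
  funext p
  rw [inv, cupT, cupT, cupM, cupM, map_sum]
  exact sum_congr rfl fun J _ => h p _ _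

variable (c μ)

/-- `∑_{k<K} u^k ∪ (x ∪_k x)^` -/
def Theta (K : ℕ) (x : Tot A) : Tot (hG c) :=
  ∑ k ∈ range K, (UT c)^[k] (hatG c (cupT (ofBil μ) (k + 1) x x))

variable {c μ}

theorem D_iterate (k : ℕ) (f : Tot (hG c)) : D ((UT c)^[k] f) = (UT c)^[k] (D f) := by
  induction k generalizing f with
  | zero => rfl
  | succ k ih => rw [Function.iterate_succ_apply, ih, D_UT, ← Function.iterate_succ_apply]

theorem UT_iterate_add (k : ℕ) (f g : Tot (hG c)) :
    (UT c)^[k] (f + g) = (UT c)^[k] f + (UT c)^[k] g := by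
  induction k generalizing f g with
  | zero => rfl
  | succ k ih => rw [Function.iterate_succ_apply, UT_add, ih]; rfl

theorem UT_iterate_zero (k : ℕ) : (UT c)^[k] (0 : Tot (hG c)) = 0 := by
  induction k with
  | zero => rfl
  | succ k ih => rw [Function.iterate_succ_apply, UT_zero, ih]

theorem D_sum {ι : Type*} (t : Finset ι) (F : ι → Tot A) : D (∑ i ∈ t, F i) = ∑ i ∈ t, D (F i) := by
  classical
  induction t using Finset.induction_on with
  | empty => exact D_zero
  | insert a t ha ih => rw [sum_insert ha, sum_insert ha, D_add, ih]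

theorem tot_two (f : Tot A) : f + f = 0 := by
  funext m
  exact two_zero _

/-- the coboundary of `Theta` -/
theorem D_Theta (h : SymB c μ) (K : ℕ) {x : Tot A} (hx : D x = 0) :
    D (Theta c μ K x) = (UT c)^[K] (hatG c (cupT (ofBil μ) K x x + inv c (cupT (ofBil μ) K x x))) := by
  have key : ∀ k, D ((UT c)^[k] (hatG c (cupT (ofBil μ) (k + 1) x x))) =
      (UT c)^[k] (hatG c (cupT (ofBil μ) k x x + inv c (cupT (ofBil μ) k x x))) +
      (UT c)^[k + 1] (hatG c (cupT (ofBil μ) (k + 1) x x +
        inv c (cupT (ofBil μ) (k + 1) x x))) := by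
    intro k
    have h0 : ∀ (ν : Pair A A C) (y : Tot A), cupT ν (k + 1) 0 y = 0 := by
      intro ν y
      funext p
      rw [cupT, cupM]
      refine sum_eq_zero fun J _ => ?_
      rw [fc_zero, map_zero]
      rfl
    have h1 : ∀ (ν : Pair A A C) (y : Tot A), cupT ν (k + 1) y 0 = 0 := by
      intro ν y
      funext p
      rw [cupT, cupM]
      refine sum_eq_zero fun J _ => ?_
      rw [fc_zero, map_zero]
    rw [D_iterate, D_hatG, D_cupT, hx, h0, h1, zero_add, zero_add, inv_cupT h, UT_iterate_add,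
      inv_cupT h, Function.iterate_succ_apply]
  rw [Theta, D_sum]
  induction K with
  | zero =>
    rw [range_zero, sum_empty, cupT_zero, Function.iterate_zero, id]
    have : inv c (0 : Tot C) = 0 := by
      funext m
      exact map_zero _
    rw [this, add_zero, hatG_zero]
  | succ K ih =>
    rw [sum_range_succ, ih, key, ← add_assoc, tot_two, zero_add]

/-- `Theta` of a homogeneous cocycle is a cocycle -/
theorem D_Theta_single (h : SymB c μ) {n K : ℕ} (hK : n + 1 < K) {x : A.obj n}
    (hx : A.d n x = 0) : D (Theta c μ K (Pi.single n x)) = 0 := by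
  rw [D_Theta h K (D_single hx), cupT_single_eq_zero _ hK]
  have : inv c (0 : Tot C) = 0 := by
    funext m
    exact map_zero _
  rw [this, add_zero, hatG_zero, UT_iterate_zero]

variable (c μ)

/-- the explicit cocycle of degree `N` (meant for `N = 2 n`) -/
def Th (n N : ℕ) (x : A.obj n) : (hG c).obj N := Theta c μ (n + 2) (Pi.single n x) N

variable {c μ}

theorem Th_mem_Z (h : SymB c μ) {n N : ℕ} {x : A.obj n} (hx : x ∈ A.Z n) :
    Th c μ n N x ∈ (hG c).Z N :=
  congrFun (D_Theta_single h (by omega) (CosMod.mem_Z.1 hx)) (N + 1)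

/-! ### Restriction to the trivial group -/

theorem UT_fn_const (f : Tot (hG c)) (N : ℕ) : hG.fn (UT c f N) (fun _ => 1) = 0 := by
  cases N with
  | zero => rfl
  | succ N => exact (U_fn c N (f N) (fun _ => 1)).trans (if_pos rfl)

theorem fn_sum {ι : Type*} (t : Finset ι) {N : ℕ} (F : ι → (hG c).obj N) (s : Fin (N + 1) → C2) :
    hG.fn (∑ i ∈ t, F i) s = ∑ i ∈ t, hG.fn (F i) s := by
  classical
  induction t using Finset.induction_on with
  | empty => rfl
  | insert a t ha ih => rw [sum_insert ha, sum_insert ha, hG.fn_add, ih]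

theorem Theta_fn_const (K : ℕ) (x : Tot A) (N : ℕ) :
    hG.fn (Theta c μ (K + 1) x N) (fun _ => 1) = cupT (ofBil μ) 1 x x N := by
  rw [Theta, Finset.sum_apply, fn_sum, sum_range_succ', sum_eq_zero, zero_add,
    Function.iterate_zero, id, hatG_fn, zero_add]
  · exact act_one c N _
  · intro k _
    rw [Function.iterate_succ_apply']
    exact UT_fn_const _ N

theorem ev_singleton (j v : ℕ) : ev {j} v ↔ v ≤ j := by
  rw [ev, filter_singleton]
  split_ifs with h
  · rw [card_singleton]
    constructor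
    · intro hc; exact absurd hc (by decide)
    · intro hc; omega
  · rw [card_empty]
    constructor
    · intro _; omega
    · intro _; decide

theorem fr_strictMono {m N : ℕ} (h : m ≤ N) : StrictMono (fr m N) := fun a b hab => by
  rw [Fin.lt_def] at *
  rw [fr_val, fr_val]
  omega

theorem bk_strictMono {m N : ℕ} (h : m ≤ N) : StrictMono (bk m N) := fun a b hab => by
  rw [Fin.lt_def] at *
  rw [bk_val, bk_val]
  omega

/-- the product `∪_0` of homogeneous cochains is the cup product -/
theorem cupT_one_single (ν : Bil A B C) {m n N : ℕ} (hN : N = m + n) (x : A.obj m) (y : B.obj n) :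
    cupT (ofBil ν) 1 (Pi.single m x) (Pi.single n y) N =
      ν.app N (A.map (fr m N) x) (B.map (bk n N) y) := by
  have hA : ∀ j ∈ range (N + 1), fA (range (N + 1)) {j} = range (j + 1) := by
    intro j hj
    rw [mem_range] at hj
    ext v
    rw [mem_fA, mem_singleton, ev_singleton, mem_range, mem_range]
    omega
  have hB : fB (range (N + 1)) {m} = im (bk n N) := by
    ext v
    rw [mem_fB, mem_singleton, ev_singleton, mem_range, mem_im]
    constructor
    · rintro ⟨h1, h2⟩
      refine ⟨⟨v - m, by omega⟩, ?_⟩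
      rw [bk_val]
      dsimp only
      omega
    · rintro ⟨z, rfl⟩
      have := z.2
      rw [bk_val]
      omega
  have hF : range (m + 1) = im (fr m N) := by
    ext v
    rw [mem_range, mem_im]
    constructor
    · intro h
      refine ⟨⟨v, h⟩, ?_⟩
      rw [fr_val]
      dsimp only
      omega
    · rintro ⟨z, rfl⟩
      have := z.2
      rw [fr_val]
      omega
  rw [cupT, cupM, powersetCard_one, sum_map]
  rw [sum_eq_single m]
  · change ν.app N (fc A N _ (fA (range (N + 1)) {m})) (fc B N _ (fB (range (N + 1)) {m})) = _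
    rw [hA m (by rw [mem_range]; omega), hB, hF, fc_single_im x (fr_strictMono (by omega)),
      fc_single_im y (bk_strictMono (by omega))]
  · intro j hj hjm
    change ν.app N (fc A N _ (fA (range (N + 1)) {j})) (fc B N _ (fB (range (N + 1)) {j})) = _
    rw [hA j hj, fc_single_ne x N (by rw [card_range]; omega), map_zero]
    rfl
  · intro h
    exact absurd (mem_range.2 (by omega)) h

/-- the restriction of the explicit cocycle -/
theorem Th_res (n : ℕ) (x : A.obj n) :
    (hG.res c).app (n + n) (Th c μ n (n + n) x) = μ.lift.app (n + n) (cr (n + n) x x) := by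
  rw [hG.res_app, Th, Theta_fn_const, cupT_one_single μ rfl]
  exact (lift_cr μ (n + n) x x).symm

/-! ### Naturality -/

section nat

variable {A' B' C' : CosMod (ZMod 2)}

/-- a map applied to cochains of mixed degree -/
def mapT (f : Hom A A') (u : Tot A) : Tot A' := fun m => f.app m (u m)

theorem fc_mapT (f : Hom A A') (p : ℕ) (u : Tot A) (S : Finset ℕ) :
    fc A' p (mapT f u) S = f.app p (fc A p u S) := by
  rw [fc, fc]
  split_ifs
  · exact (f.nat _ _).symm
  · exact (map_zero _).symm

theorem mapT_cupT (ν : Bil A B C) (ν' : Bil A' B' C') (f : Hom A A') (f' : Hom B B')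
    (g : Hom C C') (hg : ∀ p a b, g.app p (ν.app p a b) = ν'.app p (f.app p a) (f'.app p b))
    (j : ℕ) (u : Tot A) (v : Tot B) :
    mapT g (cupT (ofBil ν) j u v) = cupT (ofBil ν') j (mapT f u) (mapT f' v) := by
  funext p
  refine (map_cupM ((ofBil ν).app p) ((ofBil ν').app p) (f.app p) (f'.app p)
    (g.app p).toAddMonoidHom (fun a b => hg p a b) j _ _ _).trans ?_
  refine cupM_congr _ _ (fun T _ => ?_) (fun T _ => ?_)
  · exact (fc_mapT f p u T).symm
  · exact (fc_mapT f' p v T).symm

theorem mapT_single (f : Hom A A') (n : ℕ) (x : A.obj n) :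
    mapT f (Pi.single n x) = Pi.single n (f.app n x) := by
  funext m
  rw [mapT]
  by_cases h : m = n
  · subst h
    rw [Pi.single_eq_same, Pi.single_eq_same]
  · rw [Pi.single_eq_of_ne h, Pi.single_eq_of_ne h, map_zero]

theorem mapT_sum {ι : Type*} (f : Hom A A') (t : Finset ι) (F : ι → Tot A) :
    mapT f (∑ i ∈ t, F i) = ∑ i ∈ t, mapT f (F i) := by
  funext m
  rw [mapT, Finset.sum_apply, Finset.sum_apply, map_sum]
  rfl

variable {c' : Act C2 C'} (g : Hom C C')
  (hgc : ∀ p (s : C2) (x : C.obj p), g.app p (c.act p s x) = c'.act p s (g.app p x))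

theorem mapT_hatG (w : Tot C) :
    mapT (hG.mapHom c c' g hgc) (hatG c w) = hatG c' (mapT g w) := by
  funext m
  exact hG.ext fun s => hgc m (s 0) (w m)

theorem mapT_UT (f : Tot (hG c)) :
    mapT (hG.mapHom c c' g hgc) (UT c f) = UT c' (mapT (hG.mapHom c c' g hgc) f) := by
  funext m
  cases m with
  | zero => exact map_zero _
  | succ m =>
    refine hG.ext fun s => ?_
    change g.app (m + 1) (hG.fn (U c m (f m)) s) =
      hG.fn (U c' m ((hG.mapHom c c' g hgc).app m (f m))) s
    rw [U_fn, U_fn]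
    split_ifs
    · rw [map_zero]
    · rw [g.nat]
      rfl

theorem mapT_UT_iterate (k : ℕ) (f : Tot (hG c)) :
    mapT (hG.mapHom c c' g hgc) ((UT c)^[k] f) =
      (UT c')^[k] (mapT (hG.mapHom c c' g hgc) f) := by
  induction k generalizing f with
  | zero => rfl
  | succ k ih => rw [Function.iterate_succ_apply, ih, mapT_UT, ← Function.iterate_succ_apply]

theorem Theta_nat (μ' : Bil A' A' C') (f : Hom A A')
    (hg : ∀ p a b, g.app p (μ.app p a b) = μ'.app p (f.app p a) (f.app p b)) (K : ℕ)
    (x : Tot A) :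
    mapT (hG.mapHom c c' g hgc) (Theta c μ K x) = Theta c' μ' K (mapT f x) := by
  rw [Theta, Theta, mapT_sum]
  refine sum_congr rfl fun k _ => ?_
  rw [mapT_UT_iterate, mapT_hatG, mapT_cupT μ μ' f f g hg]

theorem Th_nat (μ' : Bil A' A' C') (f : Hom A A')
    (hg : ∀ p a b, g.app p (μ.app p a b) = μ'.app p (f.app p a) (f.app p b)) {n N : ℕ}
    (x : A.obj n) :
    (hG.mapHom c c' g hgc).app N (Th c μ n N x) = Th c' μ' n N (f.app n x) := by
  rw [Th, Th, ← mapT_single f, ← Theta_nat g hgc μ' f hg]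
  rfl

end nat

/-! ### Comparison with `P` -/

theorem SymB_of_Sym (h : Sym μ c) : SymB c μ := fun p a b => h p a b

/-- **The explicit cocycle represents the external square.** -/
theorem Pz_sub_Th (h : Sym μ c) {n : ℕ} (x : A.obj n) (hx : x ∈ A.Z n) :
    Pz μ c h x hx - Th c μ n (n + n) x ∈ (hG c).Bd (n + n) := by
  have h0 := sym_univ (M (ZMod 2) n)
  have h1 : Pz (Bil.univ (M (ZMod 2) n) (M (ZMod 2) n)) (swapAct _) h0 (iotaM (ZMod 2) n)
      (iotaM_mem_Z _ n) - Th (swapAct _) (Bil.univ (M (ZMod 2) n) (M (ZMod 2) n)) n (n + n)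
        (iotaM (ZMod 2) n) ∈ (hG (swapAct (M (ZMod 2) n))).Bd (n + n) := by
    refine Pz_unique (fun i hi => (good_MM (ZMod 2) n).H_low hi) _ (iotaM_mem_Z _ n) _
      (Th_mem_Z (SymB_of_Sym h0) (iotaM_mem_Z _ n)) ?_
    rw [Th_res, lift_cr]
    have : (Bil.univ (M (ZMod 2) n) (M (ZMod 2) n)).app (n + n)
        ((M (ZMod 2) n).map (fr n (n + n)) (iotaM (ZMod 2) n))
        ((M (ZMod 2) n).map (bk n (n + n)) (iotaM (ZMod 2) n)) =
        cr (n + n) (iotaM (ZMod 2) n) (iotaM (ZMod 2) n) := rfl
    rw [this, sub_self]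
    exact zero_mem _
  have h2 := (hG.mapHom (swapAct (M (ZMod 2) n)) c (sqHom μ x hx)
    (sqHom_equiv h x hx)).app_mem_Bd h1
  have hg : ∀ p a b, (sqHom μ x hx).app p ((Bil.univ (M (ZMod 2) n) (M (ZMod 2) n)).app p a b) =
      μ.app p ((ofM x hx).app p a) ((ofM x hx).app p b) := fun p a b =>
    Bil.lift_tmul μ p _ _
  rw [map_sub, Th_nat (sqHom μ x hx) (sqHom_equiv h x hx) μ (ofM x hx) hg, ofM_iota,
    ← Pz_nat' (Bil.univ _ _) (swapAct _) h0 μ c h (ofM x hx) (sqHom μ x hx)
      (sqHom_equiv h x hx) hg (iotaM (ZMod 2) n) (iotaM_mem_Z _ n) x hx (ofM_iota x hx)] at h2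
  exact h2

/-- **The explicit cocycle represents the external square** (on classes). -/
theorem P_cls_Th (h : Sym μ c) {n : ℕ} (x : A.Z n) :
    P μ c h (A.cls n x) = (hG c).cls (n + n)
      ⟨Th c μ n (n + n) x.1, Th_mem_Z (SymB_of_Sym h) x.2⟩ := by
  rw [P_cls, CosMod.cls_eq_iff]
  exact Pz_sub_Th h x.1 x.2

end Vale.Agent.P263.TJ
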