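import Vale.Agent.P263.S.Gys
import Vale.Agent.P263.TJ.CupP

/-!
# P263: the squares of block S are Steenrod's cup-i squares

For a symmetric pairing `μ : Bil A A C` and the trivial action of `C2` on `C` the external square is
`P x = ∑_k u^k p^*[x ∪_k x]`. `cf_P` : for every structure `H(hG triv) = H(C)[u]` the coefficient
of `P x` in `H^j(C)` is the class of `x ∪_(2n-j) x`.
-/

noncomputable section

open Finset

namespace Vale.Agent.P263.TJ

open Vale.Agent.P263.S Vale.Agent.P263.H83

variable {A B C : CosMod (ZMod 2)}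

/-! ### Homogeneity and the top product -/

theorem fA_inter_fB {S J : Finset ℕ} (h : J ⊆ S) : fA S J ∩ fB S J = J := by
  ext v
  rw [mem_inter, mem_fA, mem_fB]
  constructor
  · rintro ⟨⟨_, h1⟩, _, h2⟩
    tauto
  · intro hv
    exact ⟨⟨h hv, Or.inl hv⟩, h hv, Or.inl hv⟩

theorem fA_union_fB (S J : Finset ℕ) : fA S J ∪ fB S J = S := by
  ext v
  rw [mem_union, mem_fA, mem_fB]
  tauto

theorem card_fA_add_card_fB {S J : Finset ℕ} (h : J ⊆ S) :
    (fA S J).card + (fB S J).card = S.card + J.card := by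
  have := card_union_add_card_inter (fA S J) (fB S J)
  rw [fA_inter_fB h, fA_union_fB] at this
  exact this.symm

/-- degrees of the products of homogeneous cochains -/
theorem cupT_single_ne (μ : Pair A B C) {j m n N : ℕ} (h : N + j ≠ m + n + 1) (x : A.obj m)
    (y : B.obj n) : cupT μ j (Pi.single m x) (Pi.single n y) N = 0 := by
  rw [cupT, cupM]
  refine sum_eq_zero fun J hJ => ?_
  rw [mem_powersetCard] at hJ
  have h1 := card_fA_add_card_fB hJ.1
  rw [card_range, hJ.2] at h1
  by_cases h2 : (fA (range (N + 1)) J).card = m + 1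
  · rw [fc_single_ne y N (by omega), map_zero]
  · rw [fc_single_ne x N h2, map_zero]
    rfl

/-- the top product `x ∪_n y` is the levelwise product -/
theorem cupT_top (ν : Bil A B C) {n : ℕ} (x : A.obj n) (y : B.obj n) :
    cupT (ofBil ν) (n + 1) (Pi.single n x) (Pi.single n y) n = ν.app n x y := by
  have hA : fA (range (n + 1)) (range (n + 1)) = range (n + 1) := by
    ext v
    rw [mem_fA]
    tauto
  have hB : fB (range (n + 1)) (range (n + 1)) = range (n + 1) := by
    ext v
    rw [mem_fB]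
    tauto
  have hp : powersetCard (n + 1) (range (n + 1)) = {range (n + 1)} := by
    have := powersetCard_self (range (n + 1))
    rwa [card_range] at this
  rw [cupT, cupM, hp, sum_singleton, hA, hB, fc_range, fc_range, Pi.single_eq_same,
    Pi.single_eq_same]
  rfl

/-! ### Classes of cocycles of mixed degree -/

/-- the class of the component of degree `N` of a cocycle of mixed degree -/
def clsT (F : Tot A) (h : D F = 0) (N : ℕ) : A.H N :=
  A.cls N ⟨F N, by rw [CosMod.mem_Z]; exact congrFun h (N + 1)⟩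

theorem clsT_congr {F F' : Tot A} {h : D F = 0} {h' : D F' = 0} {N : ℕ} (e : F N = F' N) :
    clsT F h N = clsT F' h' N := by
  rw [clsT, clsT, CosMod.cls_eq_iff]
  change F N - F' N ∈ _
  rw [e, sub_self]
  exact zero_mem _

theorem clsT_add {F F' : Tot A} (h : D F = 0) (h' : D F' = 0) (h'' : D (F + F') = 0) (N : ℕ) :
    clsT (F + F') h'' N = clsT F h N + clsT F' h' N := rfl

theorem clsT_zero (h : D (0 : Tot A) = 0) (N : ℕ) : clsT (0 : Tot A) h N = 0 := by
  rw [clsT, CosMod.cls_eq_zero_iff]
  exact zero_mem _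

/-- symmetric pairing: the squares are cocycles -/
theorem D_cupT_self (μ : Bil A A C) (h : Sym μ (Act.triv C2 C)) (j : ℕ) {x : Tot A}
    (hx : D x = 0) : D (cupT (ofBil μ) (j + 1) x x) = 0 := by
  have h0 : cupT (ofBil μ) (j + 1) (D x) x = 0 := by
    rw [hx]
    funext p
    rw [cupT, cupM]
    refine sum_eq_zero fun J _ => ?_
    rw [fc_zero, map_zero]
    rfl
  have h1 : cupT (ofBil μ) (j + 1) x (D x) = 0 := by
    rw [hx]
    funext p
    rw [cupT, cupM]
    refine sum_eq_zero fun J _ => ?_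
    rw [fc_zero, map_zero]
  have h2 : cupT (ofBil μ).flip j x x = cupT (ofBil μ) j x x := by
    rw [← inv_cupT (SymB_of_Sym h)]
    rfl
  rw [D_cupT, h0, h1, h2, zero_add, zero_add, tot_two]

theorem hatG_triv (w : Tot C) : hatG (Act.triv C2 C) w = mapT (hG.pstar C2 C) w := rfl

theorem U_eq_uc (c : Act C2 C) (m : ℕ) (f : (hG c).obj m) : U c m f = uc idC c m f := rfl

theorem D_mapT {A' : CosMod (ZMod 2)} (f : Hom A A') (u : Tot A) : D (mapT f u) = mapT f (D u) := by
  funext m
  cases m with
  | zero => exact (map_zero _).symm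
  | succ m => exact (f.app_d m (u m)).symm

theorem D_UT_eq_zero {c : Act C2 C} {F : Tot (hG c)} (h : D F = 0) : D (UT c F) = 0 := by
  rw [D_UT, h, UT_zero]

theorem clsT_UT {c : Act C2 C} {F : Tot (hG c)} (h : D F = 0) (N : ℕ) :
    clsT (UT c F) (D_UT_eq_zero h) (N + 1) = uH idC c N (clsT F h N) := rfl

theorem clsT_mapT {A' : CosMod (ZMod 2)} (f : Hom A A') {u : Tot A} (h : D u = 0)
    (h' : D (mapT f u) = 0) (N : ℕ) : clsT (mapT f u) h' N = f.mapH N (clsT u h N) := rfl

theorem D_iterate_eq_zero {c : Act C2 C} (k : ℕ) {F : Tot (hG c)} (h : D F = 0) :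
    D ((UT c)^[k] F) = 0 := by
  rw [D_iterate, h, UT_iterate_zero]

/-- an expansion `H(hG triv) = H(C)[u]` -/
structure Expn (C : CosMod (ZMod 2)) where
  /-- the coefficients -/
  cf : ∀ n j, (hG (Act.triv C2 C)).H n →ₗ[ZMod 2] C.H j
  cf_u : ∀ n j x, cf (n + 1) j (uH idC (Act.triv C2 C) n x) = cf n j x
  cf_gt : ∀ n j x, n < j → cf n j x = 0
  cf_p : ∀ n x, cf n n ((hG.pstar C2 C).mapH n x) = x
  cf_p_lt : ∀ n j x, j < n → cf n j ((hG.pstar C2 C).mapH n x) = 0

variable (E : Expn C)

theorem cf_UT_pstar (k : ℕ) {w : Tot C} (hw : D w = 0) (N j : ℕ) :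
    E.cf N j (clsT ((UT (Act.triv C2 C))^[k] (hatG (Act.triv C2 C) w))
      (D_iterate_eq_zero k (by rw [hatG_triv, D_mapT, hw]; funext m; exact map_zero _)) N) =
      if N = j + k then clsT w hw j else 0 := by
  have hD : D (hatG (Act.triv C2 C) w) = 0 := by
    rw [hatG_triv, D_mapT, hw]; funext m; exact map_zero _
  induction k generalizing N with
  | zero =>
    have h0 : clsT ((UT (Act.triv C2 C))^[0] (hatG (Act.triv C2 C) w)) (D_iterate_eq_zero 0 hD) N =
        (hG.pstar C2 C).mapH N (clsT w hw N) := rfl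
    rw [h0, add_zero]
    rcases lt_trichotomy N j with h | h | h
    · rw [E.cf_gt _ _ _ h, if_neg (by omega)]
    · subst h
      rw [E.cf_p, if_pos rfl]
    · rw [E.cf_p_lt _ _ _ h, if_neg (by omega)]
  | succ k ih =>
    have h1 : clsT ((UT (Act.triv C2 C))^[k + 1] (hatG (Act.triv C2 C) w))
        (D_iterate_eq_zero (k + 1) hD) N =
        clsT (UT _ ((UT (Act.triv C2 C))^[k] (hatG (Act.triv C2 C) w)))
          (D_UT_eq_zero (D_iterate_eq_zero k hD)) N :=
      clsT_congr (by rw [Function.iterate_succ_apply'])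
    rw [h1]
    cases N with
    | zero =>
      rw [if_neg (by omega)]
      have h2 : clsT (UT _ ((UT (Act.triv C2 C))^[k] (hatG (Act.triv C2 C) w)))
          (D_UT_eq_zero (D_iterate_eq_zero k hD)) 0 = 0 := by
        rw [clsT, CosMod.cls_eq_zero_iff]
        exact zero_mem _
      rw [h2, map_zero]
    | succ N =>
      rw [clsT_UT (D_iterate_eq_zero k hD), E.cf_u, ih N]
      by_cases h : N = j + k
      · rw [if_pos h, if_pos (by omega)]
      · rw [if_neg h, if_neg (by omega)]

/-- **The squares of block S are the cup-i squares**: the coefficient of `P x` in degree `j` is the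
class of `x ∪_(2n-j) x`. -/
theorem cf_P {μ : Bil A A C} (h : Sym μ (Act.triv C2 C)) {n : ℕ} (x : A.Z n) (j : ℕ)
    (hj : j ≤ n + n) :
    E.cf (n + n) j (P μ (Act.triv C2 C) h (A.cls n x)) =
      clsT (cupT (ofBil μ) (n + n - j + 1) (Pi.single n x.1) (Pi.single n x.1))
        (D_cupT_self μ h _ (D_single (CosMod.mem_Z.1 x.2))) j := by
  have hx : D (Pi.single n x.1 : Tot A) = 0 := D_single (CosMod.mem_Z.1 x.2)
  have hw : ∀ k, D (cupT (ofBil μ) (k + 1) (Pi.single n x.1 : Tot A) (Pi.single n x.1)) = 0 :=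
    fun k => D_cupT_self μ h k hx
  have hh : ∀ k, D (hatG (Act.triv C2 C) (cupT (ofBil μ) (k + 1) (Pi.single n x.1 : Tot A)
      (Pi.single n x.1))) = 0 := fun k => by
    rw [hatG_triv, D_mapT, hw]; funext m; exact map_zero _
  -- the class of a partial sum
  have key : ∀ (K N i : ℕ), ∀ hD : D (Theta (Act.triv C2 C) μ K (Pi.single n x.1)) = 0,
      E.cf N i (clsT (Theta (Act.triv C2 C) μ K (Pi.single n x.1)) hD N) =
        ∑ k ∈ range K, if N = i + k then clsT _ (hw k) i else 0 := by
    intro K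
    induction K with
    | zero =>
      intro N i hD
      rw [range_zero, sum_empty]
      have : clsT (Theta (Act.triv C2 C) μ 0 (Pi.single n x.1)) hD N = 0 := by
        rw [clsT, CosMod.cls_eq_zero_iff]
        exact zero_mem _
      rw [this, map_zero]
    | succ K ih =>
      intro N i hD
      have e : Theta (Act.triv C2 C) μ (K + 1) (Pi.single n x.1) =
          Theta (Act.triv C2 C) μ K (Pi.single n x.1) +
          (UT (Act.triv C2 C))^[K] (hatG (Act.triv C2 C)
            (cupT (ofBil μ) (K + 1) (Pi.single n x.1 : Tot A) (Pi.single n x.1))) := by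
        rw [Theta, sum_range_succ]
        rfl
      have hK := D_iterate_eq_zero (c := Act.triv C2 C) K (hh K)
      have hD' : D (Theta (Act.triv C2 C) μ K (Pi.single n x.1)) = 0 := by
        have h2 := hD
        rw [e, D_add, hK, add_zero] at h2
        exact h2
      have h3 : clsT (Theta (Act.triv C2 C) μ (K + 1) (Pi.single n x.1)) hD N =
          clsT (Theta (Act.triv C2 C) μ K (Pi.single n x.1)) hD' N + clsT _ hK N := by
        rw [← clsT_add hD' hK (by rw [← e]; exact hD)]
        exact clsT_congr (by rw [e])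
      rw [h3, map_add, ih N i hD', cf_UT_pstar E K (hw K), sum_range_succ]
  have hP : P μ (Act.triv C2 C) h (A.cls n x) =
      clsT (Theta (Act.triv C2 C) μ (n + 2) (Pi.single n x.1))
        (D_Theta_single (SymB_of_Sym h) (by omega) (CosMod.mem_Z.1 x.2)) (n + n) :=
    P_cls_Th h x
  rw [hP, key, sum_eq_single (n + n - j)]
  · rw [if_pos (by omega)]
  · intro k _ hk
    rw [if_neg (by omega)]
  · intro hk
    rw [mem_range, not_lt] at hk
    rw [if_pos (by omega)]
    have hz : cupT (ofBil μ) (n + n - j + 1) (Pi.single n x.1 : Tot A) (Pi.single n x.1) = 0 :=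
      cupT_single_eq_zero _ (by omega) _ _
    rw [clsT, CosMod.cls_eq_zero_iff]
    change cupT (ofBil μ) (n + n - j + 1) (Pi.single n x.1 : Tot A) (Pi.single n x.1) j ∈ _
    rw [hz]
    exact zero_mem _

/-- negative squares vanish -/
theorem cf_P_lt {μ : Bil A A C} (h : Sym μ (Act.triv C2 C)) {n : ℕ} (x : A.H n) (j : ℕ)
    (hj : j < n) : E.cf (n + n) j (P μ (Act.triv C2 C) h x) = 0 := by
  induction x using CosMod.H_ind with
  | h z =>
    rw [cf_P E h z j (by omega), clsT, CosMod.cls_eq_zero_iff]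
    have hz : cupT (ofBil μ) (n + n - j + 1) (Pi.single n z.1 : Tot A) (Pi.single n z.1) = 0 :=
      cupT_single_eq_zero _ (by omega) _ _
    change cupT (ofBil μ) (n + n - j + 1) (Pi.single n z.1 : Tot A) (Pi.single n z.1) j ∈ _
    rw [hz]
    exact zero_mem _

/-- `Sq^0 x` is the class of the levelwise square -/
theorem cf_P_self {μ : Bil A A C} (h : Sym μ (Act.triv C2 C)) {n : ℕ} (x : A.Z n)
    (hz : μ.app n x.1 x.1 ∈ C.Z n) :
    E.cf (n + n) n (P μ (Act.triv C2 C) h (A.cls n x)) = C.cls n ⟨μ.app n x.1 x.1, hz⟩ := by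
  rw [cf_P E h x n (by omega), clsT, CosMod.cls_eq_iff]
  change cupT (ofBil μ) (n + n - n + 1) (Pi.single n x.1 : Tot A) (Pi.single n x.1) n -
    μ.app n x.1 x.1 ∈ _
  rw [show n + n - n + 1 = n + 1 by omega, cupT_top, sub_self]
  exact zero_mem _

end Vale.Agent.P263.TJ
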