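import Vale.Agent.P263.TJ.Cone

/-!
# P263: Steenrod's functional squares

`g : Hom V U` a morphism of cochain objects with cup-i products (`V` = cochains of the target,
`U` = cochains of the source of a map), `b` a cocycle of `V` with `g b = d e` and
`b ∪_i b = d c`. The functional square is the cocycle `q_i(e) + g c` of `U`,
`q_i(e) = e ∪_{i-1} e + e ∪_i d e`.

* `FSqD g i` : the data `(b, e, c)`; `FSqD.val` : the functional square; `FSqD.d_val`.
* `FSqD.val_coh` : the indeterminacy (change of `b` in its class, of `e` and of `c`).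
* `FSqD.map`, `FSqD.val_map` : naturality; `FSqD.ofComp`, `FSqD.pre` : compositions.
* `FSqD.add`, `FSqD.val_add` : additivity in `b`.
* `FSqD.val_homotopy` : homotopy invariance.
* `Gr` : degrees; `FSqD.coh_of_van`, `FSqD.val_mem` : the class is well defined.
-/

namespace Vale.Agent.P263.TJ

namespace CupC

variable {A U V U' V' : CupC}

theorem Coh.d {A : CupC} {x y : A.C} (h : A.Coh x y) : A.d x = A.d y := by
  obtain ⟨c, hc⟩ := h
  have h1 : A.d x + A.d y = 0 := by rw [← map_add, hc, A.d_d]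
  rw [eq_add_of_add_eq h1, zero_add]

theorem Coh.map (g : Hom V U) {x y : V.C} (h : V.Coh x y) : U.Coh (g.f x) (g.f y) := by
  obtain ⟨c, hc⟩ := h
  exact ⟨g.f c, by rw [← map_add, hc, g.f_d]⟩

theorem coh_iff_add {A : CupC} {x y : A.C} : A.Coh x y ↔ A.Coh (x + y) 0 := by
  constructor
  · rintro ⟨c, hc⟩; exact ⟨c, by rw [add_zero, hc]⟩
  · rintro ⟨c, hc⟩; exact ⟨c, by rw [← hc, add_zero]⟩

/-- coboundaries are null -/
theorem coh_d (A : CupC) (x : A.C) : A.Coh (A.d x) 0 := ⟨x, by rw [add_zero]⟩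

theorem Coh.add_right {A : CupC} {x y : A.C} (h : A.Coh x y) (z : A.C) :
    A.Coh (x + z) (y + z) := h.add (Coh.refl z)

theorem Coh.add_left {A : CupC} {x y : A.C} (h : A.Coh x y) (z : A.C) :
    A.Coh (z + x) (z + y) := (Coh.refl z).add h

/-- `x ∪_i y + y ∪_i x` for cocycles -/
theorem cup_comm_coh (A : CupC) (j : ℕ) {x y : A.C} (hx : A.d x = 0) (hy : A.d y = 0) :
    A.cup j x y + A.cup j y x = A.d (A.cup (j + 1) x y) := by
  rw [A.d_cup, hx, hy]
  simp only [map_zero, AddMonoidHom.zero_apply, zero_add]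

/-- the cup-i square of a coboundary is a coboundary -/
theorem cup_d_d (A : CupC) (i : ℕ) (w : A.C) : A.Coh (A.cup i (A.d w) (A.d w)) 0 := by
  cases i with
  | zero => rw [A.cup_zero]; exact Coh.refl 0
  | succ i => exact ⟨A.q i w, by rw [add_zero, A.d_q]⟩

/-- the square `∪_{i-1}` on cocycles is additive and well defined on classes -/
theorem cup_self_coh (A : CupC) (i : ℕ) {x y : A.C} (hx : A.d x = 0)
    (h : A.Coh x y) : A.Coh (A.cup i x x) (A.cup i y y) := by
  obtain ⟨c, hc⟩ := h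
  have hy' : y = x + A.d c := by rw [← hc, ← add_assoc, A.two, zero_add]
  have h1 : A.cup i y y = A.cup i x x + A.cup i (A.d c) (A.d c) +
      (A.cup i x (A.d c) + A.cup i (A.d c) x) := by
    rw [hy']; simp only [map_add, AddMonoidHom.add_apply]; abel
  have h2 := A.cup_comm_coh i hx (A.d_d c)
  obtain ⟨k, hk⟩ := A.cup_d_d i c
  rw [add_zero] at hk
  refine ⟨k + A.cup (i + 1) x (A.d c), ?_⟩
  rw [h1, h2, hk, map_add]
  rw [← add_assoc, ← add_assoc, A.two, zero_add]

theorem cup_self_add (A : CupC) (i : ℕ) {x y : A.C} (hx : A.d x = 0) (hy : A.d y = 0) :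
    A.Coh (A.cup i (x + y) (x + y)) (A.cup i x x + A.cup i y y) := by
  refine ⟨A.cup (i + 1) x y, ?_⟩
  rw [← A.cup_comm_coh i hx hy]
  simp only [map_add, AddMonoidHom.add_apply]
  have h1 := A.two (A.cup i x x)
  have h2 := A.two (A.cup i y y)
  calc _ = A.cup i x y + A.cup i y x + (A.cup i x x + A.cup i x x) +
        (A.cup i y y + A.cup i y y) := by abel
    _ = _ := by rw [h1, h2, add_zero, add_zero]

/-- data of a functional square of `g` -/
structure FSqD (g : Hom V U) (i : ℕ) where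
  /-- the cocycle -/
  b : V.C
  /-- the null cochain of its image -/
  e : U.C
  /-- the null cochain of its square -/
  c : V.C
  d_b : V.d b = 0
  d_e : U.d e = g.f b
  d_c : V.cup (i + 1) b b = V.d c

namespace FSqD

variable {g : Hom V U} {i : ℕ}

/-- the functional square -/
def val (D : FSqD g i) : U.C := U.q i D.e + g.f D.c

theorem d_val (D : FSqD g i) : U.d D.val = 0 := d_q_add g i D.d_e D.d_c

/-- **Indeterminacy.** Two functional squares of the same class differ by
`x ∪_{i-1} x + g y`, `x` and `y` cocycles. -/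
theorem val_coh (D D' : FSqD g i) {a : V.C} (h : D.b + D'.b = V.d a) :
    U.d (D.e + D'.e + g.f a) = 0 ∧
    V.d (D.c + D'.c + V.q i a + V.cup (i + 1) D.b a + V.cup (i + 1) a D.b) = 0 ∧
    U.Coh (D.val + D'.val) (U.cup i (D.e + D'.e + g.f a) (D.e + D'.e + g.f a) +
      g.f (D.c + D'.c + V.q i a + V.cup (i + 1) D.b a + V.cup (i + 1) a D.b)) := by
  have hb' : D'.b = D.b + V.d a := by rw [← h, ← add_assoc, V.two, zero_add]
  have hx : U.d (D.e + D'.e + g.f a) = 0 := by
    rw [map_add, map_add, D.d_e, D'.d_e, ← g.f_d, ← h, map_add, U.two]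
  refine ⟨hx, ?_, ?_⟩
  · simp only [map_add, d_q, ← D.d_c, ← D'.d_c, V.d_cup, D.d_b, map_zero, hb',
      AddMonoidHom.add_apply, AddMonoidHom.zero_apply, zero_add]
    have h1 := V.two (V.cup (i + 1) D.b D.b)
    have h2 := V.two (V.cup (i + 1) D.b (V.d a))
    have h3 := V.two (V.cup (i + 1) (V.d a) D.b)
    have h4 := V.two (V.cup (i + 1) (V.d a) (V.d a))
    have h5 := V.two (V.cup i D.b a)
    have h6 := V.two (V.cup i a D.b)
    calc _ = (V.cup (i + 1) D.b D.b + V.cup (i + 1) D.b D.b) +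
          (V.cup (i + 1) D.b (V.d a) + V.cup (i + 1) D.b (V.d a)) +
          (V.cup (i + 1) (V.d a) D.b + V.cup (i + 1) (V.d a) D.b) +
          (V.cup (i + 1) (V.d a) (V.d a) + V.cup (i + 1) (V.d a) (V.d a)) +
          (V.cup i D.b a + V.cup i D.b a) + (V.cup i a D.b + V.cup i a D.b) := by abel
      _ = 0 := by rw [h1, h2, h3, h4, h5, h6]; simp only [add_zero]
  · obtain ⟨x, hxdef⟩ : ∃ x, x = D.e + D'.e + g.f a := ⟨_, rfl⟩
    rw [← hxdef] at hx ⊢
    have he' : D'.e = D.e + g.f a + x := by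
      rw [hxdef]
      calc D'.e = D'.e + (D.e + D.e) + (g.f a + g.f a) := by rw [U.two, U.two, add_zero, add_zero]
        _ = _ := by abel
    have hd : U.d (D.e + g.f a) = g.f D'.b := by
      rw [map_add, D.d_e, ← g.f_d, ← map_add, hb']
    have hd0 : U.d (g.f D'.b) = 0 := by rw [← g.f_d, D'.d_b, map_zero]
    have q1 := U.q_add i (D.e + g.f a) x
    have q2 := U.q_add i D.e (g.f a)
    have q3 := U.cup_comm_coh (i + 1) hd0 hx
    rw [← he', hd] at q1
    rw [D.d_e] at q2
    have qx : U.q i x = U.cup i x x := by rw [q, hx, map_zero, add_zero]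
    rw [qx, add_assoc (U.d _) (U.cup (i + 1) (g.f D'.b) x), q3] at q1
    refine ⟨U.cup (i + 1) (D.e + g.f a) x + U.cup (i + 1 + 1) (g.f D'.b) x +
      U.cup (i + 1) D.e (g.f a), ?_⟩
    rw [map_add U.d, map_add U.d, ← q1, val, val]
    have q2' : U.d (U.cup (i + 1) D.e (g.f a)) = U.q i (D.e + g.f a) + U.q i D.e + U.q i (g.f a)
        + U.cup (i + 1) (g.f D.b) (g.f a) + U.cup (i + 1) (g.f a) (g.f D.b) := by
      rw [q2]
      have h2 := U.two (U.cup (i + 1) (g.f D.b) (g.f a))
      have h3 := U.two (U.cup (i + 1) (g.f a) (g.f D.b))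
      calc _ = U.d (U.cup (i + 1) D.e (g.f a)) +
            (U.cup (i + 1) (g.f D.b) (g.f a) + U.cup (i + 1) (g.f D.b) (g.f a)) +
            (U.cup (i + 1) (g.f a) (g.f D.b) + U.cup (i + 1) (g.f a) (g.f D.b)) := by
            rw [h2, h3, add_zero, add_zero]
        _ = _ := by abel
    rw [q2']
    simp only [map_add, g.f_cup, g.f_q]
    have h1 := U.two (U.q i (D.e + g.f a))
    calc _ = U.q i D'.e + U.cup i x x + U.q i D.e + U.q i (g.f a)
        + U.cup (i + 1) (g.f D.b) (g.f a) + U.cup (i + 1) (g.f a) (g.f D.b) := by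
          have h2 := U.two (g.f D.c)
          have h3 := U.two (g.f D'.c)
          calc _ = U.q i D'.e + U.cup i x x + U.q i D.e + U.q i (g.f a)
              + U.cup (i + 1) (g.f D.b) (g.f a) + U.cup (i + 1) (g.f a) (g.f D.b)
              + (g.f D.c + g.f D.c) + (g.f D'.c + g.f D'.c) := by abel
            _ = _ := by rw [h2, h3, add_zero, add_zero]
      _ = U.q i D'.e + U.cup i x x + U.q i D.e + U.q i (g.f a)
        + U.cup (i + 1) (g.f D.b) (g.f a) + U.cup (i + 1) (g.f a) (g.f D.b) +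
        (U.q i (D.e + g.f a) + U.q i (D.e + g.f a)) := by rw [h1, add_zero]
      _ = _ := by abel

/-- change of `c` by a cocycle -/
def changeC (D : FSqD g i) (z : V.C) (hz : V.d z = 0) : FSqD g i :=
  { D with c := D.c + z, d_c := by rw [map_add, hz, add_zero, D.d_c] }

theorem val_changeC (D : FSqD g i) (z : V.C) (hz : V.d z = 0) :
    (D.changeC z hz).val = D.val + g.f z := by
  simp only [val, changeC, map_add, add_assoc]

/-- change of `e` by a cocycle -/
def changeE (D : FSqD g i) (z : U.C) (hz : U.d z = 0) : FSqD g i :=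
  { D with e := D.e + z, d_e := by rw [map_add, hz, add_zero, D.d_e] }

theorem val_changeE (D : FSqD g i) (z : U.C) (hz : U.d z = 0) :
    U.Coh ((D.changeE z hz).val) (D.val + U.cup i z z) := by
  have h := (D.val_coh (D.changeE z hz) (a := 0) (by rw [map_zero]; exact V.two _)).2.2
  have e1 : D.e + (D.changeE z hz).e + g.f 0 = z := by
    change D.e + (D.e + z) + g.f 0 = z
    rw [map_zero, add_zero, ← add_assoc, U.two, zero_add]
  have e2 : D.c + (D.changeE z hz).c + V.q i 0 + V.cup (i + 1) D.b 0 + V.cup (i + 1) 0 D.b = 0 := by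
    change D.c + D.c + V.q i 0 + V.cup (i + 1) D.b 0 + V.cup (i + 1) 0 D.b = 0
    simp only [V.two, q_zero, map_zero, AddMonoidHom.zero_apply]
  rw [e1, e2, map_zero, add_zero] at h
  have h2 := h.add_left D.val
  rwa [← add_assoc, U.two, zero_add] at h2

/-- change of `b` in its class -/
def changeB (D : FSqD g i) (a : V.C) : FSqD g i where
  b := D.b + V.d a
  e := D.e + g.f a
  c := D.c + V.q i a + V.cup (i + 1) D.b a + V.cup (i + 1) a D.b
  d_b := by rw [map_add, V.d_d, D.d_b, add_zero]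
  d_e := by rw [map_add, D.d_e, ← g.f_d, ← map_add]
  d_c := by
    simp only [map_add, d_q, ← D.d_c, V.d_cup, D.d_b, map_zero,
      AddMonoidHom.add_apply, AddMonoidHom.zero_apply, zero_add]
    have h5 := V.two (V.cup i D.b a)
    have h6 := V.two (V.cup i a D.b)
    calc _ = V.cup (i + 1) D.b D.b + V.cup (i + 1) (V.d a) D.b + V.cup (i + 1) D.b (V.d a) +
          V.cup (i + 1) (V.d a) (V.d a) := by abel
      _ = V.cup (i + 1) D.b D.b + V.cup (i + 1) (V.d a) D.b + V.cup (i + 1) D.b (V.d a) +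
          V.cup (i + 1) (V.d a) (V.d a) + (V.cup i D.b a + V.cup i D.b a) +
          (V.cup i a D.b + V.cup i a D.b) := by rw [h5, h6, add_zero, add_zero]
      _ = _ := by abel

theorem val_changeB (D : FSqD g i) (a : V.C) : U.Coh (D.changeB a).val D.val := by
  have h := (D.val_coh (D.changeB a) (a := a) (by
    change D.b + (D.b + V.d a) = V.d a
    rw [← add_assoc, V.two, zero_add])).2.2
  have e1 : D.e + (D.changeB a).e + g.f a = 0 := by
    change D.e + (D.e + g.f a) + g.f a = 0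
    rw [← add_assoc, U.two, zero_add, U.two]
  have e2 : D.c + (D.changeB a).c + V.q i a + V.cup (i + 1) D.b a + V.cup (i + 1) a D.b = 0 := by
    change D.c + (D.c + V.q i a + V.cup (i + 1) D.b a + V.cup (i + 1) a D.b) + V.q i a +
      V.cup (i + 1) D.b a + V.cup (i + 1) a D.b = 0
    calc _ = (D.c + D.c) + (V.q i a + V.q i a) + (V.cup (i + 1) D.b a + V.cup (i + 1) D.b a) +
          (V.cup (i + 1) a D.b + V.cup (i + 1) a D.b) := by abel
      _ = 0 := by simp only [V.two]
  rw [e1, e2] at h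
  simp only [map_zero, add_zero] at h
  rw [add_comm] at h
  exact coh_iff_add.2 h

/-- **Naturality** in commutative squares -/
def map (D : FSqD g i) {g' : Hom V' U'} (v : Hom V V') (u : Hom U U')
    (h : ∀ x, g'.f (v.f x) = u.f (g.f x)) : FSqD g' i where
  b := v.f D.b
  e := u.f D.e
  c := v.f D.c
  d_b := by rw [← v.f_d, D.d_b, map_zero]
  d_e := by rw [← u.f_d, D.d_e, h]
  d_c := by rw [← v.f_cup, D.d_c, v.f_d]

theorem val_map (D : FSqD g i) {g' : Hom V' U'} (v : Hom V V') (u : Hom U U')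
    (h : ∀ x, g'.f (v.f x) = u.f (g.f x)) : (D.map v u h).val = u.f D.val := by
  simp only [val, map, map_add, u.f_q, h]

/-- change of the source: `u ∘ g` -/
def post (D : FSqD g i) (u : Hom U U') : FSqD (u.comp g) i :=
  D.map ⟨AddMonoidHom.id _, fun _ => rfl, fun _ _ _ => rfl⟩ u (fun _ => rfl)

@[simp] theorem val_post (D : FSqD g i) (u : Hom U U') : (D.post u).val = u.f D.val :=
  D.val_map _ u _

@[simp] theorem post_b (D : FSqD g i) (u : Hom U U') : (D.post u).b = D.b := rfl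

@[simp] theorem post_c (D : FSqD g i) (u : Hom U U') : (D.post u).c = D.c := rfl

@[simp] theorem post_e (D : FSqD g i) (u : Hom U U') : (D.post u).e = u.f D.e := rfl

/-- change of the target: data for `g ∘ v` with `b, c` in `V'` give data for `g` -/
def pull (v : Hom V' V) (D : FSqD (g.comp v) i) : FSqD g i where
  b := v.f D.b
  e := D.e
  c := v.f D.c
  d_b := by rw [← v.f_d, D.d_b, map_zero]
  d_e := D.d_e
  d_c := by rw [← v.f_cup, D.d_c, v.f_d]

@[simp] theorem val_pull (v : Hom V' V) (D : FSqD (g.comp v) i) : (pull v D).val = D.val := rfl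

/-- **Additivity** in the class `b` -/
def add (D D' : FSqD g i) : FSqD g i where
  b := D.b + D'.b
  e := D.e + D'.e
  c := D.c + D'.c + V.cup (i + 2) D.b D'.b
  d_b := by rw [map_add, D.d_b, D'.d_b, add_zero]
  d_e := by rw [map_add, D.d_e, D'.d_e, map_add]
  d_c := by
    have h := V.cup_comm_coh (i + 1) D.d_b D'.d_b
    rw [map_add V.d, map_add V.d, ← h, ← D.d_c, ← D'.d_c]
    simp only [map_add, AddMonoidHom.add_apply]
    abel

theorem val_add (D D' : FSqD g i) : U.Coh (D.add D').val (D.val + D'.val) := by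
  refine ⟨U.cup (i + 1) D.e D'.e + U.cup (i + 2) (g.f D.b) D'.e, ?_⟩
  have q1 := U.q_add i D.e D'.e
  have hd0 : U.d (g.f D.b) = 0 := by rw [← g.f_d, D.d_b, map_zero]
  have h1 : U.d (U.cup (i + 2) (g.f D.b) D'.e) = U.cup (i + 2) (g.f D.b) (g.f D'.b) +
      U.cup (i + 1) (g.f D.b) D'.e + U.cup (i + 1) D'.e (g.f D.b) := by
    rw [U.d_cup, hd0, D'.d_e]
    simp only [map_zero, AddMonoidHom.zero_apply, zero_add]
  rw [D.d_e] at q1
  have q1' : U.d (U.cup (i + 1) D.e D'.e) = U.q i (D.e + D'.e) + U.q i D.e + U.q i D'.e +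
      U.cup (i + 1) (g.f D.b) D'.e + U.cup (i + 1) D'.e (g.f D.b) := by
    rw [q1]
    calc _ = U.d (U.cup (i + 1) D.e D'.e) +
          (U.cup (i + 1) (g.f D.b) D'.e + U.cup (i + 1) (g.f D.b) D'.e) +
          (U.cup (i + 1) D'.e (g.f D.b) + U.cup (i + 1) D'.e (g.f D.b)) := by
          simp only [U.two, add_zero]
      _ = _ := by abel
  rw [map_add, h1, q1']
  change U.q i (D.e + D'.e) + g.f (D.c + D'.c + V.cup (i + 2) D.b D'.b) +
    (U.q i D.e + g.f D.c + (U.q i D'.e + g.f D'.c)) = _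
  simp only [map_add, g.f_cup]
  calc _ = U.q i (D.e + D'.e) + U.q i D.e + U.q i D'.e +
        U.cup (i + 2) (g.f D.b) (g.f D'.b) + (g.f D.c + g.f D.c) + (g.f D'.c + g.f D'.c) := by abel
    _ = U.q i (D.e + D'.e) + U.q i D.e + U.q i D'.e +
        U.cup (i + 2) (g.f D.b) (g.f D'.b) +
        (U.cup (i + 1) (g.f D.b) D'.e + U.cup (i + 1) (g.f D.b) D'.e) +
        (U.cup (i + 1) D'.e (g.f D.b) + U.cup (i + 1) D'.e (g.f D.b)) := by
        simp only [U.two, add_zero]
    _ = _ := by abel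

/-- **Homotopy invariance.** `G` a homotopy (`G : V → W`, `W` the cylinder of `U`): the
functional squares of the two ends are cohomologous. -/
theorem val_homotopy (cy : Cyl U) (G : Hom V cy.W) (D : FSqD G i) :
    U.Coh (D.post cy.r0).val (D.post cy.r1).val := by
  rw [val_post, val_post]
  refine ⟨cy.s D.val, ?_⟩
  have := cy.prism D.val
  rw [D.d_val, map_zero, add_zero] at this
  exact this.symm

end FSqD

/-- Degrees on a cochain object: `deg n` the homogeneous cochains, `pr n` the projection. -/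
structure Gr (A : CupC) where
  /-- cochains of degree `n` -/
  deg : ℕ → AddSubgroup A.C
  /-- the component of degree `n` -/
  pr : ℕ → A.C →+ A.C
  pr_mem : ∀ n x, pr n x ∈ deg n
  pr_eq : ∀ n x, x ∈ deg n → pr n x = x
  pr_d : ∀ n x, pr (n + 1) (A.d x) = A.d (pr n x)
  pr_d_zero : ∀ x, pr 0 (A.d x) = 0
  cup_mem : ∀ m n j k x y, x ∈ deg m → y ∈ deg n → m + n = k + j → A.cup (j + 1) x y ∈ deg k

namespace Gr

variable (G : Gr A)

theorem d_mem {n : ℕ} {x : A.C} (hx : x ∈ G.deg n) : A.d x ∈ G.deg (n + 1) := by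
  rw [← G.pr_eq n x hx, ← G.pr_d]; exact G.pr_mem _ _

/-- a homogeneous coboundary is the coboundary of a homogeneous cochain -/
theorem exists_of_d {n : ℕ} {x w : A.C} (hx : x ∈ G.deg (n + 1)) (h : x = A.d w) :
    ∃ w' ∈ G.deg n, x = A.d w' :=
  ⟨G.pr n w, G.pr_mem _ _, by rw [← G.pr_d, ← h, G.pr_eq _ _ hx]⟩

/-- `H^n(A) = 0` -/
def Van (n : ℕ) : Prop := ∀ z ∈ G.deg n, A.d z = 0 → A.Coh z 0

theorem Van.exists {n : ℕ} (h : G.Van n) {z : A.C} (hz : z ∈ G.deg n) (hd : A.d z = 0) :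
    ∃ w, z = A.d w := by
  obtain ⟨w, hw⟩ := h z hz hd
  exact ⟨w, by rw [← hw, add_zero]⟩

theorem cup_mem_zero {m n k : ℕ} {x y : A.C} (hx : x ∈ G.deg m) (hy : y ∈ G.deg n)
    (j : ℕ) (h : m + n + 1 = k + j) : A.cup j x y ∈ G.deg k := by
  cases j with
  | zero => rw [A.cup_zero]; exact (G.deg k).zero_mem
  | succ j => exact G.cup_mem m n j k x y hx hy (by omega)

end Gr

namespace FSqD

variable {g : Hom V U} {i : ℕ}

/-- homogeneous data: `b` of degree `n + 1`, `e` of degree `n`, `c` of degree `k = 2n + 1 - i` -/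
structure Homog (D : FSqD g i) (GV : Gr V) (GU : Gr U) (n k : ℕ) : Prop where
  b_mem : D.b ∈ GV.deg (n + 1)
  e_mem : D.e ∈ GU.deg n
  c_mem : D.c ∈ GV.deg k
  deg_eq : 2 * n + 1 = k + i

/-- the functional square is homogeneous of degree `k` -/
theorem val_mem {D : FSqD g i} {GV : Gr V} {GU : Gr U} {n k : ℕ} (h : D.Homog GV GU n k)
    (hg : ∀ x ∈ GV.deg k, g.f x ∈ GU.deg k) : D.val ∈ GU.deg k := by
  have h1 := h.deg_eq
  refine (GU.deg k).add_mem ((GU.deg k).add_mem ?_ ?_) (hg _ h.c_mem)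
  · exact GU.cup_mem_zero h.e_mem h.e_mem i (by omega)
  · exact GU.cup_mem n (n + 1) i k _ _ h.e_mem (GU.d_mem h.e_mem) (by omega)

/-- **The class of the functional square is well defined** if `H^n(U) = 0` and `g` is zero on
`H^k(V)`. -/
theorem coh_of_van {D D' : FSqD g i} {GV : Gr V} {GU : Gr U} {n k : ℕ} (h : D.Homog GV GU n k)
    (h' : D'.Homog GV GU n k) (hU : GU.Van n)
    (hgn : ∀ x ∈ GV.deg n, g.f x ∈ GU.deg n)
    (hg : ∀ y ∈ GV.deg k, V.d y = 0 → U.Coh (g.f y) 0) (hb : V.Coh D.b D'.b) :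
    U.Coh D.val D'.val := by
  obtain ⟨a₀, ha₀⟩ := hb
  obtain ⟨a, ha, hab⟩ := GV.exists_of_d ((GV.deg (n + 1)).add_mem h.b_mem h'.b_mem) ha₀
  obtain ⟨h1, h2, h3⟩ := D.val_coh D' hab
  have hd := h.deg_eq
  obtain ⟨w, hw⟩ := hU.exists (G := GU)
    ((GU.deg n).add_mem ((GU.deg n).add_mem h.e_mem h'.e_mem) (hgn a ha)) h1
  have hy := hg _ ((GV.deg k).add_mem ((GV.deg k).add_mem ((GV.deg k).add_mem
    ((GV.deg k).add_mem h.c_mem h'.c_mem) ((GV.deg k).add_mem
      (GV.cup_mem_zero ha ha i (by omega))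
      (GV.cup_mem n (n + 1) i k _ _ ha (GV.d_mem ha) (by omega))))
    (GV.cup_mem (n + 1) n i k _ _ h.b_mem ha (by omega)))
    (GV.cup_mem n (n + 1) i k _ _ ha h.b_mem (by omega))) h2
  rw [hw] at h3
  have h4 := h3.trans ((U.cup_d_d i w).add hy)
  rw [add_zero] at h4
  exact coh_iff_add.2 h4

end FSqD

end CupC

end Vale.Agent.P263.TJ
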