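import Vale.Agent.P263.TJ.Rel
import Vale.Agent.P263.TJ.FSq
import Vale.Agent.P263.S.Htpy

/-!
# P263, block EB: the cochain objects `CupC` of simplicial sets

`Cc.cupC X` : mixed-degree cochains of `X`; `Cc.rel A` : cochains vanishing on `A : Sb X`.
`Cc.pullHom`, `Cc.relHom` : naturality. `Cc.gr`, `Cc.relGr` : degrees. `Cc.coh_iff`, `Cc.van_iff` :
comparison with the cohomology of `SS.F (ZMod 2) X`. `Cc.cyl`, `Cc.relCyl` : the cylinders.
-/

open Finset

namespace Vale.Agent.P263.TJ

open Vale.Agent.P263.S Vale.Agent.P263.E Vale.Agent.P263.H83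

variable {X Y W : SS}

namespace Cc

/-- the products, biadditive -/
def cupHom (X : SS) (j : ℕ) : Cc X →+ Cc X →+ Cc X :=
  AddMonoidHom.mk' (fun u => AddMonoidHom.mk' (fun v => Cc.cup j u v)
    (fun v w => cup_add_right j u v w))
    (fun u v => by ext1 w; exact cup_add_left j u v w)

/-- The cochain object of a simplicial set. -/
def cupC (X : SS) : CupC where
  C := Cc X
  d := dHom X
  cup j := cupHom X j
  two u := by funext p σ; exact CharTwo.add_self_eq_zero _
  d_d u := TJ.d_d u
  cup_zero u v := TJ.cup_zero u v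
  d_cup j u v := TJ.d_cup j u v

@[simp] theorem cupC_d (u : Cc X) : (cupC X).d u = Cc.d u := rfl

@[simp] theorem cupC_cup (j : ℕ) (u v : Cc X) : (cupC X).cup j u v = Cc.cup j u v := rfl

/-- pull-back along a simplicial map -/
def pullHom (f : SS.Map X Y) : CupC.Hom (cupC Y) (cupC X) where
  f := AddMonoidHom.mk' (fun u => Cc.pull f u) (fun _ _ => rfl)
  f_d u := pull_d f u
  f_cup j u v := pull_cup f j u v

@[simp] theorem pullHom_apply (f : SS.Map X Y) (u : Cc Y) : (pullHom f).f u = Cc.pull f u := rfl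

/-! ### relative cochains -/

/-- cochains which vanish on `A` -/
def relS (A : Sb X) : AddSubgroup (cupC X).C where
  carrier := {u | Vn A (u : Cc X)}
  add_mem' {u v} hu hv := Vn.add (u := (u : Cc X)) (v := (v : Cc X)) hu hv
  zero_mem' := Vn.zero
  neg_mem' {u} hu := fun p x hx => by
    change - (u : Cc X) p x = 0
    rw [hu p x hx, neg_zero]

/-- The cochain object of a pair. -/
def rel (A : Sb X) : CupC :=
  (cupC X).sub (relS A) (fun _ hu => Vn.d hu) (fun j _ hu v _ => Vn.cup_left j hu v)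

/-- a cochain vanishing on `A` as an element of `rel A` -/
def mkRel (A : Sb X) (u : Cc X) (hu : Vn A u) : (rel A).C := ⟨u, hu⟩

/-- the underlying cochain of a relative cochain -/
def val {A : Sb X} (u : (rel A).C) : Cc X := u.1

theorem vn_val {A : Sb X} (u : (rel A).C) : Vn A (val u) := u.2

theorem rel_ext {A : Sb X} {u v : (rel A).C} (h : val u = val v) : u = v := Subtype.ext h

@[simp] theorem val_mkRel {A : Sb X} {u : Cc X} (hu : Vn A u) : val (mkRel A u hu) = u := rfl

@[simp] theorem val_d {A : Sb X} (u : (rel A).C) : val ((rel A).d u) = Cc.d (val u) := rfl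

@[simp] theorem val_cup {A : Sb X} (j : ℕ) (u v : (rel A).C) :
    val ((rel A).cup j u v) = Cc.cup j (val u) (val v) := rfl

@[simp] theorem val_add {A : Sb X} (u v : (rel A).C) : val (u + v) = val u + val v := rfl

@[simp] theorem val_zero {A : Sb X} : val (0 : (rel A).C) = 0 := rfl

/-- the inclusion of the relative cochains -/
def relIncl (A : Sb X) : CupC.Hom (rel A) (cupC X) where
  f := AddMonoidHom.mk' (fun u => val u) (fun _ _ => rfl)
  f_d _ := rfl
  f_cup _ _ _ := rfl

@[simp] theorem relIncl_apply {A : Sb X} (u : (rel A).C) : (relIncl A).f u = val u := rfl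

/-- pull-back along a map of pairs -/
def relHom (f : SS.Map X Y) (A : Sb X) (B : Sb Y)
    (h : ∀ {p : ℕ} (x : X.obj p), A.mem x → B.mem (f.app x)) : CupC.Hom (rel B) (rel A) where
  f := AddMonoidHom.mk' (fun u => mkRel A (Cc.pull f (val u))
    (((vn_val u).pull f).mono fun x hx => h x hx)) (fun _ _ => rfl)
  f_d u := rel_ext (pull_d f (val u))
  f_cup j u v := rel_ext (pull_cup f j (val u) (val v))

@[simp] theorem val_relHom (f : SS.Map X Y) {A : Sb X} {B : Sb Y}
    (h : ∀ {p : ℕ} (x : X.obj p), A.mem x → B.mem (f.app x)) (u : (rel B).C) :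
    val ((relHom f A B h).f u) = Cc.pull f (val u) := rfl

/-! ### degrees -/

/-- homogeneous cochains of degree `n` -/
def IsDeg (n : ℕ) (u : Cc X) : Prop := ∀ p, p ≠ n → ∀ x : X.obj p, u p x = 0

/-- the component of degree `n` -/
def comp (n : ℕ) (u : Cc X) : Cc X := fun p x => if p = n then u p x else 0

theorem comp_self (n : ℕ) (u : Cc X) (x : X.obj n) : comp n u n x = u n x := if_pos rfl

theorem comp_of_ne {n p : ℕ} (h : p ≠ n) (u : Cc X) (x : X.obj p) : comp n u p x = 0 := if_neg h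

theorem isDeg_comp (n : ℕ) (u : Cc X) : IsDeg n (comp n u) := fun _ h x => comp_of_ne h u x

theorem comp_eq {n : ℕ} {u : Cc X} (hu : IsDeg n u) : comp n u = u := by
  funext p x
  by_cases h : p = n
  · subst h; exact comp_self _ _ _
  · rw [comp_of_ne h, hu p h]

theorem comp_add (n : ℕ) (u v : Cc X) : comp n (u + v) = comp n u + comp n v := by
  funext p x
  change (if p = n then u p x + v p x else 0) =
    (if p = n then u p x else 0) + (if p = n then v p x else 0)
  split_ifs
  · rfl
  · rw [add_zero]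

theorem IsDeg.co {n : ℕ} {u : Cc X} (hu : IsDeg n u) {q : ℕ} (σ : X.obj q) : Deg n (co u σ) := by
  intro S hS
  by_cases h0 : S.card = 0
  · rw [TJ.co, if_pos h0]
  · rw [co_of_ne h0]
    exact hu _ (by omega) _

theorem IsDeg.d {n : ℕ} {u : Cc X} (hu : IsDeg n u) : IsDeg (n + 1) (Cc.d u) := by
  intro p hp x
  rw [d_def]
  exact (hu.co x).dd _ (by rw [card_range]; omega)

theorem IsDeg.cup {m n k j : ℕ} {u v : Cc X} (hu : IsDeg m u) (hv : IsDeg n v)
    (h : k + j = m + n + 1) : IsDeg k (Cc.cup j u v) := by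
  intro p hp x
  rw [cup_def]
  exact (hu.co x).cupJ (hv.co x) h _ (by rw [card_range]; omega)

theorem comp_d (n : ℕ) (u : Cc X) : comp (n + 1) (Cc.d u) = Cc.d (comp n u) := by
  funext p x
  by_cases h : p = n + 1
  · subst h
    rw [comp_self, d_succ_apply, d_succ_apply]
    exact sum_congr rfl fun i _ => (comp_self _ _ _).symm
  · rw [comp_of_ne h, (isDeg_comp n u).d p h x]

theorem comp_d_zero (u : Cc X) : comp 0 (Cc.d u) = 0 := by
  funext p x
  by_cases h : p = 0
  · subst h
    rw [comp_self, d_zero_apply]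
    rfl
  · rw [comp_of_ne h]
    rfl

/-- degrees on the cochains of `X` -/
def gr (X : SS) : CupC.Gr (cupC X) where
  deg n :=
    { carrier := {u | IsDeg n (u : Cc X)}
      add_mem' := fun {u v} hu hv p h x => by
        change (u : Cc X) p x + (v : Cc X) p x = 0
        rw [hu p h x, hv p h x, add_zero]
      zero_mem' := fun _ _ _ => rfl
      neg_mem' := fun {u} hu p h x => by
        change - (u : Cc X) p x = 0
        rw [hu p h x, neg_zero] }
  pr n := AddMonoidHom.mk' (fun u => comp n u) (fun u v => comp_add n u v)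
  pr_mem n u := isDeg_comp n u
  pr_eq n u hu := comp_eq hu
  pr_d n u := comp_d n u
  pr_d_zero u := comp_d_zero u
  cup_mem m n j k u v hu hv h := by
    have h1 : IsDeg k (Cc.cup (j + 1) (u : Cc X) (v : Cc X)) :=
      IsDeg.cup (X := X) hu hv (by omega)
    exact h1

theorem mem_gr {n : ℕ} {u : Cc X} : (show (cupC X).C from u) ∈ (gr X).deg n ↔ IsDeg n u := Iff.rfl

theorem vn_comp {A : Sb X} {u : Cc X} (hu : Vn A u) (n : ℕ) : Vn A (comp n u) := by
  intro p x hx
  by_cases h : p = n
  · subst h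
    exact (comp_self _ u x).trans (hu _ x hx)
  · exact comp_of_ne h u x

/-- degrees on relative cochains -/
def relGr (A : Sb X) : CupC.Gr (rel A) where
  deg n :=
    { carrier := {u | IsDeg n (val u)}
      add_mem' := fun {u v} hu hv p h x => by
        change val u p x + val v p x = 0
        rw [hu p h x, hv p h x, add_zero]
      zero_mem' := fun _ _ _ => rfl
      neg_mem' := fun {u} hu p h x => by
        change - val u p x = 0
        rw [hu p h x, neg_zero] }
  pr n := AddMonoidHom.mk' (fun u => mkRel A (comp n (val u)) (vn_comp (vn_val u) n))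
    (fun u v => rel_ext (comp_add n (val u) (val v)))
  pr_mem n u := isDeg_comp n (val u)
  pr_eq n u hu := rel_ext (comp_eq hu)
  pr_d n u := rel_ext (comp_d n (val u))
  pr_d_zero u := rel_ext (comp_d_zero (val u))
  cup_mem m n j k u v hu hv h := by
    have h1 : IsDeg k (Cc.cup (j + 1) (val u) (val v)) :=
      IsDeg.cup (X := X) hu hv (by omega)
    exact h1

theorem mem_relGr {A : Sb X} {n : ℕ} {u : (rel A).C} :
    u ∈ (relGr A).deg n ↔ IsDeg n (val u) := Iff.rfl

theorem IsDeg.pull {n : ℕ} {u : Cc Y} (hu : IsDeg n u) (f : SS.Map X Y) :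
    IsDeg n (Cc.pull f u) := fun p h x => hu p h (f.app x)

theorem comp_pull (n : ℕ) (f : SS.Map X Y) (u : Cc Y) :
    comp n (Cc.pull f u) = Cc.pull f (comp n u) := rfl

theorem IsDeg.add {n : ℕ} {u v : Cc X} (hu : IsDeg n u) (hv : IsDeg n v) : IsDeg n (u + v) :=
  (gr X).deg n |>.add_mem hu hv

theorem isDeg_zero (n : ℕ) : IsDeg n (0 : Cc X) := fun _ _ _ => rfl

/-! ### homogeneous cochains and the cosimplicial module of functions -/

/-- a function on the `n`-simplices as a cochain -/
def single (n : ℕ) (u : X.obj n → ZMod 2) : Cc X := fun p x => if h : p = n then u (h ▸ x) else 0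

theorem single_self (n : ℕ) (u : X.obj n → ZMod 2) (x : X.obj n) : single n u n x = u x :=
  dif_pos rfl

theorem single_apply_self (n : ℕ) (u : X.obj n → ZMod 2) : single n u n = u :=
  funext fun x => single_self n u x

theorem isDeg_single (n : ℕ) (u : X.obj n → ZMod 2) : IsDeg n (single n u) :=
  fun _ h _ => dif_neg h

theorem eq_single {n : ℕ} {u : Cc X} (hu : IsDeg n u) : u = single n (u n) := by
  funext p x
  by_cases h : p = n
  · subst h; rw [single_self]
  · rw [hu p h, isDeg_single n _ p h]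

theorem IsDeg.ext {n : ℕ} {u v : Cc X} (hu : IsDeg n u) (hv : IsDeg n v) (h : u n = v n) :
    u = v := by rw [eq_single hu, eq_single hv, h]

theorem single_add (n : ℕ) (u v : X.obj n → ZMod 2) :
    single n (u + v) = single n u + single n v := by
  refine IsDeg.ext (isDeg_single n _) ((isDeg_single n u).add (isDeg_single n v)) ?_
  rw [single_apply_self]
  change u + v = single n u n + single n v n
  rw [single_apply_self, single_apply_self]

/-- the component of degree `n` in the cosimplicial module of functions -/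
def toF (n : ℕ) (u : Cc X) : (SS.F (ZMod 2) X).obj n := u n

/-- functions as homogeneous cochains -/
def ofF (n : ℕ) (u : (SS.F (ZMod 2) X).obj n) : Cc X := single n u

theorem toF_ofF (n : ℕ) (u : (SS.F (ZMod 2) X).obj n) : toF n (ofF n u) = u :=
  single_apply_self n u

theorem ofF_toF {n : ℕ} {u : Cc X} (hu : IsDeg n u) : ofF n (toF n u) = u := (eq_single hu).symm

theorem isDeg_ofF (n : ℕ) (u : (SS.F (ZMod 2) X).obj n) : IsDeg n (ofF n u) := isDeg_single n u

theorem toF_d (n : ℕ) (u : Cc X) :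
    toF (n + 1) (Cc.d u) = (SS.F (ZMod 2) X).d n (toF n u) := d_eq_F u n

theorem toF_zero_d (u : Cc X) : toF 0 (Cc.d u) = 0 := funext fun x => d_zero_apply u x

theorem d_ofF (n : ℕ) (u : (SS.F (ZMod 2) X).obj n) :
    Cc.d (ofF n u) = ofF (n + 1) ((SS.F (ZMod 2) X).d n u) := by
  refine IsDeg.ext (isDeg_ofF n u).d (isDeg_ofF _ _) ?_
  have h := toF_d n (ofF n u)
  rw [toF_ofF] at h
  exact h.trans (toF_ofF _ _).symm

/-- cocycles of degree `n` -/
theorem d_eq_zero_iff {n : ℕ} {u : Cc X} (hu : IsDeg n u) :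
    Cc.d u = 0 ↔ toF n u ∈ (SS.F (ZMod 2) X).Z n := by
  rw [CosMod.mem_Z, ← toF_d]
  constructor
  · intro h; rw [h]; rfl
  · intro h
    exact IsDeg.ext hu.d (fun _ _ _ => rfl) h

/-- coboundaries of degree `n` -/
theorem coh_zero_iff {n : ℕ} {u : Cc X} (hu : IsDeg n u) :
    (cupC X).Coh u 0 ↔ toF n u ∈ (SS.F (ZMod 2) X).Bd n := by
  constructor
  · rintro ⟨w, hw⟩
    have hw' : u = Cc.d w := (add_zero (u : (cupC X).C)).symm.trans hw
    subst hw'
    cases n with
    | zero => exact toF_zero_d w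
    | succ n => exact ⟨toF n w, (toF_d n w).symm⟩
  · intro h
    cases n with
    | zero =>
      have h0 : u = 0 := IsDeg.ext hu (fun _ _ _ => rfl) h
      subst h0
      exact CupC.Coh.refl _
    | succ n =>
      obtain ⟨w, hw⟩ := h
      refine ⟨ofF n w, ?_⟩
      have h1 : Cc.d (ofF n w) = u := by rw [d_ofF, hw, ofF_toF hu]
      exact (add_zero (u : (cupC X).C)).trans h1.symm

/-- cohomologous cocycles of degree `n` -/
theorem coh_iff {n : ℕ} {u v : Cc X} (hu : IsDeg n u) (hv : IsDeg n v) :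
    (cupC X).Coh u v ↔ toF n u - toF n v ∈ (SS.F (ZMod 2) X).Bd n := by
  have h : toF n u - toF n v = toF n (u + v) := funext fun x => CharTwo.sub_eq_add _ _
  rw [h]
  exact (CupC.coh_iff_add (A := cupC X)).trans (coh_zero_iff (hu.add hv))

/-- cohomologous cocycles have the same class -/
theorem coh_iff_cls {n : ℕ} {u v : Cc X} (hu : IsDeg n u) (hv : IsDeg n v)
    (hu' : toF n u ∈ (SS.F (ZMod 2) X).Z n) (hv' : toF n v ∈ (SS.F (ZMod 2) X).Z n) :
    (cupC X).Coh u v ↔
      (SS.F (ZMod 2) X).cls n ⟨toF n u, hu'⟩ = (SS.F (ZMod 2) X).cls n ⟨toF n v, hv'⟩ := by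
  rw [coh_iff hu hv, CosMod.cls_eq_iff]

/-- `H^n(X) = 0` in the two languages -/
theorem van_iff {n : ℕ} : (gr X).Van n ↔ (SS.F (ZMod 2) X).Z n ≤ (SS.F (ZMod 2) X).Bd n := by
  constructor
  · intro h z hz
    have h1 := h (ofF n z) (isDeg_ofF n z) ((d_eq_zero_iff (isDeg_ofF n z)).2 (by
      rw [toF_ofF]; exact hz))
    rw [coh_zero_iff (isDeg_ofF n z), toF_ofF] at h1
    exact h1
  · intro h z hz hd
    exact (coh_zero_iff hz).2 (h ((d_eq_zero_iff hz).1 hd))

theorem toF_pull (n : ℕ) (f : SS.Map X Y) (u : Cc Y) :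
    toF n (Cc.pull f u) = (f.pull (R := ZMod 2)).app n (toF n u) := rfl

/-! ### the cylinder -/

end Cc

/-- the standard interval -/
def I1 : SS where
  obj p := Op p 1
  map f θ := θ.comp f
  map_id _ := rfl
  map_comp _ _ _ := rfl

/-- the cylinder -/
abbrev cylS (X : SS) : SS := X.prod I1

/-- the end `0` of the cylinder -/
def end0 (X : SS) : SS.Map X (cylS X) where
  app {p} x := (x, c0 p)
  nat f _ := Prod.ext rfl (c0_comp f).symm

/-- the end `1` of the cylinder -/
def end1 (X : SS) : SS.Map X (cylS X) where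
  app {p} x := (x, c1 p)
  nat f _ := Prod.ext rfl (c1_comp f).symm

/-- the cylinder on a sub simplicial set -/
abbrev Sb.cyl (A : Sb X) : Sb (cylS X) := A.comap (SS.fst X I1)

namespace Cc

/-- restriction of functions on the cylinder to a section -/
def prismF (X : SS) : Prism (SS.F (ZMod 2) (cylS X)) (SS.F (ZMod 2) X) where
  h _ θ :=
    { toFun := fun w x => w (x, θ)
      map_add' := fun _ _ => rfl
      map_smul' := fun _ _ => rfl }
  nat _ _ _ := rfl

/-- the prism operator -/
def sOp (w : Cc (cylS X)) : Cc X := fun p => (prismF X).k p (toF (p + 1) w)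

theorem sn_two (k : ℕ) (a : ZMod 2) : sn k a = a := by
  rw [sn]
  rcases Nat.even_or_odd k with h | h
  · rw [h.neg_one_pow, one_smul]
  · rw [h.neg_one_pow, neg_smul, one_smul]
    exact CharTwo.neg_eq _

theorem sOp_apply (w : Cc (cylS X)) {p : ℕ} (x : X.obj p) :
    sOp w p x = ∑ i ∈ range (p + 1), w (p + 1) (X.map (sg p i) x, th (p + 1) (i + 1)) := by
  have h : (prismF X).k p (toF (p + 1) w) = (∑ i ∈ range (p + 1), fun x => sn i
      (w (p + 1) (X.map (sg p i) x, th (p + 1) (i + 1))) : X.obj p → ZMod 2) :=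
    (prismF X).k_apply p (toF (p + 1) w)
  refine (congrFun h x).trans ?_
  rw [Finset.sum_apply]
  exact sum_congr rfl fun i _ => sn_two _ _

theorem sOp_add (w w' : Cc (cylS X)) : sOp (w + w') = sOp w + sOp w' := by
  funext p
  exact map_add ((prismF X).k p) (toF (p + 1) w) (toF (p + 1) w')

theorem sOp_d (w : Cc (cylS X)) :
    Cc.d (sOp w) + sOp (Cc.d w) = Cc.pull (end0 X) w + Cc.pull (end1 X) w := by
  funext p
  cases p with
  | zero =>
    have h := (prismF X).k_d_zero (toF 0 w)
    rw [← toF_d] at h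
    funext x
    have hx : sOp (Cc.d w) 0 x = w 0 (x, c1 0) - w 0 (x, c0 0) := congrFun h x
    change Cc.d (sOp w) 0 x + sOp (Cc.d w) 0 x = w 0 (x, c0 0) + w 0 (x, c1 0)
    rw [d_zero_apply, zero_add, hx, CharTwo.sub_eq_add, add_comm]
  | succ p =>
    have h := (prismF X).k_d_add_d_k p (toF (p + 1) w)
    rw [← toF_d] at h
    funext x
    have hx : sOp (Cc.d w) (p + 1) x + (SS.F (ZMod 2) X).d p (toF p (sOp w)) x =
      w (p + 1) (x, c1 (p + 1)) - w (p + 1) (x, c0 (p + 1)) := congrFun h x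
    change Cc.d (sOp w) (p + 1) x + sOp (Cc.d w) (p + 1) x =
      w (p + 1) (x, c0 (p + 1)) + w (p + 1) (x, c1 (p + 1))
    rw [CharTwo.sub_eq_add] at hx
    have h2 : Cc.d (sOp w) (p + 1) x = (SS.F (ZMod 2) X).d p (toF p (sOp w)) x :=
      congrFun (toF_d p (sOp w)) x
    rw [h2, add_comm, hx, add_comm]

theorem vn_sOp {A : Sb X} {w : Cc (cylS X)} (hw : Vn A.cyl w) : Vn A (sOp w) := by
  intro p x hx
  rw [sOp_apply]
  exact sum_eq_zero fun i _ => hw _ _ (A.map_mem _ hx)

theorem IsDeg.sOp {n : ℕ} {w : Cc (cylS X)} (hw : IsDeg (n + 1) w) : IsDeg n (Cc.sOp w) := by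
  intro p hp x
  rw [sOp_apply]
  exact sum_eq_zero fun i _ => hw _ (by omega) _

/-- the indicator of the vertex `0`, evaluated on the first vertex -/
def tv {p : ℕ} (θ : Op p 1) : ZMod 2 := if θ 0 = 0 then 1 else 0

theorem tv_c0 (p : ℕ) : tv (c0 p) = 1 := if_pos (c0_val p 0)

theorem tv_c1 (p : ℕ) : tv (c1 p) = 0 := if_neg (by rw [c1_val]; decide)

/-- `e ↦ t · e`, `t` the indicator of the vertex `0` (evaluated on the first vertex) -/
def tOp (e : Cc X) : Cc (cylS X) := fun p x => tv (p := p) x.2 * e p x.1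

theorem tOp_apply (e : Cc X) {p : ℕ} (x : X.obj p) (θ : Op p 1) :
    tOp e p (x, θ) = tv θ * e p x := rfl

theorem tOp_add (e e' : Cc X) : tOp (e + e') = tOp e + tOp e' := by
  funext p x
  exact mul_add _ _ _

theorem vn_tOp {A : Sb X} {e : Cc X} (he : Vn A e) : Vn A.cyl (tOp e) := by
  intro p x hx
  change tv (p := p) x.2 * e p x.1 = 0
  rw [he p x.1 hx, mul_zero]

theorem IsDeg.tOp {n : ℕ} {e : Cc X} (he : IsDeg n e) : IsDeg n (Cc.tOp e) := by
  intro p hp x
  change tv (p := p) x.2 * e p x.1 = 0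
  rw [he p hp x.1, mul_zero]

theorem pull_end0_tOp (e : Cc X) : Cc.pull (end0 X) (tOp e) = e := by
  funext p x
  change tv (c0 p) * e p x = e p x
  rw [tv_c0, one_mul]

theorem pull_end1_tOp (e : Cc X) : Cc.pull (end1 X) (tOp e) = 0 := by
  funext p x
  change tv (c1 p) * e p x = 0
  rw [tv_c1, zero_mul]

/-- **The cylinder of `X`.** -/
def cyl (X : SS) : CupC.Cyl (cupC X) where
  W := cupC (cylS X)
  r0 := pullHom (end0 X)
  r1 := pullHom (end1 X)
  T := AddMonoidHom.mk' (fun e => tOp e) (fun e e' => tOp_add e e')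
  s := AddMonoidHom.mk' (fun w => sOp w) (fun w w' => sOp_add w w')
  r0_T e := pull_end0_tOp e
  r1_T e := pull_end1_tOp e
  prism w := sOp_d w

/-- **The cylinder of a pair.** -/
def relCyl (A : Sb X) : CupC.Cyl (rel A) where
  W := rel A.cyl
  r0 := relHom (end0 X) A A.cyl fun _ h => h
  r1 := relHom (end1 X) A A.cyl fun _ h => h
  T := AddMonoidHom.mk' (fun e => mkRel A.cyl (tOp (val e)) (vn_tOp (vn_val e)))
    (fun e e' => rel_ext (tOp_add (val e) (val e')))
  s := AddMonoidHom.mk' (fun w => mkRel A (sOp (val w)) (vn_sOp (vn_val w)))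
    (fun w w' => rel_ext (sOp_add (val w) (val w')))
  r0_T e := rel_ext (pull_end0_tOp (val e))
  r1_T e := rel_ext (pull_end1_tOp (val e))
  prism w := rel_ext (sOp_d (val w))

/-- homotopic maps induce cohomologous maps -/
theorem coh_of_htpy (H : SS.Map (cylS X) Y) {u : Cc Y} (hu : Cc.d u = 0) :
    (cupC X).Coh (Cc.pull (H.comp (end0 X)) u) (Cc.pull (H.comp (end1 X)) u) := by
  refine ⟨sOp (Cc.pull H u), ?_⟩
  have h := sOp_d (Cc.pull H u)
  rw [← pull_d, hu] at h
  have h0 : sOp (Cc.pull H (0 : Cc Y)) = 0 := ((cyl X).s).map_zero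
  rw [h0, add_zero] at h
  exact h.symm

/-- the same for a homotopy of maps of pairs -/
theorem rel_coh_of_htpy (H : SS.Map (cylS X) Y) {A : Sb X} {B : Sb Y}
    (hH : ∀ {p : ℕ} (x : (cylS X).obj p), A.cyl.mem x → B.mem (H.app x)) {u : (rel B).C}
    (hu : (rel B).d u = 0) :
    (rel A).Coh ((relHom (H.comp (end0 X)) A B fun _ hx => hH _ hx).f u)
      ((relHom (H.comp (end1 X)) A B fun _ hx => hH _ hx).f u) := by
  refine ⟨mkRel A (sOp (Cc.pull H (val u))) (vn_sOp (((vn_val u).pull H).mono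
    fun x hx => hH x hx)), ?_⟩
  have h := sOp_d (Cc.pull H (val u))
  have hu' : Cc.d (val u) = 0 := congrArg val hu
  rw [← pull_d, hu'] at h
  have h0 : sOp (Cc.pull H (0 : Cc Y)) = 0 := ((cyl X).s).map_zero
  rw [h0, add_zero] at h
  exact rel_ext h.symm

end Cc

end Vale.Agent.P263.TJ
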