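import Vale.Agent.P263.S.GysTriv
import Vale.Agent.P263.TJ.SCup
import Vale.Agent.P263.TJ.SqCup

/-!
# P263: squares of block S on a simplicial set = cup-i squares of `Cc`

`cupT_tot` : the cup-i products of `TJ/CupS` for the cosimplicial module of functions on `X` are the
products of `TJ/SCo`. `cf_P_cc` : the coefficient of `P [u]` in degree `j` is `[u ∪_(2n-j) u]`.
-/

noncomputable section

open Finset

namespace Vale.Agent.P263.TJ

open Vale.Agent.P263.S Vale.Agent.P263.E Vale.Agent.P263.H83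

/-- the expansion `H(hG triv) = H(C)[u]` of block S -/
def expnTriv (C : CosMod (ZMod 2)) : Expn C where
  cf := cf C
  cf_u n j x := cf_uH C n j x
  cf_gt n j x h := cf_gt C n j x h
  cf_p n x := cf_pstar_self C n x
  cf_p_lt _ _ x h := cf_pstar_ne C (by omega) x

variable {X : SS}

/-- mixed-degree cochains in the two languages -/
def tot (u : Cc X) : Tot (SS.F (ZMod 2) X) := u

@[simp] theorem tot_apply (u : Cc X) (n : ℕ) : tot u n = u n := rfl

theorem D_tot (u : Cc X) : D (tot u) = tot (Cc.d u) := by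
  funext p
  cases p with
  | zero =>
    funext σ
    exact (d_zero_apply u σ).symm
  | succ p => exact (d_eq_F u p).symm

theorem orderEmb_val {S : Finset ℕ} {k : ℕ} (h : S.card = k) (x : Fin k) (h' : x.1 < S.card) :
    S.orderEmbOfFin h x = S.orderEmbOfFin rfl ⟨x.1, h'⟩ := by
  subst h
  rfl

theorem fc_tot (u : Cc X) {q : ℕ} {S : Finset ℕ} (hS : S ⊆ range (q + 1)) (σ : X.obj q) :
    fc (SS.F (ZMod 2) X) q (tot u) S σ = co u σ S := by
  rcases S.eq_empty_or_nonempty with rfl | hne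
  · rw [fc_empty, co_empty]
    rfl
  · rw [fc, dif_pos ⟨hne, hS⟩, co_of_ne (by have := hne.card_pos; omega)]
    change u _ (X.map (inc q S hne hS) σ) = _
    have e : inc q S hne hS = cl (S.card - 1) q (enu S) := by
      apply OrderHom.ext
      funext x
      apply Fin.ext
      rw [cl_val (enu_strictMono S).monotone]
      have hx : x.1 < S.card := by
        have := x.2
        have := hne.card_pos
        omega
      have h1 : enu S x.1 ≤ q := by
        have := mem_range.1 (hS (enu_mem hx))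
        omega
      rw [min_eq_left h1, enu_of_lt hx]
      exact orderEmb_val _ x hx
    rw [e]

/-- the products in the two languages, for the pointwise product of functions -/
theorem cupT_tot {μ : Bil (SS.F (ZMod 2) X) (SS.F (ZMod 2) X) (SS.F (ZMod 2) X)}
    (hμ : ∀ p (f g : (SS.F (ZMod 2) X).obj p) (x : X.obj p), μ.app p f g x = f x * g x)
    (j : ℕ) (u v : Cc X) : cupT (ofBil μ) j (tot u) (tot v) = tot (Cc.cup j u v) := by
  funext p
  refine funext fun σ : X.obj p => ?_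
  rw [tot_apply, Cc.cup_def, cupT, cupM, cupJ]
  refine Eq.trans (Finset.sum_apply (M := fun _ => ZMod 2) σ _ _) (sum_congr rfl fun J _ => ?_)
  rw [ofBil_app, hμ, fc_tot u (fA_subset _ _), fc_tot v (fB_subset _ _)]

theorem tot_ofF {n : ℕ} (u : (SS.F (ZMod 2) X).obj n) : tot (Cc.ofF n u) = Pi.single n u := by
  funext p
  by_cases h : p = n
  · subst h
    rw [Pi.single_eq_same]
    exact Cc.toF_ofF p u
  · rw [Pi.single_eq_of_ne h]
    funext σ
    exact Cc.isDeg_ofF n u p h σ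

theorem tot_of_isDeg {n : ℕ} {u : Cc X} (hu : Cc.IsDeg n u) : tot u = Pi.single n (Cc.toF n u) := by
  rw [← tot_ofF, Cc.ofF_toF hu]

/-- the component of degree `n` of a cocycle of mixed degree -/
def cc (n : ℕ) (u : Cc X) (hd : Cc.d u = 0) : (SS.F (ZMod 2) X).Z n :=
  ⟨Cc.toF n u, by
    rw [CosMod.mem_Z, ← Cc.toF_d, hd]
    rfl⟩

/-- the class of the component of degree `n` of a cocycle of mixed degree -/
def clc (n : ℕ) (u : Cc X) (hd : Cc.d u = 0) : (SS.F (ZMod 2) X).H n :=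
  (SS.F (ZMod 2) X).cls n (cc n u hd)

theorem clc_congr {n : ℕ} {u v : Cc X} (hu : Cc.d u = 0) (hv : Cc.d v = 0) (h : u n = v n) :
    clc n u hu = clc n v hv := by
  rw [clc, clc]
  congr 1
  exact Subtype.ext h

theorem clc_eq_zero_of_isDeg {n m : ℕ} {u : Cc X} (hu : Cc.IsDeg m u) (hd : Cc.d u = 0)
    (h : n ≠ m) : clc n u hd = 0 := by
  rw [clc, CosMod.cls_eq_zero_iff]
  have : (cc n u hd : (SS.F (ZMod 2) X).obj n) = 0 := funext fun x => hu n h x
  rw [this]
  exact zero_mem _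

/-- every class is the class of a homogeneous cocycle -/
theorem exists_clc {n : ℕ} (x : (SS.F (ZMod 2) X).H n) :
    ∃ (u : Cc X) (hd : Cc.d u = 0), Cc.IsDeg n u ∧ x = clc n u hd := by
  induction x using CosMod.H_ind with
  | h z =>
    have hd : Cc.d (Cc.ofF n z.1) = 0 := (Cc.d_eq_zero_iff (Cc.isDeg_ofF n z.1)).2 (by
      rw [Cc.toF_ofF]; exact z.2)
    refine ⟨Cc.ofF n z.1, hd, Cc.isDeg_ofF n z.1, ?_⟩
    rw [clc]
    congr 1
    exact Subtype.ext (Cc.toF_ofF n z.1).symm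

theorem clc_pull {Y : SS} (f : SS.Map X Y) {n : ℕ} {u : Cc Y} (hd : Cc.d u = 0)
    (hd' : Cc.d (Cc.pull f u) = 0) :
    clc n (Cc.pull f u) hd' = (f.pull (R := ZMod 2)).mapH n (clc n u hd) := rfl

theorem clc_add {n : ℕ} {u v : Cc X} (hu : Cc.d u = 0) (hv : Cc.d v = 0)
    (h : Cc.d (u + v) = 0) : clc n (u + v) h = clc n u hu + clc n v hv := rfl

/-- the squares `u ∪_i u` of a cocycle are cocycles -/
theorem d_cup_self (j : ℕ) {u : Cc X} (hd : Cc.d u = 0) : Cc.d (Cc.cup (j + 1) u u) = 0 := by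
  rw [d_cup, hd, cup_zero_left, cup_zero_right, zero_add, zero_add]
  funext p σ
  exact CharTwo.add_self_eq_zero _

/-- **The squares of block S on a simplicial set are cup-i squares.** -/
theorem cf_P_cc {μ : Bil (SS.F (ZMod 2) X) (SS.F (ZMod 2) X) (SS.F (ZMod 2) X)}
    (hμ : ∀ p (f g : (SS.F (ZMod 2) X).obj p) (x : X.obj p), μ.app p f g x = f x * g x)
    (h : Sym μ (Act.triv C2 (SS.F (ZMod 2) X))) {n : ℕ} {u : Cc X} (hu : Cc.IsDeg n u)
    (hd : Cc.d u = 0) {i j : ℕ} (hij : i + j = n + n) :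
    cf (SS.F (ZMod 2) X) (n + n) j (P μ (Act.triv C2 (SS.F (ZMod 2) X)) h (clc n u hd)) =
      clc j (Cc.cup (i + 1) u u) (d_cup_self i hd) := by
  have h1 := cf_P (expnTriv (SS.F (ZMod 2) X)) h (cc n u hd) j (by omega)
  refine h1.trans ?_
  rw [clsT, clc, CosMod.cls_eq_iff]
  have e : cupT (ofBil μ) (n + n - j + 1) (Pi.single n (cc n u hd).1) (Pi.single n (cc n u hd).1) =
      tot (Cc.cup (i + 1) u u) := by
    have h2 : (Pi.single n (cc n u hd).1 : Tot (SS.F (ZMod 2) X)) = tot u := (tot_of_isDeg hu).symm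
    rw [h2, cupT_tot hμ, show n + n - j = i by omega]
  change cupT (ofBil μ) (n + n - j + 1) (Pi.single n (cc n u hd).1)
    (Pi.single n (cc n u hd).1) j - _ ∈ _
  rw [e]
  change tot (Cc.cup (i + 1) u u) j - tot (Cc.cup (i + 1) u u) j ∈ _
  rw [sub_self]
  exact zero_mem _

theorem cup_one_cocycle {u v : Cc X} (hu : Cc.d u = 0) (hv : Cc.d v = 0) :
    Cc.d (Cc.cup 1 u v) = 0 := by
  rw [d_cup, hu, hv, cup_zero_left, cup_zero_right, cup_zero, cup_zero]
  rfl

/-- the product of block S on a simplicial set is `∪_0` -/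
theorem cupH_clc {μ : Bil (SS.F (ZMod 2) X) (SS.F (ZMod 2) X) (SS.F (ZMod 2) X)}
    (hμ : ∀ p (f g : (SS.F (ZMod 2) X).obj p) (x : X.obj p), μ.app p f g x = f x * g x)
    {m n N : ℕ} (h : N = m + n) {u v : Cc X} (hu : Cc.IsDeg m u) (hv : Cc.IsDeg n v)
    (hdu : Cc.d u = 0) (hdv : Cc.d v = 0) :
    μ.cupH h (clc m u hdu) (clc n v hdv) = clc N (Cc.cup 1 u v) (cup_one_cocycle hdu hdv) := by
  rw [clc, clc, Bil.cupH_cls, clc]
  congr 1
  refine Subtype.ext ?_
  change μ.cup N (cc m u hdu).1 (cc n v hdv).1 = tot (Cc.cup 1 u v) N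
  rw [← cupT_tot hμ, tot_of_isDeg hu, tot_of_isDeg hv, cupT_one_single μ h]
  rfl

end Vale.Agent.P263.TJ
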