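import Vale.Agent.P263.TJ.Rel
import Mathlib.Data.Set.Function

/-!
# P263, block EB: the free-sum model and the strict quadratic correction

`LabS` : label systems (a simplicial set of labels, a linear order on the labels of vertices, a
notion of admissible sets of labels).  `Gam l B A` : finite admissible sets of pairs
(label, simplex of `B`), where pairs over the base `A` are deleted.  `hat y` : the additive
extension of a cochain `y` of `B` which vanishes on `A`.  `Pr l B` : ordered pairs of sheets.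
`Tr c` : the sum of `c` over the ordered pairs.  `KK j m y = Tr (sum_l v^(m+l) o w_(j+l+1))`
where `w_i = y_a cup y_b` with `i` break points, and `d_KK : d (KK j m y) = Tr (v^m w_j)`;
for `m = 0`, `j > 0` this is `hat y cup hat y + hat (y cup y)` with `j` break points.
-/

open Finset

namespace Vale.Agent.P263.TJ

open Vale.Agent.P263.S Vale.Agent.P263.E Vale.Agent.P263.H83

/-- the vertex `i` of `[p]` -/
def vx (p : ℕ) (i : Fin (p + 1)) : Op 0 p := ⟨fun _ => i, fun _ _ _ => le_rfl⟩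

theorem comp_vx {p q : ℕ} (f : Op p q) (i : Fin (p + 1)) : f.comp (vx p i) = vx q (f i) := rfl

/-- label systems -/
structure LabS where
  /-- the labels -/
  L : SS
  /-- the ordered set of the labels of vertices -/
  O : Type
  [lin : LinearOrder O]
  /-- the order code of a label over a vertex -/
  ord : L.obj 0 → O
  /-- admissible sets of labels -/
  Good : ∀ {p : ℕ}, Set (L.obj p) → Prop
  good_map : ∀ {p q : ℕ} (f : Op p q) {F : Set (L.obj q)}, Good F → Good (L.map f '' F)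
  good_sub : ∀ {p : ℕ} {F F' : Set (L.obj p)}, Good F → F' ⊆ F → Good F'
  good_inj : ∀ {p : ℕ} {F : Set (L.obj p)}, Good F → ∀ i : Fin (p + 1),
    Set.InjOn (fun a => ord (L.map (vx p i) a)) F

attribute [instance] LabS.lin

namespace LabS

variable (l : LabS)

/-- the order code of the label `a` at the vertex `i` -/
def at' {p : ℕ} (a : l.L.obj p) (i : Fin (p + 1)) : l.O := l.ord (l.L.map (vx p i) a)

theorem at_map {p q : ℕ} (f : Op p q) (a : l.L.obj q) (i : Fin (p + 1)) :
    l.at' (l.L.map f a) i = l.at' a (f i) := by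
  rw [at', at', ← l.L.map_comp, comp_vx]

theorem at_inj {p : ℕ} {F : Set (l.L.obj p)} (h : l.Good F) {a b : l.L.obj p} (ha : a ∈ F)
    (hb : b ∈ F) (i : Fin (p + 1)) (hab : l.at' a i = l.at' b i) : a = b :=
  l.good_inj h i ha hb hab

/-- the simplicial set of the functions on the vertices -/
def natL : SS where
  obj p := Fin (p + 1) → ℕ
  map f s := s ∘ f
  map_id _ := rfl
  map_comp _ _ _ := rfl

/-- the labels `Fin (p + 1) → ℕ` -/
def nat : LabS where
  L := natL
  O := ℕ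
  ord s := s 0
  Good {p} F := ∀ i : Fin (p + 1), Set.InjOn (fun s : Fin (p + 1) → ℕ => s i) F
  good_map := by
    rintro p q f F h i _ ⟨a, ha, rfl⟩ _ ⟨b, hb, rfl⟩ hab
    exact congrArg (fun s : Fin (q + 1) → ℕ => s ∘ f) (h (f i) ha hb hab)
  good_sub h h' i := (h i).mono h'
  good_inj h i := h i

end LabS

variable (l : LabS) {B : SS} (A : Sb B)

/-- the sheets -/
abbrev Sheet (B : SS) (p : ℕ) : Type := l.L.obj p × B.obj p

/-- faces of sheets -/
def shm {p q : ℕ} (f : Op p q) (a : Sheet l B q) : Sheet l B p := (l.L.map f a.1, B.map f a.2)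

/-- the admissible finite sets of sheets -/
def GOk {p : ℕ} (F : Finset (Sheet l B p)) : Prop :=
  l.Good (Prod.fst '' (F : Set (Sheet l B p))) ∧ Set.InjOn Prod.fst (F : Set (Sheet l B p)) ∧
    ∀ a ∈ F, ¬ A.mem a.2

open Classical in
/-- the restriction of a set of sheets -/
noncomputable def gmap {p q : ℕ} (f : Op p q) (F : Finset (Sheet l B q)) :
    Finset (Sheet l B p) :=
  (F.image (shm l f)).filter fun a => ¬ A.mem a.2

variable {l A}

theorem shm_id {p : ℕ} (a : Sheet l B p) : shm l OrderHom.id a = a :=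
  Prod.ext (SS.map_id _ a.1) (SS.map_id _ a.2)

theorem shm_comp {p q r : ℕ} (f : Op q r) (g : Op p q) (a : Sheet l B r) :
    shm l (f.comp g) a = shm l g (shm l f a) :=
  Prod.ext (SS.map_comp _ f g a.1) (SS.map_comp _ f g a.2)

theorem mem_gmap {p q : ℕ} {f : Op p q} {F : Finset (Sheet l B q)} {a : Sheet l B p} :
    a ∈ gmap l A f F ↔ (∃ b ∈ F, shm l f b = a) ∧ ¬ A.mem a.2 := by
  classical
  rw [gmap, mem_filter, mem_image]

theorem GOk.inj {q : ℕ} {F : Finset (Sheet l B q)} (h : GOk l A F) {a b : Sheet l B q}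
    (ha : a ∈ F) (hb : b ∈ F) (i : Fin (q + 1)) (hab : l.at' a.1 i = l.at' b.1 i) : a = b :=
  h.2.1 ha hb (l.at_inj h.1 ⟨a, ha, rfl⟩ ⟨b, hb, rfl⟩ i hab)

theorem GOk.map_injOn {p q : ℕ} (f : Op p q) {F : Finset (Sheet l B q)} (h : GOk l A F) :
    Set.InjOn (shm l f) (F : Set (Sheet l B q)) := by
  intro a ha b hb hab
  refine h.inj ha hb (f 0) ?_
  rw [← l.at_map, ← l.at_map]
  exact congrArg (fun c : Sheet l B p => l.at' c.1 0) hab

theorem GOk.gmap {p q : ℕ} (f : Op p q) {F : Finset (Sheet l B q)} (h : GOk l A F) :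
    GOk l A (gmap l A f F) := by
  refine ⟨l.good_sub (l.good_map f h.1) ?_, ?_, fun a ha => (mem_gmap.1 ha).2⟩
  · rintro _ ⟨a, ha, rfl⟩
    obtain ⟨⟨b, hb, rfl⟩, -⟩ := mem_gmap.1 (mem_coe.1 ha)
    exact ⟨b.1, ⟨b, hb, rfl⟩, rfl⟩
  · intro a ha a' ha' haa
    obtain ⟨⟨b, hb, rfl⟩, -⟩ := mem_gmap.1 (mem_coe.1 ha)
    obtain ⟨⟨b', hb', rfl⟩, -⟩ := mem_gmap.1 (mem_coe.1 ha')
    have : b = b' := by
      refine h.inj hb hb' (f 0) ?_
      rw [← l.at_map, ← l.at_map]
      exact congrArg (fun c => l.at' c 0) haa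
    rw [this]

theorem gmap_id {p : ℕ} {F : Finset (Sheet l B p)} (h : GOk l A F) :
    gmap l A (OrderHom.id : Op p p) F = F := by
  ext a
  rw [mem_gmap]
  constructor
  · rintro ⟨⟨b, hb, rfl⟩, -⟩
    rwa [shm_id]
  · intro ha
    exact ⟨⟨a, ha, shm_id a⟩, h.2.2 a ha⟩

theorem gmap_comp {p q r : ℕ} (f : Op q r) (g : Op p q) (F : Finset (Sheet l B r)) :
    gmap l A (f.comp g) F = gmap l A g (gmap l A f F) := by
  ext a
  rw [mem_gmap, mem_gmap]
  refine and_congr_left fun ha => ?_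
  constructor
  · rintro ⟨b, hb, rfl⟩
    refine ⟨shm l f b, mem_gmap.2 ⟨⟨b, hb, rfl⟩, fun hc => ha ?_⟩, (shm_comp f g b).symm⟩
    rw [shm_comp]
    exact A.map_mem g hc
  · rintro ⟨c, hc, rfl⟩
    obtain ⟨⟨b, hb, rfl⟩, -⟩ := mem_gmap.1 hc
    exact ⟨b, hb, shm_comp f g b⟩

theorem sum_gmap {M : Type} [AddCommMonoid M] {p q : ℕ} (f : Op p q) {F : Finset (Sheet l B q)}
    (h : GOk l A F) (c : Sheet l B p → M) (hc : ∀ a, A.mem a.2 → c a = 0) :
    ∑ a ∈ gmap l A f F, c a = ∑ a ∈ F, c (shm l f a) := by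
  classical
  rw [gmap, sum_filter, sum_image (h.map_injOn f)]
  refine sum_congr rfl fun a _ => ?_
  by_cases h' : A.mem (shm l f a).2
  · rw [if_neg (not_not.2 h'), hc _ h']
  · rw [if_pos h']

variable (l A)

/-- **the free-sum model** -/
noncomputable def Gam : SS where
  obj p := {F : Finset (Sheet l B p) // GOk l A F}
  map f F := ⟨gmap l A f F.1, F.2.gmap f⟩
  map_id F := Subtype.ext (gmap_id F.2)
  map_comp f g F := Subtype.ext (gmap_comp f g F.1)

variable (B)

/-- ordered pairs of sheets with different labels over every vertex -/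
def Pr : SS where
  obj p := {x : Sheet l B p × Sheet l B p // ∀ i, l.at' x.1.1 i ≠ l.at' x.2.1 i}
  map f x := ⟨(shm l f x.1.1, shm l f x.1.2), fun i => by
    show l.at' (l.L.map f x.1.1.1) i ≠ l.at' (l.L.map f x.1.2.1) i
    rw [l.at_map, l.at_map]
    exact x.2 (f i)⟩
  map_id x := Subtype.ext (Prod.ext (shm_id x.1.1) (shm_id x.1.2))
  map_comp f g x := Subtype.ext (Prod.ext (shm_comp f g x.1.1) (shm_comp f g x.1.2))

/-- the first simplex of `B` -/
def prL : SS.Map (Pr l B) B := ⟨fun x => x.1.1.2, fun _ _ => rfl⟩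

/-- the second simplex of `B` -/
def prR : SS.Map (Pr l B) B := ⟨fun x => x.1.2.2, fun _ _ => rfl⟩

/-- the exchange of the two sheets -/
def sw : SS.Map (Pr l B) (Pr l B) :=
  ⟨fun x => ⟨(x.1.2, x.1.1), fun i => (x.2 i).symm⟩, fun _ _ => rfl⟩

variable {B}

/-- the pairs with a sheet over the base -/
def PrB : Sb (Pr l B) := (A.comap (prL l B)).union (A.comap (prR l B))

variable {l A}

/-! ### sums over sheets and over ordered pairs of sheets -/

variable (l A) in
/-- the additive extension -/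
def hat (y : Cc B) : Cc (Gam l A) := fun p F => ∑ a ∈ F.1, y p a.2

theorem hat_apply (y : Cc B) {p : ℕ} (F : (Gam l A).obj p) :
    hat l A y p F = ∑ a ∈ F.1, y p a.2 := rfl

theorem hat_add (y z : Cc B) : hat l A (y + z) = hat l A y + hat l A z := by
  funext p F
  exact sum_add_distrib

theorem hat_zero : hat l A (0 : Cc B) = 0 := by
  funext p F
  exact sum_const_zero

theorem hat_map {y : Cc B} (hy : Vn A y) {p q : ℕ} (f : Op p q) (F : (Gam l A).obj q) :
    hat l A y p ((Gam l A).map f F) = ∑ a ∈ F.1, y p (B.map f a.2) :=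
  sum_gmap f F.2 (fun a => y p a.2) fun _ ha => hy _ _ ha

theorem co_hat {y : Cc B} (hy : Vn A y) {p : ℕ} (F : (Gam l A).obj p) (S : Finset ℕ) :
    co (hat l A y) F S = ∑ a ∈ F.1, co y a.2 S := by
  by_cases h : S.card = 0
  · simp [co, h]
  · rw [co_of_ne h, hat_map hy]
    exact sum_congr rfl fun a _ => (co_of_ne h).symm

theorem d_hat {y : Cc B} (hy : Vn A y) : Cc.d (hat l A y) = hat l A (Cc.d y) := by
  funext p F
  rw [Cc.d_def, dd, hat_apply]
  simp only [co_hat hy, Cc.d_def, dd]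
  exact sum_comm

/-- extension by zero -/
noncomputable def ex (c : Cc (Pr l B)) {p : ℕ} (a b : Sheet l B p) : ZMod 2 := by
  classical
  exact if h : ∀ i, l.at' a.1 i ≠ l.at' b.1 i then c p ⟨(a, b), h⟩ else 0

theorem ex_of {c : Cc (Pr l B)} {p : ℕ} {a b : Sheet l B p}
    (h : ∀ i, l.at' a.1 i ≠ l.at' b.1 i) : ex c a b = c p ⟨(a, b), h⟩ := dif_pos h

theorem ex_self (c : Cc (Pr l B)) {p : ℕ} (a : Sheet l B p) : ex c a a = 0 :=
  dif_neg fun h => h 0 rfl

theorem GOk.dist {p : ℕ} {F : Finset (Sheet l B p)} (h : GOk l A F) {a b : Sheet l B p}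
    (ha : a ∈ F) (hb : b ∈ F) (hab : a ≠ b) (i : Fin (p + 1)) : l.at' a.1 i ≠ l.at' b.1 i :=
  fun hc => hab (h.inj ha hb i hc)

variable (A) in
/-- the sum over the ordered pairs of different sheets -/
noncomputable def Tr (c : Cc (Pr l B)) : Cc (Gam l A) := fun _ F =>
  ∑ a ∈ F.1, ∑ b ∈ F.1, ex c a b

theorem Tr_apply (c : Cc (Pr l B)) {p : ℕ} (F : (Gam l A).obj p) :
    Tr A c p F = ∑ a ∈ F.1, ∑ b ∈ F.1, ex c a b := rfl

theorem ex_add (c c' : Cc (Pr l B)) {p : ℕ} (a b : Sheet l B p) :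
    ex (c + c') a b = ex c a b + ex c' a b := by
  unfold ex
  split_ifs
  · rfl
  · rw [add_zero]

theorem ex_zero {p : ℕ} (a b : Sheet l B p) : ex (0 : Cc (Pr l B)) a b = 0 := by
  unfold ex
  split_ifs <;> rfl

theorem Tr_add (c c' : Cc (Pr l B)) : Tr A (c + c') = Tr A c + Tr A c' := by
  funext p F
  show Tr A (c + c') p F = Tr A c p F + Tr A c' p F
  simp only [Tr_apply, ex_add, sum_add_distrib]

theorem Tr_zero : Tr A (0 : Cc (Pr l B)) = 0 := by
  funext p F
  show Tr A _ p F = 0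
  simp only [Tr_apply, ex_zero, sum_const_zero]

theorem ex_congr {c c' : Cc (Pr l B)} {p : ℕ} (h : c p = c' p) (a b : Sheet l B p) :
    ex c a b = ex c' a b := by
  unfold ex
  rw [h]

theorem Tr_congr {c c' : Cc (Pr l B)} {p : ℕ} (h : c p = c' p) : Tr A c p = Tr A c' p := by
  funext F
  rw [Tr_apply, Tr_apply]
  simp only [ex_congr h]

theorem Tr_map {c : Cc (Pr l B)} (hc : Vn (PrB l A) c) {p q : ℕ} (f : Op p q)
    (F : (Gam l A).obj q) :
    Tr A c p ((Gam l A).map f F) =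
      ∑ a ∈ F.1, ∑ b ∈ F.1, ex c (shm l f a) (shm l f b) := by
  have h1 : ∀ a : Sheet l B p, A.mem a.2 → ∀ b : Sheet l B p, ex c a b = 0 := by
    intro a ha b
    unfold ex
    split_ifs with h
    · exact hc _ _ (Or.inl ha)
    · rfl
  have h2 : ∀ b : Sheet l B p, A.mem b.2 → ∀ a : Sheet l B p, ex c a b = 0 := by
    intro b hb a
    unfold ex
    split_ifs with h
    · exact hc _ _ (Or.inr hb)
    · rfl
  rw [Tr_apply]
  show ∑ a ∈ gmap l A f F.1, ∑ b ∈ gmap l A f F.1, ex c a b = _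
  rw [sum_gmap f F.2 (fun a => ∑ b ∈ gmap l A f F.1, ex c a b)
    fun a ha => sum_eq_zero fun b _ => h1 a ha b]
  exact sum_congr rfl fun a _ => sum_gmap f F.2 _ fun b hb => h2 b hb _

theorem Tr_d {c : Cc (Pr l B)} (hc : Vn (PrB l A) c) : Cc.d (Tr A c) = Tr A (Cc.d c) := by
  funext p F
  cases p with
  | zero =>
    rw [d_zero_apply, Tr_apply]
    refine (sum_eq_zero fun a _ => sum_eq_zero fun b _ => ?_).symm
    unfold ex
    split_ifs
    · exact d_zero_apply _ _
    · rfl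
  | succ p =>
    rw [d_succ_apply, Tr_apply]
    simp only [Tr_map hc]
    rw [sum_comm]
    refine sum_congr rfl fun a ha => ?_
    rw [sum_comm]
    refine sum_congr rfl fun b hb => ?_
    by_cases hab : a = b
    · subst hab
      rw [ex_self]
      exact sum_eq_zero fun i _ => ex_self c _
    · have h := F.2.dist ha hb hab
      rw [ex_of h]
      refine Eq.trans ?_ (d_succ_apply c _).symm
      refine sum_congr rfl fun i _ => ?_
      exact ex_of ((Pr l B).map (dl p i) ⟨(a, b), h⟩).2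

theorem Tr_sw (c : Cc (Pr l B)) : Tr A (Cc.pull (sw l B) c) = Tr A c := by
  funext p F
  rw [Tr_apply, Tr_apply, sum_comm]
  refine sum_congr rfl fun a _ => sum_congr rfl fun b _ => ?_
  unfold ex
  by_cases h : ∀ i, l.at' a.1 i ≠ l.at' b.1 i
  · rw [dif_pos h, dif_pos fun i => (h i).symm]
    rfl
  · rw [dif_neg h, dif_neg fun h' => h fun i => (h' i).symm]

theorem cup_LR (j : ℕ) (y z : Cc B) {p : ℕ} (x : (Pr l B).obj p) :
    Cc.cup j (Cc.pull (prL l B) y) (Cc.pull (prR l B) z) p x =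
      cupJ j (co y x.1.1.2) (co z x.1.2.2) (range (p + 1)) := by
  rw [Cc.cup_def, co_pull, co_pull]
  rfl

/-- the products of additive extensions -/
theorem cup_hat {y z : Cc B} (hy : Vn A y) (hz : Vn A z) (j : ℕ) :
    Cc.cup j (hat l A y) (hat l A z) =
      Tr A (Cc.cup j (Cc.pull (prL l B) y) (Cc.pull (prR l B) z)) +
        hat l A (Cc.cup j y z) := by
  classical
  funext p F
  show _ = Tr A _ p F + hat l A _ p F
  rw [Tr_apply, hat_apply, ← sum_add_distrib]
  have h1 : Cc.cup j (hat l A y) (hat l A z) p F =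
      ∑ a ∈ F.1, ∑ b ∈ F.1, cupJ j (co y a.2) (co z b.2) (range (p + 1)) := by
    rw [Cc.cup_def]
    simp only [cupJ]
    simp only [co_hat hy, co_hat hz, sum_mul_sum]
    rw [sum_comm]
    refine sum_congr rfl fun a _ => ?_
    rw [sum_comm]
  rw [h1]
  refine sum_congr rfl fun a ha => ?_
  have h2 : ∀ b ∈ F.1, cupJ j (co y a.2) (co z b.2) (range (p + 1)) =
      ex (Cc.cup j (Cc.pull (prL l B) y) (Cc.pull (prR l B) z)) a b +
        if b = a then Cc.cup j y z p a.2 else 0 := by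
    intro b hb
    by_cases hab : b = a
    · subst hab
      rw [ex_self, if_pos rfl, zero_add, Cc.cup_def]
    · rw [if_neg hab, add_zero, ex_of (F.2.dist ha hb fun h => hab h.symm)]
      exact (cup_LR j y z (⟨(a, b), _⟩ : (Pr l B).obj p)).symm
  rw [sum_congr rfl h2, sum_add_distrib, sum_ite_eq', if_pos ha]

/-! ### the order, the flips, and the quadratic correction -/

variable (l B)

/-- the order cochain: the first sheet comes first at the vertex -/
noncomputable def oo : Cc (Pr l B) := fun p x => by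
  classical
  exact if p = 0 ∧ l.at' x.1.1.1 0 < l.at' x.1.2.1 0 then 1 else 0

/-- the flip cochain -/
noncomputable def vv : Cc (Pr l B) := Cc.d (oo l B)

/-- the powers of the flip cochain -/
noncomputable def vp : ℕ → Cc (Pr l B)
  | 0 => Cc.one _
  | k + 1 => Cc.cup 1 (vv l B) (vp k)

/-- `v^k o` -/
noncomputable def vo : ℕ → Cc (Pr l B)
  | 0 => oo l B
  | k + 1 => Cc.cup 1 (vv l B) (vo k)

theorem oo_add_sw : oo l B + Cc.pull (sw l B) (oo l B) = Cc.one _ := by
  classical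
  funext p x
  show oo l B p x + oo l B p ((sw l B).app x) = Cc.one _ p x
  unfold oo Cc.one
  show (if p = 0 ∧ l.at' x.1.1.1 0 < l.at' x.1.2.1 0 then (1 : ZMod 2) else 0) +
    (if p = 0 ∧ l.at' x.1.2.1 0 < l.at' x.1.1.1 0 then 1 else 0) = if p = 0 then 1 else 0
  by_cases hp : p = 0
  · simp only [hp, true_and, if_true]
    rcases lt_or_gt_of_ne (x.2 0) with h | h
    · rw [if_pos h, if_neg (not_lt_of_gt h), add_zero]
    · rw [if_neg (not_lt_of_gt h), if_pos h, zero_add]
  · simp only [hp, false_and, if_false, add_zero]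

theorem d_vv : Cc.d (vv l B) = 0 := d_d _

theorem cc_add_self {X : SS} (u : Cc X) : u + u = 0 := by
  funext p x
  exact CharTwo.add_self_eq_zero _

theorem vv_sw : Cc.pull (sw l B) (vv l B) = vv l B := by
  have h : Cc.pull (sw l B) (oo l B) = oo l B + Cc.one _ := by
    rw [← oo_add_sw, ← add_assoc, cc_add_self, zero_add]
  rw [vv, pull_d, h, d_add, d_one, add_zero]

theorem d_vo (k : ℕ) : Cc.d (vo l B k) = vp l B (k + 1) := by
  induction k with
  | zero =>
    show vv l B = Cc.cup 1 (vv l B) (Cc.one _)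
    rw [cup_one]
  | succ k ih =>
    show Cc.d (Cc.cup 1 (vv l B) (vo l B k)) = Cc.cup 1 (vv l B) (vp l B (k + 1))
    rw [d_cup_one, d_vv, cup_zero_left, zero_add, ih]

theorem vo_add_sw (k : ℕ) : vo l B k + Cc.pull (sw l B) (vo l B k) = vp l B k := by
  induction k with
  | zero => exact oo_add_sw l B
  | succ k ih =>
    show Cc.cup 1 (vv l B) (vo l B k) + Cc.pull (sw l B) (Cc.cup 1 (vv l B) (vo l B k)) =
      Cc.cup 1 (vv l B) (vp l B k)
    rw [pull_cup, vv_sw, ← cup_add_right, ih]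

variable {B}

/-- `y_a cup y_b` with `i` break points -/
def ww (y : Cc B) (i : ℕ) : Cc (Pr l B) :=
  Cc.cup i (Cc.pull (prL l B) y) (Cc.pull (prR l B) y)

variable {l}

theorem ww_zero (y : Cc B) : ww l y 0 = 0 := cup_zero _ _

theorem ww_vn {y : Cc B} (hy : Vn A y) (i : ℕ) : Vn (PrB l A) (ww l y i) := by
  intro p x hx
  rcases hx with hx | hx
  · exact Vn.cup_left i (hy.pull (prL l B)) _ p x hx
  · exact Vn.cup_right i _ (hy.pull (prR l B)) p x hx

theorem ww_sw (y : Cc B) (i : ℕ) :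
    Cc.pull (sw l B) (ww l y i) = Cc.cup i (Cc.pull (prR l B) y) (Cc.pull (prL l B) y) :=
  pull_cup _ _ _ _

theorem d_ww {y : Cc B} (hy : Cc.d y = 0) (i : ℕ) :
    Cc.d (ww l y (i + 1)) = ww l y i + Cc.pull (sw l B) (ww l y i) := by
  rw [ww, d_cup, ← pull_d, ← pull_d, hy, pull_zero, pull_zero, cup_zero_left, cup_zero_right,
    add_zero, zero_add, ww_sw]
  rfl

variable (l) in
/-- the terms of the quadratic correction -/
noncomputable def qt (j m : ℕ) (y : Cc B) (k : ℕ) : Cc (Pr l B) :=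
  Cc.cup 1 (vo l B (m + k)) (ww l y (j + k + 1))

theorem qt_vn {y : Cc B} (hy : Vn A y) (j m k : ℕ) : Vn (PrB l A) (qt l j m y k) :=
  Vn.cup_right 1 _ (ww_vn hy _)

/-- the telescope -/
theorem Tr_d_qt {y : Cc B} (hy : Cc.d y = 0) (j m k : ℕ) :
    Tr A (Cc.d (qt l j m y k)) =
      Tr A (Cc.cup 1 (vp l B (m + k)) (ww l y (j + k))) +
        Tr A (Cc.cup 1 (vp l B (m + (k + 1))) (ww l y (j + (k + 1)))) := by
  have h1 : Tr A (Cc.cup 1 (vo l B (m + k)) (Cc.pull (sw l B) (ww l y (j + k)))) =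
      Tr A (Cc.cup 1 (Cc.pull (sw l B) (vo l B (m + k))) (ww l y (j + k))) := by
    rw [← Tr_sw (Cc.cup 1 (vo l B (m + k)) _), pull_cup]
    rfl
  rw [qt, d_cup_one, d_vo, d_ww hy, cup_add_right, Tr_add, Tr_add, h1, ← Tr_add,
    ← cup_add_left, vo_add_sw, add_comm]
  rfl

variable (l A) in
/-- **the quadratic correction** -/
noncomputable def KK (j m : ℕ) (y : Cc B) : Cc (Gam l A) := fun p =>
  Tr A (∑ k ∈ range (p + 1), qt l j m y k) p

theorem qt_low (j m : ℕ) (y : Cc B) {k p : ℕ} (h : p < j + k) : qt l j m y k p = 0 := by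
  have h1 : ∀ q ≤ p, ww l y (j + k + 1) q = (0 : Cc (Pr l B)) q := fun q hq =>
    cup_low _ _ _ (by omega)
  rw [qt, cup_congr (fun _ _ => rfl) h1, cup_zero_right]
  rfl

theorem sum_qt (j m : ℕ) (y : Cc B) {p N : ℕ} (h : p + 1 ≤ N) :
    (∑ k ∈ range N, qt l j m y k) p = (∑ k ∈ range (p + 1), qt l j m y k) p := by
  rw [Finset.sum_apply, Finset.sum_apply]
  refine (sum_subset (range_subset_range.2 h) fun k _ hk => ?_).symm
  rw [mem_range] at hk
  exact qt_low j m y (by omega)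

theorem KK_eq (j m : ℕ) (y : Cc B) {p N : ℕ} (h : p + 1 ≤ N) :
    KK l A j m y p = Tr A (∑ k ∈ range N, qt l j m y k) p :=
  Tr_congr (sum_qt j m y h).symm

variable (l A) in
/-- the trace as a homomorphism -/
noncomputable def TrHom : Cc (Pr l B) →+ Cc (Gam l A) where
  toFun := Tr A
  map_zero' := Tr_zero
  map_add' := Tr_add

theorem Tr_sum {ι : Type} (s : Finset ι) (f : ι → Cc (Pr l B)) :
    Tr A (∑ i ∈ s, f i) = ∑ i ∈ s, Tr A (f i) := map_sum (TrHom l A) f s

theorem sum_tele {X : SS} (a : ℕ → Cc X) (N : ℕ) :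
    ∑ k ∈ range N, (a k + a (k + 1)) = a 0 + a N := by
  induction N with
  | zero => rw [sum_range_zero, cc_add_self]
  | succ N ih =>
    rw [sum_range_succ, ih, show a 0 + a N + (a N + a (N + 1)) =
      a 0 + (a N + a N) + a (N + 1) by abel, cc_add_self, add_zero]

/-- **Theorem (C)**: the coboundary of the quadratic correction. -/
theorem d_KK {y : Cc B} (hA : Vn A y) (hy : Cc.d y = 0) (j m : ℕ) :
    Cc.d (KK l A j m y) = Tr A (Cc.cup 1 (vp l B m) (ww l y j)) := by
  funext p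
  have h1 : Cc.d (KK l A j m y) p = Cc.d (Tr A (∑ k ∈ range (p + 2), qt l j m y k)) p :=
    d_congr fun q hq => KK_eq j m y (by omega)
  have h3 : ∀ q ≤ p, ww l y (j + (p + 2)) q = (0 : Cc (Pr l B)) q := fun q hq =>
    cup_low _ _ _ (by omega)
  have h2 : Tr A (Cc.cup 1 (vp l B (m + (p + 2))) (ww l y (j + (p + 2)))) p = 0 := by
    rw [Tr_congr (cup_congr (fun _ _ => rfl) h3), cup_zero_right, Tr_zero]
    rfl
  rw [h1, Tr_d (Vn.sum fun k _ => qt_vn hA j m k), d_sum, Tr_sum,
    sum_congr rfl fun k _ => Tr_d_qt hy j m k,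
    sum_tele (fun k => Tr A (Cc.cup 1 (vp l B (m + k)) (ww l y (j + k))))]
  show Tr A (Cc.cup 1 (vp l B (m + 0)) (ww l y (j + 0))) p +
    Tr A (Cc.cup 1 (vp l B (m + (p + 2))) (ww l y (j + (p + 2)))) p = _
  rw [h2, add_zero]
  rfl

/-- the squares commute with the additive extension up to an explicit coboundary -/
theorem d_KK_sq {y : Cc B} (hA : Vn A y) (hy : Cc.d y = 0) (j : ℕ) :
    Cc.d (KK l A j 0 y) = Cc.cup j (hat l A y) (hat l A y) + hat l A (Cc.cup j y y) := by
  rw [d_KK hA hy, cup_hat hA hA, add_assoc, cc_add_self, add_zero]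
  show Tr A (Cc.cup 1 (Cc.one _) (ww l y j)) = _
  rw [one_cup]
  rfl

/-- the quadratic cocycles -/
theorem d_KK_zero {y : Cc B} (hA : Vn A y) (hy : Cc.d y = 0) (m : ℕ) :
    Cc.d (KK l A 0 m y) = 0 := by
  rw [d_KK hA hy, ww_zero, cup_zero_right, Tr_zero]

end Vale.Agent.P263.TJ
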