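import Vale.Agent.P263.TJ.Rel
import Vale.Agent.P263.H83.SuspE
import Vale.Agent.P263.S.Htpy

/-!
# P263, block EB: the simplicial spheres and the strict suspension of mixed-degree cochains

`D1` : the simplicial interval, `edg` its fundamental cochain; for a map `τ : W → D1`,
`Cc.mE τ f = f ∪ τ^* edg`. The strict identity `cup_mE`:
`(f ∪ e) ∪_{i+1} (g ∪ e) = (f ∪_i g) ∪ e`. `SN n` : the cube `(Δ¹)ⁿ`, `SN.base` : the simplices with
a constant coordinate, `sC n : Cc (SN n)` the fundamental cochain, `sn n u` the suspension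
`u.s_n` on `X × (Δ¹)ⁿ`.
-/

open Finset

namespace Vale.Agent.P263.TJ

open Vale.Agent.P263.S Vale.Agent.P263.E Vale.Agent.P263.H83

variable {X Y W : SS}

/-! ### the interval -/

/-- the simplicial interval -/
def D1 : SS where
  obj p := Op p 1
  map f τ := τ.comp f
  map_id _ := rfl
  map_comp _ _ _ := rfl

/-- the fundamental cochain of the interval: the nondegenerate edge -/
def edg : Cc D1 := fun p τ => if p = 1 ∧ τ.toFun 0 = 0 ∧ τ.toFun (Fin.last p) = 1 then 1 else 0

/-- the simplex of the interval which is `0` exactly on the vertices `< c` -/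
def thD (q c : ℕ) : D1.obj q := th q c

theorem thD_map {p q : ℕ} (f : Op p q) (c : ℕ) (x : Fin (p + 1)) :
    (D1.map f (thD q c)).toFun x = if (f x).1 < c then 0 else 1 := rfl

theorem fin2_cases (a : Fin 2) : a = 0 ∨ a = 1 := by
  revert a; decide

theorem exists_th {q : ℕ} (τ : Op q 1) : ∃ c, c ≤ q + 1 ∧ τ = th q c := by
  classical
  by_cases h : ∃ n, ∃ hn : n < q + 1, τ ⟨n, hn⟩ = 1
  · refine ⟨Nat.find h, ?_, ?_⟩
    · obtain ⟨hn, _⟩ := Nat.find_spec h
      omega
    · obtain ⟨hn, h1⟩ := Nat.find_spec h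
      apply OrderHom.ext
      funext x
      rw [th_val]
      split_ifs with hx
      · by_contra hc
        have h2 : τ x = 1 := (fin2_cases (τ x)).resolve_left hc
        exact Nat.find_min h hx ⟨x.2, h2⟩
      · have h2 : τ ⟨Nat.find h, hn⟩ ≤ τ x := τ.monotone (by
          rw [Fin.le_def]; exact not_lt.1 hx)
        rw [h1] at h2
        exact le_antisymm (Fin.le_last _) h2
  · refine ⟨q + 1, le_rfl, ?_⟩
    apply OrderHom.ext
    funext x
    rw [th_val, if_pos x.2]
    by_contra hc
    push Not at h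
    exact h x.1 x.2 ((fin2_cases (τ x)).resolve_left hc)

theorem exists_thD {q : ℕ} (τ : D1.obj q) : ∃ c, c ≤ q + 1 ∧ τ = thD q c := exists_th τ

theorem co_edg {q : ℕ} (c : ℕ) {S : Finset ℕ} (hS : S ⊆ range (q + 1)) :
    co edg (thD q c) S = eC c S := by
  by_cases h0 : S.card = 0
  · rw [card_eq_zero.1 h0, co_empty, eC_empty]
  · rw [co_of_ne h0]
    by_cases h2 : S.card = 2
    · have ha : enu S 0 ∈ S := enu_mem (by omega)
      have hb : enu S 1 ∈ S := enu_mem (by omega)
      have hab : enu S 0 < enu S 1 := enu_strictMono S Nat.zero_lt_one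
      have hSe : S = {enu S 0, enu S 1} := by
        refine (eq_of_subset_of_card_le ?_ ?_).symm
        · intro v hv
          rcases mem_insert.1 hv with rfl | hv
          · exact ha
          · rw [mem_singleton.1 hv]; exact hb
        · rw [h2, card_pair hab.ne]
      have ha' := mem_range.1 (hS ha)
      have hb' := mem_range.1 (hS hb)
      have e0 : (D1.map (cl (S.card - 1) q (enu S)) (thD q c)).toFun 0 =
          if enu S 0 < c then 0 else 1 := by
        rw [thD_map, cl_val (enu_strictMono S).monotone]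
        have : min (enu S (0 : Fin (S.card - 1 + 1)).1) q = enu S 0 := by
          show min (enu S 0) q = enu S 0
          omega
        rw [this]
      have e1 : (D1.map (cl (S.card - 1) q (enu S)) (thD q c)).toFun (Fin.last (S.card - 1)) =
          if enu S 1 < c then 0 else 1 := by
        rw [thD_map, cl_val (enu_strictMono S).monotone]
        have h3 : (Fin.last (S.card - 1)).1 = 1 := by
          show S.card - 1 = 1
          omega
        rw [h3]
        have : min (enu S 1) q = enu S 1 := by omega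
        rw [this]
      have hp : S.card - 1 = 1 := by omega
      have hL : edg (S.card - 1) (D1.map (cl (S.card - 1) q (enu S)) (thD q c)) =
          if enu S 0 < c ∧ ¬ enu S 1 < c then 1 else 0 := by
        unfold edg
        rw [e0, e1]
        by_cases h3 : enu S 0 < c
        · by_cases h4 : enu S 1 < c
          · rw [if_pos h3, if_pos h4, if_neg (by simp), if_neg (by tauto)]
          · rw [if_pos h3, if_neg h4, if_pos ⟨hp, rfl, rfl⟩, if_pos ⟨h3, h4⟩]
        · rw [if_neg h3, if_neg (by simp), if_neg (by tauto)]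
      have hR : eC c S = if enu S 0 < c ∧ ¬ enu S 1 < c then 1 else 0 := by
        generalize enu S 0 = a at *
        generalize enu S 1 = b at *
        rw [eC, hSe]
        by_cases h3 : a < c
        · by_cases h4 : b < c
          · have : ({a, b} : Finset ℕ).filter (c ≤ ·) = ∅ := by
              refine filter_false_of_mem fun v hv => ?_
              rcases mem_insert.1 hv with rfl | hv
              · omega
              · rw [mem_singleton.1 hv]; omega
            rw [this, card_empty, if_neg (by omega), if_neg (by tauto)]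
          · have e5 : ({a, b} : Finset ℕ).filter (c ≤ ·) = {b} := by
              ext v
              simp only [mem_filter, mem_insert, mem_singleton]
              constructor
              · rintro ⟨rfl | rfl, h⟩
                · omega
                · rfl
              · rintro rfl; exact ⟨Or.inr rfl, by omega⟩
            have e6 : ({a, b} : Finset ℕ).filter (· < c) = {a} := by
              ext v
              simp only [mem_filter, mem_insert, mem_singleton]
              constructor
              · rintro ⟨rfl | rfl, h⟩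
                · rfl
                · omega
              · rintro rfl; exact ⟨Or.inl rfl, by omega⟩
            rw [e5, e6, card_singleton, card_singleton, if_pos ⟨rfl, rfl⟩, if_pos ⟨h3, h4⟩]
        · have : ({a, b} : Finset ℕ).filter (· < c) = ∅ := by
            refine filter_false_of_mem fun v hv => ?_
            rcases mem_insert.1 hv with rfl | hv
            · omega
            · rw [mem_singleton.1 hv]; omega
          rw [this, card_empty, if_neg (by omega), if_neg (by tauto)]
      rw [hL, hR]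
    · have h3 : eC c S = 0 := by
        rw [eC, if_neg]
        rintro ⟨h4, h5⟩
        have := card_lt_add_card_le S c
        omega
      rw [h3, edg, if_neg]
      rintro ⟨h4, _⟩
      omega

/-- `edg` is a cocycle -/
theorem d_edg : Cc.d edg = 0 := by
  funext p τ
  obtain ⟨c, _, rfl⟩ := exists_thD τ
  rw [Cc.d_def, dd_congr (fun T hT => co_edg c hT), dd_eC_zero]
  rfl

/-- multiplication at the back with the fundamental cochain of the interval -/
def Cc.mE (τ : SS.Map W D1) (f : Cc W) : Cc W := Cc.cup 1 f (Cc.pull τ edg)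

/-- locally, `mE` is the back suspension -/
theorem co_mE {τ : SS.Map W D1} {f : Cc W} {p : ℕ} {σ : W.obj p} {c : ℕ}
    (hc : τ.app σ = thD p c) {S : Finset ℕ} (hS : S ⊆ range (p + 1)) :
    co (Cc.mE τ f) σ S = sE c (co f σ) S := by
  rw [Cc.mE, co_cup, ← cup_eC c (co f σ) (co_empty f σ)]
  refine cupJ_congr (fun _ _ => rfl) fun T hT => ?_
  rw [co_pull, hc]
  exact co_edg c (hT.trans hS)

theorem mE_apply {τ : SS.Map W D1} {f : Cc W} {p : ℕ} {σ : W.obj p} {c : ℕ}
    (hc : τ.app σ = thD p c) :
    Cc.mE τ f p σ = sE c (co f σ) (range (p + 1)) := by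
  rw [← co_mE hc (Subset.refl _), co_top]

/-- **The strict suspension identity.** -/
theorem cup_mE (τ : SS.Map W D1) (j : ℕ) (f g : Cc W) :
    Cc.cup (j + 1) (Cc.mE τ f) (Cc.mE τ g) = Cc.mE τ (Cc.cup j f g) := by
  funext p σ
  obtain ⟨c, _, hc⟩ := exists_thD (τ.app σ)
  rw [mE_apply hc, Cc.cup_def,
    cupJ_congr (fun T hT => co_mE hc hT) (fun T hT => co_mE hc hT), cupJ_sE]
  rw [sE, sE]
  split_ifs
  · rw [co_cup]
  · rfl

theorem mE_add (τ : SS.Map W D1) (f g : Cc W) :
    Cc.mE τ (f + g) = Cc.mE τ f + Cc.mE τ g := cup_add_left 1 f g _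

theorem mE_zero (τ : SS.Map W D1) : Cc.mE τ (0 : Cc W) = 0 := cup_zero_left 1 _

theorem d_mE (τ : SS.Map W D1) (f : Cc W) : Cc.d (Cc.mE τ f) = Cc.mE τ (Cc.d f) := by
  rw [Cc.mE, d_cup_one, ← pull_d, d_edg, pull_zero, cup_zero_right, add_zero]
  rfl

theorem cup_one_mE (τ : SS.Map W D1) (f g : Cc W) :
    Cc.cup 1 g (Cc.mE τ f) = Cc.mE τ (Cc.cup 1 g f) := (cup_assoc g f _).symm

theorem pull_mE (h : SS.Map X W) (τ : SS.Map W D1) (f : Cc W) :
    Cc.pull h (Cc.mE τ f) = Cc.mE (τ.comp h) (Cc.pull h f) := pull_cup _ _ _ _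

/-- the suspension vanishes where the interval coordinate is constant -/
theorem mE_apply_c0 {τ : SS.Map W D1} {f : Cc W} {p : ℕ} {σ : W.obj p}
    (hc : τ.app σ = c0 p) : Cc.mE τ f p σ = 0 := by
  rw [mE_apply hc, sE, if_neg]
  rw [filter_false_of_mem, card_empty]
  · omega
  · intro v hv
    have := mem_range.1 hv
    omega

theorem mE_apply_c1 {τ : SS.Map W D1} {f : Cc W} {p : ℕ} {σ : W.obj p}
    (hc : τ.app σ = c1 p) : Cc.mE τ f p σ = 0 := by
  rw [mE_apply hc, sE]
  split_ifs
  · have : (range (p + 1)).filter (· < 0) = ∅ :=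
      filter_false_of_mem fun v _ => Nat.not_lt_zero v
    rw [this, co_empty]
  · rfl

/-! ### several coordinates -/

/-- iterated multiplication at the back -/
def susL : List (SS.Map W D1) → Cc W → Cc W
  | [], f => f
  | τ :: L, f => Cc.mE τ (susL L f)

@[simp] theorem susL_nil (f : Cc W) : susL [] f = f := rfl

@[simp] theorem susL_cons (τ : SS.Map W D1) (L : List (SS.Map W D1)) (f : Cc W) :
    susL (τ :: L) f = Cc.mE τ (susL L f) := rfl

theorem susL_add (L : List (SS.Map W D1)) (f g : Cc W) :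
    susL L (f + g) = susL L f + susL L g := by
  induction L with
  | nil => rfl
  | cons τ L ih => rw [susL_cons, ih, mE_add, susL_cons, susL_cons]

theorem susL_zero (L : List (SS.Map W D1)) : susL L (0 : Cc W) = 0 := by
  induction L with
  | nil => rfl
  | cons τ L ih => rw [susL_cons, ih, mE_zero]

theorem d_susL (L : List (SS.Map W D1)) (f : Cc W) : Cc.d (susL L f) = susL L (Cc.d f) := by
  induction L with
  | nil => rfl
  | cons τ L ih => rw [susL_cons, d_mE, ih, susL_cons]

theorem cup_one_susL (L : List (SS.Map W D1)) (f g : Cc W) :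
    Cc.cup 1 g (susL L f) = susL L (Cc.cup 1 g f) := by
  induction L with
  | nil => rfl
  | cons τ L ih => rw [susL_cons, cup_one_mE, ih, susL_cons]

theorem susL_eq_cup (L : List (SS.Map W D1)) (f : Cc W) :
    susL L f = Cc.cup 1 f (susL L (Cc.one W)) := by
  rw [cup_one_susL, cup_one]

theorem pull_susL (h : SS.Map X W) (L : List (SS.Map W D1)) (f : Cc W) :
    Cc.pull h (susL L f) = susL (L.map (·.comp h)) (Cc.pull h f) := by
  induction L with
  | nil => rfl
  | cons τ L ih => rw [susL_cons, pull_mE, ih, List.map_cons, susL_cons]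

/-- **N-fold strict suspension** of the products `∪_i`, `i ≥ -1` -/
theorem cup_susL (L : List (SS.Map W D1)) (j : ℕ) (f g : Cc W) :
    Cc.cup (j + L.length) (susL L f) (susL L g) = susL L (Cc.cup j f g) := by
  induction L with
  | nil => rfl
  | cons τ L ih => rw [List.length_cons, ← add_assoc, susL_cons, susL_cons, cup_mE, ih, susL_cons]

theorem cup_susL_of_le (L : List (SS.Map W D1)) (j : ℕ) (hj : j ≤ L.length) (f g : Cc W) :
    Cc.cup j (susL L f) (susL L g) = 0 := by
  induction L generalizing j with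
  | nil =>
    obtain rfl : j = 0 := Nat.le_zero.1 hj
    exact cup_zero _ _
  | cons τ L ih =>
    cases j with
    | zero => exact cup_zero _ _
    | succ j => rw [susL_cons, susL_cons, cup_mE, ih j (Nat.le_of_succ_le_succ hj), mE_zero]

theorem Vn.mE {A : Sb W} {f : Cc W} (hf : Vn A f) (τ : SS.Map W D1) : Vn A (Cc.mE τ f) :=
  hf.cup_left 1 _

theorem Vn.susL {A : Sb W} {f : Cc W} (hf : Vn A f) (L : List (SS.Map W D1)) :
    Vn A (susL L f) := by
  induction L with
  | nil => exact hf
  | cons τ L ih => exact ih.mE τ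

/-- the simplices on which the coordinate `τ` is constant -/
def endsOf (τ : SS.Map W D1) : Sb W where
  mem {p} σ := τ.app σ = c0 p ∨ τ.app σ = c1 p
  map_mem f σ h := by
    rw [τ.nat]
    rcases h with h | h
    · exact Or.inl (by rw [h]; exact c0_comp f)
    · exact Or.inr (by rw [h]; exact c1_comp f)

theorem Vn_mE (τ : SS.Map W D1) (f : Cc W) : Vn (endsOf τ) (Cc.mE τ f) := by
  rintro p σ (h | h)
  · exact mE_apply_c0 h
  · exact mE_apply_c1 h

theorem Vn_susL {τ : SS.Map W D1} {L : List (SS.Map W D1)} (h : τ ∈ L) (f : Cc W) :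
    Vn (endsOf τ) (susL L f) := by
  induction L with
  | nil => exact absurd h (List.not_mem_nil)
  | cons τ' L ih =>
    rcases List.mem_cons.1 h with rfl | h
    · exact Vn_mE _ _
    · exact (ih h).mE τ'

/-! ### the cube `(Δ¹)ⁿ` -/

/-- the cube -/
def SN (n : ℕ) : SS where
  obj p := Fin n → Op p 1
  map f τ i := (τ i).comp f
  map_id _ := rfl
  map_comp _ _ _ := rfl

/-- the coordinates of the cube -/
def SN.coord {n : ℕ} (i : Fin n) : SS.Map (SN n) D1 := ⟨fun τ => τ i, fun _ _ => rfl⟩

/-- the boundary of the cube -/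
def SN.base (n : ℕ) : Sb (SN n) where
  mem {p} τ := ∃ i, τ i = c0 p ∨ τ i = c1 p
  map_mem := by
    rintro p q f τ ⟨i, h | h⟩
    · exact ⟨i, Or.inl (by show (τ i).comp f = _; rw [h, c0_comp])⟩
    · exact ⟨i, Or.inr (by show (τ i).comp f = _; rw [h, c1_comp])⟩

/-- the list of the coordinates -/
def SN.L (n : ℕ) : List (SS.Map (SN n) D1) := (List.finRange n).map SN.coord

theorem SN.length_L (n : ℕ) : (SN.L n).length = n := by
  rw [SN.L, List.length_map, List.length_finRange]

/-- the fundamental cochain of the cube -/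
def sC (n : ℕ) : Cc (SN n) := susL (SN.L n) (Cc.one _)

theorem d_sC (n : ℕ) : Cc.d (sC n) = 0 := by rw [sC, d_susL, d_one, susL_zero]

theorem Vn_sC (n : ℕ) : Vn (SN.base n) (sC n) := by
  rintro p τ ⟨i, h⟩
  exact Vn_susL (τ := SN.coord i) (List.mem_map_of_mem (List.mem_finRange i)) _ p τ h

/-- the suspension `u.s_n` on `X × (Δ¹)ⁿ` -/
def sn (n : ℕ) (u : Cc X) : Cc (X.prod (SN n)) :=
  Cc.cup 1 (Cc.pull (SS.fst X (SN n)) u) (Cc.pull (SS.snd X (SN n)) (sC n))

/-- the coordinates of the second factor -/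
def SN.L' (X : SS) (n : ℕ) : List (SS.Map (X.prod (SN n)) D1) :=
  (SN.L n).map (·.comp (SS.snd X (SN n)))

theorem SN.length_L' (X : SS) (n : ℕ) : (SN.L' X n).length = n := by
  rw [SN.L', List.length_map, SN.length_L]

theorem sn_eq (n : ℕ) (u : Cc X) : sn n u = susL (SN.L' X n) (Cc.pull (SS.fst X (SN n)) u) := by
  rw [sn, sC, pull_susL, pull_one, ← susL_eq_cup]
  rfl

theorem sn_add (n : ℕ) (u v : Cc X) : sn n (u + v) = sn n u + sn n v := by
  rw [sn, pull_add, cup_add_left]
  rfl

theorem sn_zero' (n : ℕ) : sn n (0 : Cc X) = 0 := by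
  rw [sn, pull_zero, cup_zero_left]

theorem d_sn (n : ℕ) (u : Cc X) : Cc.d (sn n u) = sn n (Cc.d u) := by
  rw [sn_eq, d_susL, ← pull_d, ← sn_eq]

theorem cup_one_sn (n : ℕ) (u v : Cc X) :
    Cc.cup 1 (Cc.pull (SS.fst X (SN n)) v) (sn n u) = sn n (Cc.cup 1 v u) := by
  rw [sn_eq, cup_one_susL, ← pull_cup, ← sn_eq]

/-- **(u.s_n) ∪_{i+n} (v.s_n) = (u ∪_i v).s_n** -/
theorem cup_sn (n j : ℕ) (u v : Cc X) :
    Cc.cup (j + n) (sn n u) (sn n v) = sn n (Cc.cup j u v) := by
  have h := cup_susL (SN.L' X n) j (Cc.pull (SS.fst X (SN n)) u) (Cc.pull (SS.fst X (SN n)) v)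
  rwa [SN.length_L', ← sn_eq, ← sn_eq, ← pull_cup, ← sn_eq] at h

theorem cup_sn_of_le (n j : ℕ) (hj : j ≤ n) (u v : Cc X) :
    Cc.cup j (sn n u) (sn n v) = 0 := by
  rw [sn_eq, sn_eq, cup_susL_of_le _ _ (by rwa [SN.length_L'])]

theorem Vn_sn (n : ℕ) (u : Cc X) : Vn ((SN.base n).comap (SS.snd X (SN n))) (sn n u) :=
  ((Vn_sC n).pull _).cup_right 1 _

/-- naturality of the suspension -/
theorem pull_sn (n : ℕ) (f : SS.Map X Y) (u : Cc Y) :
    Cc.pull (SS.pair (f.comp (SS.fst X (SN n))) (SS.snd X (SN n))) (sn n u) =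
      sn n (Cc.pull f u) := pull_cup _ _ _ _

/-! ### the squares of the fundamental cochain -/

theorem cup_one_one : Cc.cup 1 (Cc.one X) (Cc.one X) = Cc.one X := cup_one _

theorem cup_one_one_succ (j : ℕ) : Cc.cup (j + 2) (Cc.one X) (Cc.one X) = 0 := by
  funext p σ
  rw [Cc.cup_def, co_one]
  refine sum_eq_zero fun J hJ => ?_
  obtain ⟨h1, h2⟩ := mem_powersetCard.1 hJ
  rw [H83.one, if_neg, zero_mul]
  have := card_le_card (subset_fA h1)
  omega

theorem cup_sC_of_le (n j : ℕ) (hj : j ≤ n) : Cc.cup j (sC n) (sC n) = 0 :=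
  cup_susL_of_le _ _ (by rwa [SN.length_L]) _ _

theorem cup_sC_top (n : ℕ) : Cc.cup (n + 1) (sC n) (sC n) = sC n := by
  have h := cup_susL (SN.L n) 1 (Cc.one _) (Cc.one _)
  rwa [SN.length_L, cup_one_one, add_comm 1 n] at h

theorem cup_sC_of_gt (n j : ℕ) (hj : n + 1 < j) : Cc.cup j (sC n) (sC n) = 0 := by
  obtain ⟨k, rfl⟩ : ∃ k, j = k + 2 + n := ⟨j - (n + 2), by omega⟩
  have h := cup_susL (SN.L n) (k + 2) (Cc.one _) (Cc.one _)
  rw [SN.length_L, cup_one_one_succ, susL_zero] at h
  exact h

end Vale.Agent.P263.TJ
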