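import Vale.Agent.P263.TJ.SN
import Vale.Agent.P263.E.Cofree

/-!
# P263, block EB: the relative suspension isomorphism in mixed degree

`Dst w` : integration over the interval, `Cc (X × Δ¹) → Cc X` (degree `-1`);
`Dst_d` : `Dst (d w) = d (Dst w) + w|₁ + w|₀`, `Dst_mE : Dst (u.s) = u`,
`Dst_exact` : a relative cocycle `w` with `Dst w = d a` is `d` of a relative cochain.
`DstN n` : the same on `X × (Δ¹)ⁿ`.
-/

open Finset

namespace Vale.Agent.P263.TJ

open Vale.Agent.P263.S Vale.Agent.P263.E Vale.Agent.P263.H83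

variable {X Y W : SS}

/-! ### prisms on mixed-degree cochains -/

/-- the chain homotopy of a simplicial homotopy, in mixed degree -/
def htp (K : SS.Htp Y X) (w : Cc X) : Cc Y := fun p y =>
  ∑ i ∈ range (p + 1), w (p + 1) (K.h (p + 1) (th (p + 1) (i + 1)) (Y.map (sg p i) y))

theorem htp_add (K : SS.Htp Y X) (w w' : Cc X) : htp K (w + w') = htp K w + htp K w' := by
  funext p y
  exact sum_add_distrib

theorem htp_zero (K : SS.Htp Y X) : htp K (0 : Cc X) = 0 := by
  funext p y
  exact sum_const_zero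

theorem ccd_zero (u : Cc X) : Cc.d u 0 = 0 := by
  funext σ
  exact d_zero_apply u σ

theorem ssn_apply {p : ℕ} (i : ℕ) (a : Y.obj p → ZMod 2) (y : Y.obj p) : (S.sn i a) y = a y := by
  rw [S.sn]
  rcases Nat.even_or_odd i with h | h
  · rw [h.neg_one_pow, one_smul]
  · rw [h.neg_one_pow, neg_smul, one_smul]
    exact CharTwo.neg_eq _

theorem htp_eq (K : SS.Htp Y X) (w : Cc X) (p : ℕ) :
    htp K w p = (K.prism (ZMod 2)).k p (w (p + 1)) := by
  funext y
  refine Eq.trans ?_ (congrFun ((K.prism (ZMod 2)).k_apply p (w (p + 1))) y).symm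
  have key (g : ℕ → (Y.obj p → ZMod 2)) :
      ∑ i ∈ range (p + 1), g i y = (∑ i ∈ range (p + 1), g i) y := (Finset.sum_apply _ _ _).symm
  refine Eq.trans ?_ (key fun i => S.sn i fun y' =>
    w (p + 1) (K.h (p + 1) (th (p + 1) (i + 1)) (Y.map (sg p i) y')))
  refine sum_congr rfl fun i _ => ?_
  exact (ssn_apply i (fun y' =>
    w (p + 1) (K.h (p + 1) (th (p + 1) (i + 1)) (Y.map (sg p i) y'))) y).symm

/-- **the prism lemma** in mixed degree -/
theorem htp_d (K : SS.Htp Y X) (w : Cc X) :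
    htp K (Cc.d w) = Cc.d (htp K w) + Cc.pull K.e1 w + Cc.pull K.e0 w := by
  funext p y
  show htp K (Cc.d w) p y = Cc.d (htp K w) p y + w p (K.h p (c1 p) y) + w p (K.h p (c0 p) y)
  rw [htp_eq, d_eq_F]
  cases p with
  | zero =>
    rw [ccd_zero]
    have h : (K.prism (ZMod 2)).k 0 ((SS.F (ZMod 2) X).d 0 (w 0)) y =
        w 0 (K.h 0 (c1 0) y) - w 0 (K.h 0 (c0 0) y) :=
      congrFun ((K.prism (ZMod 2)).k_d_zero (w 0)) y
    rw [h, CharTwo.sub_eq_add]
    show _ = (0 : ZMod 2) + _ + _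
    rw [zero_add]
  | succ p =>
    have h : (K.prism (ZMod 2)).k (p + 1) ((SS.F (ZMod 2) X).d (p + 1) (w (p + 1))) y +
        (SS.F (ZMod 2) Y).d p ((K.prism (ZMod 2)).k p (w (p + 1))) y =
        w (p + 1) (K.h (p + 1) (c1 (p + 1)) y) - w (p + 1) (K.h (p + 1) (c0 (p + 1)) y) :=
      congrFun ((K.prism (ZMod 2)).k_d_add_d_k p (w (p + 1))) y
    have h2 : Cc.d (htp K w) (p + 1) y =
        (SS.F (ZMod 2) Y).d p ((K.prism (ZMod 2)).k p (w (p + 1))) y := by
      rw [d_eq_F, htp_eq]
    rw [h2]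
    rw [CharTwo.sub_eq_add] at h
    have h3 := CharTwo.add_self_eq_zero
      ((SS.F (ZMod 2) Y).d p ((K.prism (ZMod 2)).k p (w (p + 1))) y : ZMod 2)
    have h4 : ∀ a b c d : ZMod 2, a + b = c + d → b + b = 0 → a = b + c + d := by decide
    exact h4 _ _ _ _ h h3

/-! ### integration over the interval -/

/-- a simplex of `X × Δ¹` -/
def pp {p : ℕ} (x : X.obj p) (τ : D1.obj p) : (X.prod D1).obj p := (x, τ)

/-- the tautological homotopy `X × Δ¹ → X × Δ¹` -/
def evD (X : SS) : SS.Htp X (X.prod D1) := ⟨fun _ χ x => pp x χ, fun _ _ _ => rfl⟩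

/-- integration over the interval -/
def Dst (w : Cc (X.prod D1)) : Cc X := htp (evD X) w

theorem Dst_apply (w : Cc (X.prod D1)) {p : ℕ} (x : X.obj p) :
    Dst w p x = ∑ i ∈ range (p + 1), w (p + 1) (pp (X.map (sg p i) x) (thD (p + 1) (i + 1))) := rfl

theorem Dst_add (w w' : Cc (X.prod D1)) : Dst (w + w') = Dst w + Dst w' := htp_add _ _ _

theorem Dst_zero : Dst (0 : Cc (X.prod D1)) = 0 := htp_zero _

/-- restriction to the end `0` -/
def endP0 (X : SS) : SS.Map X (X.prod D1) := ⟨fun {p} x => (x, c0 p), fun f x => by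
  show (_, _) = (X.map f x, (c0 _).comp f)
  rw [c0_comp]⟩

/-- restriction to the end `1` -/
def endP1 (X : SS) : SS.Map X (X.prod D1) := ⟨fun {p} x => (x, c1 p), fun f x => by
  show (_, _) = (X.map f x, (c1 _).comp f)
  rw [c1_comp]⟩

theorem Dst_d (w : Cc (X.prod D1)) :
    Dst (Cc.d w) = Cc.d (Dst w) + Cc.pull (endP1 X) w + Cc.pull (endP0 X) w := htp_d _ _

theorem Dst_d_rel {w : Cc (X.prod D1)} (hw : Vn (endsOf (SS.snd X D1)) w) :
    Dst (Cc.d w) = Cc.d (Dst w) := by
  rw [Dst_d]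
  have h1 : Cc.pull (endP1 X) w = 0 := by
    funext p x
    exact hw p _ (Or.inr rfl)
  have h0 : Cc.pull (endP0 X) w = 0 := by
    funext p x
    exact hw p _ (Or.inl rfl)
  rw [h1, h0, add_zero, add_zero]

/-- naturality -/
theorem Dst_pull (f : SS.Map X Y) (w : Cc (Y.prod D1)) :
    Dst (Cc.pull (SS.pair (f.comp (SS.fst X D1)) (SS.snd X D1)) w) = Cc.pull f (Dst w) := by
  funext p x
  rw [Dst_apply, pull_apply, Dst_apply]
  refine sum_congr rfl fun i _ => ?_
  show w (p + 1) (pp (f.app (X.map (sg p i) x)) _) = w (p + 1) (pp (Y.map (sg p i) (f.app x)) _)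
  rw [f.nat]
  rfl

/-- **integration of a suspension** -/
theorem Dst_mE (u : Cc X) : Dst (Cc.mE (SS.snd X D1) (Cc.pull (SS.fst X D1) u)) = u := by
  funext p x
  rw [Dst_apply]
  have h : ∀ i ∈ range (p + 1), Cc.mE (SS.snd X D1) (Cc.pull (SS.fst X D1) u) (p + 1)
      (pp (X.map (sg p i) x) (thD (p + 1) (i + 1))) = if i = p then u p x else 0 := by
    intro i hi
    have hi' := mem_range.1 hi
    rw [mE_apply (W := X.prod D1) (τ := SS.snd X D1)
      (σ := pp (X.map (sg p i) x) (thD (p + 1) (i + 1))) (c := i + 1) rfl, sE]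
    have hcard : ((range (p + 1 + 1)).filter (i + 1 ≤ ·)).card = p + 1 - i := by
      have h1 := card_lt_add_card_le (range (p + 1 + 1)) (i + 1)
      have h2 : (range (p + 1 + 1)).filter (· < i + 1) = range (i + 1) := by
        ext v
        simp only [mem_filter, mem_range]
        omega
      rw [h2, card_range, card_range] at h1
      omega
    rw [hcard]
    by_cases hip : i = p
    · subst hip
      rw [if_pos (by omega), if_pos rfl]
      have h2 : (range (i + 1 + 1)).filter (· < i + 1) = range (i + 1) := by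
        ext v
        simp only [mem_filter, mem_range]
        omega
      rw [h2, co_pull]
      show co u (X.map (sg i i) x) (range (i + 1)) = _
      rw [co_of_ne (by rw [card_range]; omega), ← X.map_comp]
      have h3 : u i x = u i (X.map (cl i i id) x) := by
        rw [cl_id monotone_id fun _ _ => rfl, X.map_id]
      rw [h3]
      have h4 : (sg i i).comp (cl ((range (i + 1)).card - 1) (i + 1) (enu (range (i + 1)))) =
          cl ((range (i + 1)).card - 1) i (enu (range (i + 1))) := by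
        apply OrderHom.ext
        funext y
        apply Fin.ext
        have hy : y.1 < (range (i + 1)).card - 1 + 1 := y.2
        have hc : (range (i + 1)).card = i + 1 := card_range _
        show (sg i i (cl _ _ _ y)).1 = _
        rw [sg_val, cl_val (enu_strictMono _).monotone, cl_val (enu_strictMono _).monotone,
          enu_range (by omega)]
        split_ifs <;> omega
      rw [h4]
      refine ev_congr u x (by rw [card_range]; rfl) (enu_strictMono _).monotone monotone_id ?_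
      intro y hy
      rw [card_range] at hy
      rw [enu_range (by omega)]
      rfl
    · rw [if_neg (by omega), if_neg hip]
  rw [sum_congr rfl h, sum_ite_eq' (range (p + 1)) p, if_pos (mem_range.2 (Nat.lt_succ_self p))]

/-! ### the contraction of the interval -/

theorem inf_comp {p q : ℕ} (τ χ : Op q 1) (f : Op p q) :
    (τ ⊓ χ).comp f = τ.comp f ⊓ χ.comp f := rfl

theorem inf_c0 {p : ℕ} (τ : Op p 1) : τ ⊓ c0 p = c0 p := by
  apply OrderHom.ext
  funext x
  show τ x ⊓ c0 p x = c0 p x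
  rw [c0_val]
  exact inf_eq_right.2 (Fin.zero_le _)

theorem inf_c1 {p : ℕ} (τ : Op p 1) : τ ⊓ c1 p = τ := by
  apply OrderHom.ext
  funext x
  show τ x ⊓ c1 p x = τ x
  rw [c1_val]
  exact inf_eq_left.2 (Fin.le_last _)

theorem c0_inf {p : ℕ} (τ : Op p 1) : c0 p ⊓ τ = c0 p := by rw [inf_comm, inf_c0]

theorem c1_inf {p : ℕ} (τ : Op p 1) : c1 p ⊓ τ = τ := by rw [inf_comm, inf_c1]

/-- the minimum of two simplices of the interval -/
def mnO {p : ℕ} (τ χ : Op p 1) : Op p 1 := τ ⊓ χ

/-- the minimum of two simplices of the interval -/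
def mn {p : ℕ} (τ χ : D1.obj p) : D1.obj p := mnO τ χ

theorem mn_thD_zero {p : ℕ} (τ : D1.obj p) : mn τ (thD p 0) = τ := inf_c1 τ

theorem mn_thD_top {p : ℕ} (τ : D1.obj p) : mn τ (thD p (p + 1)) = thD p (p + 1) := inf_c0 τ

theorem thD_zero_mn {p : ℕ} (τ : D1.obj p) : mn (thD p 0) τ = τ := c1_inf τ

theorem thD_top_mn {p : ℕ} (τ : D1.obj p) : mn (thD p (p + 1)) τ = thD p (p + 1) := c0_inf τ

/-- the contraction of the interval to its vertex `0` -/
def ctH (X : SS) : SS.Htp (X.prod D1) (X.prod D1) :=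
  ⟨fun _ χ x => pp x.1 (mn x.2 χ), fun _ _ _ => rfl⟩

theorem ctH_apply (w : Cc (X.prod D1)) {p : ℕ} (x : X.obj p) (τ : D1.obj p) :
    htp (ctH X) w p (pp x τ) = ∑ i ∈ range (p + 1), w (p + 1) (pp (X.map (sg p i) x)
      (mn (D1.map (sg p i) τ) (thD (p + 1) (i + 1)))) := rfl

/-- **Exactness**: a cocycle which vanishes on the ends and on `A × Δ¹` and whose integral is the
coboundary of a cochain which vanishes on `A` is the coboundary of such a cochain. -/
theorem Dst_exact {A : Sb X} {w : Cc (X.prod D1)} {a : Cc X}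
    (hw : Vn (endsOf (SS.snd X D1)) w) (hwA : Vn (A.comap (SS.fst X D1)) w) (hA : Vn A a)
    (hd : Cc.d w = 0) (ha : Dst w = Cc.d a) :
    ∃ w' : Cc (X.prod D1), Vn (endsOf (SS.snd X D1)) w' ∧ Vn (A.comap (SS.fst X D1)) w' ∧
      Cc.d w' = w := by
  set b := Cc.mE (SS.snd X D1) (Cc.pull (SS.fst X D1) a) with hb
  have hbE : Vn (endsOf (SS.snd X D1)) b := Vn_mE _ _
  have hbA : Vn (A.comap (SS.fst X D1)) b := (hA.pull _).mE _
  set v := w + Cc.d b with hv
  have hvE : Vn (endsOf (SS.snd X D1)) v := hw.add hbE.d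
  have hvA : Vn (A.comap (SS.fst X D1)) v := hwA.add hbA.d
  have hvd : Cc.d v = 0 := by rw [hv, d_add, hd, d_d, add_zero]
  have hvD : Dst v = 0 := by
    rw [hv, Dst_add, Dst_d_rel hbE, hb, Dst_mE, ha]
    funext p x
    exact CharTwo.add_self_eq_zero _
  have hG := htp_d (ctH X) v
  have h0 : Cc.pull (ctH X).e0 v = 0 := by
    funext p x
    show v p (pp x.1 (mn x.2 (thD p (p + 1)))) = 0
    rw [mn_thD_top]
    exact hvE p _ (Or.inl rfl)
  have h1 : Cc.pull (ctH X).e1 v = v := by
    funext p x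
    show v p (pp x.1 (mn x.2 (thD p 0))) = v p x
    rw [mn_thD_zero]
    rfl
  rw [hvd, htp_zero, h0, h1, add_zero] at hG
  have hveq : Cc.d (htp (ctH X) v) = v := by
    funext p x
    have h3 : (0 : ZMod 2) = Cc.d (htp (ctH X) v) p x + v p x := congrFun (congrFun hG p) x
    have h4 : ∀ a b : ZMod 2, 0 = a + b → a = b := by decide
    exact h4 _ _ h3
  refine ⟨htp (ctH X) v + b, ?_, ?_, ?_⟩
  · refine Vn.add ?_ hbE
    rintro p ⟨x, τ⟩ (h | h)
    · have h' : τ = thD p (p + 1) := h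
      subst h'
      refine (ctH_apply v x (thD p (p + 1))).trans (sum_eq_zero fun i _ => ?_)
      have h6 : D1.map (sg p i) (thD p (p + 1)) = thD (p + 1) (p + 1 + 1) := c0_comp (sg p i)
      rw [h6, thD_top_mn]
      exact hvE _ _ (Or.inl rfl)
    · have h' : τ = thD p 0 := h
      subst h'
      refine (ctH_apply v x (thD p 0)).trans ?_
      have h5 : ∀ i ∈ range (p + 1), v (p + 1) (pp (X.map (sg p i) x)
          (mn (D1.map (sg p i) (thD p 0)) (thD (p + 1) (i + 1)))) =
          v (p + 1) (pp (X.map (sg p i) x) (thD (p + 1) (i + 1))) := by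
        intro i _
        have h6 : D1.map (sg p i) (thD p 0) = thD (p + 1) 0 := c1_comp (sg p i)
        rw [h6, thD_zero_mn]
      rw [sum_congr rfl h5]
      exact congrFun (congrFun hvD p) x
  · refine Vn.add ?_ hbA
    rintro p ⟨x, τ⟩ h
    refine (ctH_apply v x τ).trans (sum_eq_zero fun i _ => hvA _ _ ?_)
    exact A.map_mem (sg p i) h
  · rw [d_add, hveq, hv]
    funext p x
    show w p x + Cc.d b p x + Cc.d b p x = w p x
    rw [add_assoc, CharTwo.add_self_eq_zero, add_zero]

theorem Vn_Dst {A : Sb X} {w : Cc (X.prod D1)} (hwA : Vn (A.comap (SS.fst X D1)) w) :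
    Vn A (Dst w) := by
  intro p x h
  rw [Dst_apply]
  exact sum_eq_zero fun i _ => hwA _ _ (A.map_mem (sg p i) h)

/-! ### several coordinates -/

/-- `(X × (Δ¹)ⁿ) × Δ¹ → X × (Δ¹)ⁿ⁺¹`, the new coordinate is the coordinate `0` -/
def consM (X : SS) (n : ℕ) : SS.Map ((X.prod (SN n)).prod D1) (X.prod (SN (n + 1))) where
  app {p} x := (x.1.1, (Fin.cons x.2 x.1.2 : Fin (n + 1) → Op p 1))
  nat f x := by
    refine Prod.ext rfl ?_
    funext i
    refine Fin.cases ?_ (fun j => ?_) i
    · rfl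
    · rfl

/-- the inverse -/
def unconsM (X : SS) (n : ℕ) : SS.Map (X.prod (SN (n + 1))) ((X.prod (SN n)).prod D1) where
  app x := ((x.1, fun i => x.2 i.succ), x.2 0)
  nat _ _ := rfl

theorem consM_uncons (X : SS) (n : ℕ) : (consM X n).comp (unconsM X n) = SS.Map.id _ := by
  apply SS.Map.ext
  rintro p ⟨x, τ⟩
  refine Prod.ext rfl ?_
  funext i
  refine Fin.cases ?_ (fun j => ?_) i
  · rfl
  · rfl

/-- `X → X × (Δ¹)⁰` -/
def nilM (X : SS) : SS.Map X (X.prod (SN 0)) where
  app x := (x, fun i => i.elim0)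
  nat _ _ := by
    refine Prod.ext rfl ?_
    funext i
    exact i.elim0

theorem nilM_fst (X : SS) : (nilM X).comp (SS.fst X (SN 0)) = SS.Map.id _ := by
  apply SS.Map.ext
  rintro p ⟨x, τ⟩
  refine Prod.ext rfl ?_
  funext i
  exact i.elim0

/-- integration over the cube -/
def DstN : (n : ℕ) → Cc (X.prod (SN n)) → Cc X
  | 0, w => Cc.pull (nilM X) w
  | n + 1, w => DstN n (Dst (Cc.pull (consM X n) w))

/-- the boundary of the cube, times `X` -/
abbrev bdX (X : SS) (n : ℕ) : Sb (X.prod (SN n)) := (SN.base n).comap (SS.snd X (SN n))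

theorem DstN_add (n : ℕ) (w w' : Cc (X.prod (SN n))) :
    DstN n (w + w') = DstN n w + DstN n w' := by
  induction n with
  | zero => rfl
  | succ n ih => rw [DstN, pull_add, Dst_add, ih]; rfl

theorem DstN_zero (n : ℕ) : DstN n (0 : Cc (X.prod (SN n))) = 0 := by
  induction n with
  | zero => rfl
  | succ n ih => rw [DstN, pull_zero, Dst_zero, ih]

theorem Vn_cons_ends {n : ℕ} {w : Cc (X.prod (SN (n + 1)))} (hw : Vn (bdX X (n + 1)) w) :
    Vn (endsOf (SS.snd (X.prod (SN n)) D1)) (Cc.pull (consM X n) w) := fun p _ h =>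
  hw p _ ⟨0, h⟩

theorem Vn_cons_bd {n : ℕ} {w : Cc (X.prod (SN (n + 1)))} (hw : Vn (bdX X (n + 1)) w) :
    Vn ((bdX X n).comap (SS.fst (X.prod (SN n)) D1)) (Cc.pull (consM X n) w) := by
  rintro p x ⟨i, h⟩
  exact hw p _ ⟨i.succ, h⟩

/-- integration commutes with the coboundary on relative cochains -/
theorem DstN_d {n : ℕ} {w : Cc (X.prod (SN n))} (hw : Vn (bdX X n) w) :
    DstN n (Cc.d w) = Cc.d (DstN n w) := by
  induction n with
  | zero => exact pull_d _ _
  | succ n ih =>
    rw [DstN, pull_d, Dst_d_rel (Vn_cons_ends hw), ih (Vn_Dst (Vn_cons_bd hw))]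
    rfl

theorem SN.L_succ (n : ℕ) : SN.L (n + 1) = SN.coord 0 :: (List.finRange n).map
    (fun i => SN.coord i.succ) := by
  rw [SN.L, List.finRange_succ, List.map_cons, List.map_map]
  rfl

theorem pull_cons_sn (n : ℕ) (u : Cc X) :
    Cc.pull (consM X n) (sn (n + 1) u) =
      Cc.mE (SS.snd _ D1) (Cc.pull (SS.fst _ D1) (sn n u)) := by
  rw [sn_eq, sn_eq, SN.L', SN.L_succ, List.map_cons, susL_cons, pull_mE, pull_susL, pull_susL]
  rw [SN.L', SN.L, List.map_map, List.map_map, List.map_map, List.map_map]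
  rfl

/-- **integration of a suspension** -/
theorem DstN_sn (n : ℕ) (u : Cc X) : DstN n (sn n u) = u := by
  induction n with
  | zero =>
    rw [DstN, sn_eq]
    rfl
  | succ n ih => rw [DstN, pull_cons_sn, Dst_mE, ih]

/-- naturality -/
theorem DstN_pull (n : ℕ) (f : SS.Map X Y) (w : Cc (Y.prod (SN n))) :
    DstN n (Cc.pull (SS.pair (f.comp (SS.fst X (SN n))) (SS.snd X (SN n))) w) =
      Cc.pull f (DstN n w) := by
  induction n with
  | zero => rfl
  | succ n ih =>
    rw [DstN, DstN, ← ih, ← Dst_pull]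
    rfl

/-- **Exactness**: a relative cocycle whose integral is a coboundary is the coboundary of a
relative cochain. -/
theorem DstN_exact (n : ℕ) {w : Cc (X.prod (SN n))} {a : Cc X} (hw : Vn (bdX X n) w)
    (hd : Cc.d w = 0) (ha : DstN n w = Cc.d a) :
    ∃ w' : Cc (X.prod (SN n)), Vn (bdX X n) w' ∧ Cc.d w' = w := by
  induction n generalizing a with
  | zero =>
    refine ⟨Cc.pull (SS.fst X (SN 0)) a, ?_, ?_⟩
    · rintro p x ⟨i, _⟩
      exact i.elim0
    · rw [← pull_d, ← ha]
      show Cc.pull ((nilM X).comp (SS.fst X (SN 0))) w = w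
      rw [nilM_fst]
      rfl
  | succ n ih =>
    have h1 := Vn_cons_ends hw
    have h2 := Vn_cons_bd hw
    have hd' : Cc.d (Cc.pull (consM X n) w) = 0 := by rw [← pull_d, hd, pull_zero]
    obtain ⟨a', ha1, ha2⟩ := ih (w := Dst (Cc.pull (consM X n) w)) (Vn_Dst h2)
      (by rw [← Dst_d_rel h1, hd', Dst_zero]) ha
    obtain ⟨w', hE, hB, hw'⟩ := Dst_exact h1 h2 ha1 hd' ha2.symm
    refine ⟨Cc.pull (unconsM X n) w', ?_, ?_⟩
    · rintro p ⟨x, τ⟩ ⟨i, h⟩
      revert h
      refine Fin.cases (fun h => ?_) (fun j h => ?_) i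
      · exact hE p _ h
      · exact hB p _ ⟨j, h⟩
    · rw [← pull_d, hw']
      show Cc.pull ((consM X n).comp (unconsM X n)) w = w
      rw [consM_uncons]
      rfl

/-- a relative cocycle is cohomologous, relatively, to the suspension of its integral -/
theorem DstN_retract (n : ℕ) {w : Cc (X.prod (SN n))} (hw : Vn (bdX X n) w)
    (hd : Cc.d w = 0) :
    ∃ w' : Cc (X.prod (SN n)), Vn (bdX X n) w' ∧ w = sn n (DstN n w) + Cc.d w' := by
  have hc : Cc.d (DstN n w) = 0 := by rw [← DstN_d hw, hd, DstN_zero]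
  obtain ⟨w', h1, h2⟩ := DstN_exact n (w := w + sn n (DstN n w)) (a := 0) (hw.add (Vn_sn n _))
    (by rw [d_add, hd, d_sn, hc, sn_zero', add_zero])
    (by
      rw [DstN_add, DstN_sn, d_zero]
      funext p x
      exact CharTwo.add_self_eq_zero _)
  refine ⟨w', h1, ?_⟩
  rw [h2]
  funext p x
  show w p x = sn n (DstN n w) p x + (w p x + sn n (DstN n w) p x)
  have := CharTwo.add_self_eq_zero (sn n (DstN n w) p x)
  linear_combination -this

theorem Dst_degree {w : Cc (X.prod D1)} {p : ℕ} (h : w (p + 1) = 0) : Dst w p = 0 := by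
  funext x
  rw [Dst_apply]
  exact sum_eq_zero fun i _ => congrFun h _

theorem DstN_degree (n : ℕ) {w : Cc (X.prod (SN n))} {p : ℕ} (h : w (p + n) = 0) :
    DstN n w p = 0 := by
  induction n generalizing p with
  | zero =>
    funext x
    exact congrFun h _
  | succ n ih =>
    refine ih (Dst_degree ?_)
    funext x
    have h' : w (p + n + 1) = 0 := h
    exact congrFun h' _

/-- there are no relative classes below the dimension of the cube -/
theorem rel_low (n : ℕ) {w : Cc (X.prod (SN n))} (hw : Vn (bdX X n) w)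
    (hd : Cc.d w = 0) (hl : ∀ p, n ≤ p → w p = 0) :
    ∃ w' : Cc (X.prod (SN n)), Vn (bdX X n) w' ∧ Cc.d w' = w := by
  refine DstN_exact n (a := 0) hw hd ?_
  rw [d_zero]
  funext p
  exact DstN_degree n (hl _ (Nat.le_add_left _ _))

/-! ### homogeneous components -/

/-- the homogeneous component of degree `m` -/
def Cc.hom (m : ℕ) (u : Cc X) : Cc X := fun p => if p = m then u p else 0

theorem hom_self (m : ℕ) (u : Cc X) : Cc.hom m u m = u m := if_pos rfl

theorem hom_of_ne {m p : ℕ} (h : p ≠ m) (u : Cc X) : Cc.hom m u p = 0 := if_neg h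

theorem Vn.hom {A : Sb X} {u : Cc X} (hu : Vn A u) (m : ℕ) : Vn A (Cc.hom m u) := fun p x h => by
  rw [Cc.hom]
  split_ifs
  · exact hu p x h
  · rfl

theorem d_hom (m : ℕ) (u : Cc X) : Cc.d (Cc.hom m u) = Cc.hom (m + 1) (Cc.d u) := by
  funext p σ
  cases p with
  | zero =>
    rw [ccd_zero, hom_of_ne (by omega)]
  | succ p =>
    rw [d_succ_apply]
    by_cases h : p = m
    · subst h
      rw [hom_self, hom_self, d_succ_apply]
    · rw [hom_of_ne h]
      refine (sum_eq_zero fun _ _ => rfl).trans ?_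
      rw [hom_of_ne (by omega)]
      rfl

/-- a homogeneous coboundary is the coboundary of a homogeneous cochain -/
theorem exists_hom_of_d {A : Sb X} {u v : Cc X} {m : ℕ} (hv : Vn A v) (h : Cc.d v = u)
    (hu : ∀ p, p ≠ m + 1 → u p = 0) :
    ∃ v', Vn A v' ∧ (∀ p, p ≠ m → v' p = 0) ∧ Cc.d v' = u := by
  refine ⟨Cc.hom m v, hv.hom m, fun p hp => hom_of_ne hp v, ?_⟩
  rw [d_hom, h]
  funext p
  by_cases hp : p = m + 1
  · subst hp
    rw [hom_self]
  · rw [hom_of_ne hp, hu p hp]

end Vale.Agent.P263.TJ
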