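import Mathlib.Data.Finset.Sort
import Vale.Agent.P263.E.Simp
import Vale.Agent.P263.H83.CupI

/-!
# P263, block EB: cup-i products of mixed-degree cochains on simplicial sets

`Cc X` : mixed-degree `F_2`-cochains on a hand-rolled simplicial set `X`.
`co u σ : Co` : the cochain of the simplex `σ` (function on the finite vertex sets) given by `u`.
`Cc.d`, `Cc.cup j` (`= ∪_{j-1}`), the coboundary formula, naturality.
-/

open Finset

namespace Vale.Agent.P263.TJ

open Vale.Agent.P263.S Vale.Agent.P263.E Vale.Agent.P263.H83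

/-! ### enumeration of finite sets of natural numbers -/

/-- the increasing enumeration of `S`, continued beyond `S` -/
def enu (S : Finset ℕ) (x : ℕ) : ℕ :=
  if h : x < S.card then S.orderEmbOfFin rfl ⟨x, h⟩ else x + (S.sup id + 1)

theorem enu_of_lt {S : Finset ℕ} {x : ℕ} (h : x < S.card) :
    enu S x = S.orderEmbOfFin rfl ⟨x, h⟩ := dif_pos h

theorem enu_mem {S : Finset ℕ} {x : ℕ} (h : x < S.card) : enu S x ∈ S := by
  rw [enu_of_lt h]
  exact S.orderEmbOfFin_mem rfl _

theorem enu_strictMono (S : Finset ℕ) : StrictMono (enu S) := by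
  intro x y hxy
  by_cases hy : y < S.card
  · rw [enu_of_lt hy, enu_of_lt (hxy.trans hy)]
    exact (S.orderEmbOfFin rfl).strictMono hxy
  · by_cases hx : x < S.card
    · have h1 : enu S x ≤ S.sup id := le_sup (f := id) (enu_mem hx)
      have h2 : enu S y = y + (S.sup id + 1) := dif_neg hy
      omega
    · have h1 : enu S x = x + (S.sup id + 1) := dif_neg hx
      have h2 : enu S y = y + (S.sup id + 1) := dif_neg hy
      omega

theorem enu_unique {S : Finset ℕ} {f : ℕ → ℕ} (hf : ∀ x y, x < y → y < S.card → f x < f y)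
    (hS : ∀ x < S.card, f x ∈ S) {x : ℕ} (hx : x < S.card) : f x = enu S x := by
  have h := orderEmbOfFin_unique (s := S) (k := S.card) rfl (f := fun i : Fin S.card => f i)
    (fun i => hS i i.2) (fun i j hij => hf i j hij j.2)
  rw [enu_of_lt hx, ← h]

theorem image_enu (S : Finset ℕ) : (range S.card).image (enu S) = S := by
  refine eq_of_subset_of_card_le (fun y hy => ?_) ?_
  · obtain ⟨x, hx, rfl⟩ := mem_image.1 hy
    exact enu_mem (mem_range.1 hx)
  · rw [card_image_of_injective _ (enu_strictMono S).injective, card_range]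

theorem enu_range {n x : ℕ} (h : x < n) : enu (range n) x = x := by
  have h' : x < (range n).card := by rwa [card_range]
  exact (enu_unique (f := id) (fun _ _ h _ => h)
    (fun x hx => mem_range.2 (by rwa [card_range] at hx)) h').symm

/-- enumeration of an image -/
theorem enu_image {T : Finset ℕ} {e : ℕ → ℕ} (he : StrictMono e) {x : ℕ} (hx : x < T.card) :
    enu (T.image e) x = e (enu T x) := by
  have hc : (T.image e).card = T.card := card_image_of_injective _ he.injective
  refine (enu_unique (f := fun x => e (enu T x)) (fun x y h _ => he (enu_strictMono T h))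
    (fun x hx => mem_image_of_mem _ (enu_mem (by rwa [hc] at hx))) (by rwa [hc])).symm

/-! ### the map `[p] → [q]` given by a function on natural numbers -/

/-- the monotone map `x ↦ min (sup_{y ≤ x} e y) q` -/
def cl (p q : ℕ) (e : ℕ → ℕ) : Op p q where
  toFun x := ⟨min ((range (x.1 + 1)).sup e) q, by omega⟩
  monotone' x y h := by
    have h1 : (range (x.1 + 1)).sup e ≤ (range (y.1 + 1)).sup e :=
      sup_mono (range_subset_range.2 (Nat.succ_le_succ h))
    simp only [Fin.le_def]
    omega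

theorem cl_val {p q : ℕ} {e : ℕ → ℕ} (he : Monotone e) (x : Fin (p + 1)) :
    (cl p q e x).1 = min (e x) q := by
  have : (range (x.1 + 1)).sup e = e x :=
    le_antisymm (Finset.sup_le fun y hy => he (Nat.lt_succ_iff.1 (mem_range.1 hy)))
      (le_sup (mem_range.2 (Nat.lt_succ_self _)))
  show min ((range (x.1 + 1)).sup e) q = _
  rw [this]

theorem cl_id {p : ℕ} {e : ℕ → ℕ} (he : Monotone e) (h : ∀ x ≤ p, e x = x) :
    cl p p e = OrderHom.id := by
  apply OrderHom.ext
  funext x
  apply Fin.ext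
  rw [cl_val he]
  have := x.2
  rw [h x (by omega)]
  show min x.1 p = x.1
  omega

theorem cl_comp {p q r : ℕ} {e e' : ℕ → ℕ} (he : Monotone e) (he' : Monotone e')
    (h : ∀ x ≤ p, e' x ≤ q) : (cl q r e).comp (cl p q e') = cl p r (fun x => e (e' x)) := by
  apply OrderHom.ext
  funext x
  apply Fin.ext
  show (cl q r e (cl p q e' x)).1 = _
  rw [cl_val he, cl_val he', cl_val (show Monotone (fun x => e (e' x)) from he.comp he')]
  have := x.2
  have := h x (by omega)
  rw [min_eq_left this]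

theorem dl_eq_cl (p i : ℕ) : dl p i = cl p (p + 1) (fun x => if x < i then x else x + 1) := by
  have hm : Monotone (fun x => if x < i then x else x + 1) := by
    intro x y h
    simp only
    split_ifs <;> omega
  apply OrderHom.ext
  funext x
  apply Fin.ext
  rw [cl_val hm, dl_val]
  have := x.2
  split_ifs <;> omega

/-! ### mixed-degree cochains -/

/-- mixed-degree cochains with values in `F_2` -/
abbrev Cc (X : SS) : Type := (p : ℕ) → X.obj p → ZMod 2

variable {X Y : SS}

theorem ev_congr (u : Cc X) {q : ℕ} (σ : X.obj q) {p p' : ℕ} {e e' : ℕ → ℕ} (hp : p = p')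
    (he : Monotone e) (he' : Monotone e') (h : ∀ x ≤ p, min (e x) q = min (e' x) q) :
    u p (X.map (cl p q e) σ) = u p' (X.map (cl p' q e') σ) := by
  subst hp
  have : cl p q e = cl p q e' := by
    apply OrderHom.ext
    funext x
    apply Fin.ext
    rw [cl_val he, cl_val he', h x (by have := x.2; omega)]
  rw [this]

/-- the cochain on the simplex given by a simplex `σ` of `X` -/
def co (u : Cc X) {q : ℕ} (σ : X.obj q) : Co := fun S =>
  if S.card = 0 then 0 else u (S.card - 1) (X.map (cl (S.card - 1) q (enu S)) σ)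

theorem co_empty (u : Cc X) {q : ℕ} (σ : X.obj q) : co u σ ∅ = 0 := if_pos rfl

theorem co_of_ne {u : Cc X} {q : ℕ} {σ : X.obj q} {S : Finset ℕ} (h : S.card ≠ 0) :
    co u σ S = u (S.card - 1) (X.map (cl (S.card - 1) q (enu S)) σ) := if_neg h

theorem co_top (u : Cc X) {q : ℕ} (σ : X.obj q) : co u σ (range (q + 1)) = u q σ := by
  rw [co_of_ne (by rw [card_range]; omega)]
  have h1 : u q σ = u q (X.map (cl q q id) σ) := by
    rw [cl_id monotone_id fun _ _ => rfl, X.map_id]
  rw [h1]
  refine ev_congr u σ (by rw [card_range]; rfl) (enu_strictMono _).monotone monotone_id ?_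
  intro x hx
  rw [card_range] at hx
  rw [enu_range (by omega)]
  rfl

/-- faces of faces -/
theorem co_map (u : Cc X) {p q : ℕ} (σ : X.obj q) {e : ℕ → ℕ} (he : StrictMono e)
    {T : Finset ℕ} (hT : T ⊆ range (p + 1)) :
    co u (X.map (cl p q e) σ) T = co u σ (T.image e) := by
  have hc : (T.image e).card = T.card := card_image_of_injective _ he.injective
  by_cases h0 : T.card = 0
  · rw [co, if_pos h0, co, if_pos (by rw [hc, h0])]
  · rw [co_of_ne h0, co_of_ne (by rwa [hc]), ← X.map_comp,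
      cl_comp he.monotone (enu_strictMono T).monotone]
    · refine ev_congr u σ (by rw [hc]) (he.comp (enu_strictMono T)).monotone
        (enu_strictMono _).monotone ?_
      intro x hx
      rw [enu_image he (by omega)]
    · intro x hx
      have := mem_range.1 (hT (enu_mem (S := T) (x := x) (by omega)))
      omega

/-- relabelling of the break-point products -/
theorem cupJ_image {e : ℕ → ℕ} (he : StrictMono e) (j : ℕ) (f g : Co) (S : Finset ℕ) :
    cupJ j (fun T => f (T.image e)) (fun T => g (T.image e)) S = cupJ j f g (S.image e) := by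
  have hev : ∀ (J : Finset ℕ) (v : ℕ), ev (J.image e) (e v) ↔ ev J v := by
    intro J v
    have : (J.image e).filter (· < e v) = (J.filter (· < v)).image e := by
      ext w
      simp only [mem_filter, mem_image]
      constructor
      · rintro ⟨⟨a, ha, rfl⟩, h⟩
        exact ⟨a, ⟨ha, he.lt_iff_lt.1 h⟩, rfl⟩
      · rintro ⟨a, ⟨ha, h⟩, rfl⟩
        exact ⟨⟨a, ha, rfl⟩, he.lt_iff_lt.2 h⟩
    rw [ev, ev, this, card_image_of_injective _ he.injective]
  have hA : ∀ J, fA (S.image e) (J.image e) = (fA S J).image e := by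
    intro J
    ext w
    simp only [fA, mem_filter, mem_image]
    constructor
    · rintro ⟨⟨a, ha, rfl⟩, h⟩
      refine ⟨a, ⟨ha, ?_⟩, rfl⟩
      rcases h with ⟨b, hb, hab⟩ | h
      · exact Or.inl (he.injective hab ▸ hb)
      · exact Or.inr ((hev J a).1 h)
    · rintro ⟨a, ⟨ha, h⟩, rfl⟩
      exact ⟨⟨a, ha, rfl⟩, h.imp (fun h => ⟨a, h, rfl⟩) (hev J a).2⟩
  have hB : ∀ J, fB (S.image e) (J.image e) = (fB S J).image e := by
    intro J
    ext w
    simp only [fB, mem_filter, mem_image]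
    constructor
    · rintro ⟨⟨a, ha, rfl⟩, h⟩
      refine ⟨a, ⟨ha, ?_⟩, rfl⟩
      rcases h with ⟨b, hb, hab⟩ | h
      · exact Or.inl (he.injective hab ▸ hb)
      · exact Or.inr fun hc => h ((hev J a).2 hc)
    · rintro ⟨a, ⟨ha, h⟩, rfl⟩
      exact ⟨⟨a, ha, rfl⟩, h.imp (fun h => ⟨a, h, rfl⟩) fun h hc => h ((hev J a).1 hc)⟩
  rw [cupJ, cupJ]
  refine sum_bij (fun J _ => J.image e) ?_ ?_ ?_ ?_
  · intro J hJ
    obtain ⟨h1, h2⟩ := mem_powersetCard.1 hJ
    exact mem_powersetCard.2 ⟨image_subset_image h1, by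
      rw [card_image_of_injective _ he.injective, h2]⟩
  · intro J _ J' _ h
    exact image_injective he.injective h
  · intro J hJ
    obtain ⟨h1, h2⟩ := mem_powersetCard.1 hJ
    obtain ⟨J', hJ', rfl⟩ := subset_image_iff.1 h1
    refine ⟨J', mem_powersetCard.2 ⟨by exact_mod_cast hJ', ?_⟩, rfl⟩
    rwa [card_image_of_injective _ he.injective] at h2
  · intro J _
    rw [hA, hB]

/-- `cupJ` only depends on the values on subsets -/
theorem cupJ_congr {j : ℕ} {f g f' g' : Co} {S : Finset ℕ} (hf : ∀ T ⊆ S, f T = f' T)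
    (hg : ∀ T ⊆ S, g T = g' T) : cupJ j f g S = cupJ j f' g' S := by
  rw [cupJ, cupJ]
  refine sum_congr rfl fun J _ => ?_
  rw [hf (fA S J) (filter_subset _ _), hg (fB S J) (filter_subset _ _)]

theorem dd_congr {f f' : Co} {S : Finset ℕ} (hf : ∀ T ⊆ S, f T = f' T) : dd f S = dd f' S := by
  rw [dd, dd]
  exact sum_congr rfl fun k _ => hf _ (erase_subset _ _)

theorem dd_image {e : ℕ → ℕ} (he : StrictMono e) (f : Co) (S : Finset ℕ) :
    dd (fun T => f (T.image e)) S = dd f (S.image e) := by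
  rw [dd, dd, sum_image (fun a _ b _ h => he.injective h)]
  refine sum_congr rfl fun k _ => ?_
  congr 1
  ext w
  simp only [mem_image, mem_erase]
  constructor
  · rintro ⟨a, ⟨h1, h2⟩, rfl⟩
    exact ⟨fun h => h1 (he.injective h), a, h2, rfl⟩
  · rintro ⟨h1, a, h2, rfl⟩
    exact ⟨a, ⟨fun h => h1 (h ▸ rfl), h2⟩, rfl⟩

namespace Cc

/-- the coboundary -/
def d (u : Cc X) : Cc X := fun p σ => dd (co u σ) (range (p + 1))

/-- the product `∪_{j-1}` -/
def cup (j : ℕ) (u v : Cc X) : Cc X := fun p σ => cupJ j (co u σ) (co v σ) (range (p + 1))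

theorem d_def (u : Cc X) {p : ℕ} (σ : X.obj p) : d u p σ = dd (co u σ) (range (p + 1)) := rfl

theorem cup_def (j : ℕ) (u v : Cc X) {p : ℕ} (σ : X.obj p) :
    cup j u v p σ = cupJ j (co u σ) (co v σ) (range (p + 1)) := rfl

end Cc

/-- The principle of transfer: an operation on mixed-degree cochains which is given by an
operation on simplices that is local and invariant under relabelling. -/
theorem co_op {F : Co → Co} (hloc : ∀ {f f' : Co} {S : Finset ℕ}, (∀ T ⊆ S, f T = f' T) →
      F f S = F f' S)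
    (him : ∀ {e : ℕ → ℕ}, StrictMono e → ∀ (f : Co) (S : Finset ℕ),
      F (fun T => f (T.image e)) S = F f (S.image e))
    (u : Cc X) {q : ℕ} (σ : X.obj q) {S : Finset ℕ} (h0 : S.card ≠ 0) :
    co (fun p τ => F (co u τ) (range (p + 1))) σ S = F (co u σ) S := by
  rw [co_of_ne h0]
  have h1 : S.card - 1 + 1 = S.card := by omega
  rw [h1]
  conv_rhs => rw [← image_enu S]
  rw [← him (enu_strictMono S)]
  refine hloc fun T hT => ?_
  refine co_map u σ (enu_strictMono S) ?_
  rwa [h1]

theorem co_op2 {F : Co → Co → Co} (hloc : ∀ {f f' g g' : Co} {S : Finset ℕ},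
      (∀ T ⊆ S, f T = f' T) → (∀ T ⊆ S, g T = g' T) → F f g S = F f' g' S)
    (him : ∀ {e : ℕ → ℕ}, StrictMono e → ∀ (f g : Co) (S : Finset ℕ),
      F (fun T => f (T.image e)) (fun T => g (T.image e)) S = F f g (S.image e))
    (u v : Cc X) {q : ℕ} (σ : X.obj q) {S : Finset ℕ} (h0 : S.card ≠ 0) :
    co (fun p τ => F (co u τ) (co v τ) (range (p + 1))) σ S = F (co u σ) (co v σ) S := by
  rw [co_of_ne h0]
  have h1 : S.card - 1 + 1 = S.card := by omega
  rw [h1]
  conv_rhs => rw [← image_enu S]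
  rw [← him (enu_strictMono S)]
  refine hloc (fun T hT => ?_) fun T hT => ?_
  · refine co_map u σ (enu_strictMono S) ?_
    rwa [h1]
  · refine co_map v σ (enu_strictMono S) ?_
    rwa [h1]

theorem dd_empty (f : Co) : dd f ∅ = 0 := rfl

theorem co_d (u : Cc X) {q : ℕ} (σ : X.obj q) (S : Finset ℕ) :
    co (Cc.d u) σ S = dd (co u σ) S := by
  by_cases h0 : S.card = 0
  · rw [card_eq_zero.1 h0, co_empty, dd_empty]
  · exact co_op (F := dd) dd_congr (fun he f S => dd_image he f S) u σ h0

theorem cupJ_succ_empty (j : ℕ) (f g : Co) : cupJ (j + 1) f g ∅ = 0 := by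
  rw [cupJ, powersetCard_eq_empty.2 (by simp)]
  rfl

theorem cupJ_zero (f g : Co) (S : Finset ℕ) : cupJ 0 f g S = f S * g ∅ := by
  rw [cupJ, powersetCard_zero, sum_singleton]
  have h1 : fA S ∅ = S := by
    ext v; simp [fA, ev]
  have h2 : fB S ∅ = ∅ := by
    ext v; simp [fB, ev]
  rw [h1, h2]

theorem co_cup (j : ℕ) (u v : Cc X) {q : ℕ} (σ : X.obj q) (S : Finset ℕ) : co (Cc.cup j u v) σ S = cupJ j (co u σ) (co v σ) S := by
  by_cases h0 : S.card = 0
  · rw [card_eq_zero.1 h0, co_empty]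
    cases j with
    | zero => rw [cupJ_zero, co_empty, co_empty, mul_zero]
    | succ j => rw [cupJ_succ_empty]
  · exact co_op2 (F := cupJ j) cupJ_congr (fun he f g S => cupJ_image he j f g S) u v σ h0

theorem cup_zero (u v : Cc X) : Cc.cup 0 u v = 0 := by
  funext p σ
  rw [Cc.cup_def, cupJ_zero, co_empty, mul_zero]
  rfl

theorem co_add (u v : Cc X) {q : ℕ} (σ : X.obj q) (S : Finset ℕ) :
    co (u + v) σ S = co u σ S + co v σ S := by
  by_cases h0 : S.card = 0
  · simp [co, h0]
  · rw [co_of_ne h0, co_of_ne h0, co_of_ne h0]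
    rfl

theorem co_zero {q : ℕ} (σ : X.obj q) (S : Finset ℕ) : co (0 : Cc X) σ S = 0 := by
  by_cases h0 : S.card = 0
  · simp [co, h0]
  · rw [co_of_ne h0]
    rfl

/-- the coboundary formula -/
theorem d_cup (j : ℕ) (u v : Cc X) :
    Cc.d (Cc.cup (j + 1) u v) =
      Cc.cup (j + 1) (Cc.d u) v + Cc.cup (j + 1) u (Cc.d v) + Cc.cup j u v + Cc.cup j v u := by
  funext p σ
  show dd (co (Cc.cup (j + 1) u v) σ) (range (p + 1)) = _
  rw [dd_congr (f' := cupJ (j + 1) (co u σ) (co v σ)) (fun T _ => co_cup _ _ _ _ T), dd_cupJ]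
  show _ + _ + _ + _ = Cc.cup (j + 1) (Cc.d u) v p σ + Cc.cup (j + 1) u (Cc.d v) p σ +
    Cc.cup j u v p σ + Cc.cup j v u p σ
  rw [Cc.cup_def, Cc.cup_def, Cc.cup_def, Cc.cup_def]
  rw [cupJ_congr (f := co (Cc.d u) σ) (f' := dd (co u σ)) (g := co v σ) (g' := co v σ)
    (fun T _ => co_d _ _ T) fun _ _ => rfl]
  rw [cupJ_congr (f := co u σ) (f' := co u σ) (g := co (Cc.d v) σ) (g' := dd (co v σ))
    (fun _ _ => rfl) fun T _ => co_d _ _ T]

/-- `dd ∘ dd = 0` -/
theorem dd_dd (f : Co) (S : Finset ℕ) : dd (dd f) S = 0 := by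
  simp only [dd]
  rw [sum_sigma']
  refine sum_involution (fun a _ => ⟨a.2, a.1⟩) ?_ ?_ ?_ ?_
  · rintro ⟨a, b⟩ _
    simp only
    rw [erase_right_comm]
    exact CharTwo.add_self_eq_zero _
  · rintro ⟨a, b⟩ h _ hc
    simp only [mem_sigma, mem_erase] at h
    simp only [Sigma.mk.injEq, heq_eq_eq] at hc
    exact h.2.1 hc.1
  · rintro ⟨a, b⟩ h
    simp only [mem_sigma, mem_erase] at h ⊢
    exact ⟨h.2.2, fun hc => h.2.1 hc.symm, h.1⟩
  · rintro ⟨a, b⟩ _
    rfl

theorem d_d (u : Cc X) : Cc.d (Cc.d u) = 0 := by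
  funext p σ
  show dd (co (Cc.d u) σ) (range (p + 1)) = 0
  rw [dd_congr (fun T _ => co_d u σ T), dd_dd]

/-! ### linearity -/

theorem d_add (u v : Cc X) : Cc.d (u + v) = Cc.d u + Cc.d v := by
  funext p σ
  show dd _ _ = dd _ _ + dd _ _
  simp only [dd, co_add, sum_add_distrib]

theorem d_zero : Cc.d (0 : Cc X) = 0 := by
  funext p σ
  show dd _ _ = 0
  simp only [dd, co_zero, sum_const_zero]

theorem cup_add_left (j : ℕ) (u u' v : Cc X) :
    Cc.cup j (u + u') v = Cc.cup j u v + Cc.cup j u' v := by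
  funext p σ
  show cupJ _ _ _ _ = cupJ _ _ _ _ + cupJ _ _ _ _
  simp only [cupJ, co_add, add_mul, sum_add_distrib]

theorem cup_add_right (j : ℕ) (u v v' : Cc X) :
    Cc.cup j u (v + v') = Cc.cup j u v + Cc.cup j u v' := by
  funext p σ
  show cupJ _ _ _ _ = cupJ _ _ _ _ + cupJ _ _ _ _
  simp only [cupJ, co_add, mul_add, sum_add_distrib]

theorem cup_zero_left (j : ℕ) (v : Cc X) : Cc.cup j 0 v = 0 := by
  funext p σ
  show cupJ _ _ _ _ = 0
  simp only [cupJ, co_zero, zero_mul, sum_const_zero]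

theorem cup_zero_right (j : ℕ) (v : Cc X) : Cc.cup j v 0 = 0 := by
  funext p σ
  show cupJ _ _ _ _ = 0
  simp only [cupJ, co_zero, mul_zero, sum_const_zero]

/-! ### naturality -/

/-- pull-back of mixed-degree cochains -/
def Cc.pull (f : SS.Map X Y) (u : Cc Y) : Cc X := fun _ σ => u _ (f.app σ)

theorem pull_apply (f : SS.Map X Y) (u : Cc Y) {p : ℕ} (σ : X.obj p) :
    Cc.pull f u p σ = u p (f.app σ) := rfl

theorem co_pull (f : SS.Map X Y) (u : Cc Y) {q : ℕ} (σ : X.obj q) :
    co (Cc.pull f u) σ = co u (f.app σ) := by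
  funext S
  by_cases h0 : S.card = 0
  · simp [co, h0]
  · rw [co_of_ne h0, co_of_ne h0, pull_apply, f.nat]

theorem pull_d (f : SS.Map X Y) (u : Cc Y) : Cc.pull f (Cc.d u) = Cc.d (Cc.pull f u) := by
  funext p σ
  rw [Cc.d_def, co_pull]
  rfl

theorem pull_cup (f : SS.Map X Y) (j : ℕ) (u v : Cc Y) :
    Cc.pull f (Cc.cup j u v) = Cc.cup j (Cc.pull f u) (Cc.pull f v) := by
  funext p σ
  rw [Cc.cup_def, co_pull, co_pull]
  rfl

theorem pull_add (f : SS.Map X Y) (u v : Cc Y) :
    Cc.pull f (u + v) = Cc.pull f u + Cc.pull f v := rfl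

theorem pull_zero (f : SS.Map X Y) : Cc.pull f (0 : Cc Y) = 0 := rfl

/-! ### the coboundary by faces -/

theorem d_zero_apply (u : Cc X) (σ : X.obj 0) : Cc.d u 0 σ = 0 := by
  rw [Cc.d_def, dd]
  refine sum_eq_zero fun k hk => ?_
  have : (range (0 + 1)).erase k = ∅ := by
    rw [mem_range] at hk
    obtain rfl : k = 0 := by omega
    rfl
  rw [this, co_empty]

theorem d_succ_apply (u : Cc X) {p : ℕ} (σ : X.obj (p + 1)) :
    Cc.d u (p + 1) σ = ∑ i ∈ range (p + 2), u p (X.map (dl p i) σ) := by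
  rw [Cc.d_def, dd]
  refine sum_congr rfl fun i hi => ?_
  rw [mem_range] at hi
  have hm : StrictMono (fun x => if x < i then x else x + 1) := by
    intro x y h
    simp only
    split_ifs <;> omega
  have him : (range (p + 1)).image (fun x => if x < i then x else x + 1) =
      (range (p + 1 + 1)).erase i := by
    ext w
    simp only [mem_image, mem_range, mem_erase]
    constructor
    · rintro ⟨a, ha, rfl⟩
      split_ifs <;> omega
    · rintro ⟨h1, h2⟩
      rcases Nat.lt_or_gt_of_ne h1 with h | h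
      · exact ⟨w, by omega, if_pos h⟩
      · exact ⟨w - 1, by omega, by rw [if_neg (by omega)]; omega⟩
  rw [← him, ← co_map u σ hm (Subset.refl _), co_top, dl_eq_cl]

/-- comparison with the cosimplicial module of functions -/
theorem d_eq_F (u : Cc X) (p : ℕ) : Cc.d u (p + 1) = (SS.F (ZMod 2) X).d p (u p) := by
  funext σ
  rw [d_succ_apply]
  refine Eq.trans ?_ (SS.F_d (R := ZMod 2) (u p) σ).symm
  refine sum_congr rfl fun i _ => ?_
  rw [sn]
  rcases Nat.even_or_odd i with h | h
  · rw [h.neg_one_pow, one_smul]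
  · rw [h.neg_one_pow, neg_smul, one_smul]
    exact (CharTwo.neg_eq _).symm

end Vale.Agent.P263.TJ
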