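import Vale.Agent.P263.TJ.SCup

/-!
# P263, block EB: homotopy invariance of the functional squares on simplicial sets

* `exists_ext` : a relative cocycle `w` of the cylinder and `e` with `d e = w|0` give `e'` with
  `d e' = w` and `e'|0 = e`.
* `FSqD.htpy` : a homotopy of maps of pairs; the functional squares of the two ends agree.
-/

open Finset

namespace Vale.Agent.P263.TJ

open Vale.Agent.P263.S Vale.Agent.P263.E Vale.Agent.P263.H83

variable {X Y W : SS}

/-- the minimum of two simplices of the interval -/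
def minI {p : ℕ} (θ θ' : Op p 1) : Op p 1 := θ ⊓ θ'

theorem minI_comp {p q : ℕ} (θ θ' : Op q 1) (f : Op p q) :
    (minI θ θ').comp f = minI (θ.comp f) (θ'.comp f) := rfl

theorem minI_c0 {p : ℕ} (θ : Op p 1) : minI θ (c0 p) = c0 p := by
  apply eq_c0
  intro x
  change θ x ⊓ c0 p x = 0
  rw [c0_val]
  exact inf_bot_eq _

theorem minI_c1 {p : ℕ} (θ : Op p 1) : minI θ (c1 p) = θ := by
  apply OrderHom.ext
  funext x
  change θ x ⊓ c1 p x = θ x
  rw [c1_val]
  exact inf_top_eq _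

/-- the contraction of the cylinder to the end `0` -/
def contr (X : SS) : SS.Map (cylS (cylS X)) (cylS X) where
  app {p} x := (x.1.1, minI (p := p) x.1.2 x.2)
  nat _ _ := rfl

/-- the projection of the cylinder -/
abbrev pr1 (X : SS) : SS.Map (cylS X) X := SS.fst X I1

theorem contr_end0 (X : SS) : (contr X).comp (end0 (cylS X)) = (end0 X).comp (pr1 X) := by
  apply SS.Map.ext
  intro p x
  exact Prod.ext rfl (minI_c0 (p := p) x.2)

theorem contr_end1 (X : SS) : (contr X).comp (end1 (cylS X)) = SS.Map.id (cylS X) := by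
  apply SS.Map.ext
  intro p x
  exact Prod.ext rfl (minI_c1 (p := p) x.2)

namespace Cc

theorem pull_comp (g : SS.Map Y W) (f : SS.Map X Y) (u : Cc W) :
    Cc.pull (g.comp f) u = Cc.pull f (Cc.pull g u) := rfl

theorem pull_id (u : Cc X) : Cc.pull (SS.Map.id X) u = u := rfl

/-- restriction to the end `0` -/
def R0 (A : Sb X) : CupC.Hom (rel A.cyl) (rel A) := relHom (end0 X) A A.cyl fun _ h => h

/-- restriction to the end `1` -/
def R1 (A : Sb X) : CupC.Hom (rel A.cyl) (rel A) := relHom (end1 X) A A.cyl fun _ h => h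

/-- pull-back to the cylinder along the projection -/
def relPr (A : Sb X) : CupC.Hom (rel A) (rel A.cyl) := relHom (pr1 X) A.cyl A fun _ h => h

theorem relCyl_r0 (A : Sb X) : (relCyl A).r0 = R0 A := rfl

theorem relCyl_r1 (A : Sb X) : (relCyl A).r1 = R1 A := rfl

theorem R0_relPr {A : Sb X} (u : (rel A).C) : (R0 A).f ((relPr A).f u) = u := rfl

theorem R1_relPr {A : Sb X} (u : (rel A).C) : (R1 A).f ((relPr A).f u) = u := rfl

theorem R0_pr {A : Sb X} (n : ℕ) (u : (rel A.cyl).C) :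
    (R0 A).f ((relGr A.cyl).pr n u) = (relGr A).pr n ((R0 A).f u) := rfl

/-- the two restrictions of a cocycle are cohomologous -/
theorem R_coh (A : Sb X) {w : (rel A.cyl).C} (hw : (rel A.cyl).d w = 0) :
    (rel A).Coh ((R0 A).f w) ((R1 A).f w) := by
  refine ⟨(relCyl A).s w, ?_⟩
  have h := (relCyl A).prism w
  have h0 : (relCyl A).s ((relCyl A).W.d w) = 0 := by
    have h1 : (relCyl A).W.d w = 0 := hw
    rw [h1, map_zero]
  rw [h0, add_zero] at h
  exact h.symm

/-- a relative cocycle of the cylinder is determined by its restriction to the end `0` -/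
theorem cyl_coh {A : Sb X} {w : (rel A.cyl).C} (hw : (rel A.cyl).d w = 0) :
    (rel A.cyl).Coh ((relPr A).f ((R0 A).f w)) w := by
  have h := rel_coh_of_htpy (contr X) (A := A.cyl) (B := A.cyl) (fun x hx => hx) hw
  have e0 : (relHom ((contr X).comp (end0 (cylS X))) A.cyl A.cyl fun _ hx => hx).f w =
      (relPr A).f ((R0 A).f w) :=
    rel_ext (congrArg (fun m => Cc.pull m (val w)) (contr_end0 X))
  have e1 : (relHom ((contr X).comp (end1 (cylS X))) A.cyl A.cyl fun _ hx => hx).f w = w :=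
    rel_ext (congrArg (fun m => Cc.pull m (val w)) (contr_end1 X))
  rw [← e0]
  conv_rhs => rw [← e1]
  exact h

/-- **Extension of null cochains over the cylinder.** -/
theorem exists_ext {A : Sb X} {w : (rel A.cyl).C} (hw : (rel A.cyl).d w = 0) {e : (rel A).C}
    (he : (rel A).d e = (R0 A).f w) :
    ∃ e' : (rel A.cyl).C, (rel A.cyl).d e' = w ∧ (R0 A).f e' = e := by
  obtain ⟨x, hx⟩ := cyl_coh hw
  have hx1 : w = (rel A.cyl).d x + (relPr A).f ((R0 A).f w) := by
    rw [← hx, add_comm, ← add_assoc, (rel A.cyl).two, zero_add]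
  have hz : (rel A).d ((R0 A).f x) = 0 := by
    rw [← (R0 A).f_d, ← hx, map_add, R0_relPr, (rel A).two]
  refine ⟨x + (relPr A).f e + (relPr A).f ((R0 A).f x), ?_, ?_⟩
  · rw [map_add, map_add, ← (relPr A).f_d, ← (relPr A).f_d, he, hz, map_zero, add_zero, ← hx1]
  · rw [map_add, map_add, R0_relPr, R0_relPr, add_comm, ← add_assoc, (rel A).two, zero_add]

/-- the same with a homogeneous cochain -/
theorem exists_ext_deg {A : Sb X} {n : ℕ} {w : (rel A.cyl).C} (hw : (rel A.cyl).d w = 0)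
    (hn : IsDeg (n + 1) (val w)) {e : (rel A).C} (hne : IsDeg n (val e))
    (he : (rel A).d e = (R0 A).f w) :
    ∃ e' : (rel A.cyl).C, (rel A.cyl).d e' = w ∧ (R0 A).f e' = e ∧ IsDeg n (val e') := by
  obtain ⟨e', h1, h2⟩ := exists_ext hw he
  refine ⟨(relGr A.cyl).pr n e', ?_, ?_, (relGr A.cyl).pr_mem n e'⟩
  · rw [← (relGr A.cyl).pr_d, h1]
    exact (relGr A.cyl).pr_eq _ _ hn
  · rw [R0_pr, h2]
    exact (relGr A).pr_eq _ _ hne

end Cc

namespace CupC

namespace FSqD

open Cc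

variable {i : ℕ} (H : SS.Map (cylS X) Y) {A : Sb X} {B : Sb Y}
  (hH : ∀ {p : ℕ} (x : (cylS X).obj p), A.cyl.mem x → B.mem (H.app x))

theorem htpy_aux (D : FSqD (relHom (H.comp (end0 X)) A B fun _ hx => hH _ hx) i)
    (e' : (rel A.cyl).C) (h1 : (rel A.cyl).d e' = (relHom H A.cyl B hH).f D.b)
    (h2 : (R0 A).f e' = D.e) :
    ∃ D' : FSqD (relHom (H.comp (end1 X)) A B fun _ hx => hH _ hx) i,
      D'.b = D.b ∧ D'.c = D.c ∧ D'.e = (R1 A).f e' ∧ (rel A).Coh D.val D'.val := by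
  let G : FSqD (relHom H A.cyl B hH) i := ⟨D.b, e', D.c, D.d_b, h1, D.d_c⟩
  let D' : FSqD (relHom (H.comp (end1 X)) A B fun _ hx => hH _ hx) i :=
    ⟨D.b, (R1 A).f e', D.c, D.d_b, by rw [← (R1 A).f_d, h1]; rfl, D.d_c⟩
  refine ⟨D', rfl, rfl, rfl, ?_⟩
  have e0 : (R0 A).f G.val = D.val := by
    have h3 : (R0 A).f G.val = (rel A).q i ((R0 A).f e') +
        (R0 A).f ((relHom H A.cyl B hH).f D.c) := by
      rw [← (R0 A).f_q, ← map_add]; rfl
    rw [h3, h2]; rfl
  have e1 : (R1 A).f G.val = D'.val := by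
    have h3 : (R1 A).f G.val = (rel A).q i ((R1 A).f e') +
        (R1 A).f ((relHom H A.cyl B hH).f D.c) := by
      rw [← (R1 A).f_q, ← map_add]; rfl
    rw [h3]; rfl
  have h := R_coh A G.d_val
  rwa [e0, e1] at h

/-- **Homotopy invariance of the functional squares**, maps of pairs. -/
theorem htpy (D : FSqD (relHom (H.comp (end0 X)) A B fun _ hx => hH _ hx) i) :
    ∃ D' : FSqD (relHom (H.comp (end1 X)) A B fun _ hx => hH _ hx) i,
      D'.b = D.b ∧ D'.c = D.c ∧ (rel A).Coh D.val D'.val := by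
  obtain ⟨e', h1, h2⟩ := exists_ext (w := (relHom H A.cyl B hH).f D.b)
    (by rw [← (relHom H A.cyl B hH).f_d, D.d_b, map_zero]) (e := D.e) D.d_e
  obtain ⟨D', hb, hc, -, hv⟩ := htpy_aux H hH D e' h1 h2
  exact ⟨D', hb, hc, hv⟩

/-- the same for homogeneous data -/
theorem htpy_homog {n k : ℕ} (D : FSqD (relHom (H.comp (end0 X)) A B fun _ hx => hH _ hx) i)
    (hD : D.Homog (relGr B) (relGr A) n k) :
    ∃ D' : FSqD (relHom (H.comp (end1 X)) A B fun _ hx => hH _ hx) i,
      D'.Homog (relGr B) (relGr A) n k ∧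
      D'.b = D.b ∧ D'.c = D.c ∧ (rel A).Coh D.val D'.val := by
  have hw : IsDeg (n + 1) (Cc.val ((relHom H A.cyl B hH).f D.b)) :=
    IsDeg.pull (u := Cc.val D.b) hD.b_mem H
  obtain ⟨e', h1, h2, h3⟩ := exists_ext_deg (w := (relHom H A.cyl B hH).f D.b)
    (by rw [← (relHom H A.cyl B hH).f_d, D.d_b, map_zero]) hw hD.e_mem D.d_e
  obtain ⟨D', hb, hc, he, hv⟩ := htpy_aux H hH D e' h1 h2
  refine ⟨D', ⟨?_, ?_, ?_, hD.deg_eq⟩, hb, hc, hv⟩
  · rw [hb]; exact hD.b_mem
  · rw [he]; exact IsDeg.pull (u := Cc.val e') h3 (end1 X)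
  · rw [hc]; exact hD.c_mem

end FSqD

end CupC

end Vale.Agent.P263.TJ
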