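import Vale.Agent.P263.TJ.GamNat
import Vale.Agent.P263.TJ.FHtp

/-!
# P263, block EB: maps of label systems, change of the order, change of the cocycle

* `LMap l l'` : maps of the labels which preserve admissible sets and the order codes;
  `LMap.gam : Gam l A ⟶ Gam l' A`, compatible with `hat` and `KK`.
* `GoodS L`, `OrdS G` : admissible sets and orders; `OrdS.lab` the label system.
* `OrdS.KK_coh` : the class of `KK l A 0 m y` does not depend on the order.
* `KK_coh` : the class of `KK l A 0 m y` depends only on the class of `y`.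
-/

open Finset

namespace Vale.Agent.P263.TJ

open Vale.Agent.P263.S Vale.Agent.P263.E Vale.Agent.P263.H83

/-! ### maps of label systems -/

/-- maps of label systems -/
structure LMap (l l' : LabS) where
  /-- the map of the labels -/
  f : SS.Map l.L l'.L
  good : ∀ {p : ℕ} {F : Set (l.L.obj p)}, l.Good F → l'.Good (f.app '' F)
  lt : ∀ a b : l.L.obj 0, l'.ord (f.app a) < l'.ord (f.app b) ↔ l.ord a < l.ord b

namespace LMap

variable {l l' : LabS} (m : LMap l l') {B : SS} {A : Sb B}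

theorem at_lt {p : ℕ} (a b : l.L.obj p) (i : Fin (p + 1)) :
    l'.at' (m.f.app a) i < l'.at' (m.f.app b) i ↔ l.at' a i < l.at' b i := by
  unfold LabS.at'
  rw [← m.f.nat, ← m.f.nat]
  exact m.lt _ _

theorem at_eq {p : ℕ} (a b : l.L.obj p) (i : Fin (p + 1)) :
    l'.at' (m.f.app a) i = l'.at' (m.f.app b) i ↔ l.at' a i = l.at' b i := by
  rw [eq_iff_le_not_lt, eq_iff_le_not_lt, m.at_lt, ← not_lt, ← not_lt, m.at_lt]

theorem injOn {p : ℕ} {F : Set (l.L.obj p)} (h : l.Good F) : Set.InjOn m.f.app F := by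
  intro a ha b hb hab
  exact l.at_inj h ha hb 0 ((m.at_eq a b 0).1 (by rw [hab]))

/-- the map on sheets -/
def sh {p : ℕ} (a : Sheet l B p) : Sheet l' B p := (m.f.app a.1, a.2)

theorem sh_shm {p q : ℕ} (f : Op p q) (a : Sheet l B q) :
    m.sh (shm l f a) = shm l' f (m.sh a) := Prod.ext (m.f.nat f a.1) rfl

theorem sh_injOn {p : ℕ} {F : Finset (Sheet l B p)} (h : GOk l A F) :
    Set.InjOn m.sh (F : Set (Sheet l B p)) := by
  intro a ha b hb hab
  refine h.2.1 ha hb ?_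
  exact m.injOn h.1 ⟨a, ha, rfl⟩ ⟨b, hb, rfl⟩ (congrArg Prod.fst hab)

open Classical in
/-- the image of a set of sheets -/
noncomputable def im {p : ℕ} (F : Finset (Sheet l B p)) : Finset (Sheet l' B p) := F.image m.sh

theorem mem_im {p : ℕ} {F : Finset (Sheet l B p)} {a : Sheet l' B p} :
    a ∈ m.im F ↔ ∃ b ∈ F, m.sh b = a := by
  classical
  rw [im, mem_image]

theorem im_ok {p : ℕ} {F : Finset (Sheet l B p)} (h : GOk l A F) : GOk l' A (m.im F) := by
  refine ⟨l'.good_sub (m.good h.1) ?_, ?_, fun a ha => ?_⟩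
  · rintro _ ⟨a, ha, rfl⟩
    obtain ⟨b, hb, rfl⟩ := m.mem_im.1 (mem_coe.1 ha)
    exact ⟨b.1, ⟨b, hb, rfl⟩, rfl⟩
  · intro a ha a' ha' haa
    obtain ⟨b, hb, rfl⟩ := m.mem_im.1 (mem_coe.1 ha)
    obtain ⟨b', hb', rfl⟩ := m.mem_im.1 (mem_coe.1 ha')
    have : b = b' := h.2.1 hb hb' (m.injOn h.1 ⟨b, hb, rfl⟩ ⟨b', hb', rfl⟩ haa)
    rw [this]
  · obtain ⟨b, hb, rfl⟩ := m.mem_im.1 ha
    exact h.2.2 b hb

theorem im_gmap {p q : ℕ} (f : Op p q) (F : Finset (Sheet l B q)) :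
    m.im (gmap l A f F) = gmap l' A f (m.im F) := by
  ext a
  rw [mem_im, mem_gmap]
  constructor
  · rintro ⟨b', hb', rfl⟩
    obtain ⟨⟨b, hb, rfl⟩, h⟩ := mem_gmap.1 hb'
    exact ⟨⟨m.sh b, m.mem_im.2 ⟨b, hb, rfl⟩, (m.sh_shm f b).symm⟩, h⟩
  · rintro ⟨⟨b', hb', rfl⟩, h⟩
    obtain ⟨b, hb, rfl⟩ := m.mem_im.1 hb'
    exact ⟨shm l f b, mem_gmap.2 ⟨⟨b, hb, rfl⟩, h⟩, m.sh_shm f b⟩

theorem sum_im {M : Type} [AddCommMonoid M] {p : ℕ} {F : Finset (Sheet l B p)}
    (h : GOk l A F) (c : Sheet l' B p → M) : ∑ a ∈ m.im F, c a = ∑ a ∈ F, c (m.sh a) := by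
  classical
  rw [im, sum_image (m.sh_injOn h)]

variable (A) in
/-- **the map of the free-sum models** -/
noncomputable def gam : SS.Map (Gam l A) (Gam l' A) where
  app F := ⟨m.im F.1, m.im_ok F.2⟩
  nat f F := Subtype.ext (m.im_gmap f F.1)

theorem gam_hat (y : Cc B) : Cc.pull (m.gam A) (hat l' A y) = hat l A y := by
  funext p F
  exact m.sum_im F.2 fun a => y p a.2

variable (B) in
/-- the map on pairs -/
def pr : SS.Map (Pr l B) (Pr l' B) where
  app x := ⟨(m.sh x.1.1, m.sh x.1.2), fun i h => x.2 i ((m.at_eq _ _ i).1 h)⟩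
  nat f x := Subtype.ext (Prod.ext (m.sh_shm f x.1.1) (m.sh_shm f x.1.2))

theorem ex_pr (c : Cc (Pr l' B)) {p : ℕ} (a b : Sheet l B p) :
    ex (Cc.pull (m.pr B) c) a b = ex c (m.sh a) (m.sh b) := by
  by_cases h : ∀ i, l.at' a.1 i ≠ l.at' b.1 i
  · have h' : ∀ i, l'.at' (m.sh a).1 i ≠ l'.at' (m.sh b).1 i := fun i hi =>
      h i ((m.at_eq _ _ i).1 hi)
    rw [ex_of h, ex_of h']
    rfl
  · have h' : ¬ ∀ i, l'.at' (m.sh a).1 i ≠ l'.at' (m.sh b).1 i := fun h' =>
      h fun i hi => h' i ((m.at_eq _ _ i).2 hi)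
    unfold ex
    rw [dif_neg h, dif_neg h']

theorem gam_Tr (c : Cc (Pr l' B)) :
    Cc.pull (m.gam A) (Tr A c) = Tr A (Cc.pull (m.pr B) c) := by
  funext p F
  show ∑ a ∈ m.im F.1, ∑ b ∈ m.im F.1, ex c a b = _
  rw [m.sum_im F.2]
  refine sum_congr rfl fun a _ => ?_
  rw [m.sum_im F.2]
  exact sum_congr rfl fun b _ => (m.ex_pr c a b).symm

theorem pull_oo : Cc.pull (m.pr B) (oo l' B) = oo l B := by
  classical
  funext p x
  have h : l'.at' (m.f.app x.1.1.1) 0 < l'.at' (m.f.app x.1.2.1) 0 ↔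
      l.at' x.1.1.1 0 < l.at' x.1.2.1 0 := m.at_lt _ _ 0
  show (if p = 0 ∧ l'.at' (m.f.app x.1.1.1) 0 < l'.at' (m.f.app x.1.2.1) 0 then (1 : ZMod 2)
    else 0) = if p = 0 ∧ l.at' x.1.1.1 0 < l.at' x.1.2.1 0 then 1 else 0
  by_cases h' : l.at' x.1.1.1 0 < l.at' x.1.2.1 0
  · simp only [h', h.2 h', and_true]
  · have h2 : ¬ l'.at' (m.f.app x.1.1.1) 0 < l'.at' (m.f.app x.1.2.1) 0 := fun h'' => h' (h.1 h'')
    simp only [h', h2, and_false]

theorem pull_vv : Cc.pull (m.pr B) (vv l' B) = vv l B := by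
  rw [vv, pull_d, m.pull_oo]
  rfl

theorem pull_vo (k : ℕ) : Cc.pull (m.pr B) (vo l' B k) = vo l B k := by
  induction k with
  | zero => exact m.pull_oo
  | succ k ih =>
    show Cc.pull (m.pr B) (Cc.cup 1 (vv l' B) (vo l' B k)) = Cc.cup 1 (vv l B) (vo l B k)
    rw [pull_cup, m.pull_vv, ih]

theorem pull_qt (j n : ℕ) (y : Cc B) (k : ℕ) :
    Cc.pull (m.pr B) (qt l' j n y k) = qt l j n y k := by
  rw [qt, pull_cup, m.pull_vo]
  exact congrArg (Cc.cup 1 _) (pull_cup _ _ _ _)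

theorem gam_KK (j n : ℕ) (y : Cc B) : Cc.pull (m.gam A) (KK l' A j n y) = KK l A j n y := by
  funext p
  have h := congrFun (m.gam_Tr (A := A) (∑ k ∈ range (p + 1), qt l' j n y k)) p
  rw [pull_fsum] at h
  simp only [m.pull_qt] at h
  exact h

end LMap

/-! ### change of the order -/

/-- a system of admissible sets -/
structure GoodS (L : SS) where
  /-- admissible sets of labels -/
  Good : ∀ {p : ℕ}, Set (L.obj p) → Prop
  good_map : ∀ {p q : ℕ} (f : Op p q) {F : Set (L.obj q)}, Good F → Good (L.map f '' F)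
  good_sub : ∀ {p : ℕ} {F F' : Set (L.obj p)}, Good F → F' ⊆ F → Good F'

/-- an order of the vertices of the labels -/
structure OrdS {L : SS} (G : GoodS L) where
  /-- the ordered set of the labels of vertices -/
  O : Type
  [lin : LinearOrder O]
  /-- the order code of a label over a vertex -/
  ord : L.obj 0 → O
  inj : ∀ {p : ℕ} {F : Set (L.obj p)}, G.Good F → ∀ i : Fin (p + 1),
    Set.InjOn (fun a => ord (L.map (vx p i) a)) F

namespace OrdS

variable {L : SS} {G : GoodS L}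

/-- the label system -/
def lab (o : OrdS G) : LabS where
  L := L
  O := o.O
  lin := o.lin
  ord := o.ord
  Good := G.Good
  good_map := G.good_map
  good_sub := G.good_sub
  good_inj := o.inj

variable (o o' : OrdS G) {B : SS} (A : Sb B)

/-- the identity, from one order to another one -/
def reo : SS.Map (Gam o.lab A) (Gam o'.lab A) := ⟨fun F => ⟨F.1, F.2⟩, fun _ _ => rfl⟩

theorem reo_hat (y : Cc B) : Cc.pull (o.reo o' A) (hat o'.lab A y) = hat o.lab A y := rfl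

/-- the functions to the set with two elements -/
def EB : SS where
  obj p := Fin (p + 1) → Bool
  map f s := s ∘ f
  map_id _ := rfl
  map_comp _ _ _ := rfl

/-- labels with a parameter -/
def gEB (G : GoodS L) : GoodS (L.prod EB) where
  Good {p} F := G.Good (Prod.fst '' F) ∧ ∃ s : Fin (p + 1) → Bool, ∀ a ∈ F, a.2 = s
  good_map := by
    rintro p q f F ⟨h1, s, h2⟩
    refine ⟨G.good_sub (G.good_map f h1) ?_, s ∘ f, ?_⟩
    · rintro _ ⟨_, ⟨a, ha, rfl⟩, rfl⟩
      exact ⟨a.1, ⟨a, ha, rfl⟩, rfl⟩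
    · rintro _ ⟨a, ha, rfl⟩
      show a.2 ∘ f = s ∘ f
      rw [h2 a ha]
  good_sub := by
    rintro p F F' ⟨h1, s, h2⟩ h
    exact ⟨G.good_sub h1 (Set.image_mono h), s, fun a ha => h2 a (h ha)⟩

/-- both orders together -/
noncomputable def two : OrdS (gEB G) where
  O := o.O ⊕ₗ o'.O
  lin := @Sum.Lex.linearOrder _ _ o.lin o'.lin
  ord a := if a.2 0 = true then Sum.inrₗ (o'.ord a.1) else Sum.inlₗ (o.ord a.1)
  inj := by
    rintro p F ⟨h1, s, h2⟩ i a ha b hb hab
    have ea : a.2 = s := h2 a ha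
    have eb : b.2 = s := h2 b hb
    have hab' : (if s i = true then Sum.inrₗ (o'.ord (L.map (vx p i) a.1)) else
        Sum.inlₗ (o.ord (L.map (vx p i) a.1)) : o.O ⊕ₗ o'.O) =
        if s i = true then Sum.inrₗ (o'.ord (L.map (vx p i) b.1)) else
        Sum.inlₗ (o.ord (L.map (vx p i) b.1)) := by
      have h3 : (if a.2 i = true then Sum.inrₗ (o'.ord (L.map (vx p i) a.1)) else
        Sum.inlₗ (o.ord (L.map (vx p i) a.1)) : o.O ⊕ₗ o'.O) =
        if b.2 i = true then Sum.inrₗ (o'.ord (L.map (vx p i) b.1)) else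
        Sum.inlₗ (o.ord (L.map (vx p i) b.1)) := hab
      rwa [ea, eb] at h3
    refine Prod.ext ?_ (ea.trans eb.symm)
    by_cases hs : s i = true
    · rw [if_pos hs, if_pos hs] at hab'
      exact o'.inj h1 i ⟨a, ha, rfl⟩ ⟨b, hb, rfl⟩ (Sum.inr.inj hab')
    · rw [if_neg hs, if_neg hs] at hab'
      exact o.inj h1 i ⟨a, ha, rfl⟩ ⟨b, hb, rfl⟩ (Sum.inl.inj hab')

/-- the constant function -/
def cb (b : Bool) : SS.Map L (L.prod EB) := ⟨fun a => (a, fun _ => b), fun _ _ => rfl⟩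

theorem good_cb (b : Bool) {p : ℕ} {F : Set (L.obj p)} (h : G.Good F) :
    (gEB G).Good ((cb b).app '' F) := by
  refine ⟨G.good_sub h ?_, fun _ => b, ?_⟩
  · rintro _ ⟨_, ⟨a, ha, rfl⟩, rfl⟩
    exact ha
  · rintro _ ⟨a, ha, rfl⟩
    rfl

/-- the first order -/
noncomputable def m0 : LMap o.lab (o.two o').lab where
  f := cb false
  good := good_cb false
  lt a b := by
    let _ := o.lin
    let _ := o'.lin
    exact Sum.Lex.inl_lt_inl_iff

/-- the second order -/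
noncomputable def m1 : LMap o'.lab (o.two o').lab where
  f := cb true
  good := good_cb true
  lt a b := by
    let _ := o.lin
    let _ := o'.lin
    exact Sum.Lex.inr_lt_inr_iff

/-- the function of a simplex of the interval -/
def bI {p : ℕ} (χ : Op p 1) : Fin (p + 1) → Bool := fun i => decide (χ i = 1)

theorem bI_comp {p q : ℕ} (χ : Op q 1) (f : Op p q) : bI (χ.comp f) = bI χ ∘ f := rfl

theorem bI_c0 (p : ℕ) : bI (c0 p) = fun _ => false := by
  funext i
  have h := c0_val p i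
  exact decide_eq_false fun h' => by rw [h'] at h; exact absurd h (by decide)

theorem bI_c1 (p : ℕ) : bI (c1 p) = fun _ => true := by
  funext i
  exact decide_eq_true (c1_val p i)

/-- the map on sheets -/
def shE {p : ℕ} (s : Fin (p + 1) → Bool) (a : Sheet o.lab B p) : Sheet (o.two o').lab B p :=
  ((a.1, s), a.2)

open Classical in
/-- the sheets with a parameter -/
noncomputable def imE {p : ℕ} (s : Fin (p + 1) → Bool) (F : Finset (Sheet o.lab B p)) :
    Finset (Sheet (o.two o').lab B p) := F.image (o.shE o' s)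

theorem mem_imE {p : ℕ} {s : Fin (p + 1) → Bool} {F : Finset (Sheet o.lab B p)}
    {a : Sheet (o.two o').lab B p} : a ∈ o.imE o' s F ↔ ∃ b ∈ F, o.shE o' s b = a := by
  classical
  rw [imE, mem_image]

variable {A}

theorem imE_ok {p : ℕ} (s : Fin (p + 1) → Bool) {F : Finset (Sheet o.lab B p)}
    (h : GOk o.lab A F) : GOk (o.two o').lab A (o.imE o' s F) := by
  refine ⟨⟨G.good_sub h.1 ?_, s, ?_⟩, ?_, fun a ha => ?_⟩
  · rintro _ ⟨_, ⟨a, ha, rfl⟩, rfl⟩
    obtain ⟨b, hb, rfl⟩ := (o.mem_imE o').1 (mem_coe.1 ha)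
    exact ⟨b, hb, rfl⟩
  · rintro _ ⟨a, ha, rfl⟩
    obtain ⟨b, hb, rfl⟩ := (o.mem_imE o').1 (mem_coe.1 ha)
    rfl
  · intro a ha a' ha' haa
    obtain ⟨b, hb, rfl⟩ := (o.mem_imE o').1 (mem_coe.1 ha)
    obtain ⟨b', hb', rfl⟩ := (o.mem_imE o').1 (mem_coe.1 ha')
    have : b = b' := h.2.1 hb hb' (congrArg (fun c : (L.prod EB).obj p => c.1) haa)
    rw [this]
  · obtain ⟨b, hb, rfl⟩ := (o.mem_imE o').1 ha
    exact h.2.2 b hb

theorem imE_gmap {p q : ℕ} (f : Op p q) (s : Fin (q + 1) → Bool)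
    (F : Finset (Sheet o.lab B q)) :
    o.imE o' (s ∘ f) (gmap o.lab A f F) = gmap (o.two o').lab A f (o.imE o' s F) := by
  ext a
  rw [mem_imE, mem_gmap]
  constructor
  · rintro ⟨b', hb', rfl⟩
    obtain ⟨⟨b, hb, rfl⟩, h⟩ := mem_gmap.1 hb'
    exact ⟨⟨o.shE o' s b, (o.mem_imE o').2 ⟨b, hb, rfl⟩, rfl⟩, h⟩
  · rintro ⟨⟨b', hb', rfl⟩, h⟩
    obtain ⟨b, hb, rfl⟩ := (o.mem_imE o').1 hb'
    exact ⟨shm o.lab f b, mem_gmap.2 ⟨⟨b, hb, rfl⟩, h⟩, rfl⟩

variable (A)

/-- the homotopy between the two orders -/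
noncomputable def hE : SS.Map (cylS (Gam o.lab A)) (Gam (o.two o').lab A) where
  app {p} x := ⟨o.imE o' (bI (p := p) x.2) x.1.1, o.imE_ok o' _ x.1.2⟩
  nat f x := Subtype.ext (o.imE_gmap o' f (bI x.2) x.1.1)

theorem hE_end0 : (o.hE o' A).comp (end0 _) = (o.m0 o').gam A := by
  apply SS.Map.ext
  intro p F
  apply Subtype.ext
  show o.imE o' (bI (c0 p)) F.1 = (o.m0 o').im F.1
  rw [bI_c0]
  rfl

theorem hE_end1 : (o.hE o' A).comp (end1 _) = ((o.m1 o').gam A).comp (o.reo o' A) := by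
  apply SS.Map.ext
  intro p F
  apply Subtype.ext
  show o.imE o' (bI (c1 p)) F.1 = (o.m1 o').im F.1
  rw [bI_c1]
  rfl

/-- **The class of the quadratic cocycle does not depend on the order.** -/
theorem KK_coh {y : Cc B} (hA : Vn A y) (hy : Cc.d y = 0) (n : ℕ) :
    (Cc.cupC (Gam o.lab A)).Coh (KK o.lab A 0 n y)
      (Cc.pull (o.reo o' A) (KK o'.lab A 0 n y)) := by
  have h := Cc.coh_of_htpy (o.hE o' A) (u := KK (o.two o').lab A 0 n y) (d_KK_zero hA hy n)
  rw [hE_end0, hE_end1, (o.m0 o').gam_KK, Cc.pull_comp, (o.m1 o').gam_KK] at h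
  exact h

end OrdS

/-! ### change of the cocycle -/

section change

variable (l : LabS) {B : SS} (A : Sb B)

/-- the empty sub simplicial set -/
def noS (W : SS) : Sb W where
  mem _ := False
  map_mem _ _ h := h

theorem prodB_noS {p : ℕ} (x : (B.prod I1).obj p) :
    (prodB A (noS I1)).mem x ↔ A.mem x.1 :=
  ⟨fun h => h.elim id fun h => h.elim, Or.inl⟩

/-- the cylinder of the free-sum model -/
noncomputable def gcyl : SS.Map (cylS (Gam l A)) (Gam l (prodB A (noS I1))) :=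
  asmW l A (noS I1)

theorem mem_end0 {p : ℕ} (x : B.obj p) (h : A.mem x) :
    (prodB A (noS I1)).mem ((end0 B).app x) := Or.inl h

theorem mem_end1 {p : ℕ} (x : B.obj p) (h : A.mem x) :
    (prodB A (noS I1)).mem ((end1 B).app x) := Or.inl h

theorem gcyl_end0 : (gcyl l A).comp (end0 _) = gamMap l (end0 B) (mem_end0 A) := rfl

theorem gcyl_end1 : (gcyl l A).comp (end1 _) = gamMap l (end1 B) (mem_end1 A) := rfl

variable {A}

/-- **The class of the quadratic cocycle depends only on the class of `y`.** -/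
theorem KK_coh {y β : Cc B} (hA : Vn A y) (hβ : Vn A β) (hy : Cc.d y = 0) (n : ℕ) :
    (Cc.cupC (Gam l A)).Coh (KK l A 0 n (y + Cc.d β)) (KK l A 0 n y) := by
  have hd : Cc.d (Cc.pull (SS.fst B I1) y + Cc.d (Cc.tOp β)) = 0 := by
    rw [d_add, ← pull_d, hy, pull_zero, d_d, add_zero]
  have hv : Vn (prodB A (noS I1)) (Cc.pull (SS.fst B I1) y + Cc.d (Cc.tOp β)) := by
    have h := Vn.add (hA.pull (SS.fst B I1)) (Cc.vn_tOp hβ).d
    exact fun p x hx => h p x ((prodB_noS A x).1 hx)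
  have h0 : Cc.pull (end0 B) (Cc.pull (SS.fst B I1) y + Cc.d (Cc.tOp β)) = y + Cc.d β := by
    rw [pull_add, pull_d, Cc.pull_end0_tOp]
    rfl
  have h1 : Cc.pull (end1 B) (Cc.pull (SS.fst B I1) y + Cc.d (Cc.tOp β)) = y := by
    rw [pull_add, pull_d, Cc.pull_end1_tOp, d_zero, add_zero]
    rfl
  have h := Cc.coh_of_htpy (gcyl l A) (d_KK_zero hv hd n)
  rw [gcyl_end0, gcyl_end1, pull_KK _ _ hv, pull_KK _ _ hv, h0, h1] at h
  exact h

/-- the class of the additive extension depends only on the class of `y` -/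
theorem hat_coh {y β : Cc B} (hβ : Vn A β) :
    (Cc.cupC (Gam l A)).Coh (hat l A (y + Cc.d β)) (hat l A y) := by
  refine ⟨hat l A β, ?_⟩
  show hat l A (y + Cc.d β) + hat l A y = Cc.d (hat l A β)
  rw [hat_add, d_hat hβ, add_comm, ← add_assoc, cc_add_self, zero_add]

end change

end Vale.Agent.P263.TJ
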