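import Vale.Agent.P263.TJ.CmpA
import Vale.Agent.P263.TOP.H.TCov

/-!
# P263, block EB: coverings of trees of points

`PtF X L` : every simplex of `X` carries a finite set of simplices of `L`, different at every
vertex.  `D.T n` : the total space of the covering of the trees of depth `n` of points.
`D.tr n c` : the transfer of a cochain of `D.T n`; `D.K n o c` : the quadratic transfer (with the
order `o` of the vertices of `D.T n`).  `D.K_coh` : its class depends only on the class of `c`.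
-/

open Finset

namespace Vale.Agent.P263.TJ

open Vale.Agent.P263.S Vale.Agent.P263.E Vale.Agent.P263.H83
open Vale.Agent.P263.TOP.H (TW trees)

/-- families of points -/
structure PtF (X L : SS) where
  /-- the points -/
  pts : ∀ {p : ℕ}, X.obj p → Finset (L.obj p)
  mem_pts : ∀ {p q : ℕ} (f : Op p q) (x : X.obj q) (a : L.obj p),
    a ∈ pts (X.map f x) ↔ ∃ b ∈ pts x, L.map f b = a
  inj : ∀ {p : ℕ} (x : X.obj p) (i : Fin (p + 1)),
    Set.InjOn (L.map (vx p i)) (pts x : Set (L.obj p))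

namespace PtF

variable {X L : SS} (D : PtF X L)

theorem injOn {p q : ℕ} (f : Op p q) (x : X.obj q) :
    Set.InjOn (L.map f) (D.pts x : Set (L.obj q)) := by
  intro a ha b hb hab
  refine D.inj x (f 0) ha hb ?_
  have h := congrArg (L.map (vx p 0)) hab
  rw [← L.map_comp, ← L.map_comp] at h
  exact h

open scoped Classical in
theorem pts_map {p q : ℕ} (f : Op p q) (x : X.obj q) :
    D.pts (X.map f x) = (D.pts x).image (L.map f) := by
  ext a
  rw [D.mem_pts, mem_image]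

open scoped Classical in
/-- the proper trees of points -/
noncomputable def tree (n : ℕ) {p : ℕ} (x : X.obj p) : Finset (TW (L.obj p) n) := trees n (D.pts x)

theorem tree_map (n : ℕ) {p q : ℕ} (f : Op p q) (x : X.obj q) (t : TW (L.obj p) n) :
    t ∈ D.tree n (X.map f x) ↔ ∃ s ∈ D.tree n x, TW.map (L.map f) n s = t := by
  classical
  have h : D.tree n (X.map f x) = (D.tree n x).image (TW.map (L.map f) n) := by
    have h1 := TOP.H.trees_image (D.injOn f x) n
    rw [tree, D.pts_map, h1]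
    rfl
  rw [h, mem_image]

theorem tree_injOn (n : ℕ) {p q : ℕ} (f : Op p q) (x : X.obj q) :
    Set.InjOn (TW.map (L.map f) n) (D.tree n x : Set (TW (L.obj q) n)) := by
  classical
  exact TOP.H.TW.map_injOn (D.injOn f x) n

theorem TW_map_id (n : ℕ) {p : ℕ} (t : TW (L.obj p) n) :
    TW.map (L.map (OrderHom.id : Op p p)) n t = t := by
  have h : L.map (OrderHom.id : Op p p) = fun a : L.obj p => a := funext fun a => L.map_id a
  rw [h]
  exact TOP.H.TW.map_id n t

theorem TW_map_comp (n : ℕ) {p q r : ℕ} (f : Op q r) (g : Op p q) (t : TW (L.obj r) n) :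
    TW.map (L.map (f.comp g)) n t = TW.map (L.map g) n (TW.map (L.map f) n t) := by
  rw [TOP.H.TW.map_map]
  congr 1
  funext a
  exact L.map_comp f g a

/-- the total space of the covering of trees -/
noncomputable def T (n : ℕ) : SS where
  obj p := {z : X.obj p × TW (L.obj p) n // z.2 ∈ D.tree n z.1}
  map f z := ⟨(X.map f z.1.1, TW.map (L.map f) n z.1.2),
    (D.tree_map n f z.1.1 _).2 ⟨z.1.2, z.2, rfl⟩⟩
  map_id _ := Subtype.ext (Prod.ext (X.map_id _) (TW_map_id n _))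
  map_comp f g _ := Subtype.ext (Prod.ext (X.map_comp f g _) (TW_map_comp n f g _))

/-- a point of the total space -/
def pt {n p : ℕ} (x : X.obj p) (t : TW (L.obj p) n) (h : t ∈ D.tree n x) : (D.T n).obj p :=
  ⟨(x, t), h⟩

/-- the base point of the fibre -/
def bs {n p : ℕ} (z : (D.T n).obj p) : X.obj p := z.1.1

/-- the tree -/
def te {n p : ℕ} (z : (D.T n).obj p) : TW (L.obj p) n := z.1.2

theorem te_mem {n p : ℕ} (z : (D.T n).obj p) : D.te z ∈ D.tree n (D.bs z) := z.2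

theorem T_ext {n p : ℕ} {z z' : (D.T n).obj p} (h : D.bs z = D.bs z') (h' : D.te z = D.te z') :
    z = z' := Subtype.ext (Prod.ext h h')

theorem bs_map {n p q : ℕ} (f : Op p q) (z : (D.T n).obj q) :
    D.bs ((D.T n).map f z) = X.map f (D.bs z) := rfl

theorem te_map {n p q : ℕ} (f : Op p q) (z : (D.T n).obj q) :
    D.te ((D.T n).map f z) = TW.map (L.map f) n (D.te z) := rfl

theorem lift_inj {n p q : ℕ} (f : Op p q) {z z' : (D.T n).obj q} (h : D.bs z = D.bs z')
    (h' : (D.T n).map f z = (D.T n).map f z') : z = z' := by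
  refine D.T_ext h (D.tree_injOn n f (D.bs z) (mem_coe.2 (D.te_mem z)) (mem_coe.2 ?_) ?_)
  · rw [h]; exact D.te_mem z'
  · exact congrArg D.te h'

theorem lift_surj {n p q : ℕ} (f : Op p q) (x : X.obj q) (z : (D.T n).obj p)
    (h : D.bs z = X.map f x) : ∃ z' : (D.T n).obj q, D.bs z' = x ∧ (D.T n).map f z' = z := by
  have h1 := D.te_mem z
  rw [h] at h1
  obtain ⟨s, hs, hst⟩ := (D.tree_map n f x _).1 h1
  exact ⟨D.pt x s hs, rfl, D.T_ext h.symm hst⟩

/-! ### fibres -/

/-- the embedding of the fibre -/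
def emb (n : ℕ) {p : ℕ} (x : X.obj p) : {t : TW (L.obj p) n // t ∈ D.tree n x} ↪ (D.T n).obj p where
  toFun t := D.pt x t.1 t.2
  inj' _ _ h := Subtype.ext (congrArg D.te h)

/-- the fibre -/
noncomputable def fib (n : ℕ) {p : ℕ} (x : X.obj p) : Finset ((D.T n).obj p) :=
  (D.tree n x).attach.map (D.emb n x)

theorem mem_fib {n p : ℕ} {x : X.obj p} {z : (D.T n).obj p} : z ∈ D.fib n x ↔ D.bs z = x := by
  rw [fib, mem_map]
  constructor
  · rintro ⟨t, -, rfl⟩
    rfl
  · rintro rfl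
    exact ⟨⟨D.te z, D.te_mem z⟩, mem_attach _ _, rfl⟩

theorem sum_fib {n p : ℕ} {M : Type*} [AddCommMonoid M] (x : X.obj p)
    (g : (D.T n).obj p → M) (g' : TW (L.obj p) n → M) (h : ∀ z, D.bs z = x → g z = g' (D.te z)) :
    ∑ z ∈ D.fib n x, g z = ∑ t ∈ D.tree n x, g' t := by
  rw [fib, sum_map, ← sum_attach (D.tree n x)]
  exact sum_congr rfl fun t _ => h _ rfl

/-- admissible sets: the subsets of the fibres -/
def gd (n : ℕ) : GoodS (D.T n) where
  Good {p} F := ∃ x : X.obj p, ∀ a ∈ F, D.bs a = x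
  good_map := by
    rintro p q f F ⟨x, h⟩
    refine ⟨X.map f x, ?_⟩
    rintro _ ⟨a, ha, rfl⟩
    rw [bs_map, h a ha]
  good_sub := by
    rintro p F F' ⟨x, h⟩ h'
    exact ⟨x, fun a ha => h a (h' ha)⟩

/-- an order of the vertices, given by a code -/
def ordOf (n : ℕ) {O : Type} [LinearOrder O] (c : (D.T n).obj 0 → O)
    (hc : ∀ z z', D.bs z = D.bs z' → c z = c z' → z = z') : OrdS (D.gd n) where
  O := O
  ord := c
  inj := by
    rintro p F ⟨x, h⟩ i a ha b hb hab
    have e : D.bs a = D.bs b := (h a ha).trans (h b hb).symm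
    exact D.lift_inj (vx p i) e (hc _ _ (by rw [bs_map, bs_map, e]) hab)

variable {D}
variable {n : ℕ} (o : OrdS (D.gd n))

/-- the sheet of a point of the total space -/
def dg {p : ℕ} (z : (D.T n).obj p) : Sheet o.lab (D.T n) p := (z, z)

theorem dg_inj {p : ℕ} {z z' : (D.T n).obj p} (h : dg o z = dg o z') : z = z' :=
  congrArg (fun a : Sheet o.lab (D.T n) p => a.2) h

open scoped Classical in
/-- all sheets over a simplex -/
noncomputable def allF {p : ℕ} (x : X.obj p) : Finset (Sheet o.lab (D.T n) p) :=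
  (D.fib n x).image (dg o)

theorem mem_allF {p : ℕ} {x : X.obj p} {a : Sheet o.lab (D.T n) p} :
    a ∈ allF o x ↔ ∃ z : (D.T n).obj p, D.bs z = x ∧ dg o z = a := by
  classical
  rw [allF, mem_image]
  simp only [D.mem_fib]

theorem allF_ok {p : ℕ} (x : X.obj p) : GOk o.lab (noS (D.T n)) (allF o x) := by
  refine ⟨⟨x, ?_⟩, ?_, fun _ _ h => h⟩
  · rintro _ ⟨a, ha, rfl⟩
    obtain ⟨z, hz, rfl⟩ := (mem_allF o).1 (mem_coe.1 ha)
    exact hz
  · intro a ha b hb hab
    obtain ⟨z, hz, rfl⟩ := (mem_allF o).1 (mem_coe.1 ha)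
    obtain ⟨z', hz', rfl⟩ := (mem_allF o).1 (mem_coe.1 hb)
    have h : z = z' := hab
    rw [h]

theorem allF_map {p q : ℕ} (f : Op p q) (x : X.obj q) :
    allF o (X.map f x) = gmap o.lab (noS (D.T n)) f (allF o x) := by
  ext a
  rw [mem_allF, mem_gmap]
  constructor
  · rintro ⟨z, hz, rfl⟩
    obtain ⟨z', hz', rfl⟩ := D.lift_surj f x z hz
    exact ⟨⟨(z', z'), (mem_allF o).2 ⟨z', hz', rfl⟩, rfl⟩, fun h => h⟩
  · rintro ⟨⟨b, hb, rfl⟩, -⟩
    obtain ⟨z, rfl, rfl⟩ := (mem_allF o).1 hb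
    exact ⟨(D.T n).map f z, rfl, rfl⟩

/-- the map to the free-sum model -/
noncomputable def all : SS.Map X (Gam o.lab (noS (D.T n))) where
  app x := ⟨allF o x, allF_ok o x⟩
  nat f x := Subtype.ext (allF_map o f x)

theorem sum_allF {p : ℕ} (x : X.obj p) {M : Type*} [AddCommMonoid M]
    (g : Sheet o.lab (D.T n) p → M) : ∑ a ∈ allF o x, g a = ∑ z ∈ D.fib n x, g (dg o z) := by
  classical
  rw [allF, sum_image fun z _ z' _ h => dg_inj o h]

variable (D) in
/-- the transfer -/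
noncomputable def tr (n : ℕ) (c : Cc (D.T n)) : Cc X := fun p x => ∑ z ∈ D.fib n x, c p z

theorem all_hat (c : Cc (D.T n)) : Cc.pull (all o) (hat o.lab (noS _) c) = D.tr n c := by
  funext p x
  exact sum_allF o x fun a => c p a.2

/-- the quadratic transfer -/
noncomputable def K (c : Cc (D.T n)) : Cc X := Cc.pull (all o) (KK o.lab (noS (D.T n)) 0 0 c)

theorem vn_noS {W : SS} (c : Cc W) : Vn (noS W) c := fun _ _ h => h.elim

variable (D) in
/-- some order -/
noncomputable def woOrd (n : ℕ) : OrdS (D.gd n) :=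
  @ordOf X L D n ((D.T n).obj 0) (IsWellOrder.linearOrder WellOrderingRel) id fun _ _ _ h => h

theorem d_tr (c : Cc (D.T n)) : Cc.d (D.tr n c) = D.tr n (Cc.d c) := by
  rw [← all_hat (D.woOrd n), ← pull_d, d_hat (vn_noS c), all_hat]

theorem d_K {c : Cc (D.T n)} (hc : Cc.d c = 0) : Cc.d (K o c) = 0 := by
  rw [K, ← pull_d, d_KK_zero (vn_noS c) hc, pull_zero]

variable (D) in
theorem tr_add (n : ℕ) (c c' : Cc (D.T n)) : D.tr n (c + c') = D.tr n c + D.tr n c' := by
  rw [← all_hat (D.woOrd n), ← all_hat (D.woOrd n), ← all_hat (D.woOrd n), hat_add, pull_add]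

theorem tr_zero : D.tr n (0 : Cc (D.T n)) = 0 := by
  rw [← all_hat (D.woOrd n), hat_zero, pull_zero]

/-- the class of the transfer depends only on the class -/
theorem tr_coh {c c' : Cc (D.T n)} (h : (Cc.cupC (D.T n)).Coh c c') :
    (Cc.cupC X).Coh (D.tr n c) (D.tr n c') := by
  obtain ⟨e, he'⟩ : ∃ e : Cc (D.T n), c + c' = Cc.d e := h
  refine ⟨D.tr n e, ?_⟩
  show D.tr n c + D.tr n c' = Cc.d (D.tr n e)
  rw [d_tr, ← he', D.tr_add]

theorem coh_pull {Y Z : SS} (f : SS.Map Y Z) {u v : Cc Z} (h : (Cc.cupC Z).Coh u v) :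
    (Cc.cupC Y).Coh (Cc.pull f u) (Cc.pull f v) := by
  obtain ⟨e, he'⟩ : ∃ e : Cc Z, u + v = Cc.d e := h
  refine ⟨Cc.pull f e, ?_⟩
  show Cc.pull f u + Cc.pull f v = Cc.d (Cc.pull f e)
  rw [← pull_d, ← he', pull_add]

theorem all_reo (o o' : OrdS (D.gd n)) :
    (o.reo o' (noS (D.T n))).comp (all o) = all o' := rfl

/-- **The class of the quadratic transfer depends only on the class** (and not on the order). -/
theorem K_coh (o o' : OrdS (D.gd n)) {c c' : Cc (D.T n)} (hc : Cc.d c = 0)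
    (h : (Cc.cupC (D.T n)).Coh c c') : (Cc.cupC X).Coh (K o c) (K o' c') := by
  obtain ⟨e, he'⟩ : ∃ e : Cc (D.T n), c + c' = Cc.d e := h
  have h1 : c' = c + Cc.d e := by rw [← he', ← add_assoc, cc_add_self, zero_add]
  have h2 := coh_pull (all o) (o.KK_coh o' (noS (D.T n)) (vn_noS c) hc 0)
  have h3 := coh_pull (all o') (KK_coh (l := o'.lab) (vn_noS c) (vn_noS e) hc 0)
  rw [← Cc.pull_comp, all_reo] at h2
  rw [← h1] at h3
  exact h2.trans h3.symm

/-! ### recognition -/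

section recog

variable {l : LabS} {B : SS} {A : Sb B} (φ : SS.Map (D.T n) l.L) (ψ : SS.Map (D.T n) B)

/-- the order pulled back along a map to a label system -/
def ordPull (hg : ∀ {p : ℕ} (x : X.obj p), l.Good (φ.app '' {z | D.bs z = x}))
    (hi : ∀ z z' : (D.T n).obj 0, D.bs z = D.bs z' → φ.app z = φ.app z' → z = z') :
    OrdS (D.gd n) :=
  D.ordOf n (fun z => l.ord (φ.app z)) fun z z' h h' => by
    refine hi z z' h (l.at_inj (hg (D.bs z)) ⟨z, rfl, rfl⟩ ⟨z', h.symm, rfl⟩ 0 ?_)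
    have e : ∀ a : l.L.obj 0, l.at' a 0 = l.ord a := fun a => by
      unfold LabS.at'
      have h0 : vx 0 0 = (OrderHom.id : Op 0 0) := by
        apply OrderHom.ext
        funext x
        apply Fin.ext
        have := x.2
        have := (vx 0 0 x).2
        show (vx 0 0 x).1 = x.1
        omega
      rw [h0, l.L.map_id]
    rw [e, e]
    exact h'

variable (hg : ∀ {p : ℕ} (x : X.obj p), l.Good (φ.app '' {z | D.bs z = x}))
  (hi : ∀ z z' : (D.T n).obj 0, D.bs z = D.bs z' → φ.app z = φ.app z' → z = z')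

/-- the map of label systems -/
def lmOf : LMap (ordPull φ hg hi).lab l where
  f := φ
  good := by
    rintro p F ⟨x, h⟩
    exact l.good_sub (hg x) (Set.image_mono fun a ha => h a ha)
  lt _ _ := Iff.rfl

theorem noS_to (A : Sb B) {p : ℕ} (x : (D.T n).obj p) (h : (noS (D.T n)).mem x) :
    A.mem (ψ.app x) := h.elim

/-- the comparison map -/
noncomputable def cmpM (A : Sb B) : SS.Map X (Gam l A) :=
  (gamMap l ψ (A := noS (D.T n)) (A' := A) (noS_to ψ A)).comp
    (((lmOf φ hg hi).gam (noS (D.T n))).comp (all (ordPull φ hg hi)))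

theorem mem_cmpM {p : ℕ} (x : X.obj p) (a : Sheet l B p) :
    a ∈ ((cmpM φ ψ hg hi A).app x).1 ↔
      (∃ z, D.bs z = x ∧ (φ.app z, ψ.app z) = a) ∧ ¬ A.mem a.2 := by
  show a ∈ gim A ψ ((lmOf φ hg hi).im (allF _ x)) ↔ _
  rw [mem_gim]
  refine and_congr_left fun _ => ?_
  constructor
  · rintro ⟨b, hb, rfl⟩
    obtain ⟨b', hb', rfl⟩ := (lmOf φ hg hi).mem_im.1 hb
    obtain ⟨z, hz, rfl⟩ := (mem_allF _).1 hb'
    exact ⟨z, hz, rfl⟩
  · rintro ⟨z, hz, rfl⟩
    exact ⟨_, (lmOf φ hg hi).mem_im.2 ⟨_, (mem_allF _).2 ⟨z, hz, rfl⟩, rfl⟩, rfl⟩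

theorem cmpM_hat {y : Cc B} (hy : Vn A y) :
    Cc.pull (cmpM φ ψ hg hi A) (hat l A y) = D.tr n (Cc.pull ψ y) := by
  rw [cmpM, Cc.pull_comp, pull_hat ψ (noS_to ψ A) hy, Cc.pull_comp, (lmOf φ hg hi).gam_hat,
    all_hat]

theorem cmpM_KK {y : Cc B} (hy : Vn A y) :
    Cc.pull (cmpM φ ψ hg hi A) (KK l A 0 0 y) = K (ordPull φ hg hi) (Cc.pull ψ y) := by
  rw [cmpM, Cc.pull_comp, pull_KK ψ (noS_to ψ A) hy, Cc.pull_comp, (lmOf φ hg hi).gam_KK]
  rfl

include hg hi in
/-- **Recognition**: the pull-back of the quadratic cocycle along a map whose sheets outside of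
`A` are given by `φ`, `ψ`. -/
theorem recog_KK (F : SS.Map X (Gam l A)) (hF : ∀ {p : ℕ} (x : X.obj p) (a : Sheet l B p),
      a ∈ (F.app x).1 ↔ (∃ z, D.bs z = x ∧ (φ.app z, ψ.app z) = a) ∧ ¬ A.mem a.2)
    {y : Cc B} (hy : Vn A y) (o : OrdS (D.gd n)) (hd : Cc.d (Cc.pull ψ y) = 0) :
    (Cc.cupC X).Coh (Cc.pull F (KK l A 0 0 y)) (K o (Cc.pull ψ y)) := by
  have h : F = cmpM φ ψ hg hi A := by
    apply SS.Map.ext
    intro p x
    apply Subtype.ext
    ext a
    rw [hF, mem_cmpM]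
  rw [h, cmpM_KK φ ψ hg hi hy]
  exact K_coh _ o hd ⟨0, by rw [map_zero]; exact cc_add_self _⟩

include hg hi in
theorem recog_hat (F : SS.Map X (Gam l A)) (hF : ∀ {p : ℕ} (x : X.obj p) (a : Sheet l B p),
      a ∈ (F.app x).1 ↔ (∃ z, D.bs z = x ∧ (φ.app z, ψ.app z) = a) ∧ ¬ A.mem a.2)
    {y : Cc B} (hy : Vn A y) : Cc.pull F (hat l A y) = D.tr n (Cc.pull ψ y) := by
  have h : F = cmpM φ ψ hg hi A := by
    apply SS.Map.ext
    intro p x
    apply Subtype.ext
    ext a
    rw [hF, mem_cmpM]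
  rw [h, cmpM_hat φ ψ hg hi hy]

end recog

end PtF

end Vale.Agent.P263.TJ
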