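import Vale.Agent.P263.TJ.CmpA
import Vale.Agent.P263.TJ.SqCc
import Vale.Agent.P263.E.KunF

/-!
# P263, block EB: the explicit external square on pairs of sheets

`dlt : Pr l B ⟶ D2 B`, the classifying map of an ordered pair of sheets.
`ThC K z : Cc (D2 B)`, the explicit external square of block S (459's `Theta`).
`pull_ThC` : `dlt^* (ThC K z) = Q + Q^sw`, `Q = ∑_{k<K} v^k o ∪ (z_a ∪_k z_b)`.
-/

open Finset

namespace Vale.Agent.P263.TJ

open Vale.Agent.P263.S Vale.Agent.P263.E Vale.Agent.P263.H83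

/-! ### cup products with a homogeneous left factor -/

section cup

variable {X : SS}

theorem ev_sing (j v : ℕ) : H83.ev {j} v ↔ v ≤ j := by
  rw [H83.ev, filter_singleton]
  split_ifs with h
  · rw [card_singleton]
    exact iff_of_false (by decide) (by omega)
  · rw [card_empty]
    exact iff_of_true (by decide) (by omega)

theorem fA_range {p j : ℕ} (h : j < p + 1) : fA (range (p + 1)) {j} = range (j + 1) := by
  ext v
  rw [mem_fA, mem_singleton, ev_sing, mem_range, mem_range]
  omega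

theorem fB_range {p j : ℕ} (h : j < p + 1) :
    fB (range (p + 1)) {j} = (range (p - j + 1)).image fun x => x + j := by
  ext v
  rw [mem_fB, mem_singleton, ev_sing, mem_range, mem_image]
  constructor
  · rintro ⟨h1, h2⟩
    exact ⟨v - j, by rw [mem_range]; omega, by omega⟩
  · rintro ⟨x, hx, rfl⟩
    rw [mem_range] at hx
    omega

theorem strictMono_addr (m : ℕ) : StrictMono fun x : ℕ => x + m := fun _ _ h =>
  Nat.add_lt_add_right h m

theorem cup_one_deg {m : ℕ} {u : Cc X} (hu : Cc.IsDeg m u) (w : Cc X) {p : ℕ} (hp : m ≤ p)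
    (σ : X.obj p) : Cc.cup 1 u w p σ =
      u m (X.map (cl m p id) σ) * w (p - m) (X.map (cl (p - m) p fun x => x + m) σ) := by
  rw [Cc.cup_def, cupJ, powersetCard_one, sum_map, sum_eq_single m]
  · show co u σ (fA (range (p + 1)) {m}) * co w σ (fB (range (p + 1)) {m}) = _
    rw [fA_range (by omega), fB_range (by omega), ← co_map w σ (strictMono_addr m) subset_rfl,
      co_top]
    congr 1
    have h := co_map u (p := m) σ (e := id) strictMono_id (T := range (m + 1)) subset_rfl
    rw [co_top, image_id] at h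
    exact h.symm
  · intro j hj hjm
    show co u σ (fA (range (p + 1)) {j}) * co w σ (fB (range (p + 1)) {j}) = 0
    rw [mem_range] at hj
    rw [fA_range hj, co_of_ne (by rw [card_range]; omega), hu _ (by rw [card_range]; omega),
      zero_mul]
  · intro h
    exact absurd (mem_range.2 (by omega)) h

theorem cup_one_deg_lt {m : ℕ} {u : Cc X} (hu : Cc.IsDeg m u) (w : Cc X) {p : ℕ} (hp : p < m)
    (σ : X.obj p) : Cc.cup 1 u w p σ = 0 := by
  rw [Cc.cup_def, cupJ, powersetCard_one, sum_map]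
  refine sum_eq_zero fun j hj => ?_
  rw [mem_range] at hj
  show co u σ (fA (range (p + 1)) {j}) * co w σ (fB (range (p + 1)) {j}) = 0
  rw [fA_range hj, co_of_ne (by rw [card_range]; omega), hu _ (by rw [card_range]; omega),
    zero_mul]

/-- a cochain of degree zero in front -/
theorem cup_one_deg0 {u : Cc X} (hu : Cc.IsDeg 0 u) (w : Cc X) {p : ℕ} (σ : X.obj p) :
    Cc.cup 1 u w p σ = u 0 (X.map (vx p 0) σ) * w p σ := by
  rw [cup_one_deg hu w (Nat.zero_le p) σ]
  have h1 : cl 0 p id = vx p 0 := by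
    apply OrderHom.ext
    funext x
    apply Fin.ext
    rw [cl_val monotone_id]
    have := x.2
    show min x.1 p = 0
    omega
  have h2 : cl (p - 0) p (fun x => x + 0) = (OrderHom.id : Op p p) :=
    cl_id (strictMono_addr 0).monotone fun _ _ => rfl
  rw [h1]
  congr 1
  show w p (X.map (cl p p fun x => x + 0) σ) = _
  rw [cl_id (strictMono_addr 0).monotone fun _ _ => rfl, X.map_id]

/-- a cochain of degree one in front -/
theorem cup_one_deg1 {u : Cc X} (hu : Cc.IsDeg 1 u) (w : Cc X) {p : ℕ} (σ : X.obj (p + 1)) :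
    Cc.cup 1 u w (p + 1) σ = u 1 (X.map (cl 1 (p + 1) id) σ) * w p (X.map (dl p 0) σ) := by
  rw [cup_one_deg hu w (by omega) σ]
  congr 1
  show w p (X.map (cl p (p + 1) fun x => x + 1) σ) = _
  congr 2
  rw [dl_eq_cl]
  rfl

end cup

/-! ### the flips -/

section flips

variable {l : LabS} {B : SS}

open Classical in
/-- the order pattern of an ordered pair of sheets -/
noncomputable def om {p : ℕ} (x : (Pr l B).obj p) : Fin (p + 1) → C2 := fun i =>
  if l.at' x.1.1.1 i < l.at' x.1.2.1 i then 1 else E.tau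

theorem om_map {p q : ℕ} (f : Op p q) (x : (Pr l B).obj q) :
    om ((Pr l B).map f x) = fun i => om x (f i) := by
  funext i
  show (if l.at' (l.L.map f x.1.1.1) i < l.at' (l.L.map f x.1.2.1) i then (1 : C2) else E.tau) = _
  rw [l.at_map, l.at_map]
  rfl

theorem om_eq_one {p : ℕ} (x : (Pr l B).obj p) (i : Fin (p + 1)) :
    om x i = 1 ↔ l.at' x.1.1.1 i < l.at' x.1.2.1 i := by
  unfold om
  split_ifs with h
  · exact iff_of_true rfl h
  · exact iff_of_false E.tau_ne_one h

theorem om_sw {p : ℕ} (x : (Pr l B).obj p) :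
    om ((sw l B).app x) = fun i => E.tau * om x i := by
  funext i
  show (if l.at' x.1.2.1 i < l.at' x.1.1.1 i then (1 : C2) else E.tau) =
    E.tau * (if l.at' x.1.1.1 i < l.at' x.1.2.1 i then (1 : C2) else E.tau)
  rcases lt_or_gt_of_ne (x.2 i) with h | h
  · rw [if_neg (not_lt_of_gt h), if_pos h, mul_one]
  · rw [if_pos h, if_neg (not_lt_of_gt h), E.tau_mul_tau]

theorem oo_zero (x : (Pr l B).obj 0) : oo l B 0 x = if om x 0 = 1 then 1 else 0 := by
  classical
  show (if 0 = 0 ∧ l.at' x.1.1.1 0 < l.at' x.1.2.1 0 then (1 : ZMod 2) else 0) = _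
  by_cases h : l.at' x.1.1.1 0 < l.at' x.1.2.1 0
  · rw [if_pos ⟨rfl, h⟩, if_pos ((om_eq_one x 0).2 h)]
  · rw [if_neg fun h' => h h'.2, if_neg fun h' => h ((om_eq_one x 0).1 h')]

theorem isDeg_oo : Cc.IsDeg 0 (oo l B) := fun p hp x => by
  classical
  exact if_neg fun h => hp h.1

theorem isDeg_vv : Cc.IsDeg 1 (vv l B) := isDeg_oo.d

theorem vv_one (x : (Pr l B).obj 1) : vv l B 1 x = if om x 0 = om x 1 then 0 else 1 := by
  rw [vv, d_succ_apply, sum_range_succ, sum_range_one, oo_zero, oo_zero, om_map, om_map]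
  have e0 : dl 0 0 (0 : Fin (0 + 1)) = 1 := rfl
  have e1 : dl 0 1 (0 : Fin (0 + 1)) = 0 := rfl
  simp only [e0, e1]
  rcases E.C2_cases (om x 0) with h0 | h0 <;> rcases E.C2_cases (om x 1) with h1 | h1 <;>
    rw [h0, h1] <;> decide

/-- the classifying map of an ordered pair of sheets -/
noncomputable def dlt (l : LabS) (B : SS) : SS.Map (Pr l B) (SS.D2 B) where
  app x := SS.D2.mk (om x) x.1.1.2 x.1.2.2
  nat f x := by
    show SS.D2.mk (om ((Pr l B).map f x)) _ _ = (SS.D2 B).map f (SS.D2.mk (om x) x.1.1.2 x.1.2.2)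
    rw [SS.D2.map_mk, om_map]
    rfl

/-- the pair of the simplices of `B` -/
def prLR (l : LabS) (B : SS) : SS.Map (Pr l B) (B.prod B) :=
  ⟨fun x => (x.1.1.2, x.1.2.2), fun _ _ => rfl⟩

/-- evaluation of a homotopy fixed point on ordered pairs of sheets -/
noncomputable def rho (f : Tot (hG (SS.swapF (ZMod 2) B))) : Cc (Pr l B) := fun p x =>
  hG.fn (f p) (om x) ((prLR l B).app x)

theorem rho_add (f g : Tot (hG (SS.swapF (ZMod 2) B))) :
    rho (l := l) (f + g) = rho f + rho g := rfl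

theorem rho_zero : rho (l := l) (0 : Tot (hG (SS.swapF (ZMod 2) B))) = 0 := rfl

/-- evaluation as a homomorphism -/
noncomputable def rhoHom (l : LabS) (B : SS) :
    Tot (hG (SS.swapF (ZMod 2) B)) →+ Cc (Pr l B) where
  toFun := rho
  map_zero' := rfl
  map_add' _ _ := rfl

theorem rho_sum {ι : Type} (s : Finset ι) (f : ι → Tot (hG (SS.swapF (ZMod 2) B))) :
    rho (l := l) (∑ i ∈ s, f i) = ∑ i ∈ s, rho (f i) := map_sum (rhoHom l B) f s

/-- cochains of `B × B` on ordered pairs of sheets -/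
noncomputable def wlr (w : Tot (SS.F (ZMod 2) (B.prod B))) : Cc (Pr l B) := fun p x =>
  w p ((prLR l B).app x)

theorem rho_hatG (w : Tot (SS.F (ZMod 2) (B.prod B))) :
    rho (l := l) (hatG (SS.swapF (ZMod 2) B) w) =
      Cc.cup 1 (oo l B) (wlr w) + Cc.pull (sw l B) (Cc.cup 1 (oo l B) (wlr w)) := by
  funext p x
  show hG.fn (hatG (SS.swapF (ZMod 2) B) w p) (om x) ((prLR l B).app x) =
    Cc.cup 1 (oo l B) (wlr w) p x + Cc.cup 1 (oo l B) (wlr w) p ((sw l B).app x)
  rw [hatG_fn, cup_one_deg0 isDeg_oo, cup_one_deg0 isDeg_oo, oo_zero, oo_zero, om_map, om_map,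
    om_sw]
  show (SS.swapF (ZMod 2) B).act p (om x 0) (w p) ((prLR l B).app x) =
    (if om x 0 = 1 then (1 : ZMod 2) else 0) * wlr w p x +
      (if E.tau * om x 0 = 1 then (1 : ZMod 2) else 0) * wlr w p ((sw l B).app x)
  rcases E.C2_cases (om x 0) with h | h
  · rw [h, if_pos rfl, if_neg (by decide), one_mul, zero_mul, add_zero, SS.swapF_one]
    rfl
  · rw [h, if_neg (by decide), if_pos (by decide), one_mul, zero_mul, zero_add]
    exact SS.swapF_tau (w p) _

theorem rho_UT (f : Tot (hG (SS.swapF (ZMod 2) B))) :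
    rho (l := l) (UT (SS.swapF (ZMod 2) B) f) = Cc.cup 1 (vv l B) (rho f) := by
  funext p x
  cases p with
  | zero =>
    rw [cup_one_deg_lt isDeg_vv _ (by omega)]
    rfl
  | succ m =>
    rw [cup_one_deg1 isDeg_vv, vv_one, om_map]
    show hG.fn (U (SS.swapF (ZMod 2) B) m (f m)) (om x) ((prLR l B).app x) = _
    rw [U_fn]
    have e0 : cl 1 (m + 1) id 0 = 0 := by
      apply Fin.ext
      rw [cl_val monotone_id]
      show min 0 (m + 1) = 0
      omega
    have e1 : cl 1 (m + 1) id 1 = 1 := by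
      apply Fin.ext
      rw [cl_val monotone_id]
      show min 1 (m + 1) = (1 : Fin (m + 2)).1
      rw [Fin.val_one]
      omega
    simp only [e0, e1]
    by_cases h : om x 0 = om x 1
    · rw [if_pos h, if_pos h, zero_mul]
      rfl
    · rw [if_neg h, if_neg h, one_mul]
      show _ = hG.fn (f m) (om ((Pr l B).map (dl m 0) x)) ((prLR l B).app ((Pr l B).map (dl m 0) x))
      rw [om_map]
      rfl

theorem pull_sw_vv (u : Cc (Pr l B)) :
    Cc.pull (sw l B) (Cc.cup 1 (vv l B) u) = Cc.cup 1 (vv l B) (Cc.pull (sw l B) u) := by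
  rw [pull_cup, vv_sw]

theorem rho_UT_iterate (k : ℕ) (w : Tot (SS.F (ZMod 2) (B.prod B))) :
    rho (l := l) ((UT (SS.swapF (ZMod 2) B))^[k] (hatG (SS.swapF (ZMod 2) B) w)) =
      Cc.cup 1 (vo l B k) (wlr w) + Cc.pull (sw l B) (Cc.cup 1 (vo l B k) (wlr w)) := by
  induction k with
  | zero => exact rho_hatG w
  | succ k ih =>
    rw [Function.iterate_succ_apply', rho_UT, ih, cup_add_right, ← pull_sw_vv, ← cup_assoc]
    rfl

/-- the external product in the language of `Cc` -/
theorem wlr_cupT (j : ℕ) (y z : Cc B) :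
    wlr (l := l) (cupT (ofBil (SS.muF (ZMod 2) B B)) j (tot y) (tot z)) =
      Cc.cup j (Cc.pull (prL l B) y) (Cc.pull (prR l B) z) := by
  funext p x
  rw [cup_LR, cupJ]
  have h : ∀ (s : Finset (Finset ℕ)) (g : Finset ℕ → (B.prod B).obj p → ZMod 2)
      (v : (B.prod B).obj p), (∑ J ∈ s, g J) v = ∑ J ∈ s, g J v := fun s g v =>
    Finset.sum_apply v s g
  refine Eq.trans (show _ = _ from h (powersetCard j (range (p + 1))) (fun J =>
    (SS.muF (ZMod 2) B B).app p (fc (SS.F (ZMod 2) B) p (tot y) (fA (range (p + 1)) J))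
      (fc (SS.F (ZMod 2) B) p (tot z) (fB (range (p + 1)) J))) ((prLR l B).app x)) ?_
  refine sum_congr rfl fun J _ => ?_
  show fc (SS.F (ZMod 2) B) p (tot y) (fA (range (p + 1)) J) x.1.1.2 *
    fc (SS.F (ZMod 2) B) p (tot z) (fB (range (p + 1)) J) x.1.2.2 = _
  rw [fc_tot y (fA_subset _ _), fc_tot z (fB_subset _ _)]

/-- **The explicit external square** as a cochain of `D2 B`. -/
noncomputable def ThC (K : ℕ) (z : Cc B) : Cc (SS.D2 B) := fun p =>
  (SS.ofHG B).app p (Theta (SS.swapF (ZMod 2) B) (SS.muF (ZMod 2) B B) K (tot z) p)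

theorem pull_dlt_ofHG (f : Tot (hG (SS.swapF (ZMod 2) B))) :
    (Cc.pull (dlt l B) fun p => (SS.ofHG B).app p (f p)) = rho f := rfl

/-- **The explicit external square on ordered pairs of sheets.** -/
theorem pull_ThC (K : ℕ) (z : Cc B) : Cc.pull (dlt l B) (ThC K z) =
    (∑ k ∈ range K, qt l 0 0 z k) + Cc.pull (sw l B) (∑ k ∈ range K, qt l 0 0 z k) := by
  rw [pull_fsum, ← sum_add_distrib]
  refine (rho_sum (l := l) (range K) _).trans (sum_congr rfl fun k _ => ?_)
  refine (rho_UT_iterate k _).trans ?_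
  rw [wlr_cupT, qt, Nat.zero_add]
  rfl

/-- too many break points for the square of a homogeneous cochain -/
theorem qt_high {n : ℕ} {z : Cc B} (hz : Cc.IsDeg n z) {k : ℕ} (h : n < k) :
    qt l 0 0 z k = 0 := by
  have h1 : ww l z (0 + k + 1) = 0 := by
    funext p x
    rw [ww, cup_LR, cupJ]
    refine sum_eq_zero fun J hJ => ?_
    rw [mem_powersetCard] at hJ
    have h2 := card_le_card (subset_fA (S := range (p + 1)) hJ.1)
    rw [co_of_ne (by omega), hz _ (by omega), zero_mul]
  rw [qt, h1, cup_zero_right]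

theorem sum_qt_high {n : ℕ} {z : Cc B} (hz : Cc.IsDeg n z) {K N : ℕ} (hK : n < K) (hN : n < N) :
    ∑ k ∈ range K, qt l 0 0 z k = ∑ k ∈ range N, qt l 0 0 z k := by
  have h : ∀ M, n < M → ∑ k ∈ range M, qt l 0 0 z k = ∑ k ∈ range (n + 1), qt l 0 0 z k := by
    intro M hM
    refine (sum_subset (range_subset_range.2 hM) fun k _ hk => ?_).symm
    rw [mem_range] at hk
    exact qt_high hz (by omega)
  rw [h K hK, h N hN]

end flips

end Vale.Agent.P263.TJ
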