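import Vale.Agent.P263.TJ.CmpB
import Vale.Agent.P263.TJ.CmpC

/-!
# P263, block EB: comparison with the tree transfers of the model

`HL D N` : a labelling of the points of `D` by natural numbers, different over the points of a
vertex, all fibres with `N` points.  `H.hm : X ⟶ Gam N`, the map to the model of block [H].
`H.cls n : D.T n ⟶ BW pt n` : the classifying map of the covering of trees.
`pull_ctC` : `hm^* (ctree n w) = tr (cls^* w)`.
`pull_ctC_ThC` : `hm^* (ctree (n + 1) (ThC z)) = K (cls^* z)`, the quadratic transfer with the order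
of the model.
-/

open Finset

namespace Vale.Agent.P263.TJ

open Vale.Agent.P263.S Vale.Agent.P263.E Vale.Agent.P263.H83
open Vale.Agent.P263.TOP.H (TW trees Lab rl)

/-- sums over unordered pairs of different elements -/
theorem sum_sym2_offDiag {α : Type*} [DecidableEq α] {M : Type*} [AddCommMonoid M] (F : Finset α)
    (H : Sym2 α → M) (G : α → α → M) (hG : ∀ a, G a a = 0)
    (h : ∀ a ∈ F, ∀ b ∈ F, a ≠ b → H s(a, b) = G a b + G b a) :
    ∑ t ∈ F.sym2.filter (fun t => ¬ t.IsDiag), H t = ∑ a ∈ F, ∑ b ∈ F, G a b := by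
  have h1 : ∑ a ∈ F, ∑ b ∈ F, G a b = ∑ x ∈ F.offDiag, G x.1 x.2 := by
    rw [← sum_product' F F G]
    have h0 : F.offDiag ⊆ F ×ˢ F := fun x hx => by
      rw [mem_offDiag] at hx
      exact mem_product.2 ⟨hx.1, hx.2.1⟩
    refine (sum_subset h0 fun x hx hx' => ?_).symm
    rw [mem_product] at hx
    have : x.1 = x.2 := by
      by_contra hne
      exact hx' (mem_offDiag.2 ⟨hx.1, hx.2, hne⟩)
    rw [this, hG]
  rw [h1, ← sum_fiberwise_of_maps_to (s := F.offDiag)
    (t := F.sym2.filter fun t => ¬ t.IsDiag) (g := fun x => s(x.1, x.2))]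
  · refine sum_congr rfl fun t ht => ?_
    induction t using Sym2.ind with
    | _ a b =>
      rw [mem_filter, Finset.mk_mem_sym2_iff, Sym2.mk_isDiag_iff] at ht
      obtain ⟨⟨ha, hb⟩, hab⟩ := ht
      have h2 : (F.offDiag.filter fun x => s(x.1, x.2) = s(a, b)) = {(a, b), (b, a)} := by
        ext ⟨x, y⟩
        rw [mem_filter, mem_offDiag, mem_insert, mem_singleton, Sym2.eq_iff, Prod.mk.injEq,
          Prod.mk.injEq]
        constructor
        · exact fun h => h.2
        · rintro (⟨rfl, rfl⟩ | ⟨rfl, rfl⟩)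
          · exact ⟨⟨ha, hb, hab⟩, Or.inl ⟨rfl, rfl⟩⟩
          · exact ⟨⟨hb, ha, fun h => hab h.symm⟩, Or.inr ⟨rfl, rfl⟩⟩
      rw [h2, sum_pair fun h => hab (congrArg Prod.fst h), h a ha b hb hab]
  · rintro ⟨a, b⟩ hx
    rw [mem_offDiag] at hx
    rw [mem_filter, Finset.mk_mem_sym2_iff, Sym2.mk_isDiag_iff]
    exact ⟨⟨hx.1, hx.2.1⟩, hx.2.2⟩

/-! ### the tree transfer on cochains of mixed degree -/

/-- the tree transfer -/
noncomputable def ctC (n N : ℕ) (w : Cc (SS.BW SS.pt n)) : Cc (TOP.H.Gam N) := fun p =>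
  (TOP.H.ctree (ZMod 2) n N).app p (w p)

theorem d_ctC (n N : ℕ) (w : Cc (SS.BW SS.pt n)) : Cc.d (ctC n N w) = ctC n N (Cc.d w) := by
  funext p
  cases p with
  | zero =>
    have h1 : Cc.d w 0 = 0 := funext fun x => d_zero_apply w x
    have h2 : Cc.d (ctC n N w) 0 = 0 := funext fun x => d_zero_apply _ x
    have h3 : ctC n N (Cc.d w) 0 = 0 := by
      refine Eq.trans (show _ = (TOP.H.ctree (ZMod 2) n N).app 0 (Cc.d w 0) from rfl) ?_
      rw [h1]
      exact map_zero _
    rw [h2, h3]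
  | succ p =>
    rw [d_eq_F]
    show _ = (TOP.H.ctree (ZMod 2) n N).app (p + 1) (Cc.d w (p + 1))
    rw [d_eq_F]
    exact ((TOP.H.ctree (ZMod 2) n N).app_d p (w p)).symm

theorem d_ctC_zero (n N : ℕ) {w : Cc (SS.BW SS.pt n)} (hd : Cc.d w = 0) :
    Cc.d (ctC n N w) = 0 := by
  rw [d_ctC, hd]
  funext p
  exact map_zero _

theorem clc_ctC (n N : ℕ) {p : ℕ} {w : Cc (SS.BW SS.pt n)} (hd : Cc.d w = 0)
    (hd' : Cc.d (ctC n N w) = 0) :
    clc p (ctC n N w) hd' = (TOP.H.ctree (ZMod 2) n N).mapH p (clc p w hd) := rfl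

/-! ### labellings -/

/-- a labelling of the points by natural numbers -/
structure HL {X L : SS} (D : PtF X L) (N : ℕ) where
  /-- the labels of the points over the vertices -/
  lam : X.obj 0 → L.obj 0 → ℕ
  inj : ∀ x : X.obj 0, Set.InjOn (lam x) (D.pts x : Set (L.obj 0))
  card : ∀ {p : ℕ} (x : X.obj p), (D.pts x).card = N

namespace HL

variable {X L : SS} {D : PtF X L} {N : ℕ} (H : HL D N)

/-- the label vector of a point -/
def lab {p : ℕ} (x : X.obj p) (a : L.obj p) : Lab p := fun i =>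
  H.lam (X.map (vx p i) x) (L.map (vx p i) a)

theorem lab_map {p q : ℕ} (f : Op p q) (x : X.obj q) (a : L.obj q) :
    H.lab (X.map f x) (L.map f a) = rl f (H.lab x a) := by
  funext i
  show H.lam (X.map (vx p i) (X.map f x)) (L.map (vx p i) (L.map f a)) =
    H.lam (X.map (vx q (f i)) x) (L.map (vx q (f i)) a)
  rw [← X.map_comp, ← L.map_comp]
  rfl

theorem lab_inj {p : ℕ} (x : X.obj p) (i : Fin (p + 1)) {a b : L.obj p} (ha : a ∈ D.pts x)
    (hb : b ∈ D.pts x) (h : H.lab x a i = H.lab x b i) : a = b := by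
  refine D.inj x i (mem_coe.2 ha) (mem_coe.2 hb) ?_
  exact H.inj _ (mem_coe.2 ((D.mem_pts _ _ _).2 ⟨a, ha, rfl⟩))
    (mem_coe.2 ((D.mem_pts _ _ _).2 ⟨b, hb, rfl⟩)) h

theorem lab_injOn {p : ℕ} (x : X.obj p) : Set.InjOn (H.lab x) (D.pts x : Set (L.obj p)) :=
  fun _ ha _ hb h => H.lab_inj x 0 (mem_coe.1 ha) (mem_coe.1 hb) (congrFun h 0)

/-- the set of the label vectors -/
def im {p : ℕ} (x : X.obj p) : Finset (Lab p) := (D.pts x).image (H.lab x)

theorem good_im {p : ℕ} (x : X.obj p) : TOP.H.Good (H.im x) := by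
  intro i s hs t ht h
  obtain ⟨a, ha, rfl⟩ := mem_image.1 (mem_coe.1 hs)
  obtain ⟨b, hb, rfl⟩ := mem_image.1 (mem_coe.1 ht)
  rw [H.lab_inj x i ha hb h]

/-- **the map to the model** -/
def hm : SS.Map X (TOP.H.Gam N) where
  app x := ⟨H.im x, H.good_im x, by
    rw [im, card_image_of_injOn (H.lab_injOn x), H.card x]⟩
  nat {p q} f x := by
    refine Subtype.ext ?_
    ext s
    show s ∈ H.im (X.map f x) ↔ s ∈ TOP.H.res f (H.im x)
    rw [TOP.H.mem_res, im, mem_image]
    constructor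
    · rintro ⟨a, ha, rfl⟩
      obtain ⟨b, hb, rfl⟩ := (D.mem_pts f x a).1 ha
      exact ⟨_, mem_image_of_mem _ hb, (H.lab_map f x b).symm⟩
    · rintro ⟨t, ht, rfl⟩
      obtain ⟨b, hb, rfl⟩ := mem_image.1 ht
      exact ⟨L.map f b, (D.mem_pts f x _).2 ⟨b, hb, rfl⟩, H.lab_map f x b⟩

/-- the tree of label vectors of a tree of points -/
def lt (n : ℕ) {p : ℕ} (x : X.obj p) (t : TW (L.obj p) n) : TW (Lab p) n :=
  TW.map (H.lab x) n t

theorem lt_map (n : ℕ) {p q : ℕ} (f : Op p q) (x : X.obj q) (t : TW (L.obj q) n) :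
    H.lt n (X.map f x) (TW.map (L.map f) n t) = TW.map (rl f) n (H.lt n x t) := by
  rw [lt, lt, TOP.H.TW.map_map, TOP.H.TW.map_map]
  congr 1
  funext a
  exact H.lab_map f x a

theorem lt_mem (n : ℕ) {p : ℕ} (x : X.obj p) {t : TW (L.obj p) n} (h : t ∈ D.tree n x) :
    H.lt n x t ∈ trees n (H.im x) := by
  classical
  have h1 : trees n (H.im x) = (D.tree n x).image (TW.map (H.lab x) n) := by
    have h2 := TOP.H.trees_image (H.lab_injOn x) n
    rw [im]
    exact h2
  rw [h1]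
  exact mem_image_of_mem _ h

theorem lt_inj (n : ℕ) {p : ℕ} (x : X.obj p) {s t : TW (L.obj p) n} (hs : s ∈ D.tree n x)
    (ht : t ∈ D.tree n x) (h : H.lt n x s = H.lt n x t) : s = t := by
  classical
  exact TOP.H.TW.map_injOn (H.lab_injOn x) n (mem_coe.2 hs) (mem_coe.2 ht) h

/-- the classifying map -/
noncomputable def cls (n : ℕ) : SS.Map (D.T n) (SS.BW SS.pt n) where
  app z := TOP.H.cl n (H.lt n (D.bs z) (D.te z))
  nat f z := by
    rw [D.bs_map, D.te_map, H.lt_map]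
    exact (H.good_im (D.bs z)).cl_map f n _ (H.lt_mem n _ (D.te_mem z))

theorem sum_trees_im (n : ℕ) {p : ℕ} (x : X.obj p) {M : Type*} [AddCommMonoid M]
    (w : TW (Lab p) n → M) :
    ∑ t ∈ trees n (H.im x), w t = ∑ t ∈ D.tree n x, w (H.lt n x t) := by
  classical
  have h2 := TOP.H.sum_trees_image (H.lab_injOn x) n w
  rw [im]
  exact h2

/-- the tree transfer is the transfer of the classifying map -/
theorem pull_ctC (n : ℕ) (w : Cc (SS.BW SS.pt n)) :
    Cc.pull H.hm (ctC n N w) = D.tr n (Cc.pull (H.cls n) w) := by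
  funext p x
  refine (TOP.H.ctree_apply (n := n) (m := N) (w p) (H.hm.app x)).trans ?_
  refine (H.sum_trees_im n x fun t => w p (TOP.H.cl n t)).trans ?_
  refine (D.sum_fib x _ _ fun z hz => ?_).symm
  subst hz
  rfl

/-- the code of the order of the model -/
noncomputable def cd (n : ℕ) (z : (D.T n).obj 0) : ℕ :=
  TOP.H.code n (TOP.H.ev n 0 (H.lt n (D.bs z) (D.te z)))

/-- the order of the model -/
noncomputable def hord (n : ℕ) : OrdS (D.gd n) :=
  D.ordOf n (H.cd n) fun z z' h h' => by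
    refine D.T_ext h (H.lt_inj n (D.bs z) (D.te_mem z) (by rw [h]; exact D.te_mem z') ?_)
    have h1 := TOP.H.code_injective n h'
    by_contra hne
    refine (H.good_im (D.bs z)).ev_ne (H.lt_mem n _ (D.te_mem z))
      (H.lt_mem n (D.bs z) (t := D.te z') (by rw [h]; exact D.te_mem z')) hne 0 ?_
    rw [h1, h]

theorem at_hord (n : ℕ) {p : ℕ} (z : (D.T n).obj p) (i : Fin (p + 1)) :
    (H.hord n).lab.at' z i = TOP.H.code n (TOP.H.ev n i (H.lt n (D.bs z) (D.te z))) := by
  show TOP.H.code n (TOP.H.ev n 0 (H.lt n (D.bs ((D.T n).map (vx p i) z))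
    (D.te ((D.T n).map (vx p i) z)))) = _
  rw [D.bs_map, D.te_map, H.lt_map, TOP.H.ev_map]
  rfl

variable (n : ℕ)

/-- the sheet in the model -/
noncomputable def sht {p : ℕ} (z : (D.T n).obj p) : Sheet (H.hord n).lab (SS.BW SS.pt n) p :=
  (z, (H.cls n).app z)

/-- the quadratic transfer as a double sum over the fibre -/
theorem K_apply (z : Cc (SS.BW SS.pt n)) {M p : ℕ} (hM : p + 1 ≤ M) (x : X.obj p) :
    PtF.K (H.hord n) (Cc.pull (H.cls n) z) p x =
      ∑ a ∈ D.fib n x, ∑ b ∈ D.fib n x,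
        ex (∑ k ∈ range M, qt (H.hord n).lab 0 0 z k) (H.sht n a) (H.sht n b) := by
  have h1 : PtF.K (H.hord n) (Cc.pull (H.cls n) z) p x =
      Tr (noS (D.T n)) (∑ k ∈ range M, qt (H.hord n).lab 0 0 (Cc.pull (H.cls n) z) k) p
        ((PtF.all (H.hord n)).app x) :=
    congrFun (KK_eq 0 0 (Cc.pull (H.cls n) z) hM) _
  have h2 : (∑ k ∈ range M, qt (H.hord n).lab 0 0 (Cc.pull (H.cls n) z) k) =
      Cc.pull (prMap (H.hord n).lab (H.cls n)) (∑ k ∈ range M, qt (H.hord n).lab 0 0 z k) := by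
    rw [pull_fsum]
    exact sum_congr rfl fun k _ => (pull_qt (H.cls n) 0 0 z k).symm
  rw [h1, h2, Tr_apply]
  refine (PtF.sum_allF (H.hord n) x _).trans (sum_congr rfl fun a _ => ?_)
  refine (PtF.sum_allF (H.hord n) x _).trans (sum_congr rfl fun b _ => ?_)
  exact ex_prMap (H.cls n) _ _ _

/-- the order pattern of two sheets is the order of the model -/
theorem om_eq {p : ℕ} (a b : (D.T n).obj p)
    (h : ∀ i, (H.hord n).lab.at' (H.sht n a).1 i ≠ (H.hord n).lab.at' (H.sht n b).1 i) :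
    om (⟨(H.sht n a, H.sht n b), h⟩ : (Pr (H.hord n).lab (SS.BW SS.pt n)).obj p) =
      TOP.H.ord n (H.lt n (D.bs a) (D.te a)) (H.lt n (D.bs b) (D.te b)) := by
  classical
  funext i
  show (if (H.hord n).lab.at' a i < (H.hord n).lab.at' b i then (1 : C2) else E.tau) =
    if TOP.H.code n _ < TOP.H.code n _ then 1 else E.tau
  rw [H.at_hord, H.at_hord]
  split_ifs with h1 h2 h2
  · rfl
  · exact absurd h1 h2
  · exact absurd h2 h1
  · rfl

/-- **Comparison with the model**: `hm^* (tr_(n+1) (Θ z)) = K (cls^* z)`. -/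
theorem pull_ctC_ThC {c K : ℕ} {z : Cc (SS.BW SS.pt n)} (hz : Cc.IsDeg c z) (hK : c < K) :
    Cc.pull H.hm (ctC (n + 1) N (ThC K z)) = PtF.K (H.hord n) (Cc.pull (H.cls n) z) := by
  classical
  funext p x
  refine (TOP.H.ctree_apply (n := n + 1) (m := N) (ThC K z p) (H.hm.app x)).trans ?_
  refine (H.sum_trees_im (n + 1) x fun t => ThC K z p (TOP.H.cl (n + 1) t)).trans ?_
  rw [H.K_apply n z (M := p + 1 + K) (by omega) x]
  set C := ∑ k ∈ range (p + 1 + K), qt (H.hord n).lab 0 0 z k with hC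
  have hC' : C = ∑ k ∈ range K, qt (H.hord n).lab 0 0 z k := sum_qt_high hz (by omega) hK
  -- the summands as functions of the trees
  let G : TW (L.obj p) n → TW (L.obj p) n → ZMod 2 := fun s t =>
    if h : s ∈ D.tree n x ∧ t ∈ D.tree n x then
      ex C (H.sht n (D.pt x s h.1)) (H.sht n (D.pt x t h.2)) else 0
  have hGe : ∀ a b : (D.T n).obj p, D.bs a = x → D.bs b = x →
      ex C (H.sht n a) (H.sht n b) = G (D.te a) (D.te b) := by
    intro a b ha hb
    have ha' : D.te a ∈ D.tree n x := by rw [← ha]; exact D.te_mem a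
    have hb' : D.te b ∈ D.tree n x := by rw [← hb]; exact D.te_mem b
    have e1 : a = D.pt x (D.te a) ha' := D.T_ext ha rfl
    have e2 : b = D.pt x (D.te b) hb' := D.T_ext hb rfl
    show _ = dite _ _ _
    rw [dif_pos ⟨ha', hb'⟩, ← e1, ← e2]
  have h1 : ∑ a ∈ D.fib n x, ∑ b ∈ D.fib n x, ex C (H.sht n a) (H.sht n b) =
      ∑ s ∈ D.tree n x, ∑ t ∈ D.tree n x, G s t := by
    refine D.sum_fib x _ _ fun a ha => ?_
    exact D.sum_fib x _ _ fun b hb => hGe a b ha hb
  rw [h1]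
  refine Eq.trans ?_ (sum_sym2_offDiag (D.tree n x)
    (fun t => ThC K z p (TOP.H.cl (n + 1) (H.lt (n + 1) x t))) G ?_ ?_)
  · have e : D.tree (n + 1) x = (D.tree n x).sym2.filter fun t => ¬ t.IsDiag := by
      ext t
      induction t using Sym2.ind with
      | _ s t =>
        rw [PtF.tree, TOP.H.mem_trees_succ, mem_filter, Finset.mk_mem_sym2_iff,
          Sym2.mk_isDiag_iff, and_assoc]
        rfl
    rw [e]
  · intro s
    show dite _ _ _ = _
    split_ifs with h
    · exact ex_self _ _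
    · rfl
  · intro s hs t ht hst
    have h2 : ∀ i, TOP.H.ev n i (H.lt n x s) ≠ TOP.H.ev n i (H.lt n x t) :=
      (H.good_im x).ev_ne (H.lt_mem n x hs) (H.lt_mem n x ht)
        fun h => hst (H.lt_inj n x hs ht h)
    have h3 : ∀ i, (H.hord n).lab.at' (H.sht n (D.pt x s hs)).1 i ≠
        (H.hord n).lab.at' (H.sht n (D.pt x t ht)).1 i := by
      intro i h
      have h4 : (H.hord n).lab.at' (D.pt x s hs) i = (H.hord n).lab.at' (D.pt x t ht) i := h
      rw [H.at_hord, H.at_hord] at h4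
      exact h2 i (TOP.H.code_injective n h4)
    have h5 : G s t = C p ⟨(H.sht n (D.pt x s hs), H.sht n (D.pt x t ht)), h3⟩ := by
      show dite _ _ _ = _
      rw [dif_pos ⟨hs, ht⟩, ex_of h3]
    have h6 : G t s = C p ⟨(H.sht n (D.pt x t ht), H.sht n (D.pt x s hs)),
        fun i => (h3 i).symm⟩ := by
      show dite _ _ _ = _
      rw [dif_pos ⟨ht, hs⟩, ex_of fun i => (h3 i).symm]
    have h7 := congrFun (congrFun (pull_ThC (l := (H.hord n).lab) K z) p)
      ⟨(H.sht n (D.pt x s hs), H.sht n (D.pt x t ht)), h3⟩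
    rw [← hC'] at h7
    rw [h5, h6]
    refine Eq.trans ?_ h7
    show ThC K z p (TOP.H.cl (n + 1) (H.lt (n + 1) x s(s, t))) = ThC K z p
      ((dlt (H.hord n).lab (SS.BW SS.pt n)).app _)
    congr 1
    refine (TOP.H.cl_mk_of_ne n h2).trans ?_
    show _ = SS.D2.mk (om _) _ _
    rw [H.om_eq n (D.pt x s hs) (D.pt x t ht) h3]
    rfl

end HL

end Vale.Agent.P263.TJ
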