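import Vale.Agent.P263.TJ.SCo
import Vale.Agent.P263.H83.Susp

/-!
# P263, block EB: sub simplicial sets, cochains which vanish on them, the unit cochain

`Sb X` : sub simplicial sets (as predicates), `Vn A u` : the mixed-degree cochain `u` vanishes
on `A` (stable under `+`, `d`, and under products with arbitrary cochains). `Cc.one` : the unit.
-/

open Finset

namespace Vale.Agent.P263.TJ

open Vale.Agent.P263.S Vale.Agent.P263.E Vale.Agent.P263.H83

variable {X Y : SS}

/-- sub simplicial sets -/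
structure Sb (X : SS) where
  /-- the simplices which belong to it -/
  mem : ∀ {p : ℕ}, X.obj p → Prop
  map_mem : ∀ {p q : ℕ} (f : Op p q) {x : X.obj q}, mem x → mem (X.map f x)

namespace Sb

/-- the empty sub simplicial set -/
def empty (X : SS) : Sb X := ⟨fun _ => False, fun _ _ h => h⟩

/-- preimage -/
def comap (f : SS.Map X Y) (A : Sb Y) : Sb X :=
  ⟨fun x => A.mem (f.app x), fun g x h => by rw [f.nat]; exact A.map_mem g h⟩

/-- union -/
def union (A A' : Sb X) : Sb X :=
  ⟨fun x => A.mem x ∨ A'.mem x, fun f _ h => h.imp (A.map_mem f) (A'.map_mem f)⟩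

end Sb

/-- `u` vanishes on `A` -/
def Vn (A : Sb X) (u : Cc X) : Prop := ∀ (p : ℕ) (x : X.obj p), A.mem x → u p x = 0

namespace Vn

variable {A : Sb X} {u v : Cc X}

theorem zero : Vn A (0 : Cc X) := fun _ _ _ => rfl

theorem add (hu : Vn A u) (hv : Vn A v) : Vn A (u + v) := fun p x h => by
  show u p x + v p x = 0
  rw [hu p x h, hv p x h, add_zero]

theorem sum {ι : Type} {s : Finset ι} {f : ι → Cc X} (h : ∀ i ∈ s, Vn A (f i)) :
    Vn A (∑ i ∈ s, f i) := by
  intro p x hx
  rw [Finset.sum_apply, Finset.sum_apply]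
  exact sum_eq_zero fun i hi => h i hi p x hx

theorem co {p : ℕ} {σ : X.obj p} (hu : Vn A u) (hσ : A.mem σ) (S : Finset ℕ) :
    co u σ S = 0 := by
  by_cases h : S.card = 0
  · exact if_pos h
  · rw [co_of_ne h]
    exact hu _ _ (A.map_mem _ hσ)

theorem d (hu : Vn A u) : Vn A (Cc.d u) := fun p x h => by
  rw [Cc.d_def, dd]
  exact sum_eq_zero fun k _ => hu.co h _

theorem cup_left (j : ℕ) (hu : Vn A u) (v : Cc X) : Vn A (Cc.cup j u v) := fun p x h => by
  rw [Cc.cup_def, cupJ]
  exact sum_eq_zero fun J _ => by rw [hu.co h, zero_mul]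

theorem cup_right (j : ℕ) (u : Cc X) (hv : Vn A v) : Vn A (Cc.cup j u v) := fun p x h => by
  rw [Cc.cup_def, cupJ]
  exact sum_eq_zero fun J _ => by rw [hv.co h, mul_zero]

theorem pull {B : Sb Y} {w : Cc Y} (hw : Vn B w) (f : SS.Map X Y) :
    Vn (B.comap f) (Cc.pull f w) := fun p _ h => hw p _ h

theorem mono {A' : Sb X} (hu : Vn A u) (h : ∀ {p : ℕ} (x : X.obj p), A'.mem x → A.mem x) :
    Vn A' u := fun p x hx => hu p x (h x hx)

end Vn

/-! ### degrees -/

/-- the coboundary only looks at lower degrees -/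
theorem d_congr {u v : Cc X} {p : ℕ} (h : ∀ q < p, u q = v q) : Cc.d u p = Cc.d v p := by
  funext σ
  cases p with
  | zero => rw [d_zero_apply, d_zero_apply]
  | succ p =>
    rw [d_succ_apply, d_succ_apply, h p (Nat.lt_succ_self p)]

theorem co_congr {u v : Cc X} {p : ℕ} (h : ∀ q ≤ p, u q = v q) (σ : X.obj p) {S : Finset ℕ}
    (hS : S ⊆ range (p + 1)) : co u σ S = co v σ S := by
  by_cases h0 : S.card = 0
  · simp [co, h0]
  · rw [co_of_ne h0, co_of_ne h0, h]
    have := card_le_card hS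
    rw [card_range] at this
    omega

theorem cup_congr {j : ℕ} {u u' v v' : Cc X} {p : ℕ} (h : ∀ q ≤ p, u q = u' q)
    (h' : ∀ q ≤ p, v q = v' q) : Cc.cup j u v p = Cc.cup j u' v' p := by
  funext σ
  exact cupJ_congr (fun T hT => co_congr h σ hT) fun T hT => co_congr h' σ hT

/-- not enough vertices for `j` break points -/
theorem cup_low (j : ℕ) (u v : Cc X) {p : ℕ} (h : p + 1 < j) : Cc.cup j u v p = 0 := by
  funext σ
  rw [Cc.cup_def, cupJ, powersetCard_eq_empty.2 (by rwa [card_range])]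
  rfl

/-- the coboundary as a homomorphism -/
def dHom (X : SS) : Cc X →+ Cc X where
  toFun := Cc.d
  map_zero' := d_zero
  map_add' := d_add

theorem d_sum {ι : Type} (s : Finset ι) (f : ι → Cc X) :
    Cc.d (∑ i ∈ s, f i) = ∑ i ∈ s, Cc.d (f i) := map_sum (dHom X) f s

/-! ### the unit -/

/-- the unit cochain -/
def Cc.one (X : SS) : Cc X := fun p _ => if p = 0 then 1 else 0

theorem co_one {p : ℕ} (σ : X.obj p) : co (Cc.one X) σ = H83.one := by
  funext S
  by_cases h0 : S.card = 0
  · simp [co, H83.one, h0]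
  · rw [co_of_ne h0, Cc.one, H83.one]
    have : (S.card - 1 = 0) ↔ S.card = 1 := by omega
    simp only [this]

theorem pull_one (f : SS.Map X Y) : Cc.pull f (Cc.one Y) = Cc.one X := rfl

theorem d_one : Cc.d (Cc.one X) = 0 := by
  funext p σ
  rw [Cc.d_def, co_one, dd_one]
  rfl

theorem cup_one (u : Cc X) : Cc.cup 1 u (Cc.one X) = u := by
  funext p σ
  rw [Cc.cup_def, co_one, H83.cup_one _ (co_empty u σ), co_top]

theorem H83_one_cup (f : Co) (hf : f ∅ = 0) : cupJ 1 H83.one f = f := by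
  funext S
  rw [H83.cup_apply]
  rcases S.eq_empty_or_nonempty with rfl | hne
  · rw [sum_empty, hf]
  · rw [sum_eq_single (S.min' hne)]
    · have h1 : S.filter (· ≤ S.min' hne) = {S.min' hne} := by
        ext v
        rw [mem_filter, mem_singleton]
        constructor
        · rintro ⟨h, h'⟩
          exact le_antisymm h' (S.min'_le v h)
        · rintro rfl
          exact ⟨S.min'_mem hne, le_rfl⟩
      have h2 : S.filter (S.min' hne ≤ ·) = S := filter_true_of_mem fun v hv => S.min'_le v hv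
      rw [h1, h2, H83.one, card_singleton, if_pos rfl, one_mul]
    · intro k hk hk0
      have h1 : (S.filter (· ≤ k)).card ≠ 1 := by
        intro hc
        obtain ⟨a, ha⟩ := card_eq_one.1 hc
        have h1 : k ∈ S.filter (· ≤ k) := mem_filter.2 ⟨hk, le_rfl⟩
        have h2 : S.min' hne ∈ S.filter (· ≤ k) :=
          mem_filter.2 ⟨S.min'_mem hne, S.min'_le k hk⟩
        rw [ha, mem_singleton] at h1 h2
        exact hk0 (h1.trans h2.symm)
      rw [H83.one, if_neg h1, zero_mul]
    · intro h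
      exact absurd (S.min'_mem hne) h

theorem one_cup (u : Cc X) : Cc.cup 1 (Cc.one X) u = u := by
  funext p σ
  rw [Cc.cup_def, co_one, H83_one_cup _ (co_empty u σ), co_top]

/-- the Leibniz rule -/
theorem d_cup_one (u v : Cc X) :
    Cc.d (Cc.cup 1 u v) = Cc.cup 1 (Cc.d u) v + Cc.cup 1 u (Cc.d v) := by
  rw [d_cup 0, cup_zero, cup_zero, add_zero, add_zero]

theorem cup_assoc (u v w : Cc X) :
    Cc.cup 1 (Cc.cup 1 u v) w = Cc.cup 1 u (Cc.cup 1 v w) := by
  funext p σ
  rw [Cc.cup_def, Cc.cup_def]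
  rw [cupJ_congr (fun T _ => co_cup 1 u v σ T) fun _ _ => rfl,
    cupJ_congr (g := co (Cc.cup 1 v w) σ) (fun _ _ => rfl) fun T _ => co_cup 1 v w σ T]
  exact congrFun (H83.cup_assoc (co u σ) (co v σ) (co w σ)) _

end Vale.Agent.P263.TJ
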