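import Vale.Agent.P263.TJ.L1B
import Vale.Agent.P263.TJ.Rel
import Vale.Agent.P263.TOP.H.TCov

/-!
# P263, block EB: the rank map from sets of labels to `Gam`

* `psi` : a sequence of natural numbers with increasing codes.
* `rkM l N : GLn l N → Gam N` : the label `a ∈ F` is replaced by its rank in `F` at every vertex.
* `vpow k` : the cocycle `v^k` on `BC₂ = BW pt 1`.
* `rkM_ctree` : the pull-back of the transfer of `v^k` is the cochain `tln l N k`, strictly.
-/

open Finset

namespace Vale.Agent.P263.TJ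

open Vale.Agent.P263.S Vale.Agent.P263.E Vale.Agent.P263.H83
open Vale.Agent.P263.TOP.H (Lab Good TW trees ctree code)

/-! ### a sequence with increasing codes -/

theorem exists_psi : ∃ ψ : ℕ → ℕ, StrictMono fun k => code 0 (ψ k) := by
  classical
  have hi : Function.Injective (code 0) := TOP.H.code_injective 0
  have hinf : (Set.range (fun k : ℕ => code 0 k)).Infinite :=
    Set.infinite_range_of_injective hi
  have : Infinite (Set.range (fun k : ℕ => code 0 k)) := hinf.to_subtype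
  let e := Nat.Subtype.orderIsoOfNat (Set.range (fun k : ℕ => code 0 k))
  have h : ∀ k : ℕ, ∃ m : ℕ, code 0 m = (e k).1 := fun k => (e k).2
  choose ψ hψ using h
  refine ⟨ψ, fun a b hab => ?_⟩
  show code 0 (ψ a) < code 0 (ψ b)
  rw [hψ, hψ]
  exact e.strictMono hab

/-- a sequence of natural numbers with increasing codes -/
noncomputable def psi : ℕ → ℕ := exists_psi.choose

theorem psi_mono : StrictMono fun k => code 0 (psi k) := exists_psi.choose_spec

theorem psi_lt_iff {a b : ℕ} : code 0 (psi a) < code 0 (psi b) ↔ a < b := psi_mono.lt_iff_lt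

theorem psi_inj : Function.Injective psi := fun _ _ h => psi_mono.injective (congrArg (code 0) h)

/-! ### ranks -/

section rk

variable {l : LabS}

/-- the number of the labels of `F` which are smaller than `a` over the vertex `i` -/
noncomputable def rk {p : ℕ} (F : Finset (l.L.obj p)) (a : l.L.obj p) (i : Fin (p + 1)) : ℕ :=
  ∑ b ∈ F, if l.at' b i < l.at' a i then 1 else 0

theorem rk_lt {p : ℕ} {F : Finset (l.L.obj p)} {a b : l.L.obj p} (ha : a ∈ F) {i : Fin (p + 1)}
    (h : l.at' a i < l.at' b i) : rk F a i < rk F b i := by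
  refine sum_lt_sum (fun c _ => ?_) ⟨a, ha, ?_⟩
  · by_cases h1 : l.at' c i < l.at' a i
    · rw [if_pos h1, if_pos (h1.trans h)]
    · rw [if_neg h1]
      exact Nat.zero_le _
  · rw [if_neg (lt_irrefl _), if_pos h]
    exact Nat.one_pos

theorem rk_lt_iff {p : ℕ} {F : Finset (l.L.obj p)} {a b : l.L.obj p} (ha : a ∈ F) (hb : b ∈ F)
    {i : Fin (p + 1)} : rk F a i < rk F b i ↔ l.at' a i < l.at' b i := by
  constructor
  · intro h
    by_contra hc
    rcases (not_lt.1 hc).lt_or_eq with h1 | h1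
    · exact absurd (rk_lt hb h1) (not_lt.2 h.le)
    · have : rk F a i = rk F b i := by
        unfold rk
        rw [h1]
      omega
  · exact rk_lt ha

theorem rk_lmap {p q : ℕ} (f : Op p q) {F : Finset (l.L.obj q)} (h : LOk l F) (a : l.L.obj q)
    (i : Fin (p + 1)) : rk (lmap l f F) (l.L.map f a) i = rk F a (f i) := by
  unfold rk
  rw [sum_lmap f h]
  refine sum_congr rfl fun b _ => ?_
  rw [l.at_map, l.at_map]

/-- the label of `a ∈ F` -/
noncomputable def rkL {p : ℕ} (F : Finset (l.L.obj p)) (a : l.L.obj p) : Lab p :=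
  fun i => psi (rk F a i)

theorem rkL_lt_iff {p : ℕ} {F : Finset (l.L.obj p)} {a b : l.L.obj p} (ha : a ∈ F) (hb : b ∈ F)
    {i : Fin (p + 1)} : code 0 (rkL F a i) < code 0 (rkL F b i) ↔ l.at' a i < l.at' b i :=
  psi_lt_iff.trans (rk_lt_iff ha hb)

theorem rkL_eq {p : ℕ} {F : Finset (l.L.obj p)} (h : LOk l F) {a b : l.L.obj p} (ha : a ∈ F)
    (hb : b ∈ F) {i : Fin (p + 1)} (hab : rkL F a i = rkL F b i) : a = b := by
  refine h.inj ha hb i ?_
  have h1 : rk F a i = rk F b i := psi_inj hab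
  rcases lt_trichotomy (l.at' a i) (l.at' b i) with h2 | h2 | h2
  · have := rk_lt ha h2
    omega
  · exact h2
  · have := rk_lt hb h2
    omega

theorem rkL_injOn {p : ℕ} {F : Finset (l.L.obj p)} (h : LOk l F) :
    Set.InjOn (rkL F) (F : Set (l.L.obj p)) := fun _ ha _ hb hab =>
  rkL_eq (i := 0) h ha hb (congrFun hab 0)

theorem rkL_lmap {p q : ℕ} (f : Op p q) {F : Finset (l.L.obj q)} (h : LOk l F) (a : l.L.obj q) :
    rkL (lmap l f F) (l.L.map f a) = rkL F a ∘ f := by
  funext i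
  show psi _ = psi _
  rw [rk_lmap f h]

/-- the set of the ranks -/
noncomputable def rkF {p : ℕ} (F : Finset (l.L.obj p)) : Finset (Lab p) := F.image (rkL F)

theorem good_rkF {p : ℕ} {F : Finset (l.L.obj p)} (h : LOk l F) : Good (rkF F) := by
  intro i s hs t ht hst
  obtain ⟨a, ha, rfl⟩ := mem_image.1 (mem_coe.1 hs)
  obtain ⟨b, hb, rfl⟩ := mem_image.1 (mem_coe.1 ht)
  rw [rkL_eq h ha hb hst]

theorem card_rkF {p : ℕ} {F : Finset (l.L.obj p)} (h : LOk l F) : (rkF F).card = F.card :=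
  card_image_of_injOn (rkL_injOn h)

theorem rkF_lmap {p q : ℕ} (f : Op p q) {F : Finset (l.L.obj q)} (h : LOk l F) :
    rkF (lmap l f F) = TOP.H.res f (rkF F) := by
  ext s
  rw [TOP.H.mem_res, rkF, mem_image]
  constructor
  · rintro ⟨a, ha, rfl⟩
    obtain ⟨b, hb, rfl⟩ := mem_lmap.1 ha
    exact ⟨rkL F b, mem_image_of_mem _ hb, (rkL_lmap f h b).symm⟩
  · rintro ⟨t, ht, rfl⟩
    obtain ⟨b, hb, rfl⟩ := mem_image.1 ht
    exact ⟨l.L.map f b, mem_lmap.2 ⟨b, hb, rfl⟩, rkL_lmap f h b⟩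

variable (l) in
/-- **The rank map.** -/
noncomputable def rkM (N : ℕ) : SS.Map (GLn l N) (TOP.H.Gam N) where
  app F := ⟨rkF F.1, good_rkF F.2.1, (card_rkF F.2.1).trans F.2.2⟩
  nat f F := Subtype.ext (rkF_lmap f F.2.1)

end rk

/-! ### the powers of the class of the double covering -/

section ec

open Vale.Agent.P263.H83 in
/-- the contractible simplicial set `EC₂` -/
def EC : SS where
  obj p := Fin (p + 1) → C2
  map f s := s ∘ f
  map_id _ := rfl
  map_comp _ _ _ := rfl

/-- the projection `EC₂ → BC₂` -/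
def ecp : SS.Map EC SS.BC2 := ⟨fun s => SS.BC2.mk s, fun _ _ => rfl⟩

/-- the flip -/
def ecf : SS.Map EC EC := ⟨fun s i => tau * s i, fun _ _ => rfl⟩

theorem ecp_ecf : ecp.comp ecf = ecp := by
  apply SS.Map.ext
  intro p s
  exact SS.BC2.mk_swap s

/-- the function on the vertices which is `1` at `1` -/
def oE : Cc EC := fun p s => if p = 0 ∧ s 0 = 1 then 1 else 0

/-- the cocycle of the double covering -/
def vB : Cc SS.BC2 := fun p x =>
  if h : p = 1 then SS.BC2.lift (p := p) (fun s => if s 0 = s (Fin.last p) then 0 else 1)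
    (fun s => by
      show (if tau * s 0 = tau * s (Fin.last p) then (0 : ZMod 2) else 1) = _
      simp only [mul_right_inj]) x
  else 0

theorem isDeg_vB : Cc.IsDeg 1 vB := fun _ hp _ => dif_neg hp

theorem isDeg_oE : Cc.IsDeg 0 oE := fun _ hp _ => if_neg fun h => hp h.1

theorem pull_vB_one (s : EC.obj 1) :
    Cc.pull ecp vB 1 s = if (s : Fin 2 → C2) 0 = (s : Fin 2 → C2) 1 then 0 else 1 := rfl

theorem d_oE : Cc.d oE = Cc.pull ecp vB := by
  refine Cc.IsDeg.ext (n := 1) isDeg_oE.d (isDeg_vB.pull _) ?_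
  funext s
  rw [d_succ_apply, sum_range_succ, sum_range_one, pull_vB_one]
  have e0 : oE 0 (EC.map (dl 0 0) s) = if (s : Fin 2 → C2) 1 = 1 then 1 else 0 := by
    show (if (0 : ℕ) = 0 ∧ (s : Fin 2 → C2) (dl 0 0 0) = 1 then (1 : ZMod 2) else 0) = _
    have : dl 0 0 0 = 1 := rfl
    rw [this]
    simp
  have e1 : oE 0 (EC.map (dl 0 1) s) = if (s : Fin 2 → C2) 0 = 1 then 1 else 0 := by
    show (if (0 : ℕ) = 0 ∧ (s : Fin 2 → C2) (dl 0 1 0) = 1 then (1 : ZMod 2) else 0) = _
    have : dl 0 1 0 = 0 := rfl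
    rw [this]
    simp
  rw [e0, e1]
  rcases C2_cases ((s : Fin 2 → C2) 0) with h0 | h0 <;>
    rcases C2_cases ((s : Fin 2 → C2) 1) with h1 | h1 <;> rw [h0, h1]
  · rw [if_pos rfl, if_pos rfl]; rfl
  · rw [if_neg tau_ne_one, if_pos rfl, if_neg (Ne.symm tau_ne_one)]; rfl
  · rw [if_pos rfl, if_neg tau_ne_one, if_neg tau_ne_one]; rfl
  · rw [if_neg tau_ne_one, if_pos rfl]; rfl

theorem oE_add : oE + Cc.pull ecf oE = Cc.one EC := by
  refine Cc.IsDeg.ext (n := 0) (isDeg_oE.add (isDeg_oE.pull _)) (fun _ hp _ => if_neg hp) ?_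
  · funext s
    show (if (0 : ℕ) = 0 ∧ (s : Fin 1 → C2) 0 = 1 then (1 : ZMod 2) else 0) +
      (if (0 : ℕ) = 0 ∧ tau * (s : Fin 1 → C2) 0 = 1 then (1 : ZMod 2) else 0) =
      if (0 : ℕ) = 0 then 1 else 0
    rcases C2_cases ((s : Fin 1 → C2) 0) with h0 | h0 <;> rw [h0]
    · simp [tau_ne_one]
    · rw [tau_mul_tau]
      simp [tau_ne_one]

/-- the cochains `v^k o` on `EC₂` -/
noncomputable def voE : ℕ → Cc EC
  | 0 => oE
  | k + 1 => Cc.cup 1 (Cc.d oE) (voE k)

/-- the cocycle `v^k` on `BC₂` -/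
noncomputable def vpow : ℕ → Cc SS.BC2
  | 0 => Cc.one SS.BC2
  | k + 1 => Cc.cup 1 vB (vpow k)

theorem isDeg_oneC (X : SS) : Cc.IsDeg 0 (Cc.one X) := fun _ hp _ => if_neg hp

theorem isDeg_vpow (k : ℕ) : Cc.IsDeg k (vpow k) := by
  induction k with
  | zero => exact isDeg_oneC _
  | succ k ih => exact Cc.IsDeg.cup isDeg_vB ih (by omega)

theorem voE_add (k : ℕ) : voE k + Cc.pull ecf (voE k) = Cc.pull ecp (vpow k) := by
  induction k with
  | zero => exact oE_add
  | succ k ih =>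
    have h1 : Cc.pull ecf (Cc.d oE) = Cc.d oE := by
      rw [d_oE]
      show Cc.pull (ecp.comp ecf) vB = _
      rw [ecp_ecf]
    show Cc.cup 1 (Cc.d oE) (voE k) + Cc.pull ecf (Cc.cup 1 (Cc.d oE) (voE k)) =
      Cc.pull ecp (Cc.cup 1 vB (vpow k))
    rw [pull_cup, pull_cup, h1, ← ih, ← d_oE, cup_add_right]

end ec

/-! ### the orders of pairs of labels -/

section sg

variable {l : LabS}

variable (l) in
/-- the relative order of two labels over the vertices -/
noncomputable def sgM : SS.Map (PL l) EC where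
  app {p} x := fun i : Fin (p + 1) => if l.at' x.1.1 i < l.at' x.1.2 i then 1 else tau
  nat {p q} f x := by
    funext i
    show (if l.at' (l.L.map f x.1.1) i < l.at' (l.L.map f x.1.2) i then (1 : C2) else tau) =
      if l.at' x.1.1 (f i) < l.at' x.1.2 (f i) then 1 else tau
    rw [l.at_map, l.at_map]

theorem pull_oE : Cc.pull (sgM l) oE = ool l := by
  classical
  funext p x
  show (if p = 0 ∧ (if l.at' x.1.1 0 < l.at' x.1.2 0 then (1 : C2) else tau) = 1 then
    (1 : ZMod 2) else 0) = _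
  unfold ool
  by_cases h : l.at' x.1.1 0 < l.at' x.1.2 0
  · simp [h]
  · simp [h, tau_ne_one]

theorem pull_voE (k : ℕ) : Cc.pull (sgM l) (voE k) = vol l k := by
  induction k with
  | zero => exact pull_oE
  | succ k ih =>
    show Cc.pull (sgM l) (Cc.cup 1 (Cc.d oE) (voE k)) = Cc.cup 1 (Cc.d (ool l)) (vol l k)
    rw [pull_cup, pull_d, ih, pull_oE]

theorem exl_add (k : ℕ) {p : ℕ} {a b : l.L.obj p} (h : ∀ i, l.at' a i ≠ l.at' b i) :
    exl l (vol l k) a b + exl l (vol l k) b a =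
      vpow k p (SS.BC2.mk fun i => if l.at' a i < l.at' b i then 1 else tau) := by
  rw [exl_of h, exl_of fun i => (h i).symm, ← pull_voE]
  have h1 : (sgM l).app (⟨(b, a), fun i => (h i).symm⟩ : (PL l).obj p) =
      ecf.app ((sgM l).app (⟨(a, b), h⟩ : (PL l).obj p)) := by
    funext i
    show (if l.at' b i < l.at' a i then (1 : C2) else tau) =
      tau * (if l.at' a i < l.at' b i then (1 : C2) else tau)
    rcases lt_or_gt_of_ne (h i) with h2 | h2
    · rw [if_neg (not_lt.2 h2.le), if_pos h2, mul_one]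
    · rw [if_pos h2, if_neg (not_lt.2 h2.le), tau_mul_tau]
  have h2 := congrFun (congrFun (voE_add k) p) ((sgM l).app (⟨(a, b), h⟩ : (PL l).obj p))
  show voE k p ((sgM l).app (⟨(a, b), h⟩ : (PL l).obj p)) +
    voE k p ((sgM l).app (⟨(b, a), fun i => (h i).symm⟩ : (PL l).obj p)) = _
  rw [h1]
  exact h2

end sg

/-! ### sums over unordered pairs -/

theorem sum_offdiag {α : Type} [DecidableEq α] (g : Sym2 α → ZMod 2) (h : α → α → ZMod 2)
    (h0 : ∀ a, h a a = 0) (F : Finset α)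
    (hg : ∀ a ∈ F, ∀ b ∈ F, a ≠ b → g s(a, b) = h a b + h b a) :
    ∑ t ∈ F.sym2.filter (fun t => ¬ Sym2.IsDiag t), g t = ∑ a ∈ F, ∑ b ∈ F, h a b := by
  induction F using Finset.induction_on with
  | empty => rfl
  | insert c F hc ih =>
    have ih' := ih fun a ha b hb => hg a (mem_insert_of_mem ha) b (mem_insert_of_mem hb)
    have h1 : (insert c F).sym2.filter (fun t => ¬ Sym2.IsDiag t) =
        (F.image fun b => s(c, b)) ∪ F.sym2.filter (fun t => ¬ Sym2.IsDiag t) := by
      ext t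
      induction t using Sym2.ind with
      | _ x y =>
        rw [mem_filter, mem_union, mem_filter, mk_mem_sym2_iff, mk_mem_sym2_iff, mem_image,
          Sym2.mk_isDiag_iff, mem_insert, mem_insert]
        constructor
        · rintro ⟨⟨hx, hy⟩, hxy⟩
          rcases hx with rfl | hx
          · rcases hy with rfl | hy
            · exact absurd rfl hxy
            · exact Or.inl ⟨y, hy, rfl⟩
          · rcases hy with rfl | hy
            · exact Or.inl ⟨x, hx, Sym2.eq_swap⟩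
            · exact Or.inr ⟨⟨hx, hy⟩, hxy⟩
        · rintro (⟨b, hb, h⟩ | ⟨⟨hx, hy⟩, hxy⟩)
          · rcases Sym2.eq_iff.1 h with ⟨rfl, rfl⟩ | ⟨rfl, rfl⟩
            · exact ⟨⟨Or.inl rfl, Or.inr hb⟩, fun h' => hc (h' ▸ hb)⟩
            · exact ⟨⟨Or.inr hb, Or.inl rfl⟩, fun h' => hc (h' ▸ hb)⟩
          · exact ⟨⟨Or.inr hx, Or.inr hy⟩, hxy⟩
    have h2 : Disjoint (F.image fun b => s(c, b)) (F.sym2.filter (fun t => ¬ Sym2.IsDiag t)) := by
      rw [disjoint_left]
      intro t ht ht'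
      obtain ⟨b, hb, rfl⟩ := mem_image.1 ht
      exact hc (mk_mem_sym2_iff.1 (mem_filter.1 ht').1).1
    have h3 : ∀ a : α, ∑ b ∈ insert c F, h a b = h a c + ∑ b ∈ F, h a b := fun a =>
      sum_insert (f := fun b => h a b) hc
    have h4 : ∑ b ∈ F, g s(c, b) = ∑ b ∈ F, h c b + ∑ b ∈ F, h b c := by
      rw [← sum_add_distrib]
      exact sum_congr rfl fun b hb => hg c (mem_insert_self _ _) b (mem_insert_of_mem hb)
        fun h' => hc (h' ▸ hb)
    rw [h1, sum_union h2, ih', sum_image, sum_insert hc, h4]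
    · simp only [h3]
      rw [h0, zero_add, sum_add_distrib, ← add_assoc]
    · intro x hx y hy hxy
      rcases Sym2.eq_iff.1 hxy with ⟨-, h⟩ | ⟨h, h'⟩
      · exact h
      · exact h'.trans h

/-! ### the comparison -/

section cmp

variable {l : LabS}

theorem cl_rkL {p : ℕ} {F : Finset (l.L.obj p)} (h : LOk l F) {a b : l.L.obj p} (ha : a ∈ F)
    (hb : b ∈ F) (hab : a ≠ b) :
    TOP.H.cl 1 (s(rkL F a, rkL F b) : Sym2 (TW (Lab p) 0)) =
      (SS.BC2.mk fun i => if l.at' a i < l.at' b i then 1 else tau : (SS.BW SS.pt 1).obj p) := by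
  rw [TOP.H.cl_mk_of_ne 0 (s := (rkL F a : TW (Lab p) 0)) (t := (rkL F b : TW (Lab p) 0))
    (fun i h' => hab (rkL_eq h ha hb (i := i) h'))]
  show (SS.D2.mk (Z := SS.pt) _ () () : (SS.D2 SS.pt).obj p) = SS.D2.mk (Z := SS.pt) _ () ()
  congr 1
  funext i
  show (if code 0 (rkL F a i) < code 0 (rkL F b i) then (1 : C2) else tau) = _
  by_cases h1 : l.at' a i < l.at' b i
  · rw [if_pos h1, if_pos ((rkL_lt_iff ha hb).2 h1)]
  · rw [if_neg h1, if_neg fun h2 => h1 ((rkL_lt_iff ha hb).1 h2)]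

/-- **The pull-back of the transfer of `v^k` along the rank map**, strictly. -/
theorem rkM_ctree (N k p : ℕ) :
    ((rkM l N).pull (R := ZMod 2)).app p ((ctree (ZMod 2) 1 N).app p
      (show (SS.F (ZMod 2) (SS.BW SS.pt 1)).obj p from vpow k p)) =
      (show (SS.F (ZMod 2) (GLn l N)).obj p from tln l N k p) := by
  classical
  funext F
  rw [SS.Map.pull_app, TOP.H.ctree_apply]
  show ∑ t ∈ trees 1 (rkF F.1), vpow k p (TOP.H.cl 1 t) = ∑ a ∈ F.1, ∑ b ∈ F.1,
    exl l (vol l k) a b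
  rw [← sum_offdiag (fun t : Sym2 (l.L.obj p) => vpow k p (TOP.H.cl 1 (Sym2.map (rkL F.1) t)))
    (fun a b => exl l (vol l k) a b) (fun a => exl_self _ a) F.1]
  · have h1 := TOP.H.sum_trees_image (rkL_injOn F.2.1) 1
      (fun t : TW (Lab p) 1 => vpow k p (TOP.H.cl 1 t))
    refine Eq.trans ?_ (h1.trans ?_)
    · unfold rkF
      congr!
    · show ∑ t ∈ trees 1 F.1, vpow k p (TOP.H.cl 1 (Sym2.map (rkL F.1) t)) = _
      refine sum_congr ?_ fun _ _ => rfl
      show Finset.filter _ _ = _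
      congr!
  · intro a ha b hb hab
    show vpow k p (TOP.H.cl 1 (s(rkL F.1 a, rkL F.1 b) : Sym2 (TW (Lab p) 0))) = _
    rw [cl_rkL F.2.1 ha hb hab]
    exact (exl_add k (F.2.1.dist ha hb hab)).symm

end cmp

end Vale.Agent.P263.TJ
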