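import Vale.Agent.P263.TJ.CmpD
import Vale.Agent.P263.TJ.RkM
import Vale.Agent.P263.KJ.DCov

/-!
# P263, block EB: the flips of the pairs of points

`dEC` : the universal double cover of `BC₂`; `vpow_eq_pw` : `v^k` is the cup power.
`D.To` : the ordered pairs of points, `D.dc : DCov D.To (D.T 1)`.
`cls_vpow_coh` : `(H.cls 1)^* (v^k)` is cohomologous to the `k`-th power of every cocycle of the
double cover of the ordered pairs.
-/

open Finset

namespace Vale.Agent.P263.TJ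

open Vale.Agent.P263.S Vale.Agent.P263.E Vale.Agent.P263.H83 Vale.Agent.P263.KJ
open Vale.Agent.P263.TOP.H (TW trees Lab rl)

/-- the universal double cover -/
def dEC : DCov EC SS.BC2 where
  pr := ecp
  fl := ecf
  surj b := by
    obtain ⟨s, rfl⟩ := SS.BC2.rep b
    exact ⟨s, rfl⟩
  pr_fl e := SS.BC2.mk_swap e
  eq_or {p e e'} h := by
    have h1 : (SS.D2.mk (Z := SS.pt) e' () () : (SS.D2 SS.pt).obj p) =
      SS.D2.mk (Z := SS.pt) e () () := h
    rcases SS.D2.mk_eq_iff.1 h1 with h2 | h2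
    · exact Or.inl h2.1
    · exact Or.inr h2.1
  fl_ne e h := by
    have h1 : tau * (e : Fin 1 → C2) 0 = (e : Fin 1 → C2) 0 := congrFun h 0
    simp at h1

theorem cl_vB : dEC.Cl vB oE where
  deg_w := isDeg_vB
  d_w := by
    apply dEC.d_of_pull
    show Cc.d (Cc.pull ecp vB) = 0
    rw [← d_oE, d_d]
  deg_s := isDeg_oE
  fl_s := by
    show Cc.pull ecf oE = oE + Cc.one EC
    rw [← oE_add, ← add_assoc, cc_add_self, zero_add]
  pull_w := d_oE.symm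

theorem cup_pw_comm {X : SS} (u : Cc X) (k : ℕ) :
    Cc.cup 1 u (Cc.pw u k) = Cc.cup 1 (Cc.pw u k) u := by
  induction k with
  | zero =>
    show Cc.cup 1 u (Cc.one X) = Cc.cup 1 (Cc.one X) u
    rw [cup_one, one_cup]
  | succ k ih =>
    show Cc.cup 1 u (Cc.cup 1 (Cc.pw u k) u) = Cc.cup 1 (Cc.cup 1 (Cc.pw u k) u) u
    rw [← cup_assoc, ih]

theorem vpow_eq_pw (k : ℕ) : vpow k = Cc.pw vB k := by
  induction k with
  | zero => rfl
  | succ k ih =>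
    show Cc.cup 1 vB (vpow k) = Cc.cup 1 (Cc.pw vB k) vB
    rw [ih, cup_pw_comm]

namespace PtF

variable {X L : SS} (D : PtF X L)

/-- ordered pairs of points -/
def To : SS where
  obj p := {z : X.obj p × L.obj p × L.obj p //
    z.2.1 ∈ D.pts z.1 ∧ z.2.2 ∈ D.pts z.1 ∧ z.2.1 ≠ z.2.2}
  map f z := ⟨(X.map f z.1.1, L.map f z.1.2.1, L.map f z.1.2.2),
    (D.mem_pts f _ _).2 ⟨_, z.2.1, rfl⟩, (D.mem_pts f _ _).2 ⟨_, z.2.2.1, rfl⟩,
    fun h => z.2.2.2 (D.injOn f z.1.1 (mem_coe.2 z.2.1) (mem_coe.2 z.2.2.1) h)⟩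
  map_id _ := Subtype.ext (Prod.ext (X.map_id _) (Prod.ext (L.map_id _) (L.map_id _)))
  map_comp f g _ := Subtype.ext (Prod.ext (X.map_comp f g _)
    (Prod.ext (L.map_comp f g _) (L.map_comp f g _)))

theorem mem_tree_one {p : ℕ} {x : X.obj p} {a b : L.obj p} :
    (s(a, b) : Sym2 (TW (L.obj p) 0)) ∈ D.tree 1 x ↔ a ∈ D.pts x ∧ b ∈ D.pts x ∧ a ≠ b := by
  classical
  rw [tree, TOP.H.mem_trees_succ]
  exact Iff.rfl

/-- the unordered pair of an ordered pair -/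
def Tu : SS.Map D.To (D.T 1) where
  app z := D.pt (n := 1) z.1.1 (s(z.1.2.1, z.1.2.2) : Sym2 (TW (L.obj _) 0))
    (D.mem_tree_one.2 z.2)
  nat _ _ := rfl

/-- the exchange -/
def Tf : SS.Map D.To D.To where
  app z := ⟨(z.1.1, z.1.2.2, z.1.2.1), z.2.2.1, z.2.1, z.2.2.2.symm⟩
  nat _ _ := rfl

/-- **the double cover of the ordered pairs of points** -/
def dc : DCov D.To (D.T 1) where
  pr := D.Tu
  fl := D.Tf
  surj {p} b := by
    obtain ⟨⟨x, t⟩, h⟩ := b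
    induction t using Sym2.ind with
    | _ s t => exact ⟨⟨(x, s, t), D.mem_tree_one.1 h⟩, rfl⟩
  pr_fl {p} e := by
    refine D.T_ext rfl ?_
    exact Sym2.eq_swap
  eq_or {p e e'} h := by
    have h1 : e'.1.1 = e.1.1 := congrArg D.bs h
    have h2 : (s(e'.1.2.1, e'.1.2.2) : Sym2 (L.obj p)) = s(e.1.2.1, e.1.2.2) := congrArg D.te h
    rcases Sym2.eq_iff.1 h2 with h3 | h3
    · exact Or.inl (Subtype.ext (Prod.ext h1 (Prod.ext h3.1 h3.2)))
    · exact Or.inr (Subtype.ext (Prod.ext h1 (Prod.ext h3.1 h3.2)))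
  fl_ne e h := by
    have h1 : e.1.2.2 = e.1.2.1 := congrArg (fun z : D.To.obj 0 => z.1.2.1) h
    exact e.2.2.2 h1.symm

end PtF

namespace HL

variable {X L : SS} {D : PtF X L} {N : ℕ} (H : HL D N)

/-- the order of two points -/
noncomputable def oM : SS.Map D.To EC where
  app {p} z := TOP.H.ord 0 (H.lab z.1.1 z.1.2.1 : TW (Lab p) 0) (H.lab z.1.1 z.1.2.2)
  nat {p q} f z := by
    show TOP.H.ord 0 (H.lab (X.map f z.1.1) (L.map f z.1.2.1) : TW (Lab p) 0)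
      (H.lab (X.map f z.1.1) (L.map f z.1.2.2)) = _
    rw [H.lab_map, H.lab_map]
    exact TOP.H.ord_map f _ _

theorem lab_ne {p : ℕ} (z : D.To.obj p) (i : Fin (p + 1)) :
    TOP.H.ev 0 i (H.lab z.1.1 z.1.2.1 : TW (Lab p) 0) ≠ TOP.H.ev 0 i (H.lab z.1.1 z.1.2.2) :=
  fun h => z.2.2.2 (H.lab_inj z.1.1 i z.2.1 z.2.2.1 h)

theorem ecp_oM : ecp.comp H.oM = (H.cls 1).comp D.Tu := by
  apply SS.Map.ext
  intro p z
  exact (TOP.H.cl_mk_of_ne 0 (s := (H.lab z.1.1 z.1.2.1 : TW (Lab p) 0))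
    (t := H.lab z.1.1 z.1.2.2) (H.lab_ne z)).symm

theorem ecf_oM : ecf.comp H.oM = H.oM.comp D.Tf := by
  apply SS.Map.ext
  intro p z
  exact (TOP.H.ord_symm (H.lab_ne z)).symm

/-- the classifying map pulls `v` back to a cocycle of the double cover -/
theorem cl_cls : D.dc.Cl (Cc.pull (H.cls 1) vB) (Cc.pull H.oM oE) :=
  cl_vB.pull (H.cls 1) H.oM H.ecp_oM H.ecf_oM

/-- **The powers of the flips of the pairs of points.** -/
theorem cls_vpow_coh {w : Cc (D.T 1)} {s : Cc D.To} (h : D.dc.Cl w s) (k : ℕ) :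
    (Cc.cupC (D.T 1)).Coh (Cc.pull (H.cls 1) (vpow k)) (Cc.pw w k) := by
  obtain ⟨χ, -, h1, -⟩ := h.coh H.cl_cls
  obtain ⟨β, hβ⟩ := Cc.pw_coh h.d_w h1 k
  refine ⟨β, ?_⟩
  have h2 : Cc.pull (H.cls 1) (vpow k) = Cc.pw w k + Cc.d β :=
    (congrArg (Cc.pull (H.cls 1)) (vpow_eq_pw k)).trans
      ((Cc.pull_pw (H.cls 1) vB k).trans hβ)
  show Cc.pull (H.cls 1) (vpow k) + Cc.pw w k = Cc.d β
  rw [h2, add_comm (Cc.pw w k), add_assoc, cc_add_self, add_zero]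

end HL

end Vale.Agent.P263.TJ
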