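import Vale.Agent.P263.TJ.CmpD
import Vale.Agent.P263.TJ.CmpF

/-!
# P263, block EB: the class of the explicit external square

`d_ThC` : the explicit external square of a homogeneous cocycle is a cocycle.
`upZ_clc` : its class is the external square `P` of block S.
-/

open Finset

namespace Vale.Agent.P263.TJ

open Vale.Agent.P263.S Vale.Agent.P263.E Vale.Agent.P263.H83 Vale.Agent.P263.KJ

variable {Z : SS}

/-- a homotopy fixed point as a cochain of `D2 Z` -/
noncomputable def ofT (f : Tot (hG (SS.swapF (ZMod 2) Z))) : Cc (SS.D2 Z) := fun p =>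
  (SS.ofHG Z).app p (f p)

theorem ofT_zero : ofT (0 : Tot (hG (SS.swapF (ZMod 2) Z))) = 0 := by
  funext p
  exact map_zero ((SS.ofHG (R := ZMod 2) Z).app p)

theorem d_ofT (f : Tot (hG (SS.swapF (ZMod 2) Z))) : Cc.d (ofT f) = ofT (D f) := by
  funext p
  cases p with
  | zero =>
    refine Eq.trans (funext fun x => d_zero_apply _ x) ?_
    exact (map_zero ((SS.ofHG (R := ZMod 2) Z).app 0)).symm
  | succ p =>
    refine (d_eq_F (ofT f) p).trans ?_
    exact ((SS.ofHG (R := ZMod 2) Z).app_d p (f p)).symm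

theorem symB_muF (Z : SS) : SymB (SS.swapF (ZMod 2) Z) (SS.muF (ZMod 2) Z Z) :=
  SymB_of_Sym (SS.muF_sym (ZMod 2) Z)

/-- the explicit external square of a cocycle is a cocycle -/
theorem d_ThC {c K : ℕ} {z : Cc Z} (hz : Cc.IsDeg c z) (hd : Cc.d z = 0) (hK : c + 1 < K) :
    Cc.d (ThC K z) = 0 := by
  have h1 : (SS.F (ZMod 2) Z).d c (Cc.toF c z) = 0 := CosMod.mem_Z.1 (cc c z hd).2
  have h2 := D_Theta_single (symB_muF Z) hK h1
  rw [← tot_of_isDeg hz] at h2
  refine (d_ofT (Theta (SS.swapF (ZMod 2) Z) (SS.muF (ZMod 2) Z Z) K (tot z))).trans ?_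
  rw [h2, ofT_zero]

/-- **The class of the explicit external square.** -/
theorem upZ_clc {c : ℕ} {z : Cc Z} (hz : Cc.IsDeg c z) (hd : Cc.d z = 0)
    (e : 0 + 2 * c = c + c) :
    SS.upZ Z 0 c (c + c) e (clc c z hd) =
      clc (c + c) (ThC (c + 2) z) (d_ThC hz hd (by omega)) := by
  rw [SS.upZ_zero_left, clc, P_cls_Th (SS.muF_sym (ZMod 2) Z) (cc c z hd), Hom.mapH_cls, clc]
  refine congrArg ((SS.F (ZMod 2) (SS.D2 Z)).cls (c + c)) (Subtype.ext ?_)
  show (SS.ofHG Z).app (c + c) (Th _ _ c (c + c) (Cc.toF c z)) = _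
  rw [Th, ← tot_of_isDeg hz]
  rfl

theorem d_vpow (c : ℕ) : Cc.d (vpow c) = 0 := by
  rw [vpow_eq_pw]
  exact Cc.d_pw cl_vB.d_w c

end Vale.Agent.P263.TJ
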