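import Mathlib.Data.ZMod.Basic
import Mathlib.Algebra.CharP.Two
import Mathlib.Algebra.Module.Basic
import Mathlib.Algebra.Group.Hom.Defs
import Mathlib.Algebra.Group.Pi.Basic
import Mathlib.Algebra.Group.Prod
import Mathlib.Algebra.Group.Subgroup.Basic
import Mathlib.Tactic.Abel

/-!
# P263: the mapping cone of a map of cochain objects with cup-i products

`CupC` : an additive group of exponent two with a differential `d` and products
`cup j = ∪_{j-1}` (`j : ℕ`, `cup 0 = 0`) which satisfy Steenrod's coboundary formula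
(cochains of mixed degree). `CupC.Hom` : morphisms. `Cyl U` : cylinder data for `U` (functions on
`X × Δ¹`): `r0, r1, T` (multiplication by the indicator of the vertex `0`), prism operator.
`cone g c` : the cochains of the mapping cone of `g`. `cone_sq`, `cone_sq_of_eq_d` : the cup-i
squares of the lifts (formula (D) of note 10744).
-/

namespace Vale.Agent.P263.TJ

/-- Cochains of mixed degree with cup-i products; `cup j` is `∪_{j-1}`. -/
structure CupC where
  /-- the cochains -/
  C : Type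
  [grp : AddCommGroup C]
  /-- the differential -/
  d : C →+ C
  /-- the products, `cup j` is the product `∪_{j-1}` -/
  cup : ℕ → C →+ C →+ C
  two : ∀ x : C, x + x = 0
  d_d : ∀ x, d (d x) = 0
  cup_zero : ∀ x y, cup 0 x y = 0
  d_cup : ∀ j x y, d (cup (j + 1) x y) =
    cup (j + 1) (d x) y + cup (j + 1) x (d y) + cup j x y + cup j y x

namespace CupC

attribute [instance] CupC.grp

variable {A B E : CupC}

theorem neg_eq (x : A.C) : -x = x := by
  rw [neg_eq_iff_add_eq_zero]; exact A.two x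

theorem sub_eq (x y : A.C) : x - y = x + y := by
  rw [sub_eq_add_neg, neg_eq]

theorem add_add_self (x y : A.C) : x + y + y = x := by
  rw [add_assoc, A.two, add_zero]

theorem eq_add_of_add_eq {x y z : A.C} (h : x + y = z) : x = z + y := by
  rw [← h, add_add_self]

/-- the operation `q_j(x) = x ∪_{j-1} x + x ∪_j dx` -/
def q (A : CupC) (j : ℕ) (x : A.C) : A.C := A.cup j x x + A.cup (j + 1) x (A.d x)

theorem d_cup_self (A : CupC) (j : ℕ) (x : A.C) :
    A.d (A.cup j x x) = A.cup j (A.d x) x + A.cup j x (A.d x) := by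
  cases j with
  | zero => simp only [A.cup_zero, map_zero, add_zero]
  | succ j => rw [A.d_cup, add_assoc, A.two, add_zero]

/-- `d q_j(x) = dx ∪_j dx` -/
theorem d_q (A : CupC) (j : ℕ) (x : A.C) : A.d (A.q j x) = A.cup (j + 1) (A.d x) (A.d x) := by
  rw [q, map_add, d_cup_self, A.d_cup, A.d_d, map_zero, add_zero]
  have h1 := A.two (A.cup j (A.d x) x)
  have h2 := A.two (A.cup j x (A.d x))
  calc A.cup j (A.d x) x + A.cup j x (A.d x) +
        (A.cup (j + 1) (A.d x) (A.d x) + A.cup j x (A.d x) + A.cup j (A.d x) x)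
      = A.cup (j + 1) (A.d x) (A.d x) + (A.cup j (A.d x) x + A.cup j (A.d x) x) +
        (A.cup j x (A.d x) + A.cup j x (A.d x)) := by abel
    _ = _ := by rw [h1, h2, add_zero, add_zero]

theorem q_zero (A : CupC) (j : ℕ) : A.q j 0 = 0 := by
  simp only [q, map_zero, add_zero]

/-- the deviation of `q_j` from additivity is a coboundary plus a bilinear term in `dx, dy` -/
theorem q_add (A : CupC) (j : ℕ) (x y : A.C) :
    A.q j (x + y) + A.q j x + A.q j y =
      A.d (A.cup (j + 1) x y) + A.cup (j + 1) (A.d x) y + A.cup (j + 1) y (A.d x) := by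
  rw [A.d_cup, q, q, q, map_add, map_add, map_add]
  simp only [AddMonoidHom.add_apply, map_add]
  have h1 := A.two (A.cup j x x)
  have h2 := A.two (A.cup j y y)
  have h3 := A.two (A.cup (j + 1) x (A.d x))
  have h4 := A.two (A.cup (j + 1) y (A.d y))
  have h5 := A.two (A.cup (j + 1) (A.d x) y)
  calc _ = A.cup j x y + A.cup j y x + A.cup (j + 1) x (A.d y) + A.cup (j + 1) y (A.d x)
        + (A.cup j x x + A.cup j x x) + (A.cup j y y + A.cup j y y)
        + (A.cup (j + 1) x (A.d x) + A.cup (j + 1) x (A.d x))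
        + (A.cup (j + 1) y (A.d y) + A.cup (j + 1) y (A.d y)) := by abel
    _ = A.cup j x y + A.cup j y x + A.cup (j + 1) x (A.d y) + A.cup (j + 1) y (A.d x) := by
        rw [h1, h2, h3, h4]; simp only [add_zero]
    _ = A.cup j x y + A.cup j y x + A.cup (j + 1) x (A.d y) + A.cup (j + 1) y (A.d x)
        + (A.cup (j + 1) (A.d x) y + A.cup (j + 1) (A.d x) y) := by rw [h5, add_zero]
    _ = _ := by abel

/-- morphisms -/
structure Hom (A B : CupC) where
  /-- the underlying map -/
  f : A.C →+ B.C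
  f_d : ∀ x, f (A.d x) = B.d (f x)
  f_cup : ∀ j x y, f (A.cup j x y) = B.cup j (f x) (f y)

theorem Hom.f_q (g : Hom A B) (j : ℕ) (x : A.C) : g.f (A.q j x) = B.q j (g.f x) := by
  simp only [q, map_add, g.f_cup, g.f_d]

/-- composition -/
def Hom.comp (h : Hom B E) (g : Hom A B) : Hom A E where
  f := h.f.comp g.f
  f_d x := by simp only [AddMonoidHom.comp_apply, g.f_d, h.f_d]
  f_cup j x y := by simp only [AddMonoidHom.comp_apply, g.f_cup, h.f_cup]

/-- `x` and `y` are cohomologous -/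
def Coh (A : CupC) (x y : A.C) : Prop := ∃ c, x + y = A.d c

theorem Coh.refl (x : A.C) : A.Coh x x := ⟨0, by rw [A.two, map_zero]⟩

theorem Coh.symm {x y : A.C} (h : A.Coh x y) : A.Coh y x := by
  obtain ⟨c, hc⟩ := h; exact ⟨c, by rw [add_comm, hc]⟩

theorem Coh.trans {x y z : A.C} (h : A.Coh x y) (h' : A.Coh y z) : A.Coh x z := by
  obtain ⟨c, hc⟩ := h
  obtain ⟨c', hc'⟩ := h'
  refine ⟨c + c', ?_⟩
  rw [map_add, ← hc, ← hc']
  calc x + z = x + z + (y + y) := by rw [A.two, add_zero]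
    _ = _ := by abel

theorem Coh.add {x y z w : A.C} (h : A.Coh x y) (h' : A.Coh z w) : A.Coh (x + z) (y + w) := by
  obtain ⟨c, hc⟩ := h
  obtain ⟨c', hc'⟩ := h'
  refine ⟨c + c', ?_⟩
  rw [map_add, ← hc, ← hc']
  abel

theorem Coh.of_eq {x y : A.C} (h : x = y) : A.Coh x y := h ▸ Coh.refl x

/-- a subobject of a product: pairs which satisfy a relation stable under all operations -/
def prod (A B : CupC) : CupC where
  C := A.C × B.C
  d := (A.d.comp (AddMonoidHom.fst _ _)).prod (B.d.comp (AddMonoidHom.snd _ _))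
  cup j := AddMonoidHom.mk' (fun x => AddMonoidHom.mk' (fun y => (A.cup j x.1 y.1, B.cup j x.2 y.2))
      (fun y z => by simp only [Prod.fst_add, Prod.snd_add, map_add, Prod.mk_add_mk]))
    (fun x y => by
      ext z <;> simp only [AddMonoidHom.mk'_apply, Prod.fst_add, Prod.snd_add, map_add,
        AddMonoidHom.add_apply])
  two x := Prod.ext (A.two _) (B.two _)
  d_d x := Prod.ext (A.d_d _) (B.d_d _)
  cup_zero x y := Prod.ext (A.cup_zero _ _) (B.cup_zero _ _)
  d_cup j x y := Prod.ext (A.d_cup j _ _) (B.d_cup j _ _)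

@[simp] theorem prod_d (x : (A.prod B).C) : (A.prod B).d x = (A.d x.1, B.d x.2) := rfl

@[simp] theorem prod_cup (j : ℕ) (x y : (A.prod B).C) :
    (A.prod B).cup j x y = (A.cup j x.1 y.1, B.cup j x.2 y.2) := rfl

/-- a subobject -/
def sub (A : CupC) (S : AddSubgroup A.C) (hd : ∀ x ∈ S, A.d x ∈ S)
    (hc : ∀ j, ∀ x ∈ S, ∀ y ∈ S, A.cup j x y ∈ S) : CupC where
  C := S
  d := AddMonoidHom.mk' (fun x => ⟨A.d x, hd x x.2⟩)
    (fun x y => by ext; simp only [AddSubgroup.coe_add, map_add])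
  cup j := AddMonoidHom.mk' (fun x => AddMonoidHom.mk' (fun y => ⟨A.cup j x y, hc j x x.2 y y.2⟩)
      (fun y z => by ext; simp only [AddSubgroup.coe_add, map_add]))
    (fun x y => by
      ext z; simp only [AddMonoidHom.mk'_apply, AddSubgroup.coe_add, map_add,
        AddMonoidHom.add_apply])
  two x := Subtype.ext (A.two _)
  d_d x := Subtype.ext (A.d_d _)
  cup_zero x y := Subtype.ext (A.cup_zero _ _)
  d_cup j x y := Subtype.ext (A.d_cup j _ _)

/-- Cylinder data for `U`: the cochains of `X × Δ¹`. -/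
structure Cyl (U : CupC) where
  /-- the cochains of the cylinder -/
  W : CupC
  /-- restriction to the end `0` -/
  r0 : Hom W U
  /-- restriction to the end `1` -/
  r1 : Hom W U
  /-- `e ↦ t · e` where `t` is the indicator of the vertex `0` -/
  T : U.C →+ W.C
  /-- the prism operator -/
  s : W.C →+ U.C
  r0_T : ∀ x, r0.f (T x) = x
  r1_T : ∀ x, r1.f (T x) = 0
  prism : ∀ x, U.d (s x) + s (W.d x) = r0.f x + r1.f x

variable {U V : CupC}

/-- the pairs `(b, f)` with `f|0 = g b`, `f|1 = 0` -/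
def coneS (g : Hom V U) (c : Cyl U) : AddSubgroup (V.prod c.W).C where
  carrier := {x | c.r0.f x.2 = g.f x.1 ∧ c.r1.f x.2 = 0}
  add_mem' {x y} hx hy := by
    refine ⟨?_, ?_⟩
    · change c.r0.f (x.2 + y.2) = g.f (x.1 + y.1)
      rw [map_add, map_add, hx.1, hy.1]
    · change c.r1.f (x.2 + y.2) = 0
      rw [map_add, hx.2, hy.2, add_zero]
  zero_mem' := ⟨by
    change c.r0.f 0 = g.f 0
    rw [map_zero, map_zero], by
    change c.r1.f 0 = 0
    rw [map_zero]⟩
  neg_mem' {x} hx := by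
    refine ⟨?_, ?_⟩
    · change c.r0.f (-x.2) = g.f (-x.1)
      rw [map_neg, map_neg, hx.1]
    · change c.r1.f (-x.2) = 0
      rw [map_neg, hx.2, neg_zero]

/-- The cochains of the mapping cone of `g : V → U` (contravariant notation). -/
def cone (g : Hom V U) (c : Cyl U) : CupC :=
  (V.prod c.W).sub (coneS g c)
    (fun x hx => by
      refine ⟨?_, ?_⟩
      · change c.r0.f (c.W.d x.2) = g.f (V.d x.1)
        rw [c.r0.f_d, g.f_d, hx.1]
      · change c.r1.f (c.W.d x.2) = 0
        rw [c.r1.f_d, hx.2, map_zero])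
    (fun j x hx y hy => by
      refine ⟨?_, ?_⟩
      · change c.r0.f (c.W.cup j x.2 y.2) = g.f (V.cup j x.1 y.1)
        rw [c.r0.f_cup, g.f_cup, hx.1, hy.1]
      · change c.r1.f (c.W.cup j x.2 y.2) = 0
        rw [c.r1.f_cup, hx.2, map_zero, AddMonoidHom.zero_apply])

variable (g : Hom V U) (c : Cyl U)

/-- an element of the cone -/
def mkC (b : V.C) (f : c.W.C) (h0 : c.r0.f f = g.f b) (h1 : c.r1.f f = 0) : (cone g c).C :=
  ⟨(b, f), h0, h1⟩

theorem cone_ext {x y : (cone g c).C} (h1 : x.1.1 = y.1.1) (h2 : x.1.2 = y.1.2) : x = y :=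
  Subtype.ext (Prod.ext h1 h2)

/-- projection to the cochains of `V` (restriction to the base) -/
def coneFst : Hom (cone g c) V where
  f := AddMonoidHom.mk' (fun x => x.1.1) (fun _ _ => rfl)
  f_d _ := rfl
  f_cup _ _ _ := rfl

@[simp] theorem coneFst_apply (x : (cone g c).C) : (coneFst g c).f x = x.1.1 := rfl

/-- the lift of `b` given by a cochain `e` with `d e = g b` -/
def lift (b : V.C) (e : U.C) (h : U.d e = g.f b) : (cone g c).C :=
  mkC g c b (c.W.d (c.T e)) (by rw [c.r0.f_d, c.r0_T, h]) (by rw [c.r1.f_d, c.r1_T, map_zero])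

/-- the class `δ x` of a cocycle `x` of `U` -/
def del (x : U.C) (h : U.d x = 0) : (cone g c).C :=
  mkC g c 0 (c.W.d (c.T x)) (by rw [c.r0.f_d, c.r0_T, h, map_zero])
    (by rw [c.r1.f_d, c.r1_T, map_zero])

theorem d_lift {b : V.C} {e : U.C} (h : U.d e = g.f b) (hb : V.d b = 0) :
    (cone g c).d (lift g c b e h) = 0 :=
  cone_ext g c hb (c.W.d_d _)

theorem d_del {x : U.C} (h : U.d x = 0) : (cone g c).d (del g c x h) = 0 :=
  cone_ext g c (V.d.map_zero) (c.W.d_d _)

theorem del_add {x y : U.C} (hx : U.d x = 0) (hy : U.d y = 0) (hxy : U.d (x + y) = 0) :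
    del g c (x + y) hxy = del g c x hx + del g c y hy :=
  cone_ext g c (add_zero _).symm (by
    change c.W.d (c.T (x + y)) = c.W.d (c.T x) + c.W.d (c.T y)
    rw [map_add, map_add])

/-- `δ` of a cochain which becomes a coboundary -/
theorem del_coh_zero {x : U.C} (h : U.d x = 0) {w : U.C} {b : V.C} (hb : V.d b = 0)
    (hx : x = U.d w + g.f b) : (cone g c).Coh (del g c x h) 0 := by
  refine ⟨mkC g c b (c.T x + c.W.d (c.T w)) ?_ ?_, cone_ext g c ?_ ?_⟩
  · rw [map_add, c.r0.f_d, c.r0_T, c.r0_T, hx]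
    rw [add_comm (U.d w), add_assoc, U.two, add_zero]
  · rw [map_add, c.r1.f_d, c.r1_T, c.r1_T, map_zero, add_zero]
  · change (0 : V.C) + 0 = V.d b
    rw [hb, add_zero]
  · change c.W.d (c.T x) + 0 = c.W.d (c.T x + c.W.d (c.T w))
    rw [map_add, c.W.d_d]

/-- `δ x = 0` in cohomology only if `x` comes from `V` -/
theorem exists_of_del_coh_zero {x : U.C} (h : U.d x = 0)
    (hx : (cone g c).Coh (del g c x h) 0) : ∃ b : V.C, V.d b = 0 ∧ U.Coh x (g.f b) := by
  obtain ⟨k, hk⟩ := hx
  have h1 : (0 : V.C) + 0 = V.d k.1.1 := congrArg (fun y : (cone g c).C => y.1.1) hk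
  have h2 : c.W.d (c.T x) + 0 = c.W.d k.1.2 := congrArg (fun y : (cone g c).C => y.1.2) hk
  have h0 : c.r0.f k.1.2 = g.f k.1.1 := k.2.1
  have h3 : c.r1.f k.1.2 = 0 := k.2.2
  refine ⟨k.1.1, by rw [← h1, add_zero], c.s (c.T x + k.1.2), ?_⟩
  have hp := c.prism (c.T x + k.1.2)
  rw [map_add c.W.d, ← h2, add_zero, c.W.two, map_zero, add_zero, map_add c.r0.f,
    map_add c.r1.f, c.r0_T, c.r1_T, h0, h3, add_zero, add_zero] at hp
  exact hp.symm

/-- **(D1)** the cup-i square of the lift -/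
theorem cone_sq (i : ℕ) {b : V.C} {e : U.C} (h : U.d e = g.f b) :
    ((cone g c).cup (i + 1) (lift g c b e h) (lift g c b e h)).1 =
      (V.cup (i + 1) b b, c.W.d (c.W.q i (c.T e))) := by
  rw [d_q]; rfl

theorem r0_q (i : ℕ) (e : U.C) : c.r0.f (c.W.q i (c.T e)) = U.q i e := by
  rw [c.r0.f_q, c.r0_T]

theorem r1_q (i : ℕ) (e : U.C) : c.r1.f (c.W.q i (c.T e)) = 0 := by
  rw [c.r1.f_q, c.r1_T, q_zero]

/-- if `b ∪_i b = d c'`, then `q_i(e) + g c'` is a cocycle -/
theorem d_q_add (i : ℕ) {b c' : V.C} {e : U.C} (h : U.d e = g.f b)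
    (hb : V.cup (i + 1) b b = V.d c') : U.d (U.q i e + g.f c') = 0 := by
  rw [map_add, d_q, h, ← g.f_cup, hb, g.f_d, U.two]

/-- **(D2)** If `b ∪_i b = d c'`, the cup-i square of the lift of `b` is `δ (q_i(e) + g c')`. -/
theorem cone_sq_of_eq_d (i : ℕ) {b c' : V.C} {e : U.C} (h : U.d e = g.f b)
    (hb : V.cup (i + 1) b b = V.d c') :
    (cone g c).Coh ((cone g c).cup (i + 1) (lift g c b e h) (lift g c b e h))
      (del g c (U.q i e + g.f c') (d_q_add g i h hb)) := by
  refine ⟨mkC g c c' (c.W.q i (c.T e) + c.T (U.q i e + g.f c')) ?_ ?_, cone_ext g c ?_ ?_⟩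
  · rw [map_add, c.r0_T, r0_q, ← add_assoc, U.two, zero_add]
  · rw [map_add, c.r1_T, r1_q, add_zero]
  · change V.cup (i + 1) b b + 0 = V.d c'
    rw [hb, add_zero]
  · change c.W.cup (i + 1) (c.W.d (c.T e)) (c.W.d (c.T e)) + c.W.d (c.T (U.q i e + g.f c')) =
      c.W.d (c.W.q i (c.T e) + c.T (U.q i e + g.f c'))
    rw [map_add c.W.d, d_q]

/-- **(E)** LZ_1, assembled: if all products `∪_{j-1}`, `j ≤ N`, vanish on the element `b` of `V`
up to the coboundary of `c'` and on `e`, `de`, then the cup-i square of the lift of `b` is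
`δ (g c')`. -/
theorem cone_sq_of_vanish (i : ℕ) {b c' : V.C} {e : U.C} (h : U.d e = g.f b)
    (hb : V.cup (i + 1) b b = V.d c') (h1 : U.cup i e e = 0) (h2 : U.cup (i + 1) e (U.d e) = 0)
    {x : U.C} (hx : U.d x = 0) (hc : g.f c' = x) :
    (cone g c).Coh ((cone g c).cup (i + 1) (lift g c b e h) (lift g c b e h)) (del g c x hx) := by
  have hq : U.q i e = 0 := by rw [q, h1, h2, add_zero]
  have := cone_sq_of_eq_d g c i h hb
  simp only [hq, zero_add, hc] at this
  exact this

end CupC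

end Vale.Agent.P263.TJ
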