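import Vale.Agent.P263.TJ.Dstar
import Vale.Agent.P263.TJ.SCup
import Mathlib.Data.Fintype.Perm
import Mathlib.Algebra.BigOperators.Fin

/-!
# P263, block EB: the number of a class of the cube

* `DstN_sum` : in degree `0`, integration over `(Δ¹)ⁿ` is the sum over the `n!` simplices of the
  cube.
* `cube_one`, `cube_zero` : a relative cocycle of degree `n` of the cube is the fundamental cocycle
  `sC n` plus `d` of a relative cochain, resp. `d` of a relative cochain, according to the sum of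
  its values on the `n!` simplices.
-/

open Finset

namespace Vale.Agent.P263.TJ

open Vale.Agent.P263.S Vale.Agent.P263.E Vale.Agent.P263.H83

variable {X Y : SS}

/-! ### permutations of `Fin (n + 1)` -/

theorem consPerm_inj {n : ℕ} (i : Fin (n + 1)) (σ : Equiv.Perm (Fin n)) :
    Function.Injective (Fin.cons i (fun k => i.succAbove (σ k)) : Fin (n + 1) → Fin (n + 1)) := by
  intro a b
  refine Fin.cases ?_ (fun a => ?_) a <;> refine Fin.cases ?_ (fun b => ?_) b
  · intro _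
    rfl
  · intro h
    rw [Fin.cons_zero, Fin.cons_succ] at h
    exact absurd h.symm (Fin.succAbove_ne _ _)
  · intro h
    rw [Fin.cons_zero, Fin.cons_succ] at h
    exact absurd h (Fin.succAbove_ne _ _)
  · intro h
    rw [Fin.cons_succ, Fin.cons_succ] at h
    rw [σ.injective (Fin.succAbove_right_injective h)]

/-- the permutation of `Fin (n + 1)` with first value `i` and pattern `σ` -/
noncomputable def consPerm {n : ℕ} (i : Fin (n + 1)) (σ : Equiv.Perm (Fin n)) :
    Equiv.Perm (Fin (n + 1)) :=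
  Equiv.ofBijective _ (Finite.injective_iff_bijective.1 (consPerm_inj i σ))

theorem consPerm_zero {n : ℕ} (i : Fin (n + 1)) (σ : Equiv.Perm (Fin n)) :
    consPerm i σ 0 = i := rfl

theorem consPerm_succ {n : ℕ} (i : Fin (n + 1)) (σ : Equiv.Perm (Fin n)) (k : Fin n) :
    consPerm i σ k.succ = i.succAbove (σ k) := rfl

theorem consPerm_bij (n : ℕ) : Function.Bijective
    fun z : Fin (n + 1) × Equiv.Perm (Fin n) => consPerm z.1 z.2 := by
  refine (Fintype.bijective_iff_injective_and_card _).2 ⟨?_, ?_⟩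
  · rintro ⟨i, σ⟩ ⟨j, ρ⟩ h
    have h0 : i = j := congrArg (fun e : Equiv.Perm (Fin (n + 1)) => e 0) h
    subst h0
    refine Prod.ext rfl (Equiv.ext fun k => ?_)
    have h1 : i.succAbove (σ k) = i.succAbove (ρ k) :=
      congrArg (fun e : Equiv.Perm (Fin (n + 1)) => e k.succ) h
    exact Fin.succAbove_right_injective h1
  · rw [Fintype.card_prod, Fintype.card_perm, Fintype.card_perm, Fintype.card_fin,
      Fintype.card_fin, Nat.factorial_succ]

theorem sum_perm_succ {n : ℕ} {M : Type*} [AddCommMonoid M]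
    (F : Equiv.Perm (Fin (n + 1)) → M) :
    ∑ π, F π = ∑ σ : Equiv.Perm (Fin n), ∑ i : Fin (n + 1), F (consPerm i σ) := by
  rw [← (consPerm_bij n).sum_comp F, Fintype.sum_prod_type, sum_comm]

/-! ### integration over the cube in degree `0` -/

/-- the degeneracy `[n] → [0]` -/
def kO (n : ℕ) : Op n 0 := ⟨fun _ => 0, fun _ _ _ => le_rfl⟩

/-- the top simplex of the cube which belongs to a permutation -/
def cubT {n : ℕ} (π : Equiv.Perm (Fin n)) : (SN n).obj n := fun k => th n ((π k).1 + 1)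

theorem th_sg {n i : ℕ} (c : ℕ) (hi : i ≤ n) :
    (th n (c + 1)).comp (sg n i) = th (n + 1) ((if c < i then c else c + 1) + 1) := by
  apply OrderHom.ext
  funext y
  have hy := y.2
  show th n (c + 1) (sg n i y) = th (n + 1) _ y
  rw [th_val, th_val, sg_val]
  split_ifs <;> first | rfl | omega

theorem map_cubT {n : ℕ} (σ : Equiv.Perm (Fin n)) (i : Fin (n + 1)) :
    (Fin.cons (th (n + 1) (i.1 + 1)) ((SN n).map (sg n i.1) (cubT σ)) :
      Fin (n + 1) → Op (n + 1) 1) = cubT (consPerm i σ) := by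
  funext k
  refine Fin.cases ?_ (fun k => ?_) k
  · rfl
  · show (th n ((σ k).1 + 1)).comp (sg n i.1) = th (n + 1) ((i.succAbove (σ k)).1 + 1)
    rw [th_sg _ (Nat.lt_succ_iff.1 i.2), Fin.succAbove]
    by_cases h : (σ k).1 < i.1
    · rw [if_pos h, if_pos (by rwa [Fin.lt_def])]
      rfl
    · rw [if_neg h, if_neg (by rwa [Fin.lt_def])]
      rfl

/-- a simplex of `X × (Δ¹)ⁿ` -/
def pq {n p : ℕ} (x : X.obj p) (τ : (SN n).obj p) : (X.prod (SN n)).obj p := (x, τ)

/-- **in degree `0`, the integral over the cube is the sum over its `n!` simplices** -/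
theorem DstN_sum (n : ℕ) (w : Cc (X.prod (SN n))) (x : X.obj 0) :
    DstN n w 0 x = ∑ π : Equiv.Perm (Fin n), w n (pq (X.map (kO n) x) (cubT π)) := by
  induction n with
  | zero =>
    rw [Fintype.sum_unique]
    show w 0 _ = w 0 _
    congr 1
    refine Prod.ext ?_ (funext fun i => i.elim0)
    show x = X.map (kO 0) x
    have h : kO 0 = OrderHom.id := by
      apply OrderHom.ext
      funext y
      exact (Fin.eq_zero y).symm
    rw [h, X.map_id]
  | succ n ih =>
    rw [sum_perm_succ]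
    refine (ih (Dst (Cc.pull (consM X n) w))).trans ?_
    refine sum_congr rfl fun σ _ => (Dst_apply (Cc.pull (consM X n) w) _).trans ?_
    rw [Finset.sum_range]
    refine sum_congr rfl fun i _ => ?_
    show w (n + 1) _ = w (n + 1) _
    congr 1
    refine Prod.ext ?_ (map_cubT σ i)
    show X.map (sg n i.1) (X.map (kO n) x) = X.map (kO (n + 1)) x
    rw [← X.map_comp]
    rfl

/-! ### the cube -/

/-- `SN n → pt × SN n` -/
def ptM (n : ℕ) : SS.Map (SN n) (SS.pt.prod (SN n)) := SS.pair (SS.toPt _) (SS.Map.id _)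

theorem eq_one_of_isDeg {u : Cc SS.pt} (hu : Cc.IsDeg 0 u) (h : u 0 () = 1) : u = Cc.one SS.pt := by
  funext p x
  cases p with
  | zero => exact h
  | succ p => exact hu _ (Nat.succ_ne_zero p) x

theorem eq_zero_of_isDeg {u : Cc SS.pt} (hu : Cc.IsDeg 0 u) (h : u 0 () = 0) : u = 0 := by
  funext p x
  cases p with
  | zero => exact h
  | succ p => exact hu _ (Nat.succ_ne_zero p) x

theorem isDeg_DstN {n m : ℕ} {w : Cc (X.prod (SN n))} (hw : Cc.IsDeg (m + n) w) :
    Cc.IsDeg m (DstN n w) := fun p hp x =>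
  congrFun (DstN_degree n (funext fun z => hw (p + n) (by omega) z)) x

theorem cube_aux (n : ℕ) {w : Cc (SN n)} (hw : Vn (SN.base n) w) (hd : Cc.d w = 0)
    (hn : Cc.IsDeg n w) :
    ∃ (u : Cc SS.pt) (β : Cc (SN n)), Cc.IsDeg 0 u ∧ u 0 () = ∑ π : Equiv.Perm (Fin n), w n (cubT π) ∧
      Vn (SN.base n) β ∧ w = Cc.pull (ptM n) (sn n u) + Cc.d β := by
  set v : Cc (SS.pt.prod (SN n)) := Cc.pull (SS.snd SS.pt (SN n)) w with hv
  have hvr : Vn (bdX SS.pt n) v := hw.pull _
  have hvd : Cc.d v = 0 := by rw [hv, ← pull_d, hd, pull_zero]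
  have hvn : Cc.IsDeg (0 + n) v := by
    rw [zero_add]
    exact hn.pull _
  obtain ⟨w', h1, h2⟩ := DstN_retract n hvr hvd
  refine ⟨DstN n v, Cc.pull (ptM n) w', isDeg_DstN hvn, ?_, h1.pull (ptM n), ?_⟩
  · exact DstN_sum n v ()
  · rw [← pull_d, ← pull_add, ← h2, hv]
    rfl

/-- a relative cocycle of the cube with sum `1` is the fundamental cocycle -/
theorem cube_one (n : ℕ) {w : Cc (SN n)} (hw : Vn (SN.base n) w) (hd : Cc.d w = 0)
    (hn : Cc.IsDeg n w) (h : ∑ π : Equiv.Perm (Fin n), w n (cubT π) = 1) :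
    ∃ β : Cc (SN n), Vn (SN.base n) β ∧ w = sC n + Cc.d β := by
  obtain ⟨u, β, hu, hu0, hβ, e⟩ := cube_aux n hw hd hn
  refine ⟨β, hβ, e.trans ?_⟩
  rw [eq_one_of_isDeg hu (hu0.trans h), sn, pull_cup, pull_one, pull_one, one_cup]
  rfl

/-- a relative cocycle of the cube with sum `0` is the coboundary of a relative cochain -/
theorem cube_zero (n : ℕ) {w : Cc (SN n)} (hw : Vn (SN.base n) w) (hd : Cc.d w = 0)
    (hn : Cc.IsDeg n w) (h : ∑ π : Equiv.Perm (Fin n), w n (cubT π) = 0) :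
    ∃ β : Cc (SN n), Vn (SN.base n) β ∧ w = Cc.d β := by
  obtain ⟨u, β, hu, hu0, hβ, e⟩ := cube_aux n hw hd hn
  refine ⟨β, hβ, e.trans ?_⟩
  rw [eq_zero_of_isDeg hu (hu0.trans h), sn_zero', pull_zero, zero_add]

/-! ### degrees -/

theorem isDeg_one (X : SS) : Cc.IsDeg 0 (Cc.one X) := by
  intro p hp x
  cases p with
  | zero => exact absurd rfl hp
  | succ p => rfl

theorem isDeg_edg : Cc.IsDeg 1 edg := fun _ hp _ => if_neg fun h => hp h.1

theorem Cc.IsDeg.mE {W : SS} {n : ℕ} {f : Cc W} (hf : Cc.IsDeg n f) (τ : SS.Map W D1) :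
    Cc.IsDeg (n + 1) (Cc.mE τ f) := hf.cup (isDeg_edg.pull τ) rfl

theorem Cc.IsDeg.susL {W : SS} {n : ℕ} {f : Cc W} (hf : Cc.IsDeg n f)
    (L : List (SS.Map W D1)) : Cc.IsDeg (n + L.length) (susL L f) := by
  induction L with
  | nil => exact hf
  | cons τ L ih => exact ih.mE τ

theorem isDeg_sC (n : ℕ) : Cc.IsDeg n (sC n) := by
  have h := (isDeg_one (SN n)).susL (SN.L n)
  rwa [SN.length_L, zero_add] at h

theorem isDeg_sn {m : ℕ} (n : ℕ) {u : Cc X} (hu : Cc.IsDeg m u) : Cc.IsDeg (m + n) (sn n u) :=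
  (hu.pull _).cup ((isDeg_sC n).pull _) rfl

/-- the primitive of a homogeneous coboundary can be taken homogeneous -/
theorem cube_prim {A : Sb X} {m : ℕ} {u β : Cc X} (hβ : Vn A β) (hu : Cc.IsDeg (m + 1) u)
    (h : u = Cc.d β) : ∃ β', Vn A β' ∧ Cc.IsDeg m β' ∧ u = Cc.d β' := by
  obtain ⟨v, h1, h2, h3⟩ := exists_hom_of_d hβ h.symm fun p hp => funext fun x => hu p hp x
  exact ⟨v, h1, fun p hp x => congrFun (h2 p hp) x, h3.symm⟩

/-- `cube_one` with homogeneous primitive -/
theorem cube_one_homog {n : ℕ} (hn0 : 0 < n) {w : Cc (SN n)} (hw : Vn (SN.base n) w)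
    (hd : Cc.d w = 0) (hn : Cc.IsDeg n w) (h : ∑ π : Equiv.Perm (Fin n), w n (cubT π) = 1) :
    ∃ β : Cc (SN n), Vn (SN.base n) β ∧ Cc.IsDeg (n - 1) β ∧ w = sC n + Cc.d β := by
  obtain ⟨m, rfl⟩ : ∃ m, n = m + 1 := ⟨n - 1, by omega⟩
  obtain ⟨β, h1, h2⟩ := cube_one (m + 1) hw hd hn h
  have h3 : w + sC (m + 1) = Cc.d β := by
    rw [h2]
    funext p x
    show sC (m + 1) p x + Cc.d β p x + sC (m + 1) p x = Cc.d β p x
    have := CharTwo.add_self_eq_zero (sC (m + 1) p x)
    linear_combination this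
  obtain ⟨β', h4, h5, h6⟩ := cube_prim h1 (hn.add (isDeg_sC (m + 1))) h3
  refine ⟨β', h4, h5, ?_⟩
  rw [← h6]
  funext p x
  show w p x = sC (m + 1) p x + (w p x + sC (m + 1) p x)
  have := CharTwo.add_self_eq_zero (sC (m + 1) p x)
  linear_combination -this

end Vale.Agent.P263.TJ
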