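import Vale.Agent.P263.TJ.CubeSum

/-!
# P263, block EB: the thick interval and the strict null homotopy of the square of a suspension

`E2` : the simplicial set of all `0-1` functions on the vertices; `e2` its fundamental cochain
(it restricts to `edg` on `D1`). `EN n` : the `n`-fold power, `enN n y = y ∪ e ∪ … ∪ e`.
`ex_exact` : a relative cocycle on `X × EN n` whose integral over `(Δ¹)ⁿ` is a coboundary is the
coboundary of a relative cochain. `exists_sqE` : for a cocycle `y` of `X` there is a relative cochain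
`c` with `d c = enN n y ∪_{n-1} enN n y`, whose restriction to `X × (Δ¹)ⁿ` is null.
-/

open Finset

namespace Vale.Agent.P263.TJ

open Vale.Agent.P263.S Vale.Agent.P263.E Vale.Agent.P263.H83

variable {X Y W : SS}

/-! ### the thick interval -/

/-- all `0-1` functions on the vertices -/
def E2 : SS where
  obj p := Fin (p + 1) → Fin 2
  map f τ := fun x => τ (f x)
  map_id _ := rfl
  map_comp _ _ _ := rfl

/-- the constant functions -/
def E2.ends : Sb E2 where
  mem {p} τ := (∀ x : Fin (p + 1), τ x = 0) ∨ ∀ x : Fin (p + 1), τ x = 1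
  map_mem f _ h := h.imp (fun h x => h (f x)) fun h x => h (f x)

/-- the interval in the thick interval -/
def inE : SS.Map D1 E2 := ⟨fun {p} τ => fun x => (show Op p 1 from τ) x, fun _ _ => rfl⟩

/-- the characteristic cochain of the vertex `1` -/
def chiE : Cc E2 := fun p τ => if p = 0 ∧ τ 0 = 1 then 1 else 0

/-- the fundamental cochain -/
def e2 : Cc E2 := Cc.d chiE

theorem d_e2 : Cc.d e2 = 0 := d_d _

theorem chiE_succ {p : ℕ} (τ : E2.obj (p + 1)) : chiE (p + 1) τ = 0 :=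
  if_neg fun h => Nat.succ_ne_zero p h.1

theorem e2_zero (τ : E2.obj 0) : e2 0 τ = 0 := d_zero_apply _ _

theorem e2_one (τ : E2.obj 1) :
    e2 1 τ = (if τ 1 = 1 then 1 else 0) + (if τ 0 = 1 then 1 else 0) := by
  refine (d_succ_apply chiE τ).trans ?_
  rw [sum_range_succ, sum_range_one]
  refine congrArg₂ (· + ·) ?_ ?_
  · show (if (0 : ℕ) = 0 ∧ τ (dl 0 0 0) = 1 then (1 : ZMod 2) else 0) = _
    have h : dl 0 0 0 = 1 := by
      apply Fin.ext
      rw [dl_val]
      rfl
    rw [h]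
    simp
  · show (if (0 : ℕ) = 0 ∧ τ (dl 0 1 0) = 1 then (1 : ZMod 2) else 0) = _
    have h : dl 0 1 0 = 0 := by
      apply Fin.ext
      rw [dl_val]
      rfl
    rw [h]
    simp

theorem e2_succ {p : ℕ} (τ : E2.obj (p + 2)) : e2 (p + 2) τ = 0 := by
  refine (d_succ_apply chiE τ).trans ?_
  exact sum_eq_zero fun i _ => chiE_succ _

theorem Vn_e2 : Vn E2.ends e2 := by
  intro p τ h
  match p, τ, h with
  | 0, τ, _ => exact e2_zero τ
  | 1, τ, h =>
    rw [e2_one]
    rcases h with h | h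
    · have h0 : τ 0 = 0 := h 0
      have h1 : τ 1 = 0 := h 1
      rw [h0, h1]
      decide
    · have h0 : τ 0 = 1 := h 0
      have h1 : τ 1 = 1 := h 1
      rw [h0, h1]
      decide
  | p + 2, τ, _ => exact e2_succ τ

theorem isDeg_e2 : Cc.IsDeg 1 e2 := by
  intro p hp τ
  match p, hp, τ with
  | 0, _, τ => exact e2_zero τ
  | 1, hp, _ => exact absurd rfl hp
  | p + 2, _, τ => exact e2_succ τ

/-- it restricts to the fundamental cochain of the interval -/
theorem pull_e2 : Cc.pull inE e2 = edg := by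
  funext p τ
  match p, τ with
  | 0, τ => exact (e2_zero _).trans (if_neg fun h => absurd h.1 (by decide)).symm
  | 1, τ =>
    refine (e2_one _).trans ?_
    obtain ⟨c, hc, rfl⟩ := exists_thD τ
    have h : c = 0 ∨ c = 1 ∨ c = 2 := by omega
    rcases h with rfl | rfl | rfl <;> rfl
  | p + 2, τ => exact (e2_succ _).trans (if_neg fun h => absurd h.1 (by omega)).symm

/-! ### multiplication with the fundamental cochain -/

/-- the product with `e` at the back -/
def Cc.mE2 (τ : SS.Map W E2) (f : Cc W) : Cc W := Cc.cup 1 f (Cc.pull τ e2)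

theorem d_mE2 (τ : SS.Map W E2) (f : Cc W) : Cc.d (Cc.mE2 τ f) = Cc.mE2 τ (Cc.d f) := by
  rw [Cc.mE2, d_cup_one, ← pull_d, d_e2, pull_zero, cup_zero_right, add_zero]
  rfl

theorem pull_mE2 (h : SS.Map X W) (τ : SS.Map W E2) (f : Cc W) :
    Cc.pull h (Cc.mE2 τ f) = Cc.mE2 (τ.comp h) (Cc.pull h f) := pull_cup _ _ _ _

theorem Vn_mE2 (τ : SS.Map W E2) (f : Cc W) : Vn (E2.ends.comap τ) (Cc.mE2 τ f) :=
  (Vn_e2.pull τ).cup_right 1 f

theorem Vn.mE2 {A : Sb W} {f : Cc W} (hf : Vn A f) (τ : SS.Map W E2) : Vn A (Cc.mE2 τ f) :=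
  hf.cup_left 1 _

theorem mE2_inE (τ : SS.Map W D1) (f : Cc W) : Cc.mE2 (inE.comp τ) f = Cc.mE τ f := by
  show Cc.cup 1 f (Cc.pull τ (Cc.pull inE e2)) = _
  rw [pull_e2]
  rfl

/-- `X × Δ¹ → X × E2` -/
def inX (X : SS) : SS.Map (X.prod D1) (X.prod E2) := SS.pair (SS.fst X D1) (inE.comp (SS.snd X D1))

theorem Vn_inX {w : Cc (X.prod E2)} (hw : Vn (E2.ends.comap (SS.snd X E2)) w) :
    Vn (endsOf (SS.snd X D1)) (Cc.pull (inX X) w) := by
  rintro p x (h | h)
  · refine hw p _ (Or.inl fun i => ?_)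
    show (show Op p 1 from x.2) i = 0
    rw [show x.2 = c0 p from h]
    exact c0_val p i
  · refine hw p _ (Or.inr fun i => ?_)
    show (show Op p 1 from x.2) i = 1
    rw [show x.2 = c1 p from h]
    exact c1_val p i

/-- the contraction of the thick interval -/
def ctE (X : SS) : SS.Htp (X.prod E2) (X.prod E2) :=
  ⟨fun _ χ x => (x.1, fun i => min (x.2 i) (χ i)), fun _ _ _ => rfl⟩

/-- a simplex of `X × E2` -/
def pE {p : ℕ} (x : X.obj p) (τ : E2.obj p) : (X.prod E2).obj p := (x, τ)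

theorem ctE_apply (w : Cc (X.prod E2)) {p : ℕ} (x : X.obj p) (τ : E2.obj p) :
    htp (ctE X) w p (pE x τ) = ∑ i ∈ range (p + 1), w (p + 1) (pE (X.map (sg p i) x)
      fun y => min (τ (sg p i y)) (th (p + 1) (i + 1) y)) := rfl

/-- **Exactness for the thick interval** -/
theorem ex2_exact {A : Sb X} {w : Cc (X.prod E2)} {a : Cc X}
    (hw : Vn (E2.ends.comap (SS.snd X E2)) w) (hwA : Vn (A.comap (SS.fst X E2)) w) (hA : Vn A a)
    (hd : Cc.d w = 0) (ha : Dst (Cc.pull (inX X) w) = Cc.d a) :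
    ∃ w' : Cc (X.prod E2), Vn (E2.ends.comap (SS.snd X E2)) w' ∧ Vn (A.comap (SS.fst X E2)) w' ∧
      Cc.d w' = w := by
  set b := Cc.mE2 (SS.snd X E2) (Cc.pull (SS.fst X E2) a) with hb
  have hbE : Vn (E2.ends.comap (SS.snd X E2)) b := Vn_mE2 _ _
  have hbA : Vn (A.comap (SS.fst X E2)) b := (hA.pull _).mE2 _
  set v := w + Cc.d b with hv
  have hvE : Vn (E2.ends.comap (SS.snd X E2)) v := hw.add hbE.d
  have hvA : Vn (A.comap (SS.fst X E2)) v := hwA.add hbA.d
  have hvd : Cc.d v = 0 := by rw [hv, d_add, hd, d_d, add_zero]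
  have hbin : Cc.pull (inX X) b = Cc.mE (SS.snd X D1) (Cc.pull (SS.fst X D1) a) := by
    rw [hb, pull_mE2]
    exact mE2_inE _ _
  have hvD : Dst (Cc.pull (inX X) v) = 0 := by
    rw [hv, pull_add, Dst_add, pull_d, Dst_d_rel (Vn_inX hbE), hbin, Dst_mE, ha]
    funext p x
    exact CharTwo.add_self_eq_zero _
  have hG := htp_d (ctE X) v
  have h0 : Cc.pull (ctE X).e0 v = 0 := by
    funext p x
    refine hvE p _ (Or.inl fun i => ?_)
    show min (x.2 i) (c0 p i) = 0
    rw [c0_val]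
    exact min_eq_right (Fin.zero_le _)
  have h1 : Cc.pull (ctE X).e1 v = v := by
    funext p x
    show v p (pE x.1 fun i => min (x.2 i) (c1 p i)) = v p (pE x.1 x.2)
    congr 2
    funext i
    rw [c1_val]
    exact min_eq_left (Fin.le_last _)
  rw [hvd, htp_zero, h0, h1, add_zero] at hG
  have hveq : Cc.d (htp (ctE X) v) = v := by
    funext p x
    have h3 : (0 : ZMod 2) = Cc.d (htp (ctE X) v) p x + v p x := congrFun (congrFun hG p) x
    have h4 : ∀ a b : ZMod 2, 0 = a + b → a = b := by decide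
    exact h4 _ _ h3
  refine ⟨htp (ctE X) v + b, ?_, ?_, ?_⟩
  · refine Vn.add ?_ hbE
    rintro p ⟨x, τ⟩ (h | h)
    · refine (ctE_apply v x τ).trans (sum_eq_zero fun i _ => hvE _ _ (Or.inl fun y => ?_))
      show min (τ (sg p i y)) _ = 0
      have h' : τ (sg p i y) = 0 := h _
      rw [h']
      exact min_eq_left (Fin.zero_le _)
    · refine (ctE_apply v x τ).trans ?_
      have h5 : ∀ i ∈ range (p + 1), v (p + 1) (pE (X.map (sg p i) x)
          fun y => min (τ (sg p i y)) (th (p + 1) (i + 1) y)) =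
          Cc.pull (inX X) v (p + 1) (pp (X.map (sg p i) x) (thD (p + 1) (i + 1))) := by
        intro i _
        show v (p + 1) _ = v (p + 1) _
        congr 2
        funext y
        have h' : τ (sg p i y) = 1 := h _
        rw [h']
        exact min_eq_right (Fin.le_last _)
      rw [sum_congr rfl h5]
      exact congrFun (congrFun hvD p) x
  · refine Vn.add ?_ hbA
    rintro p ⟨x, τ⟩ h
    refine (ctE_apply v x τ).trans (sum_eq_zero fun i _ => hvA _ _ ?_)
    exact A.map_mem (sg p i) h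
  · rw [d_add, hveq, hv]
    funext p x
    show w p x + Cc.d b p x + Cc.d b p x = w p x
    rw [add_assoc, CharTwo.add_self_eq_zero, add_zero]

/-! ### several coordinates -/

/-- the power of the thick interval -/
def EN (n : ℕ) : SS where
  obj p := Fin n → Fin (p + 1) → Fin 2
  map f τ i := fun x => τ i (f x)
  map_id _ := rfl
  map_comp _ _ _ := rfl

/-- the coordinates -/
def EN.coord {n : ℕ} (i : Fin n) : SS.Map (EN n) E2 := ⟨fun τ => τ i, fun _ _ => rfl⟩

/-- the simplices with a constant coordinate -/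
def EN.base (n : ℕ) : Sb (EN n) where
  mem {p} τ := ∃ i : Fin n, (∀ x : Fin (p + 1), τ i x = 0) ∨ ∀ x : Fin (p + 1), τ i x = 1
  map_mem f _ h := h.imp fun _ h => h.imp (fun h x => h (f x)) fun h x => h (f x)

/-- products of fundamental cochains -/
def prodE : List (SS.Map W E2) → Cc W
  | [] => Cc.one W
  | τ :: L => Cc.mE2 τ (prodE L)

theorem pull_prodE (h : SS.Map X W) (L : List (SS.Map W E2)) :
    Cc.pull h (prodE L) = prodE (L.map (·.comp h)) := by
  induction L with
  | nil => rfl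
  | cons τ L ih => rw [prodE, pull_mE2, ih]; rfl

theorem prodE_inE (L : List (SS.Map W D1)) :
    prodE (L.map fun τ => inE.comp τ) = susL L (Cc.one W) := by
  induction L with
  | nil => rfl
  | cons τ L ih => rw [List.map_cons, prodE, ih, mE2_inE, susL_cons]

theorem d_prodE (L : List (SS.Map W E2)) : Cc.d (prodE L) = 0 := by
  induction L with
  | nil => exact d_one
  | cons τ L ih =>
    rw [prodE, d_mE2, ih, Cc.mE2, cup_zero_left]

theorem Vn_prodE {τ : SS.Map W E2} {L : List (SS.Map W E2)} (h : τ ∈ L) :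
    Vn (E2.ends.comap τ) (prodE L) := by
  induction L with
  | nil => exact absurd h (List.not_mem_nil)
  | cons τ' L ih =>
    rcases List.mem_cons.1 h with rfl | h
    · exact Vn_mE2 _ _
    · exact (ih h).mE2 τ'

theorem isDeg_prodE (L : List (SS.Map W E2)) : Cc.IsDeg L.length (prodE L) := by
  induction L with
  | nil => exact isDeg_one W
  | cons τ L ih => exact ih.cup (isDeg_e2.pull τ) rfl

/-- the fundamental cochain of `EN n` -/
def eC (n : ℕ) : Cc (EN n) := prodE ((List.finRange n).map EN.coord)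

theorem d_eC (n : ℕ) : Cc.d (eC n) = 0 := d_prodE _

theorem Vn_eC (n : ℕ) : Vn (EN.base n) (eC n) := by
  rintro p τ ⟨i, h⟩
  exact Vn_prodE (τ := EN.coord i) (List.mem_map_of_mem (List.mem_finRange i)) p τ h

theorem isDeg_eC (n : ℕ) : Cc.IsDeg n (eC n) := by
  have h := isDeg_prodE ((List.finRange n).map (EN.coord (n := n)))
  rwa [List.length_map, List.length_finRange] at h

/-- the cube in the thick cube -/
def iN (n : ℕ) : SS.Map (SN n) (EN n) :=
  ⟨fun {p} τ => fun i x => (show Op p 1 from τ i) x, fun _ _ => rfl⟩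

theorem pull_eC (n : ℕ) : Cc.pull (iN n) (eC n) = sC n := by
  rw [eC, pull_prodE, sC, SN.L, ← prodE_inE, List.map_map, List.map_map]
  rfl

/-- the suspension on `X × EN n` -/
def enN (n : ℕ) (u : Cc X) : Cc (X.prod (EN n)) :=
  Cc.cup 1 (Cc.pull (SS.fst X (EN n)) u) (Cc.pull (SS.snd X (EN n)) (eC n))

/-- the boundary of `X × EN n` -/
abbrev bdE (X : SS) (n : ℕ) : Sb (X.prod (EN n)) := (EN.base n).comap (SS.snd X (EN n))

theorem enN_zero (n : ℕ) : enN n (0 : Cc X) = 0 := by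
  rw [enN, pull_zero, cup_zero_left]

theorem d_enN (n : ℕ) (u : Cc X) : Cc.d (enN n u) = enN n (Cc.d u) := by
  rw [enN, d_cup_one, ← pull_d, ← pull_d, d_eC, pull_zero, cup_zero_right, add_zero]
  rfl

theorem Vn_enN (n : ℕ) (u : Cc X) : Vn (bdE X n) (enN n u) := ((Vn_eC n).pull _).cup_right 1 _

theorem isDeg_enN {m : ℕ} (n : ℕ) {u : Cc X} (hu : Cc.IsDeg m u) :
    Cc.IsDeg (m + n) (enN n u) := (hu.pull _).cup ((isDeg_eC n).pull _) rfl

/-- `X × (Δ¹)ⁿ → X × EN n` -/
def iX (X : SS) (n : ℕ) : SS.Map (X.prod (SN n)) (X.prod (EN n)) :=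
  SS.pair (SS.fst X (SN n)) ((iN n).comp (SS.snd X (SN n)))

theorem pull_enN (n : ℕ) (u : Cc X) : Cc.pull (iX X n) (enN n u) = sn n u := by
  rw [enN, pull_cup, sn, ← pull_eC]
  rfl

theorem Vn_iX {n : ℕ} {w : Cc (X.prod (EN n))} (hw : Vn (bdE X n) w) :
    Vn (bdX X n) (Cc.pull (iX X n) w) := by
  rintro p x ⟨i, h | h⟩
  · refine hw p _ ⟨i, Or.inl fun y => ?_⟩
    show (show Op p 1 from x.2 i) y = 0
    rw [show x.2 i = c0 p from h]
    exact c0_val p y
  · refine hw p _ ⟨i, Or.inr fun y => ?_⟩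
    show (show Op p 1 from x.2 i) y = 1
    rw [show x.2 i = c1 p from h]
    exact c1_val p y

/-- `(X × EN n) × E2 → X × EN (n+1)`, the new coordinate is the coordinate `0` -/
def consE (X : SS) (n : ℕ) : SS.Map ((X.prod (EN n)).prod E2) (X.prod (EN (n + 1))) where
  app {p} x := (x.1.1, (Fin.cons x.2 x.1.2 : Fin (n + 1) → Fin (p + 1) → Fin 2))
  nat f x := by
    refine Prod.ext rfl ?_
    funext i
    refine Fin.cases ?_ (fun j => ?_) i
    · rfl
    · rfl

/-- the inverse -/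
def unconsE (X : SS) (n : ℕ) : SS.Map (X.prod (EN (n + 1))) ((X.prod (EN n)).prod E2) where
  app x := ((x.1, fun i => x.2 i.succ), x.2 0)
  nat _ _ := rfl

theorem consE_uncons (X : SS) (n : ℕ) : (consE X n).comp (unconsE X n) = SS.Map.id _ := by
  apply SS.Map.ext
  rintro p ⟨x, τ⟩
  refine Prod.ext rfl ?_
  funext i
  refine Fin.cases ?_ (fun j => ?_) i
  · rfl
  · rfl

theorem Vn_consE_ends {n : ℕ} {w : Cc (X.prod (EN (n + 1)))} (hw : Vn (bdE X (n + 1)) w) :
    Vn (E2.ends.comap (SS.snd (X.prod (EN n)) E2)) (Cc.pull (consE X n) w) := fun p _ h =>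
  hw p _ ⟨0, h⟩

theorem Vn_consE_bd {n : ℕ} {w : Cc (X.prod (EN (n + 1)))} (hw : Vn (bdE X (n + 1)) w) :
    Vn ((bdE X n).comap (SS.fst (X.prod (EN n)) E2)) (Cc.pull (consE X n) w) := by
  rintro p x ⟨i, h⟩
  exact hw p _ ⟨i.succ, h⟩

theorem cons_comm (X : SS) (n : ℕ) : (iX X (n + 1)).comp (consM X n) =
    ((consE X n).comp (inX (X.prod (EN n)))).comp
      (SS.pair ((iX X n).comp (SS.fst (X.prod (SN n)) D1)) (SS.snd (X.prod (SN n)) D1)) := by
  apply SS.Map.ext
  rintro p x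
  refine Prod.ext rfl ?_
  funext i
  refine Fin.cases ?_ (fun j => ?_) i
  · rfl
  · rfl

/-- **Exactness**: a relative cocycle of `X × EN n` whose integral over the cube is a coboundary is
the coboundary of a relative cochain. -/
theorem ex_exact (n : ℕ) {w : Cc (X.prod (EN n))} {a : Cc X} (hw : Vn (bdE X n) w)
    (hd : Cc.d w = 0) (ha : DstN n (Cc.pull (iX X n) w) = Cc.d a) :
    ∃ w' : Cc (X.prod (EN n)), Vn (bdE X n) w' ∧ Cc.d w' = w := by
  induction n generalizing a with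
  | zero =>
    refine ⟨Cc.pull (SS.fst X (EN 0)) a, ?_, ?_⟩
    · rintro p x ⟨i, _⟩
      exact i.elim0
    · rw [← pull_d, ← ha]
      show Cc.pull (((iX X 0).comp (nilM X)).comp (SS.fst X (EN 0))) w = w
      have h : ((iX X 0).comp (nilM X)).comp (SS.fst X (EN 0)) = SS.Map.id _ := by
        apply SS.Map.ext
        rintro p ⟨x, τ⟩
        refine Prod.ext rfl ?_
        funext i
        exact i.elim0
      rw [h]
      rfl
  | succ n ih =>
    have h1 := Vn_consE_ends hw
    have h2 := Vn_consE_bd hw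
    have hd' : Cc.d (Cc.pull (consE X n) w) = 0 := by rw [← pull_d, hd, pull_zero]
    have h3 : Vn (bdE X n) (Dst (Cc.pull (inX _) (Cc.pull (consE X n) w))) :=
      Vn_Dst fun p x h => h2 p _ h
    have h4 : DstN n (Cc.pull (iX X n) (Dst (Cc.pull (inX _) (Cc.pull (consE X n) w)))) =
        Cc.d a := by
      rw [← ha, ← Dst_pull]
      have h5 : DstN (n + 1) (Cc.pull (iX X (n + 1)) w) =
          DstN n (Dst (Cc.pull ((iX X (n + 1)).comp (consM X n)) w)) := rfl
      rw [h5, cons_comm]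
      rfl
    obtain ⟨a', ha1, ha2⟩ := ih h3
      (by rw [← Dst_d_rel (Vn_inX h1), ← pull_d, hd', pull_zero, Dst_zero]) h4
    obtain ⟨w', hE, hB, hw'⟩ := ex2_exact h1 h2 ha1 hd' ha2.symm
    refine ⟨Cc.pull (unconsE X n) w', ?_, ?_⟩
    · rintro p ⟨x, τ⟩ ⟨i, h⟩
      revert h
      refine Fin.cases (fun h => ?_) (fun j h => ?_) i
      · exact hE p _ h
      · exact hB p _ ⟨j, h⟩
    · rw [← pull_d, hw']
      show Cc.pull ((consE X n).comp (unconsE X n)) w = w
      rw [consE_uncons]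
      rfl

/-! ### the null homotopy of the square -/

theorem d_cup_self_zero (j : ℕ) {u : Cc X} (hu : Cc.d u = 0) : Cc.d (Cc.cup j u u) = 0 := by
  cases j with
  | zero => rw [cup_zero, d_zero]
  | succ j =>
    rw [d_cup, hu, cup_zero_left, cup_zero_right]
    funext p x
    show (0 : ZMod 2) + 0 + Cc.cup j u u p x + Cc.cup j u u p x = 0
    rw [add_assoc, CharTwo.add_self_eq_zero (Cc.cup j u u p x), add_zero, add_zero]

/-- **the strict null homotopy of the square** -/
theorem exists_sqE (n : ℕ) {y : Cc X} (hy : Cc.d y = 0) :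
    ∃ c : Cc (X.prod (EN n)), Vn (bdE X n) c ∧ Cc.d c = Cc.cup n (enN n y) (enN n y) ∧
      ∃ γ : Cc (X.prod (SN n)), Vn (bdX X n) γ ∧ Cc.pull (iX X n) c = Cc.d γ := by
  have hu : Cc.d (enN n y) = 0 := by rw [d_enN, hy, enN_zero]
  obtain ⟨c0, h1, h2⟩ := ex_exact n (w := Cc.cup n (enN n y) (enN n y)) (a := 0)
    ((Vn_enN n y).cup_left n _) (d_cup_self_zero n hu) (by
      rw [pull_cup, pull_enN, cup_sn_of_le n n le_rfl, DstN_zero, d_zero])
  have h3 := Vn_iX h1
  have h4 : Cc.d (Cc.pull (iX X n) c0) = 0 := by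
    rw [← pull_d, h2, pull_cup, pull_enN, cup_sn_of_le n n le_rfl]
  set t := DstN n (Cc.pull (iX X n) c0) with ht
  have htd : Cc.d t = 0 := by rw [ht, ← DstN_d h3, h4, DstN_zero]
  refine ⟨c0 + enN n t, h1.add (Vn_enN n t), ?_, ?_⟩
  · rw [d_add, h2, d_enN, htd, enN_zero, add_zero]
  · obtain ⟨γ, h5, h6⟩ := DstN_exact n (w := Cc.pull (iX X n) (c0 + enN n t)) (a := 0)
      (Vn_iX (h1.add (Vn_enN n t))) (by
        rw [pull_add, pull_enN, d_add, h4, d_sn, htd, sn_zero', add_zero]) (by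
        rw [pull_add, pull_enN, DstN_add, DstN_sn, ← ht, d_zero]
        funext p x
        exact CharTwo.add_self_eq_zero _)
    exact ⟨γ, h5, h6.symm⟩

theorem hom_of_isDeg {m : ℕ} {u : Cc X} (hu : Cc.IsDeg m u) : Cc.hom m u = u := by
  funext p x
  by_cases h : p = m
  · subst h
    rw [hom_self]
  · rw [hom_of_ne h, hu p h x]
    rfl

theorem isDeg_hom (m : ℕ) (u : Cc X) : Cc.IsDeg m (Cc.hom m u) := fun _ h x =>
  congrFun (hom_of_ne h u) x

theorem pull_hom (f : SS.Map X Y) (m : ℕ) (u : Cc Y) :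
    Cc.pull f (Cc.hom m u) = Cc.hom m (Cc.pull f u) := by
  funext p x
  by_cases h : p = m
  · subst h
    rw [hom_self]
    show Cc.hom p u p (f.app x) = _
    rw [hom_self]
    rfl
  · rw [hom_of_ne h]
    show Cc.hom m u p (f.app x) = _
    rw [hom_of_ne h]
    rfl

/-- homogeneous form -/
theorem exists_sqE_homog {n q : ℕ} (hn : 0 < n) {y : Cc X} (hq : Cc.IsDeg q y)
    (hy : Cc.d y = 0) :
    ∃ c : Cc (X.prod (EN n)), Vn (bdE X n) c ∧ Cc.IsDeg (q + q + n) c ∧
      Cc.d c = Cc.cup n (enN n y) (enN n y) ∧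
      ∃ γ : Cc (X.prod (SN n)), Vn (bdX X n) γ ∧ Cc.IsDeg (q + q + n - 1) γ ∧
        Cc.pull (iX X n) c = Cc.d γ := by
  obtain ⟨c, h1, h2, γ, h3, h4⟩ := exists_sqE n hy
  obtain ⟨m, rfl⟩ : ∃ m, n = m + 1 := ⟨n - 1, by omega⟩
  refine ⟨Cc.hom (q + q + (m + 1)) c, h1.hom _, isDeg_hom _ _, ?_, Cc.hom (q + q + m) γ,
    h3.hom _, isDeg_hom _ _, ?_⟩
  · rw [d_hom, h2]
    exact hom_of_isDeg ((isDeg_enN (m + 1) hq).cup (isDeg_enN (m + 1) hq) (by omega))
  · rw [pull_hom, h4, d_hom]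
    rfl

end Vale.Agent.P263.TJ
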