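import Vale.Agent.P263.TJ.Gamma

/-!
# P263, block EB: functoriality of the free-sum model, assembly, products with a parameter

`gamMap φ h` : the map `Gam l A ⟶ Gam l A'` induced by `φ : B ⟶ B'` which sends `A` into `A'`.
`asmW` : the assembly map `Gam l A x W ⟶ Gam l (B x W rel ...)`, `(F, w) ↦ {(c, (b, w)) : (c, b) in F}`.
`hatW`, `TrW` : additive extension and trace with a parameter space `W`; they commute with the
products (all break point numbers) with cochains of `W` on the right, and compute the pull backs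
of `hat` and `Tr` along `asmW`.
-/

open Finset

namespace Vale.Agent.P263.TJ

open Vale.Agent.P263.S Vale.Agent.P263.E Vale.Agent.P263.H83

variable {l : LabS} {B B' W : SS} {A : Sb B} {A' : Sb B'}

/-! ### functoriality -/

section Functor

variable (φ : SS.Map B B')

/-- the map on sheets -/
def shB {p : ℕ} (a : Sheet l B p) : Sheet l B' p := (a.1, φ.app a.2)

theorem shB_shm {p q : ℕ} (f : Op p q) (a : Sheet l B q) :
    shB φ (shm l f a) = shm l f (shB φ a) := Prod.ext rfl (φ.nat f a.2)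

variable (A') in
open Classical in
/-- the image of a set of sheets -/
noncomputable def gim {p : ℕ} (F : Finset (Sheet l B p)) : Finset (Sheet l B' p) :=
  (F.image (shB φ)).filter fun a => ¬ A'.mem a.2

theorem mem_gim {p : ℕ} {F : Finset (Sheet l B p)} {a : Sheet l B' p} :
    a ∈ gim A' φ F ↔ (∃ b ∈ F, shB φ b = a) ∧ ¬ A'.mem a.2 := by
  classical
  rw [gim, mem_filter, mem_image]

theorem GOk.shB_injOn {p : ℕ} {F : Finset (Sheet l B p)} (h : GOk l A F) :
    Set.InjOn (shB φ) (F : Set (Sheet l B p)) := fun _ ha _ hb hab =>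
  h.2.1 ha hb (congrArg (fun c : Sheet l B' p => c.1) hab)

theorem GOk.gim {p : ℕ} {F : Finset (Sheet l B p)} (h : GOk l A F) :
    GOk l A' (gim A' φ F) := by
  refine ⟨l.good_sub h.1 ?_, ?_, fun a ha => (mem_gim φ |>.1 ha).2⟩
  · rintro _ ⟨a, ha, rfl⟩
    obtain ⟨⟨b, hb, rfl⟩, -⟩ := (mem_gim φ).1 (mem_coe.1 ha)
    exact ⟨b, hb, rfl⟩
  · intro a ha a' ha' haa
    obtain ⟨⟨b, hb, rfl⟩, -⟩ := (mem_gim φ).1 (mem_coe.1 ha)
    obtain ⟨⟨b', hb', rfl⟩, -⟩ := (mem_gim φ).1 (mem_coe.1 ha')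
    have : b = b' := h.2.1 hb hb' haa
    rw [this]

theorem sum_gim {M : Type} [AddCommMonoid M] {p : ℕ} {F : Finset (Sheet l B p)}
    (h : GOk l A F) (c : Sheet l B' p → M) (hc : ∀ a, A'.mem a.2 → c a = 0) :
    ∑ a ∈ gim A' φ F, c a = ∑ a ∈ F, c (shB φ a) := by
  classical
  rw [TJ.gim, sum_filter, sum_image (h.shB_injOn φ)]
  refine sum_congr rfl fun a _ => ?_
  by_cases h' : A'.mem (shB φ a).2
  · rw [if_neg (not_not.2 h'), hc _ h']
  · rw [if_pos h']

theorem gim_gmap (hφ : ∀ {p : ℕ} (x : B.obj p), A.mem x → A'.mem (φ.app x)) {p q : ℕ}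
    (f : Op p q) (F : Finset (Sheet l B q)) :
    gim A' φ (gmap l A f F) = gmap l A' f (gim A' φ F) := by
  ext a
  rw [mem_gim, mem_gmap]
  refine and_congr_left fun ha => ?_
  constructor
  · rintro ⟨b', hb', rfl⟩
    obtain ⟨⟨b, hb, rfl⟩, -⟩ := mem_gmap.1 hb'
    refine ⟨shB φ b, (mem_gim φ).2 ⟨⟨b, hb, rfl⟩, fun hc => ha ?_⟩, (shB_shm φ f b).symm⟩
    rw [shB_shm]
    exact A'.map_mem f hc
  · rintro ⟨b', hb', rfl⟩
    obtain ⟨⟨b, hb, rfl⟩, -⟩ := (mem_gim φ).1 hb'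
    refine ⟨shm l f b, mem_gmap.2 ⟨⟨b, hb, rfl⟩, fun hc => ha ?_⟩, shB_shm φ f b⟩
    rw [← shB_shm]
    exact hφ _ hc

variable (hφ : ∀ {p : ℕ} (x : B.obj p), A.mem x → A'.mem (φ.app x))

variable (l) in
/-- functoriality of the free-sum model -/
noncomputable def gamMap : SS.Map (Gam l A) (Gam l A') where
  app F := ⟨gim A' φ F.1, F.2.gim φ⟩
  nat f F := Subtype.ext (gim_gmap φ hφ f F.1)

theorem pull_hat {y : Cc B'} (hy : Vn A' y) :
    Cc.pull (gamMap l φ hφ) (hat l A' y) = hat l A (Cc.pull φ y) := by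
  funext p F
  exact sum_gim φ F.2 (fun a => y p a.2) fun _ h => hy _ _ h

variable (l) in
/-- functoriality of the pairs -/
def prMap : SS.Map (Pr l B) (Pr l B') where
  app x := ⟨(shB φ x.1.1, shB φ x.1.2), x.2⟩
  nat f x := Subtype.ext (Prod.ext (shB_shm φ f x.1.1) (shB_shm φ f x.1.2))

theorem ex_prMap (c : Cc (Pr l B')) {p : ℕ} (a b : Sheet l B p) :
    ex (Cc.pull (prMap l φ) c) a b = ex c (shB φ a) (shB φ b) := by
  unfold ex
  by_cases h : ∀ i, l.at' a.1 i ≠ l.at' b.1 i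
  · rw [dif_pos h, dif_pos (show ∀ i, l.at' (shB φ a).1 i ≠ l.at' (shB φ b).1 i from h)]
    rfl
  · rw [dif_neg h, dif_neg (show ¬ ∀ i, l.at' (shB φ a).1 i ≠ l.at' (shB φ b).1 i from h)]

theorem ex_base_left {c : Cc (Pr l B)} (hc : Vn (PrB l A) c) {p : ℕ} {a : Sheet l B p}
    (ha : A.mem a.2) (b : Sheet l B p) : ex c a b = 0 := by
  unfold ex
  split_ifs with h
  · exact hc _ _ (Or.inl ha)
  · rfl

theorem ex_base_right {c : Cc (Pr l B)} (hc : Vn (PrB l A) c) {p : ℕ} {b : Sheet l B p}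
    (hb : A.mem b.2) (a : Sheet l B p) : ex c a b = 0 := by
  unfold ex
  split_ifs with h
  · exact hc _ _ (Or.inr hb)
  · rfl

theorem pull_Tr {c : Cc (Pr l B')} (hc : Vn (PrB l A') c) :
    Cc.pull (gamMap l φ hφ) (Tr A' c) = Tr A (Cc.pull (prMap l φ) c) := by
  funext p F
  show ∑ a ∈ gim A' φ F.1, ∑ b ∈ gim A' φ F.1, ex c a b = _
  rw [sum_gim φ F.2 (fun a => ∑ b ∈ gim A' φ F.1, ex c a b)
    fun a ha => sum_eq_zero fun b _ => ex_base_left hc ha b]
  refine sum_congr rfl fun a _ => ?_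
  rw [sum_gim φ F.2 (fun b => ex c (shB φ a) b) fun b hb => ex_base_right hc hb _]
  exact sum_congr rfl fun b _ => (ex_prMap φ c a b).symm

theorem pull_oo : Cc.pull (prMap l φ) (oo l B') = oo l B := rfl

theorem pull_vv : Cc.pull (prMap l φ) (vv l B') = vv l B := by
  rw [vv, pull_d, pull_oo]
  rfl

theorem pull_vp (k : ℕ) : Cc.pull (prMap l φ) (vp l B' k) = vp l B k := by
  induction k with
  | zero => rfl
  | succ k ih =>
    show Cc.pull (prMap l φ) (Cc.cup 1 (vv l B') (vp l B' k)) = Cc.cup 1 (vv l B) (vp l B k)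
    rw [pull_cup, pull_vv, ih]

theorem pull_vo (k : ℕ) : Cc.pull (prMap l φ) (vo l B' k) = vo l B k := by
  induction k with
  | zero => rfl
  | succ k ih =>
    show Cc.pull (prMap l φ) (Cc.cup 1 (vv l B') (vo l B' k)) = Cc.cup 1 (vv l B) (vo l B k)
    rw [pull_cup, pull_vv, ih]

theorem pull_ww (y : Cc B') (i : ℕ) :
    Cc.pull (prMap l φ) (ww l y i) = ww l (Cc.pull φ y) i := pull_cup _ _ _ _

theorem pull_qt (j m : ℕ) (y : Cc B') (k : ℕ) :
    Cc.pull (prMap l φ) (qt l j m y k) = qt l j m (Cc.pull φ y) k := by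
  rw [qt, pull_cup, pull_vo, pull_ww]
  rfl

/-- pull back as a homomorphism -/
def pullHom {X Y : SS} (f : SS.Map X Y) : Cc Y →+ Cc X where
  toFun := Cc.pull f
  map_zero' := pull_zero f
  map_add' := pull_add f

theorem pull_fsum {X Y : SS} (f : SS.Map X Y) {ι : Type} (s : Finset ι) (u : ι → Cc Y) :
    Cc.pull f (∑ i ∈ s, u i) = ∑ i ∈ s, Cc.pull f (u i) := map_sum (pullHom f) u s

/-- naturality of the quadratic correction -/
theorem pull_KK {y : Cc B'} (hy : Vn A' y) (j m : ℕ) :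
    Cc.pull (gamMap l φ hφ) (KK l A' j m y) = KK l A j m (Cc.pull φ y) := by
  funext p
  have h := congrFun (pull_Tr (A := A) φ hφ (Vn.sum fun k (_ : k ∈ range (p + 1)) =>
    qt_vn (l := l) hy j m k)) p
  rw [pull_fsum] at h
  simp only [pull_qt] at h
  exact h

end Functor

/-! ### a parameter space -/

section Param

/-- pairs of simplices -/
def pm {X Y : SS} {p : ℕ} (x : X.obj p) (y : Y.obj p) : (X.prod Y).obj p := (x, y)

/-- the first component -/
def p1 {X Y : SS} {p : ℕ} (x : (X.prod Y).obj p) : X.obj p := x.1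

/-- the second component -/
def p2 {X Y : SS} {p : ℕ} (x : (X.prod Y).obj p) : Y.obj p := x.2

/-- the sheets of a simplex of the free-sum model -/
def shs {p : ℕ} (F : (Gam l A).obj p) : Finset (Sheet l B p) := F.1

theorem shs_ok {p : ℕ} (F : (Gam l A).obj p) : GOk l A (shs F) := F.2

/-- a pair of sheets -/
def prm {p : ℕ} (a b : Sheet l B p) (h : ∀ i, l.at' a.1 i ≠ l.at' b.1 i) : (Pr l B).obj p :=
  ⟨(a, b), h⟩

theorem prod_map_eq {X Y : SS} {p q : ℕ} (f : Op p q) (x : (X.prod Y).obj q) :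
    (X.prod Y).map f x = pm (X.map f (p1 x)) (Y.map f (p2 x)) := rfl

theorem shs_map {p q : ℕ} (f : Op p q) (F : (Gam l A).obj q) :
    shs ((Gam l A).map f F) = gmap l A f (shs F) := rfl

/-- the base of `B x W` -/
def prodB (A : Sb B) (W₀ : Sb W) : Sb (B.prod W) :=
  (A.comap (SS.fst B W)).union (W₀.comap (SS.snd B W))

/-- the sheets with a parameter -/
def shW {p : ℕ} (w : W.obj p) (a : Sheet l B p) : Sheet l (B.prod W) p := (a.1, pm a.2 w)

theorem shW_shm {p q : ℕ} (f : Op p q) (w : W.obj q) (a : Sheet l B q) :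
    shW (W.map f w) (shm l f a) = shm l f (shW w a) := rfl

variable (W₀ : Sb W)

variable (A) in
open Classical in
/-- the assembly on sets of sheets -/
noncomputable def gas {p : ℕ} (w : W.obj p) (F : Finset (Sheet l B p)) :
    Finset (Sheet l (B.prod W) p) :=
  (F.image (shW w)).filter fun a => ¬ (prodB A W₀).mem a.2

theorem mem_gas {p : ℕ} {w : W.obj p} {F : Finset (Sheet l B p)} {a : Sheet l (B.prod W) p} :
    a ∈ gas A W₀ w F ↔ (∃ b ∈ F, shW w b = a) ∧ ¬ (prodB A W₀).mem a.2 := by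
  classical
  rw [gas, mem_filter, mem_image]

theorem GOk.shW_injOn {p : ℕ} (w : W.obj p) {F : Finset (Sheet l B p)} (h : GOk l A F) :
    Set.InjOn (shW w) (F : Set (Sheet l B p)) := fun _ ha _ hb hab =>
  h.2.1 ha hb (congrArg (fun c : Sheet l (B.prod W) p => c.1) hab)

theorem GOk.gas {p : ℕ} (w : W.obj p) {F : Finset (Sheet l B p)} (h : GOk l A F) :
    GOk l (prodB A W₀) (gas A W₀ w F) := by
  refine ⟨l.good_sub h.1 ?_, ?_, fun a ha => ((mem_gas W₀).1 ha).2⟩
  · rintro _ ⟨a, ha, rfl⟩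
    obtain ⟨⟨b, hb, rfl⟩, -⟩ := (mem_gas W₀).1 (mem_coe.1 ha)
    exact ⟨b, hb, rfl⟩
  · intro a ha a' ha' haa
    obtain ⟨⟨b, hb, rfl⟩, -⟩ := (mem_gas W₀).1 (mem_coe.1 ha)
    obtain ⟨⟨b', hb', rfl⟩, -⟩ := (mem_gas W₀).1 (mem_coe.1 ha')
    have : b = b' := h.2.1 hb hb' haa
    rw [this]

theorem sum_gas {M : Type} [AddCommMonoid M] {p : ℕ} (w : W.obj p) {F : Finset (Sheet l B p)}
    (h : GOk l A F) (c : Sheet l (B.prod W) p → M)
    (hc : ∀ a, (prodB A W₀).mem a.2 → c a = 0) :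
    ∑ a ∈ gas A W₀ w F, c a = ∑ a ∈ F, c (shW w a) := by
  classical
  rw [TJ.gas, sum_filter, sum_image (h.shW_injOn w)]
  refine sum_congr rfl fun a _ => ?_
  by_cases h' : (prodB A W₀).mem (shW w a).2
  · rw [if_neg (not_not.2 h'), hc _ h']
  · rw [if_pos h']

theorem gas_gmap {p q : ℕ} (f : Op p q) (w : W.obj q) (F : Finset (Sheet l B q)) :
    gas A W₀ (W.map f w) (gmap l A f F) = gmap l (prodB A W₀) f (gas A W₀ w F) := by
  ext a
  rw [mem_gas, mem_gmap]
  refine and_congr_left fun ha => ?_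
  constructor
  · rintro ⟨b', hb', rfl⟩
    obtain ⟨⟨b, hb, rfl⟩, -⟩ := mem_gmap.1 hb'
    refine ⟨shW w b, (mem_gas W₀).2 ⟨⟨b, hb, rfl⟩, fun hc => ha ?_⟩, rfl⟩
    exact (prodB A W₀).map_mem f hc
  · rintro ⟨b', hb', rfl⟩
    obtain ⟨⟨b, hb, rfl⟩, -⟩ := (mem_gas W₀).1 hb'
    exact ⟨shm l f b, mem_gmap.2 ⟨⟨b, hb, rfl⟩, fun hc => ha (Or.inl hc)⟩, rfl⟩

variable (l A) in
/-- **the assembly map** `Gam(B) x W ⟶ Gam(B x W)` -/
noncomputable def asmW : SS.Map ((Gam l A).prod W) (Gam l (prodB A W₀)) where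
  app x := ⟨gas A W₀ (p2 x) (shs (p1 x)), (shs_ok (p1 x)).gas W₀ (p2 x)⟩
  nat f x := Subtype.ext (gas_gmap W₀ f (p2 x) (shs (p1 x)))

theorem shs_asmW {p : ℕ} (x : ((Gam l A).prod W).obj p) :
    shs ((asmW l A W₀).app x) = gas A W₀ (p2 x) (shs (p1 x)) := rfl

variable (l A W) in
/-- the additive extension with a parameter -/
noncomputable def hatW (z : Cc (B.prod W)) : Cc ((Gam l A).prod W) := fun p x =>
  ∑ a ∈ shs (p1 x), z p (pm a.2 (p2 x))

theorem hatW_fst (y : Cc B) :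
    hatW l W A (Cc.pull (SS.fst B W) y) = Cc.pull (SS.fst (Gam l A) W) (hat l A y) := rfl

theorem hatW_add (z z' : Cc (B.prod W)) : hatW l W A (z + z') = hatW l W A z + hatW l W A z' := by
  funext p x
  exact sum_add_distrib

theorem pull_asmW_hat {z : Cc (B.prod W)} (hz : Vn (prodB A W₀) z) :
    Cc.pull (asmW l A W₀) (hat l (prodB A W₀) z) = hatW l W A z := by
  funext p x
  exact sum_gas W₀ (p2 x) (shs_ok (p1 x)) (fun a => z p a.2) fun _ h => hz _ _ h

/-- the cochains which vanish over the base of `B` -/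
abbrev VnB (A : Sb B) (z : Cc (B.prod W)) : Prop := Vn (A.comap (SS.fst B W)) z

theorem hatW_map {z : Cc (B.prod W)} (hz : VnB A z) {p q : ℕ} (f : Op p q)
    (x : ((Gam l A).prod W).obj q) :
    hatW l W A z p (((Gam l A).prod W).map f x) =
      ∑ a ∈ shs (p1 x), z p ((B.prod W).map f (pm a.2 (p2 x))) :=
  sum_gmap f (shs_ok (p1 x)) (fun a => z p (pm a.2 (W.map f (p2 x)))) fun _ ha => hz _ _ ha

theorem co_hatW {z : Cc (B.prod W)} (hz : VnB A z) {p : ℕ} (x : ((Gam l A).prod W).obj p)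
    (S : Finset ℕ) : co (hatW l W A z) x S = ∑ a ∈ shs (p1 x), co z (pm a.2 (p2 x)) S := by
  by_cases h : S.card = 0
  · simp [co, h]
  · rw [co_of_ne h, hatW_map hz]
    exact sum_congr rfl fun a _ => (co_of_ne h).symm

theorem co_snd {X : SS} (e : Cc W) {p : ℕ} (x : (X.prod W).obj p) :
    co (Cc.pull (SS.snd X W) e) x = co e (p2 x) := co_pull _ _ _

theorem co_fst {X : SS} (u : Cc X) {p : ℕ} (x : (X.prod W).obj p) :
    co (Cc.pull (SS.fst X W) u) x = co u (p1 x) := co_pull _ _ _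

/-- the additive extension commutes with products with cochains of `W` -/
theorem hatW_cup {z : Cc (B.prod W)} (hz : VnB A z) (j : ℕ) (e : Cc W) :
    hatW l W A (Cc.cup j z (Cc.pull (SS.snd B W) e)) =
      Cc.cup j (hatW l W A z) (Cc.pull (SS.snd (Gam l A) W) e) := by
  funext p x
  rw [Cc.cup_def, co_snd, hatW]
  simp only [Cc.cup_def, co_snd]
  simp only [cupJ, co_hatW hz, sum_mul]
  exact sum_comm

/-- the pairs with a parameter -/
def dgW : SS.Map ((Pr l B).prod W) (Pr l (B.prod W)) :=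
  ⟨fun x => ⟨(shW x.2 x.1.1.1, shW x.2 x.1.1.2), x.1.2⟩, fun _ _ => rfl⟩

/-- extension by zero, with a parameter -/
noncomputable def exW (c : Cc ((Pr l B).prod W)) {p : ℕ} (w : W.obj p) (a b : Sheet l B p) :
    ZMod 2 := by
  classical
  exact if h : ∀ i, l.at' a.1 i ≠ l.at' b.1 i then c p (pm (prm a b h) w) else 0

variable (A) in
/-- the trace with a parameter -/
noncomputable def TrW (c : Cc ((Pr l B).prod W)) : Cc ((Gam l A).prod W) := fun _ x =>
  ∑ a ∈ shs (p1 x), ∑ b ∈ shs (p1 x), exW c (p2 x) a b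

theorem TrW_fst (c : Cc (Pr l B)) :
    TrW A (Cc.pull (SS.fst (Pr l B) W) c) = Cc.pull (SS.fst (Gam l A) W) (Tr A c) := rfl

theorem exW_add (c c' : Cc ((Pr l B).prod W)) {p : ℕ} (w : W.obj p) (a b : Sheet l B p) :
    exW (c + c') w a b = exW c w a b + exW c' w a b := by
  unfold exW
  split_ifs
  · rfl
  · rw [add_zero]

theorem exW_zero {p : ℕ} (w : W.obj p) (a b : Sheet l B p) :
    exW (0 : Cc ((Pr l B).prod W)) w a b = 0 := by
  unfold exW
  split_ifs <;> rfl

theorem TrW_add (c c' : Cc ((Pr l B).prod W)) : TrW A (c + c') = TrW A c + TrW A c' := by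
  funext p x
  show TrW A (c + c') p x = TrW A c p x + TrW A c' p x
  simp only [TrW, exW_add, sum_add_distrib]

theorem TrW_zero : TrW A (0 : Cc ((Pr l B).prod W)) = 0 := by
  funext p x
  show TrW A _ p x = 0
  simp only [TrW, exW_zero, sum_const_zero]

theorem TrW_congr {c c' : Cc ((Pr l B).prod W)} {p : ℕ} (h : c p = c' p) :
    TrW A c p = TrW A c' p := by
  funext x
  unfold TrW exW
  rw [h]

/-- the cochains which vanish on the pairs with a base member -/
abbrev VnP (A : Sb B) (c : Cc ((Pr l B).prod W)) : Prop :=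
  Vn ((PrB l A).comap (SS.fst (Pr l B) W)) c

theorem exW_base_left {c : Cc ((Pr l B).prod W)} (hc : VnP A c) {p : ℕ} (w : W.obj p)
    {a : Sheet l B p} (ha : A.mem a.2) (b : Sheet l B p) : exW c w a b = 0 := by
  unfold exW
  split_ifs with h
  · exact hc _ _ (Or.inl ha)
  · rfl

theorem exW_base_right {c : Cc ((Pr l B).prod W)} (hc : VnP A c) {p : ℕ} (w : W.obj p)
    {b : Sheet l B p} (hb : A.mem b.2) (a : Sheet l B p) : exW c w a b = 0 := by
  unfold exW
  split_ifs with h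
  · exact hc _ _ (Or.inr hb)
  · rfl

theorem TrW_map {c : Cc ((Pr l B).prod W)} (hc : VnP A c) {p q : ℕ} (f : Op p q)
    (x : ((Gam l A).prod W).obj q) :
    TrW A c p (((Gam l A).prod W).map f x) =
      ∑ a ∈ shs (p1 x), ∑ b ∈ shs (p1 x), exW c (W.map f (p2 x)) (shm l f a) (shm l f b) := by
  show ∑ a ∈ gmap l A f (shs (p1 x)), ∑ b ∈ gmap l A f (shs (p1 x)),
    exW c (W.map f (p2 x)) a b = _
  rw [sum_gmap f (shs_ok (p1 x))
    (fun a => ∑ b ∈ gmap l A f (shs (p1 x)), exW c (W.map f (p2 x)) a b)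
    fun a ha => sum_eq_zero fun b _ => exW_base_left hc _ ha b]
  exact sum_congr rfl fun a _ => sum_gmap f (shs_ok (p1 x)) _ fun b hb => exW_base_right hc _ hb _

/-- extension by zero on all faces -/
noncomputable def exC (c : Cc ((Pr l B).prod W)) {p : ℕ} (w : W.obj p) (a b : Sheet l B p) :
    Co := by
  classical
  exact fun S => if h : ∀ i, l.at' a.1 i ≠ l.at' b.1 i then co c (pm (prm a b h) w) S else 0

theorem co_TrW {c : Cc ((Pr l B).prod W)} (hc : VnP A c) {p : ℕ}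
    (x : ((Gam l A).prod W).obj p) (S : Finset ℕ) :
    co (TrW A c) x S = ∑ a ∈ shs (p1 x), ∑ b ∈ shs (p1 x), exC c (p2 x) a b S := by
  by_cases h : S.card = 0
  · simp only [exC, co, h, if_true]
    refine (sum_eq_zero fun a _ => sum_eq_zero fun b _ => ?_).symm
    split_ifs <;> rfl
  · rw [co_of_ne h, TrW_map hc]
    refine sum_congr rfl fun a ha => sum_congr rfl fun b hb => ?_
    by_cases hab : a = b
    · subst hab
      unfold exW exC
      rw [dif_neg fun h => h 0 rfl, dif_neg fun h => h 0 rfl]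
    · have h1 := (shs_ok (p1 x)).dist ha hb hab
      unfold exW exC
      rw [dif_pos h1]
      refine Eq.trans ?_ (co_of_ne h).symm
      exact dif_pos ((Pr l B).map (cl (S.card - 1) p (enu S)) ⟨(a, b), h1⟩).2

theorem exW_cup (c : Cc ((Pr l B).prod W)) (j : ℕ) (e : Cc W) {p : ℕ} (w : W.obj p)
    (a b : Sheet l B p) :
    exW (Cc.cup j c (Cc.pull (SS.snd (Pr l B) W) e)) w a b =
      cupJ j (exC c w a b) (co e w) (range (p + 1)) := by
  unfold exW exC
  by_cases h : ∀ i, l.at' a.1 i ≠ l.at' b.1 i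
  · rw [dif_pos h, Cc.cup_def, co_snd]
    simp only [dif_pos h]
    rfl
  · rw [dif_neg h]
    simp only [dif_neg h, cupJ, zero_mul, sum_const_zero]

/-- the trace commutes with products with cochains of `W` -/
theorem TrW_cup {c : Cc ((Pr l B).prod W)} (hc : VnP A c) (j : ℕ) (e : Cc W) :
    TrW A (Cc.cup j c (Cc.pull (SS.snd (Pr l B) W) e)) =
      Cc.cup j (TrW A c) (Cc.pull (SS.snd (Gam l A) W) e) := by
  funext p x
  rw [Cc.cup_def, co_snd, TrW]
  simp only [exW_cup]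
  simp only [cupJ, co_TrW hc, sum_mul]
  calc _ = ∑ a ∈ shs (p1 x), ∑ J ∈ (range (p + 1)).powersetCard j, ∑ b ∈ shs (p1 x),
        exC c (p2 x) a b (fA (range (p + 1)) J) * co e (p2 x) (fB (range (p + 1)) J) :=
        sum_congr rfl fun a _ => sum_comm
    _ = _ := sum_comm

theorem pull_asmW_Tr {c : Cc (Pr l (B.prod W))} (hc : Vn (PrB l (prodB A W₀)) c) :
    Cc.pull (asmW l A W₀) (Tr (prodB A W₀) c) = TrW A (Cc.pull dgW c) := by
  funext p x
  show ∑ a ∈ gas A W₀ (p2 x) (shs (p1 x)), ∑ b ∈ gas A W₀ (p2 x) (shs (p1 x)), ex c a b = _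
  rw [sum_gas W₀ (p2 x) (shs_ok (p1 x))
    (fun a => ∑ b ∈ gas A W₀ (p2 x) (shs (p1 x)), ex c a b)
    fun a ha => sum_eq_zero fun b _ => ex_base_left hc ha b]
  refine sum_congr rfl fun a _ => ?_
  rw [sum_gas W₀ (p2 x) (shs_ok (p1 x)) (fun b => ex c (shW (p2 x) a) b)
    fun b hb => ex_base_right hc hb _]
  rfl

end Param

end Vale.Agent.P263.TJ
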