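import Vale.Agent.P263.TJ.GamNat
import Vale.Agent.P263.TJ.SN

/-!
# P263, block EB: the quadratic correction is strictly compatible with suspension

On `Gam l A x SN n`, the pull back along the assembly map `asmW` of `hat (y.s_n)` is
`(hat y).s_n`, and the pull back of `KK j m (y.s_n)` is `(KK (j - n) (m + (n - j)) y).s_n`
(truncated subtractions): both are equalities of cochains.
-/

open Finset

namespace Vale.Agent.P263.TJ

open Vale.Agent.P263.S Vale.Agent.P263.E Vale.Agent.P263.H83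

variable {l : LabS} {B W : SS} {A : Sb B}

/-- `f x W` -/
def lxW {X Y : SS} (W : SS) (f : SS.Map X Y) : SS.Map (X.prod W) (Y.prod W) :=
  SS.pair (f.comp (SS.fst X W)) (SS.snd X W)

theorem sn_VnP {c : Cc (Pr l B)} (hc : Vn (PrB l A) c) : VnP (W := W) A
    (Cc.pull (SS.fst (Pr l B) W) c) := hc.pull _

/-- a cochain of the form `y.s_n` vanishes on the base of `B x SN n` -/
theorem Vn_sn_prodB {y : Cc B} (hy : Vn A y) (n : ℕ) :
    Vn (prodB A (SN.base n)) (sn n y) := by
  intro p x hx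
  rcases hx with hx | hx
  · exact (hy.pull (SS.fst B (SN n))).cup_left 1 _ p x hx
  · exact Vn_sn n y p x hx

/-- the trace of `c.s_n` -/
theorem TrW_sn {c : Cc (Pr l B)} (hc : Vn (PrB l A) c) (n : ℕ) :
    TrW A (sn n c) = sn n (Tr A c) := by
  rw [sn, TrW_cup (sn_VnP hc), TrW_fst]
  rfl

theorem dgW_oo : Cc.pull dgW (oo l (B.prod W)) = Cc.pull (SS.fst (Pr l B) W) (oo l B) := rfl

theorem dgW_vv : Cc.pull dgW (vv l (B.prod W)) = Cc.pull (SS.fst (Pr l B) W) (vv l B) := by
  rw [vv, pull_d, dgW_oo, ← pull_d]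
  rfl

theorem dgW_vo (k : ℕ) :
    Cc.pull dgW (vo l (B.prod W) k) = Cc.pull (SS.fst (Pr l B) W) (vo l B k) := by
  induction k with
  | zero => rfl
  | succ k ih =>
    show Cc.pull dgW (Cc.cup 1 (vv l (B.prod W)) (vo l (B.prod W) k)) =
      Cc.pull (SS.fst (Pr l B) W) (Cc.cup 1 (vv l B) (vo l B k))
    rw [pull_cup, dgW_vv, ih, ← pull_cup]

/-- the products of the two sheets, suspended -/
theorem dgW_ww (y : Cc B) (n i : ℕ) :
    Cc.pull dgW (ww l (sn n y) i) = sn n (ww l y (i - n)) := by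
  have h1 : Cc.pull dgW (ww l (sn n y) i) =
      Cc.cup i (sn n (Cc.pull (prL l B) y)) (sn n (Cc.pull (prR l B) y)) := by
    rw [ww, pull_cup]
    exact congrArg₂ (Cc.cup i) (pull_sn n (prL l B) y) (pull_sn n (prR l B) y)
  rw [h1]
  rcases Nat.lt_or_ge n i with h | h
  · obtain ⟨j, rfl⟩ : ∃ j, i = j + n := ⟨i - n, by omega⟩
    rw [cup_sn, Nat.add_sub_cancel]
    rfl
  · rw [cup_sn_of_le n i h, show i - n = 0 by omega, ww_zero, sn_zero']

theorem dgW_qt (y : Cc B) (n j m k : ℕ) :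
    Cc.pull dgW (qt l j m (sn n y) k) =
      sn n (Cc.cup 1 (vo l B (m + k)) (ww l y (j + k + 1 - n))) := by
  rw [qt, pull_cup, dgW_vo, dgW_ww, cup_one_sn]

/-- the suspended terms -/
theorem sum_dgW_qt (y : Cc B) (n j m M : ℕ) :
    ∑ k ∈ range ((n - j) + M), Cc.cup 1 (vo l B (m + k)) (ww l y (j + k + 1 - n)) =
      ∑ k ∈ range M, qt l (j - n) (m + (n - j)) y k := by
  rw [sum_range_add, sum_eq_zero, zero_add]
  · refine sum_congr rfl fun k _ => ?_
    rw [qt, show j + ((n - j) + k) + 1 - n = j - n + k + 1 by omega,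
      show m + ((n - j) + k) = m + (n - j) + k by omega]
  · intro k hk
    rw [mem_range] at hk
    rw [show j + k + 1 - n = 0 by omega, ww_zero, cup_zero_right]

theorem sn_congr {X : SS} {u v : Cc X} {p : ℕ} (h : ∀ q ≤ p, u q = v q) (n : ℕ) :
    sn n u p = sn n v p :=
  cup_congr (fun q hq => by funext x; exact congrFun (h q hq) _) fun _ _ => rfl

theorem sn_sum {X : SS} {ι : Type} (n : ℕ) (s : Finset ι) (u : ι → Cc X) :
    sn n (∑ i ∈ s, u i) = ∑ i ∈ s, sn n (u i) :=
  map_sum (⟨⟨sn n, sn_zero' n⟩, sn_add n⟩ : Cc X →+ Cc (X.prod (SN n))) u s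

/-- the additive extension of a suspension -/
theorem asmW_hat {y : Cc B} (hy : Vn A y) (n : ℕ) :
    Cc.pull (asmW l A (SN.base n)) (hat l (prodB A (SN.base n)) (sn n y)) =
      sn n (hat l A y) := by
  rw [pull_asmW_hat _ (Vn_sn_prodB hy n), sn, hatW_cup (hy.pull _), hatW_fst]
  rfl

/-- **the quadratic correction of a suspension** -/
theorem asmW_KK {y : Cc B} (hy : Vn A y) (n j m : ℕ) :
    Cc.pull (asmW l A (SN.base n)) (KK l (prodB A (SN.base n)) j m (sn n y)) =
      sn n (KK l A (j - n) (m + (n - j)) y) := by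
  funext p
  have h1 : Cc.pull (asmW l A (SN.base n)) (KK l (prodB A (SN.base n)) j m (sn n y)) p =
      Cc.pull (asmW l A (SN.base n)) (Tr (prodB A (SN.base n))
        (∑ k ∈ range ((n - j) + (p + 1)), qt l j m (sn n y) k)) p := by
    funext x
    exact congrFun (KK_eq j m (sn n y) (by omega)) _
  have h2 : sn n (KK l A (j - n) (m + (n - j)) y) p =
      sn n (Tr A (∑ k ∈ range (p + 1), qt l (j - n) (m + (n - j)) y k)) p :=
    sn_congr (fun q hq => KK_eq _ _ y (by omega)) n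
  rw [h1, h2, pull_asmW_Tr _ (Vn.sum fun k _ => qt_vn (Vn_sn_prodB hy n) j m k),
    pull_fsum, sum_congr rfl fun k _ => dgW_qt y n j m k, ← sn_sum, sum_dgW_qt,
    TrW_sn (Vn.sum fun k _ => qt_vn hy _ _ k)]

end Vale.Agent.P263.TJ
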