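import Vale.Agent.P263.TJ.TSet
import Vale.Agent.P263.TJ.SCup

/-!
# P263, block EB: additivity of the functional squares (union of two maps)

* `Negl U N` : `N` is an acyclic ideal of negligible cochains of `U`, stable under components.
* `FSqD.join` : if `h ≡ f + g` modulo `N` and all products of `f` and `g` are in `N`, then data for
  `f` and for `g` with the same `b`, `c` give data for `h` with the same `b`, `c`, and the
  functional squares add.
* `Cc.Join`, `Cc.exists_join` : the instance for maps out of sets of continuous families (`TSet`):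
  `h` is, locally on the simplices, `f` where `g` is trivial and `g` where `f` is trivial.
-/

open Finset

namespace Vale.Agent.P263.TJ

open Vale.Agent.P263.S Vale.Agent.P263.E Vale.Agent.P263.H83

namespace CupC

variable {U V : CupC}

/-- An acyclic ideal of negligible cochains. -/
structure Negl (U : CupC) (N : AddSubgroup U.C) : Prop where
  d_mem : ∀ x ∈ N, U.d x ∈ N
  left : ∀ j, ∀ x ∈ N, ∀ y, U.cup j x y ∈ N
  right : ∀ j x, ∀ y ∈ N, U.cup j x y ∈ N
  acyc : ∀ x ∈ N, U.d x = 0 → ∃ w ∈ N, x = U.d w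

namespace Negl

variable {N : AddSubgroup U.C} (hN : Negl U N)

include hN

theorem q_mem (i : ℕ) {x : U.C} (hx : x ∈ N) : U.q i x ∈ N :=
  N.add_mem (hN.left i x hx x) (hN.left (i + 1) x hx _)

/-- cocycles which agree modulo negligible cochains are cohomologous -/
theorem coh {x y : U.C} (hx : U.d x = 0) (hy : U.d y = 0) (h : x + y ∈ N) : U.Coh x y := by
  obtain ⟨w, -, hw⟩ := hN.acyc (x + y) h (by rw [map_add, hx, hy, add_zero])
  exact ⟨w, hw⟩

end Negl

namespace FSqD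

variable {f g h : Hom V U} {i : ℕ} {N : AddSubgroup U.C}

/-- **Additivity of the functional squares**: `h ≡ f + g` and `f ∪ g ≡ 0` modulo negligible
cochains. -/
theorem join_aux (hN : Negl U N) (hmul : ∀ j u v, U.cup j (f.f u) (g.f v) ∈ N)
    (hadd : ∀ v, h.f v + (f.f v + g.f v) ∈ N)
    (D : FSqD f i) (D' : FSqD g i) (hb : D'.b = D.b) (hc : D'.c = D.c) {η : U.C} (hη : η ∈ N)
    (hd : h.f D.b + (f.f D.b + g.f D.b) = U.d η) :
    ∃ E : FSqD h i, E.b = D.b ∧ E.c = D.c ∧ E.e = D.e + D'.e + η ∧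
      U.Coh E.val (D.val + D'.val) := by
  have hde : U.d (D.e + D'.e + η) = h.f D.b := by
    rw [map_add, map_add, D.d_e, D'.d_e, hb, ← hd]
    have h1 := U.two (f.f D.b + g.f D.b)
    calc _ = h.f D.b + ((f.f D.b + g.f D.b) + (f.f D.b + g.f D.b)) := by abel
      _ = _ := by rw [h1, add_zero]
  refine ⟨⟨D.b, D.e + D'.e + η, D.c, D.d_b, hde, D.d_c⟩, rfl, rfl, rfl, ?_⟩
  -- the deviation
  have hf0 : U.d (f.f D.b) = 0 := by rw [← f.f_d, D.d_b, map_zero]
  have q1 := U.q_add i (D.e + D'.e) η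
  have q2 := U.q_add i D.e D'.e
  have q3 : U.d (U.cup (i + 2) (f.f D.b) D'.e) = U.cup (i + 2) (f.f D.b) (g.f D.b) +
      U.cup (i + 1) (f.f D.b) D'.e + U.cup (i + 1) D'.e (f.f D.b) := by
    rw [U.d_cup, hf0, D'.d_e, hb]
    simp only [map_zero, AddMonoidHom.zero_apply, zero_add]
  rw [D.d_e] at q2
  set z : U.C := U.d (D.e + D'.e) with hz
  -- the negligible part
  set ν : U.C := U.q i η + U.cup (i + 1) z η + U.cup (i + 1) η z +
    U.cup (i + 2) (f.f D.b) (g.f D.b) + (h.f D.c + (f.f D.c + g.f D.c)) with hν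
  have hνN : ν ∈ N := N.add_mem (N.add_mem (N.add_mem (N.add_mem (hN.q_mem i hη)
    (hN.right _ _ _ hη)) (hN.left _ _ hη _)) (hmul _ _ _)) (hadd _)
  -- the exact part
  set κ : U.C := U.cup (i + 1) (D.e + D'.e) η + U.cup (i + 1) D.e D'.e +
    U.cup (i + 2) (f.f D.b) D'.e with hκ
  have key : (U.q i (D.e + D'.e + η) + h.f D.c) +
      ((U.q i D.e + f.f D.c) + (U.q i D'.e + g.f D.c)) = U.d κ + ν := by
    have hκd : U.d κ = (U.q i (D.e + D'.e + η) + U.q i (D.e + D'.e) + U.q i η +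
        U.cup (i + 1) z η + U.cup (i + 1) η z) + (U.q i (D.e + D'.e) + U.q i D.e + U.q i D'.e +
        U.cup (i + 1) (f.f D.b) D'.e + U.cup (i + 1) D'.e (f.f D.b)) +
        (U.cup (i + 2) (f.f D.b) (g.f D.b) + U.cup (i + 1) (f.f D.b) D'.e +
          U.cup (i + 1) D'.e (f.f D.b)) := by
      rw [hκ, map_add, map_add, q3, q1, q2]
      simp only [add_assoc]
      have e1 := U.two (U.cup (i + 1) z η)
      have e2 := U.two (U.cup (i + 1) η z)
      have e3 := U.two (U.cup (i + 1) (f.f D.b) D'.e)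
      have e4 := U.two (U.cup (i + 1) D'.e (f.f D.b))
      symm
      calc _ = U.d (U.cup (i + 1) (D.e + D'.e) η) + (U.cup (i + 1) z η + U.cup (i + 1) z η) +
            (U.cup (i + 1) η z + U.cup (i + 1) η z) + U.d (U.cup (i + 1) D.e D'.e) +
            (U.cup (i + 1) (f.f D.b) D'.e + U.cup (i + 1) (f.f D.b) D'.e) +
            (U.cup (i + 1) D'.e (f.f D.b) + U.cup (i + 1) D'.e (f.f D.b)) +
            (U.cup (i + 2) (f.f D.b) (g.f D.b) + U.cup (i + 1) (f.f D.b) D'.e +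
              U.cup (i + 1) D'.e (f.f D.b)) := by abel
        _ = _ := by
          rw [e1, e2, e3, e4]
          simp only [add_zero, add_assoc]
    rw [hκd, hν]
    have e0 := U.two (U.q i (D.e + D'.e))
    have e1 := U.two (U.q i η)
    have e2 := U.two (U.cup (i + 1) z η)
    have e3 := U.two (U.cup (i + 1) η z)
    have e4 := U.two (U.cup (i + 1) (f.f D.b) D'.e)
    have e5 := U.two (U.cup (i + 1) D'.e (f.f D.b))
    have e6 := U.two (U.cup (i + 2) (f.f D.b) (g.f D.b))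
    symm
    calc _ = (U.q i (D.e + D'.e + η) + h.f D.c) +
          ((U.q i D.e + f.f D.c) + (U.q i D'.e + g.f D.c)) +
          (U.q i (D.e + D'.e) + U.q i (D.e + D'.e)) + (U.q i η + U.q i η) +
          (U.cup (i + 1) z η + U.cup (i + 1) z η) + (U.cup (i + 1) η z + U.cup (i + 1) η z) +
          (U.cup (i + 1) (f.f D.b) D'.e + U.cup (i + 1) (f.f D.b) D'.e) +
          (U.cup (i + 1) D'.e (f.f D.b) + U.cup (i + 1) D'.e (f.f D.b)) +
          (U.cup (i + 2) (f.f D.b) (g.f D.b) + U.cup (i + 2) (f.f D.b) (g.f D.b)) := by abel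
      _ = _ := by
        rw [e0, e1, e2, e3, e4, e5, e6]
        simp only [add_zero]
  have hνd : U.d ν = 0 := by
    have d1 : U.d (U.q i (D.e + D'.e + η) + h.f D.c) = 0 := d_q_add h i hde D.d_c
    have d2 : U.d (U.q i D.e + f.f D.c) = 0 := D.d_val
    have d3 : U.d (U.q i D'.e + g.f D.c) = 0 := by
      have := D'.d_val
      rw [val, hc] at this
      exact this
    have h1 : U.d (U.d κ + ν) = 0 := by
      rw [← key, map_add U.d (U.q i (D.e + D'.e + η) + h.f D.c), d1,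
        map_add U.d (U.q i D.e + f.f D.c), d2, d3, add_zero, add_zero]
    rw [map_add, U.d_d, zero_add] at h1
    exact h1
  obtain ⟨w, -, hw⟩ := hN.acyc ν hνN hνd
  refine ⟨κ + w, ?_⟩
  rw [map_add, ← hw, ← key]
  simp only [val, hc]

theorem join (hN : Negl U N) (hmul : ∀ j u v, U.cup j (f.f u) (g.f v) ∈ N)
    (hadd : ∀ v, h.f v + (f.f v + g.f v) ∈ N)
    (D : FSqD f i) (D' : FSqD g i) (hb : D'.b = D.b) (hc : D'.c = D.c) :
    ∃ E : FSqD h i, E.b = D.b ∧ E.c = D.c ∧ E.e + (D.e + D'.e) ∈ N ∧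
      U.Coh E.val (D.val + D'.val) := by
  obtain ⟨η, hη, hd⟩ := hN.acyc _ (hadd D.b) (by
    rw [map_add, map_add, ← h.f_d, ← f.f_d, ← g.f_d, D.d_b, map_zero, map_zero, map_zero,
      add_zero, add_zero])
  obtain ⟨E, h1, h2, h3, h4⟩ := join_aux hN hmul hadd D D' hb hc hη hd
  refine ⟨E, h1, h2, ?_, h4⟩
  rw [h3]
  have := U.two (D.e + D'.e)
  have e : D.e + D'.e + η + (D.e + D'.e) = η := by
    calc _ = η + ((D.e + D'.e) + (D.e + D'.e)) := by abel
      _ = _ := by rw [this, add_zero]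
  rw [e]
  exact hη

/-- the homogeneous form: `N` stable under components -/
theorem join_homog (hN : Negl U N) (hmul : ∀ j u v, U.cup j (f.f u) (g.f v) ∈ N)
    (hadd : ∀ v, h.f v + (f.f v + g.f v) ∈ N) {GV : Gr V} {GU : Gr U}
    (hpr : ∀ n, ∀ x ∈ N, GU.pr n x ∈ N) {n k : ℕ}
    (hf : ∀ x ∈ GV.deg (n + 1), f.f x ∈ GU.deg (n + 1))
    (hg : ∀ x ∈ GV.deg (n + 1), g.f x ∈ GU.deg (n + 1))
    (hh : ∀ x ∈ GV.deg (n + 1), h.f x ∈ GU.deg (n + 1))
    (D : FSqD f i) (D' : FSqD g i) (hb : D'.b = D.b) (hc : D'.c = D.c)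
    (hD : D.Homog GV GU n k) (hD' : D'.Homog GV GU n k) :
    ∃ E : FSqD h i, E.b = D.b ∧ E.c = D.c ∧ E.Homog GV GU n k ∧
      U.Coh E.val (D.val + D'.val) := by
  obtain ⟨η, hη, hd⟩ := hN.acyc _ (hadd D.b) (by
    rw [map_add, map_add, ← h.f_d, ← f.f_d, ← g.f_d, D.d_b, map_zero, map_zero, map_zero,
      add_zero, add_zero])
  have hd' : h.f D.b + (f.f D.b + g.f D.b) = U.d (GU.pr n η) := by
    rw [← GU.pr_d, ← hd, GU.pr_eq]
    exact (GU.deg _).add_mem (hh _ hD.b_mem) ((GU.deg _).add_mem (hf _ hD.b_mem) (hg _ hD.b_mem))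
  obtain ⟨E, h1, h2, h3, h4⟩ := join_aux hN hmul hadd D D' hb hc (hpr n η hη) hd'
  refine ⟨E, h1, h2, ⟨?_, ?_, ?_, hD.deg_eq⟩, h4⟩
  · rw [h1]; exact hD.b_mem
  · rw [h3]
    exact (GU.deg n).add_mem ((GU.deg n).add_mem hD.e_mem hD'.e_mem) (GU.pr_mem n η)
  · rw [h2]; exact hD.c_mem

end FSqD

end CupC

namespace Cc

variable {X : TSet} {Y : SS} {Sm : ∀ n : ℕ, Set (X.obj n)}

/-- the small simplices as a sub simplicial set -/
noncomputable def smS (h : X.Loc Sm) : Sb X.ss where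
  mem {p} x := x ∈ Sm p
  map_mem f _ hx := h.pull (G2.dmap f) hx

/-- the cochains which vanish on the small simplices -/
def neg (h : X.Loc Sm) (A : Sb X.ss) : AddSubgroup (rel A).C where
  carrier := {u | Vn (smS h) (val u)}
  add_mem' hu hv := Vn.add hu hv
  zero_mem' := Vn.zero
  neg_mem' {u} hu := fun p x hx => by
    change - val u p x = 0
    rw [hu p x hx, neg_zero]

theorem mem_neg {h : X.Loc Sm} {A : Sb X.ss} {u : (rel A).C} :
    u ∈ neg h A ↔ Vn (smS h) (val u) := Iff.rfl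

theorem negl (h : X.Loc Sm) {A : Sb X.ss} (hA : ∀ {p : ℕ} (x : X.obj p), A.mem (p := p) x →
    x ∈ Sm p) : CupC.Negl (rel A) (neg h A) where
  d_mem x hx := Vn.d (u := val x) hx
  left j x hx y := Vn.cup_left j (u := val x) hx (val y)
  right j x y hy := Vn.cup_right j (val x) (v := val y) hy
  acyc x hx hd := by
    obtain ⟨v, hv, hv'⟩ := TSet.exists_small_cochain h (val x) (congrArg val hd) hx
    refine ⟨mkRel A v fun p σ hσ => hv' p σ (hA σ hσ), fun p σ hσ => hv' p σ hσ, ?_⟩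
    exact rel_ext hv.symm

theorem pr_mem_neg (h : X.Loc Sm) {A : Sb X.ss} (n : ℕ) {x : (rel A).C} (hx : x ∈ neg h A) :
    (relGr A).pr n x ∈ neg h A := vn_comp (u := val x) hx n

/-- `h` is the union of `f` and `g` on the small simplices -/
structure Join (h : X.Loc Sm) (B : Sb Y) (F G H : SS.Map X.ss Y) : Prop where
  small : ∀ {p : ℕ} (x : X.obj p), x ∈ Sm p →
    (B.mem (G.app (p := p) x) ∧ H.app (p := p) x = F.app (p := p) x) ∨
    (B.mem (F.app (p := p) x) ∧ H.app (p := p) x = G.app (p := p) x) ∨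
    (B.mem (F.app (p := p) x) ∧ B.mem (G.app (p := p) x) ∧ B.mem (H.app (p := p) x))

variable {A : Sb X.ss} {B : Sb Y} {F G H : SS.Map X.ss Y}

theorem Join.add {h : X.Loc Sm} (J : Join h B F G H)
    (hF : ∀ {p : ℕ} (x : X.ss.obj p), A.mem x → B.mem (F.app x))
    (hG : ∀ {p : ℕ} (x : X.ss.obj p), A.mem x → B.mem (G.app x))
    (hH : ∀ {p : ℕ} (x : X.ss.obj p), A.mem x → B.mem (H.app x)) (v : (rel B).C) :
    (relHom H A B hH).f v + ((relHom F A B hF).f v + (relHom G A B hG).f v) ∈ neg h A := by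
  intro p x hx
  change val v p (H.app x) + (val v p (F.app x) + val v p (G.app x)) = 0
  rcases J.small x hx with ⟨h1, h2⟩ | ⟨h1, h2⟩ | ⟨h1, h2, h3⟩
  · have h2' : H.app (p := p) x = F.app (p := p) x := h2
    rw [h2', vn_val v p _ h1, add_zero]
    exact CharTwo.add_self_eq_zero _
  · have h2' : H.app (p := p) x = G.app (p := p) x := h2
    rw [h2', vn_val v p _ h1, zero_add]
    exact CharTwo.add_self_eq_zero _
  · rw [vn_val v p _ h1, vn_val v p _ h2, vn_val v p _ h3, add_zero, add_zero]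

theorem Join.mul {h : X.Loc Sm} (J : Join h B F G H)
    (hF : ∀ {p : ℕ} (x : X.ss.obj p), A.mem x → B.mem (F.app x))
    (hG : ∀ {p : ℕ} (x : X.ss.obj p), A.mem x → B.mem (G.app x)) (j : ℕ) (u v : (rel B).C) :
    (rel A).cup j ((relHom F A B hF).f u) ((relHom G A B hG).f v) ∈ neg h A := by
  intro p x hx
  change Cc.cup j (Cc.pull F (val u)) (Cc.pull G (val v)) p x = 0
  rw [Cc.cup_def, co_pull, co_pull, cupJ]
  refine sum_eq_zero fun S _ => ?_
  rcases J.small x hx with ⟨h1, -⟩ | ⟨h1, -⟩ | ⟨h1, -, -⟩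
  · rw [(vn_val v).co h1, mul_zero]
  · rw [(vn_val u).co h1, zero_mul]
  · rw [(vn_val u).co h1, zero_mul]

/-- **Additivity of the functional squares** for a union of two maps. -/
theorem exists_join (h : X.Loc Sm) (hA : ∀ {p : ℕ} (x : X.obj p), A.mem (p := p) x → x ∈ Sm p)
    (J : Join h B F G H)
    (hF : ∀ {p : ℕ} (x : X.ss.obj p), A.mem x → B.mem (F.app x))
    (hG : ∀ {p : ℕ} (x : X.ss.obj p), A.mem x → B.mem (G.app x))
    (hH : ∀ {p : ℕ} (x : X.ss.obj p), A.mem x → B.mem (H.app x)) {i : ℕ}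
    (D : CupC.FSqD (relHom F A B hF) i) (D' : CupC.FSqD (relHom G A B hG) i)
    (hb : D'.b = D.b) (hc : D'.c = D.c) :
    ∃ E : CupC.FSqD (relHom H A B hH) i, E.b = D.b ∧ E.c = D.c ∧
      (rel A).Coh E.val (D.val + D'.val) := by
  obtain ⟨E, h1, h2, -, h4⟩ := CupC.FSqD.join (negl h hA) (J.mul hF hG) (J.add hF hG hH) D D' hb hc
  exact ⟨E, h1, h2, h4⟩

/-- the homogeneous form -/
theorem exists_join_homog (h : X.Loc Sm)
    (hA : ∀ {p : ℕ} (x : X.obj p), A.mem (p := p) x → x ∈ Sm p) (J : Join h B F G H)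
    (hF : ∀ {p : ℕ} (x : X.ss.obj p), A.mem x → B.mem (F.app x))
    (hG : ∀ {p : ℕ} (x : X.ss.obj p), A.mem x → B.mem (G.app x))
    (hH : ∀ {p : ℕ} (x : X.ss.obj p), A.mem x → B.mem (H.app x)) {i n k : ℕ}
    (D : CupC.FSqD (relHom F A B hF) i) (D' : CupC.FSqD (relHom G A B hG) i)
    (hb : D'.b = D.b) (hc : D'.c = D.c) (hD : D.Homog (relGr B) (relGr A) n k)
    (hD' : D'.Homog (relGr B) (relGr A) n k) :
    ∃ E : CupC.FSqD (relHom H A B hH) i, E.b = D.b ∧ E.c = D.c ∧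
      E.Homog (relGr B) (relGr A) n k ∧ (rel A).Coh E.val (D.val + D'.val) :=
  CupC.FSqD.join_homog (negl h hA) (J.mul hF hG) (J.add hF hG hH)
    (fun n _ hx => pr_mem_neg h n hx)
    (fun x hx => IsDeg.pull (u := val x) (mem_relGr.1 hx) F)
    (fun x hx => IsDeg.pull (u := val x) (mem_relGr.1 hx) G)
    (fun x hx => IsDeg.pull (u := val x) (mem_relGr.1 hx) H) D D' hb hc hD hD'

end Cc

end Vale.Agent.P263.TJ
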