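import Vale.Agent.P263.TJ.SmallSq

/-!
# P263, block K: variation of the quadratic correction

`wx y z i` : `y_a cup z_b` with `i` break points, on the ordered pairs of sheets.
`KKv` : the cochain with
`KK (i+1) 0 (s + d e) + KK (i+1) 0 s + Tr (e s + s e + (d e) e) + Tr (e e) = d KKv` (`KK_var`),
and `hat_val_var` : the correction term of the generalised functional square.
-/

open Finset

namespace Vale.Agent.P263.TJ

open Vale.Agent.P263.S Vale.Agent.P263.E Vale.Agent.P263.H83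

variable {l : LabS} {B : SS} {A : Sb B}

variable (l) in
/-- `y_a cup z_b` with `i` break points -/
def wx (y z : Cc B) (i : ℕ) : Cc (Pr l B) :=
  Cc.cup i (Cc.pull (prL l B) y) (Cc.pull (prR l B) z)

theorem ww_eq_wx (y : Cc B) (i : ℕ) : ww l y i = wx l y y i := rfl

theorem wx_add_left (y y' z : Cc B) (i : ℕ) : wx l (y + y') z i = wx l y z i + wx l y' z i := by
  rw [wx, pull_add, cup_add_left]
  rfl

theorem wx_add_right (y z z' : Cc B) (i : ℕ) : wx l y (z + z') i = wx l y z i + wx l y z' i := by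
  rw [wx, pull_add, cup_add_right]
  rfl

theorem wx_vn {y z : Cc B} (hy : Vn A y) (hz : Vn A z) (i : ℕ) : Vn (PrB l A) (wx l y z i) := by
  intro p x hx
  rcases hx with hx | hx
  · exact Vn.cup_left i (hy.pull (prL l B)) _ p x hx
  · exact Vn.cup_right i _ (hz.pull (prR l B)) p x hx

theorem wx_sw (y z : Cc B) (i : ℕ) :
    Cc.pull (sw l B) (wx l y z i) = Cc.cup i (Cc.pull (prR l B) y) (Cc.pull (prL l B) z) :=
  pull_cup _ _ _ _

theorem d_wx (y z : Cc B) (i : ℕ) :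
    Cc.d (wx l y z (i + 1)) = wx l (Cc.d y) z (i + 1) + wx l y (Cc.d z) (i + 1) +
      wx l y z i + Cc.pull (sw l B) (wx l z y i) := by
  rw [wx, d_cup, ← pull_d, ← pull_d, wx_sw]
  rfl

theorem wx_low (y z : Cc B) {i p : ℕ} (h : p + 1 < i) : wx l y z i p = 0 := cup_low _ _ _ h

theorem Tr_vo_sw (n : ℕ) (x : Cc (Pr l B)) :
    Tr A (Cc.cup 1 (vo l B n) (Cc.pull (sw l B) x)) =
      Tr A (Cc.cup 1 (vo l B n) x) + Tr A (Cc.cup 1 (vp l B n) x) := by
  have h1 : Tr A (Cc.cup 1 (vo l B n) (Cc.pull (sw l B) x)) =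
      Tr A (Cc.cup 1 (Cc.pull (sw l B) (vo l B n)) x) := by
    rw [← Tr_sw (Cc.cup 1 (vo l B n) _), pull_cup]
    rfl
  have h2 : Cc.pull (sw l B) (vo l B n) = vo l B n + vp l B n := by
    rw [← vo_add_sw l B n, ← add_assoc, cc_add_self, zero_add]
  rw [h1, h2, cup_add_left, Tr_add]

theorem vp_sw (n : ℕ) : Cc.pull (sw l B) (vp l B n) = vp l B n := by
  induction n with
  | zero => rfl
  | succ n ih =>
    show Cc.pull (sw l B) (Cc.cup 1 (vv l B) (vp l B n)) = Cc.cup 1 (vv l B) (vp l B n)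
    rw [pull_cup, vv_sw, ih]

theorem Tr_vp_sw (n : ℕ) (x : Cc (Pr l B)) :
    Tr A (Cc.cup 1 (vp l B n) (Cc.pull (sw l B) x)) = Tr A (Cc.cup 1 (vp l B n) x) := by
  rw [← Tr_sw (Cc.cup 1 (vp l B n) _), pull_cup, vp_sw]
  rfl

theorem d_vp (n : ℕ) : Cc.d (vp l B n) = 0 := by
  cases n with
  | zero => exact d_one
  | succ n => rw [← d_vo, d_d]

theorem Tr_d_vo (n : ℕ) (x : Cc (Pr l B)) :
    Tr A (Cc.d (Cc.cup 1 (vo l B n) x)) =
      Tr A (Cc.cup 1 (vp l B (n + 1)) x) + Tr A (Cc.cup 1 (vo l B n) (Cc.d x)) := by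
  rw [d_cup_one, d_vo, Tr_add]

theorem Tr_d_vp (n : ℕ) (x : Cc (Pr l B)) :
    Tr A (Cc.d (Cc.cup 1 (vp l B n) x)) = Tr A (Cc.cup 1 (vp l B n) (Cc.d x)) := by
  rw [d_cup_one, d_vp, cup_zero_left, zero_add]

section Var

variable (s e : Cc B) (i : ℕ)

variable (l) in
/-- the terms of the homotopy -/
noncomputable def kvt (k : ℕ) : Cc (Pr l B) :=
  Cc.cup 1 (vo l B k) (wx l s e (i + k + 2) + wx l e s (i + k + 2) +
    wx l e (Cc.d e) (i + k + 2) + wx l e e (i + k + 1)) +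
  Cc.cup 1 (vp l B (k + 1)) (wx l e e (i + k + 2))

variable (l) in
/-- the terms of the telescope -/
noncomputable def tvt (k : ℕ) : Cc (Pr l B) :=
  Cc.cup 1 (vp l B k) (wx l e s (i + k + 1) + wx l s e (i + k + 1) +
    wx l (Cc.d e) e (i + k + 1) + wx l e e (i + k))

variable {s} in
theorem Tr_d_kvt (hs : Cc.d s = 0) (k : ℕ) :
    Tr A (Cc.d (kvt l s e i k)) = Tr A (qt l (i + 1) 0 (s + Cc.d e) k) +
      Tr A (qt l (i + 1) 0 s k) + Tr A (tvt l s e i k) + Tr A (tvt l s e i (k + 1)) := by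
  have hq : ∀ y : Cc B, qt l (i + 1) 0 y k = Cc.cup 1 (vo l B k) (wx l y y (i + k + 2)) := by
    intro y
    show Cc.cup 1 (vo l B (0 + k)) (ww l y (i + 1 + k + 1)) = _
    rw [zero_add, ww_eq_wx, show i + 1 + k + 1 = i + k + 2 by omega]
  rw [hq, hq, kvt, tvt, tvt, d_add, Tr_add, Tr_d_vo, Tr_d_vp, show i + (k + 1) = i + k + 1 by omega,
    show i + k + 1 + 1 = i + k + 2 by omega]
  have e0 := d_wx (l := l) s e (i + k + 1)
  have e1 := d_wx (l := l) e s (i + k + 1)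
  have e2 := d_wx (l := l) e (Cc.d e) (i + k + 1)
  have e3 := d_wx (l := l) e e (i + k)
  have e4 := d_wx (l := l) e e (i + k + 1)
  have z1 : ∀ j, wx l (Cc.d s) e j = (0 : Cc (Pr l B)) := fun j => by
    rw [hs, wx, pull_zero, cup_zero_left]
  have z2 : ∀ j, wx l e (Cc.d s) j = (0 : Cc (Pr l B)) := fun j => by
    rw [hs, wx, pull_zero, cup_zero_right]
  have z3 : ∀ j, wx l e (Cc.d (Cc.d e)) j = (0 : Cc (Pr l B)) := fun j => by
    rw [d_d, wx, pull_zero, cup_zero_right]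
  rw [z1, zero_add] at e0
  rw [z2, add_zero] at e1
  rw [z3, add_zero] at e2
  simp only [d_add, e0, e1, e2, e3, e4, cup_add_right, Tr_add, Tr_vo_sw, Tr_vp_sw, wx_add_left,
    wx_add_right]
  funext p F
  simp only [Pi.add_apply]
  grind

theorem kvt_vn {s e : Cc B} (hs : Vn A s) (he : Vn A e) (i k : ℕ) :
    Vn (PrB l A) (kvt l s e i k) :=
  (Vn.cup_right 1 _ ((((wx_vn hs he _).add (wx_vn he hs _)).add (wx_vn he he.d _)).add
    (wx_vn he he _))).add (Vn.cup_right 1 _ (wx_vn he he _))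

theorem kvt_low {k p : ℕ} (h : p < i + k) : kvt l s e i k p = 0 := by
  have h1 : ∀ q ≤ p, (wx l s e (i + k + 2) + wx l e s (i + k + 2) +
      wx l e (Cc.d e) (i + k + 2) + wx l e e (i + k + 1)) q = (0 : Cc (Pr l B)) q := fun q hq => by
    show wx l s e (i + k + 2) q + wx l e s (i + k + 2) q +
      wx l e (Cc.d e) (i + k + 2) q + wx l e e (i + k + 1) q = 0
    rw [wx_low _ _ (by omega), wx_low _ _ (by omega), wx_low _ _ (by omega),
      wx_low _ _ (by omega)]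
    simp only [add_zero]
  have h2 : ∀ q ≤ p, wx l e e (i + k + 2) q = (0 : Cc (Pr l B)) q := fun q hq =>
    wx_low _ _ (by omega)
  show Cc.cup 1 (vo l B k) _ p + Cc.cup 1 (vp l B (k + 1)) _ p = 0
  rw [cup_congr (fun _ _ => rfl) h1, cup_congr (fun _ _ => rfl) h2, cup_zero_right,
    cup_zero_right]
  exact add_zero _

theorem tvt_low {k p : ℕ} (h : p + 1 < i + k) : tvt l s e i k p = 0 := by
  have h1 : ∀ q ≤ p, (wx l e s (i + k + 1) + wx l s e (i + k + 1) +
      wx l (Cc.d e) e (i + k + 1) + wx l e e (i + k)) q = (0 : Cc (Pr l B)) q := fun q hq => by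
    show wx l e s (i + k + 1) q + wx l s e (i + k + 1) q +
      wx l (Cc.d e) e (i + k + 1) q + wx l e e (i + k) q = 0
    rw [wx_low _ _ (by omega), wx_low _ _ (by omega), wx_low _ _ (by omega),
      wx_low _ _ (by omega)]
    simp only [add_zero]
  rw [tvt, cup_congr (fun _ _ => rfl) h1, cup_zero_right]
  rfl

theorem sum_kvt {p N : ℕ} (h : p + 1 ≤ N) :
    (∑ k ∈ range N, kvt l s e i k) p = (∑ k ∈ range (p + 1), kvt l s e i k) p := by
  rw [Finset.sum_apply, Finset.sum_apply]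
  refine (sum_subset (range_subset_range.2 h) fun k _ hk => ?_).symm
  rw [mem_range] at hk
  exact kvt_low s e i (by omega)

variable (l A) in
/-- the homotopy -/
noncomputable def KKv : Cc (Gam l A) := fun p =>
  Tr A (∑ k ∈ range (p + 1), kvt l s e i k) p

theorem KKv_vn : Vn (Gam.base l A) (KKv l A s e i) := fun p F h =>
  Gam.Tr_vn _ p F h

theorem KKv_eq {p N : ℕ} (h : p + 1 ≤ N) :
    KKv l A s e i p = Tr A (∑ k ∈ range N, kvt l s e i k) p :=
  Tr_congr (sum_kvt s e i h).symm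

variable {s e}

/-- **variation of the quadratic correction** -/
theorem KK_var (hsA : Vn A s) (heA : Vn A e) (hs : Cc.d s = 0) :
    KK l A (i + 1) 0 (s + Cc.d e) + KK l A (i + 1) 0 s +
      Tr A (wx l e s (i + 1) + wx l s e (i + 1) + wx l (Cc.d e) e (i + 1) + wx l e e i) =
    Cc.d (KKv l A s e i) := by
  funext p
  have h1 : Cc.d (KKv l A s e i) p = Cc.d (Tr A (∑ k ∈ range (p + 2), kvt l s e i k)) p :=
    d_congr fun q hq => KKv_eq s e i (by omega)
  have h2 : Tr A (tvt l s e i (p + 2)) p = 0 := by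
    have h3 : tvt l s e i (p + 2) p = (0 : Cc (Pr l B)) p := tvt_low s e i (by omega)
    rw [Tr_congr h3, Tr_zero]
    rfl
  have h4 : ∀ k, Tr A (Cc.d (kvt l s e i k)) = (Tr A (qt l (i + 1) 0 (s + Cc.d e) k) +
      Tr A (qt l (i + 1) 0 s k)) + (Tr A (tvt l s e i k) + Tr A (tvt l s e i (k + 1))) := fun k => by
    rw [Tr_d_kvt e i hs k, add_assoc]
  have h5 : Tr A (tvt l s e i 0) =
      Tr A (wx l e s (i + 1) + wx l s e (i + 1) + wx l (Cc.d e) e (i + 1) + wx l e e i) := by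
    show Tr A (Cc.cup 1 (Cc.one _) _) = _
    rw [one_cup]
    rfl
  rw [h1, Tr_d (Vn.sum fun k _ => kvt_vn hsA heA i k), d_sum, Tr_sum,
    sum_congr rfl fun k _ => h4 k, sum_add_distrib, sum_add_distrib,
    sum_tele (fun k => Tr A (tvt l s e i k)), ← Tr_sum, ← Tr_sum, ← h5]
  show KK l A (i + 1) 0 (s + Cc.d e) p + KK l A (i + 1) 0 s p + Tr A (tvt l s e i 0) p =
    Tr A (∑ k ∈ range (p + 2), qt l (i + 1) 0 (s + Cc.d e) k) p +
      Tr A (∑ k ∈ range (p + 2), qt l (i + 1) 0 s k) p +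
      (Tr A (tvt l s e i 0) p + Tr A (tvt l s e i (p + 2)) p)
  rw [h2, add_zero, KK_eq (i + 1) 0 (s + Cc.d e) (show p + 1 ≤ p + 2 by omega),
    KK_eq (i + 1) 0 s (show p + 1 ≤ p + 2 by omega)]

/-- **the correction term of the generalised functional square** -/
theorem KK_var_hat (hsA : Vn A s) (heA : Vn A e) (hs : Cc.d s = 0) :
    KK l A (i + 1) 0 (s + Cc.d e) + KK l A (i + 1) 0 s +
      (Cc.cup i (hat l A e) (hat l A e) +
        Cc.cup (i + 1) (hat l A e) (Cc.d (hat l A e))) +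
      Cc.cup (i + 1) (hat l A (s + Cc.d e)) (hat l A e) +
      Cc.cup (i + 1) (hat l A e) (hat l A (s + Cc.d e)) =
    hat l A (Cc.cup i e e + Cc.cup (i + 1) e (Cc.d e) + Cc.cup (i + 1) e s +
      Cc.cup (i + 1) s e) + Cc.d (KKv l A s e i + hat l A (Cc.cup (i + 1) e e)) := by
  have h0 := KK_var (l := l) i hsA heA hs
  have h1 : Cc.d (Cc.cup (i + 1) e e) = Cc.cup (i + 1) (Cc.d e) e + Cc.cup (i + 1) e (Cc.d e) := by
    rw [d_cup, add_assoc, cc_add_self, add_zero]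
  rw [d_add, ← h0, d_hat (Vn.cup_left (i + 1) heA e), h1, hat_add, d_hat heA]
  simp only [cup_add_left, cup_add_right, hat_add, Tr_add]
  rw [cup_hat heA heA, cup_hat heA heA.d, cup_hat hsA heA, cup_hat heA.d heA, cup_hat heA hsA]
  funext p F
  simp only [Pi.add_apply, wx]
  grind

end Var

end Vale.Agent.P263.TJ
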