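import Vale.Agent.P263.TJ.Gamma

/-!
# P263, block EB: the assembly map `GL × K → Gam l A`

`GL l` : the simplicial set of the finite admissible sets of labels, `GLn l n` : those with `n`
elements.  `asm : GL l × K → Gam l A`, `(F, x) ↦ {(a, x) : a ∈ F}`, deleted if `x` is in the base.
`tl k` : the cochain of `GL l` which sums `v^k o` over the ordered pairs of different labels.
Theorem `asm_KK`: if `y cup_j y` is `y` for `j = r + 1` and `0` otherwise (as for the fundamental
cochain of the `r`-fold suspension) then the pull-back of `KK j m y` is the external product of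
`tl (m + r - j)` and `y`, strictly.
-/

open Finset

namespace Vale.Agent.P263.TJ

open Vale.Agent.P263.S Vale.Agent.P263.E Vale.Agent.P263.H83

variable (l : LabS)

/-- finite admissible sets of labels -/
def LOk {p : ℕ} (F : Finset (l.L.obj p)) : Prop := l.Good (F : Set (l.L.obj p))

variable {l}

theorem LOk.inj {q : ℕ} {F : Finset (l.L.obj q)} (h : LOk l F) {a b : l.L.obj q}
    (ha : a ∈ F) (hb : b ∈ F) (i : Fin (q + 1)) (hab : l.at' a i = l.at' b i) : a = b :=
  l.at_inj h ha hb i hab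

theorem LOk.map_injOn {p q : ℕ} (f : Op p q) {F : Finset (l.L.obj q)} (h : LOk l F) :
    Set.InjOn (l.L.map f) (F : Set (l.L.obj q)) := by
  intro a ha b hb hab
  refine h.inj ha hb (f 0) ?_
  rw [← l.at_map, ← l.at_map, hab]

variable (l) in
open Classical in
/-- the restriction of a set of labels -/
noncomputable def lmap {p q : ℕ} (f : Op p q) (F : Finset (l.L.obj q)) : Finset (l.L.obj p) :=
  F.image (l.L.map f)

theorem mem_lmap {p q : ℕ} {f : Op p q} {F : Finset (l.L.obj q)} {a : l.L.obj p} :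
    a ∈ lmap l f F ↔ ∃ b ∈ F, l.L.map f b = a := by
  classical
  rw [lmap, mem_image]

theorem LOk.lmap {p q : ℕ} (f : Op p q) {F : Finset (l.L.obj q)} (h : LOk l F) :
    LOk l (lmap l f F) := by
  refine l.good_sub (l.good_map f h) ?_
  intro a ha
  obtain ⟨b, hb, rfl⟩ := mem_lmap.1 (mem_coe.1 ha)
  exact ⟨b, hb, rfl⟩

theorem lmap_id {p : ℕ} (F : Finset (l.L.obj p)) : lmap l (OrderHom.id : Op p p) F = F := by
  ext a
  rw [mem_lmap]
  constructor
  · rintro ⟨b, hb, rfl⟩
    rwa [l.L.map_id]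
  · intro ha
    exact ⟨a, ha, l.L.map_id a⟩

theorem lmap_comp {p q r : ℕ} (f : Op q r) (g : Op p q) (F : Finset (l.L.obj r)) :
    lmap l (f.comp g) F = lmap l g (lmap l f F) := by
  ext a
  rw [mem_lmap, mem_lmap]
  constructor
  · rintro ⟨b, hb, rfl⟩
    exact ⟨_, mem_lmap.2 ⟨b, hb, rfl⟩, (l.L.map_comp f g b).symm⟩
  · rintro ⟨c, hc, rfl⟩
    obtain ⟨b, hb, rfl⟩ := mem_lmap.1 hc
    exact ⟨b, hb, l.L.map_comp f g b⟩

theorem card_lmap {p q : ℕ} (f : Op p q) {F : Finset (l.L.obj q)} (h : LOk l F) :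
    (lmap l f F).card = F.card := by
  classical
  rw [lmap]
  exact card_image_of_injOn (h.map_injOn f)

theorem sum_lmap {M : Type} [AddCommMonoid M] {p q : ℕ} (f : Op p q) {F : Finset (l.L.obj q)}
    (h : LOk l F) (c : l.L.obj p → M) :
    ∑ a ∈ lmap l f F, c a = ∑ a ∈ F, c (l.L.map f a) := by
  classical
  rw [lmap, sum_image (h.map_injOn f)]

variable (l)

/-- the simplicial set of the finite admissible sets of labels -/
noncomputable def GL : SS where
  obj p := {F : Finset (l.L.obj p) // LOk l F}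
  map f F := ⟨lmap l f F.1, F.2.lmap f⟩
  map_id F := Subtype.ext (lmap_id F.1)
  map_comp f g F := Subtype.ext (lmap_comp f g F.1)

/-- the sets with `n` elements -/
noncomputable def GLn (n : ℕ) : SS where
  obj p := {F : Finset (l.L.obj p) // LOk l F ∧ F.card = n}
  map f F := ⟨lmap l f F.1, F.2.1.lmap f, (card_lmap f F.2.1).trans F.2.2⟩
  map_id F := Subtype.ext (lmap_id F.1)
  map_comp f g F := Subtype.ext (lmap_comp f g F.1)

/-- the inclusion -/
noncomputable def GLn.incl (n : ℕ) : SS.Map (GLn l n) (GL l) :=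
  ⟨fun F => ⟨F.1, F.2.1⟩, fun _ _ => rfl⟩

/-- ordered pairs of labels which are different over every vertex -/
def PL : SS where
  obj p := {x : l.L.obj p × l.L.obj p // ∀ i, l.at' x.1 i ≠ l.at' x.2 i}
  map f x := ⟨(l.L.map f x.1.1, l.L.map f x.1.2), fun i => by
    show l.at' (l.L.map f x.1.1) i ≠ l.at' (l.L.map f x.1.2) i
    rw [l.at_map, l.at_map]
    exact x.2 (f i)⟩
  map_id x := Subtype.ext (Prod.ext (l.L.map_id x.1.1) (l.L.map_id x.1.2))
  map_comp f g x := Subtype.ext (Prod.ext (l.L.map_comp f g x.1.1) (l.L.map_comp f g x.1.2))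

/-- the order cochain -/
noncomputable def ool : Cc (PL l) := fun p x => by
  classical
  exact if p = 0 ∧ l.at' x.1.1 0 < l.at' x.1.2 0 then 1 else 0

/-- the cochains `v^k o` -/
noncomputable def vol : ℕ → Cc (PL l)
  | 0 => ool l
  | k + 1 => Cc.cup 1 (Cc.d (ool l)) (vol k)

/-- extension by zero -/
noncomputable def exl (c : Cc (PL l)) {p : ℕ} (a b : l.L.obj p) : ZMod 2 := by
  classical
  exact if h : ∀ i, l.at' a i ≠ l.at' b i then c p ⟨(a, b), h⟩ else 0

variable {l}

theorem exl_of {c : Cc (PL l)} {p : ℕ} {a b : l.L.obj p} (h : ∀ i, l.at' a i ≠ l.at' b i) :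
    exl l c a b = c p ⟨(a, b), h⟩ := dif_pos h

theorem exl_self (c : Cc (PL l)) {p : ℕ} (a : l.L.obj p) : exl l c a a = 0 :=
  dif_neg fun h => h 0 rfl

theorem LOk.dist {p : ℕ} {F : Finset (l.L.obj p)} (h : LOk l F) {a b : l.L.obj p}
    (ha : a ∈ F) (hb : b ∈ F) (hab : a ≠ b) (i : Fin (p + 1)) : l.at' a i ≠ l.at' b i :=
  fun hc => hab (h.inj ha hb i hc)

variable (l) in
/-- the sum over the ordered pairs of different labels -/
noncomputable def trl (c : Cc (PL l)) : Cc (GL l) := fun _ F =>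
  ∑ a ∈ F.1, ∑ b ∈ F.1, exl l c a b

theorem trl_apply (c : Cc (PL l)) {p : ℕ} (F : (GL l).obj p) :
    trl l c p F = ∑ a ∈ F.1, ∑ b ∈ F.1, exl l c a b := rfl

theorem trl_map (c : Cc (PL l)) {p q : ℕ} (f : Op p q) (F : (GL l).obj q) :
    trl l c p ((GL l).map f F) = ∑ a ∈ F.1, ∑ b ∈ F.1, exl l c (l.L.map f a) (l.L.map f b) := by
  rw [trl_apply]
  show ∑ a ∈ lmap l f F.1, ∑ b ∈ lmap l f F.1, exl l c a b = _
  rw [sum_lmap f F.2]
  exact sum_congr rfl fun a _ => sum_lmap f F.2 _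

/-- extension by zero of the values on all faces -/
noncomputable def exco (c : Cc (PL l)) {p : ℕ} (a b : l.L.obj p) : Co := by
  classical
  exact if h : ∀ i, l.at' a i ≠ l.at' b i then co c (⟨(a, b), h⟩ : (PL l).obj p) else 0

theorem exco_of {c : Cc (PL l)} {p : ℕ} {a b : l.L.obj p} (h : ∀ i, l.at' a i ≠ l.at' b i) :
    exco c a b = co c (⟨(a, b), h⟩ : (PL l).obj p) := dif_pos h

theorem exco_self (c : Cc (PL l)) {p : ℕ} (a : l.L.obj p) : exco c a a = 0 :=
  dif_neg fun h => h 0 rfl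

theorem co_trl (c : Cc (PL l)) {p : ℕ} (F : (GL l).obj p) (S : Finset ℕ) :
    co (trl l c) F S = ∑ a ∈ F.1, ∑ b ∈ F.1, exco c a b S := by
  by_cases h0 : S.card = 0
  · have h1 : ∀ a b : l.L.obj p, exco c a b S = 0 := by
      intro a b
      unfold exco
      split_ifs
      · exact if_pos h0
      · rfl
    rw [co, if_pos h0]
    simp only [h1, sum_const_zero]
  · rw [co_of_ne h0, trl_map]
    refine sum_congr rfl fun a ha => sum_congr rfl fun b hb => ?_
    by_cases hab : a = b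
    · subst hab
      rw [exl_self, exco_self]
      rfl
    · have h := F.2.dist ha hb hab
      rw [exco_of h]
      refine Eq.trans ?_ (co_of_ne (X := PL l) (u := c) (σ := ⟨(a, b), h⟩) h0).symm
      exact exl_of ((PL l).map (cl (S.card - 1) p (enu S)) ⟨(a, b), h⟩).2

theorem trl_congr {c c' : Cc (PL l)} {p : ℕ} (h : c p = c' p) : trl l c p = trl l c' p := by
  funext F
  rw [trl_apply, trl_apply]
  refine sum_congr rfl fun a _ => sum_congr rfl fun b _ => ?_
  unfold exl
  rw [h]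

/-! ### the assembly map -/

variable {K : SS} (A : Sb K)

variable (l) in
open Classical in
/-- the set of sheets `{(a, x) : a ∈ F}` without the base -/
noncomputable def asmF {p : ℕ} (F : Finset (l.L.obj p)) (x : K.obj p) :
    Finset (Sheet l K p) :=
  (F.image fun a => ((a, x) : Sheet l K p)).filter fun s => ¬ A.mem s.2

variable {A}

theorem mem_asmF {p : ℕ} {F : Finset (l.L.obj p)} {x : K.obj p} {s : Sheet l K p} :
    s ∈ asmF l A F x ↔ s.1 ∈ F ∧ s.2 = x ∧ ¬ A.mem x := by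
  classical
  rw [asmF, mem_filter, mem_image]
  constructor
  · rintro ⟨⟨a, ha, rfl⟩, h⟩
    exact ⟨ha, rfl, h⟩
  · rintro ⟨h1, h2, h3⟩
    exact ⟨⟨s.1, h1, Prod.ext rfl h2.symm⟩, by rwa [h2]⟩

theorem asmF_ok {p : ℕ} {F : Finset (l.L.obj p)} (h : LOk l F) (x : K.obj p) :
    GOk l A (asmF l A F x) := by
  refine ⟨l.good_sub h ?_, ?_, fun a ha => ?_⟩
  · rintro _ ⟨a, ha, rfl⟩
    exact (mem_asmF.1 (mem_coe.1 ha)).1
  · intro a ha b hb hab
    have ha' := mem_asmF.1 (mem_coe.1 ha)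
    have hb' := mem_asmF.1 (mem_coe.1 hb)
    exact Prod.ext hab (ha'.2.1.trans hb'.2.1.symm)
  · obtain ⟨-, h2, h3⟩ := mem_asmF.1 ha
    rwa [h2]

theorem sum_asmF {M : Type} [AddCommMonoid M] {p : ℕ} {F : Finset (l.L.obj p)} {x : K.obj p}
    (hx : ¬ A.mem x) (c : Sheet l K p → M) :
    ∑ s ∈ asmF l A F x, c s = ∑ a ∈ F, c (a, x) := by
  classical
  rw [asmF, filter_true_of_mem, sum_image]
  · intro a _ b _ hab
    exact congrArg Prod.fst hab
  · intro s hs
    obtain ⟨a, _, rfl⟩ := mem_image.1 hs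
    exact hx

theorem asmF_base {p : ℕ} {F : Finset (l.L.obj p)} {x : K.obj p} (hx : A.mem x) :
    asmF l A F x = ∅ := by
  ext s
  rw [mem_asmF]
  simp [hx]

variable (l A)

/-- the assembly map -/
noncomputable def asm : SS.Map ((GL l).prod K) (Gam l A) where
  app z := ⟨asmF l A z.1.1 z.2, asmF_ok z.1.2 z.2⟩
  nat {p q} f z := by
    refine Subtype.ext ?_
    show asmF l A (lmap l f z.1.1) (K.map f z.2) = gmap l A f (asmF l A z.1.1 z.2)
    ext s
    rw [mem_asmF, mem_gmap, mem_lmap]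
    constructor
    · rintro ⟨⟨b, hb, hb'⟩, h2, h3⟩
      refine ⟨⟨(b, z.2), mem_asmF.2 ⟨hb, rfl, fun hc => h3 (A.map_mem f hc)⟩,
        Prod.ext hb' h2.symm⟩, ?_⟩
      rwa [h2]
    · rintro ⟨⟨b, hb, rfl⟩, h2⟩
      obtain ⟨h3, h4, h5⟩ := mem_asmF.1 hb
      have h6 : (shm l f b).2 = K.map f z.2 := congrArg (K.map f) h4
      exact ⟨⟨b.1, h3, rfl⟩, h6, h6 ▸ h2⟩

/-- the diagonal `(a, b), x ↦ (a, x), (b, x)` -/
def dgl (K : SS) : SS.Map ((PL l).prod K) (Pr l K) :=
  ⟨fun z => ⟨((z.1.1.1, z.2), (z.1.1.2, z.2)), z.1.2⟩, fun _ _ => rfl⟩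

variable {l A}

theorem asm_app {p : ℕ} (z : ((GL l).prod K).obj p) :
    ((asm l A).app z).1 = asmF l A z.1.1 z.2 := rfl

theorem asm_hat {y : Cc K} (hy : Vn A y) {p : ℕ} (z : ((GL l).prod K).obj p) :
    Cc.pull (asm l A) (hat l A y) p z = (z.1.1.card : ZMod 2) * y p z.2 := by
  rw [pull_apply, hat_apply, asm_app]
  by_cases hx : A.mem z.2
  · rw [asmF_base hx, sum_empty, hy p _ hx, mul_zero]
  · refine (sum_asmF hx _).trans ?_
    exact (sum_const (y p z.2)).trans (nsmul_eq_mul _ _)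

theorem dgl_oo : Cc.pull (dgl l K) (oo l K) = Cc.pull (SS.fst (PL l) K) (ool l) := rfl

theorem dgl_vo (k : ℕ) : Cc.pull (dgl l K) (vo l K k) = Cc.pull (SS.fst (PL l) K) (vol l k) := by
  induction k with
  | zero => exact dgl_oo
  | succ k ih =>
    show Cc.pull (dgl l K) (Cc.cup 1 (vv l K) (vo l K k)) =
      Cc.pull (SS.fst (PL l) K) (Cc.cup 1 (Cc.d (ool l)) (vol l k))
    rw [pull_cup, pull_cup, ih, vv, pull_d, pull_d, dgl_oo]

theorem dgl_ww (y : Cc K) (i : ℕ) :
    Cc.pull (dgl l K) (ww l y i) = Cc.pull (SS.snd (PL l) K) (Cc.cup i y y) := by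
  rw [ww, pull_cup, pull_cup]
  rfl

/-- the terms of the correction on the diagonal -/
theorem dgl_qt (j m : ℕ) (y : Cc K) (k : ℕ) :
    Cc.pull (dgl l K) (qt l j m y k) = Cc.cup 1 (Cc.pull (SS.fst (PL l) K) (vol l (m + k)))
      (Cc.pull (SS.snd (PL l) K) (Cc.cup (j + k + 1) y y)) := by
  rw [qt, pull_cup, dgl_vo, dgl_ww]

theorem pull_sum {X Y : SS} (f : SS.Map X Y) {ι : Type} (s : Finset ι) (u : ι → Cc Y) :
    Cc.pull f (∑ i ∈ s, u i) = ∑ i ∈ s, Cc.pull f (u i) := by
  funext p x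
  rw [pull_apply]
  simp only [Finset.sum_apply]
  rfl

/-- the external product of a sum over pairs -/
theorem trl_cup (c : Cc (PL l)) (y : Cc K) {p : ℕ} (z : ((GL l).prod K).obj p) :
    Cc.cup 1 (Cc.pull (SS.fst (GL l) K) (trl l c)) (Cc.pull (SS.snd (GL l) K) y) p z =
      ∑ a ∈ z.1.1, ∑ b ∈ z.1.1, cupJ 1 (exco c a b) (co y z.2) (range (p + 1)) := by
  rw [Cc.cup_def, co_pull, co_pull]
  show cupJ 1 (co (trl l c) z.1) (co y z.2) (range (p + 1)) = _
  simp only [cupJ, co_trl, sum_mul]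
  rw [sum_comm]
  refine sum_congr rfl fun a _ => ?_
  rw [sum_comm]

/-- the pull-back of a sum over pairs -/
theorem asm_Tr {C : Cc (Pr l K)} {c : Cc (PL l)} {y : Cc K} (hy : Vn A y)
    (h : Cc.pull (dgl l K) C =
      Cc.cup 1 (Cc.pull (SS.fst (PL l) K) c) (Cc.pull (SS.snd (PL l) K) y)) :
    Cc.pull (asm l A) (Tr A C) =
      Cc.cup 1 (Cc.pull (SS.fst (GL l) K) (trl l c)) (Cc.pull (SS.snd (GL l) K) y) := by
  funext p z
  rw [trl_cup, pull_apply, Tr_apply, asm_app]
  by_cases hx : A.mem z.2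
  · rw [asmF_base hx, sum_empty]
    refine (sum_eq_zero fun a _ => sum_eq_zero fun b _ => ?_).symm
    rw [cupJ]
    exact sum_eq_zero fun J _ => by rw [hy.co hx, mul_zero]
  · rw [sum_asmF hx]
    refine sum_congr rfl fun a ha => ?_
    rw [sum_asmF hx]
    refine sum_congr rfl fun b hb => ?_
    by_cases hab : ∀ i, l.at' a i ≠ l.at' b i
    · rw [exco_of hab, ex_of (l := l) (a := (a, z.2)) (b := (b, z.2)) hab]
      obtain ⟨w, hw⟩ : ∃ w : ((PL l).prod K).obj p, w = (⟨(a, b), hab⟩, z.2) := ⟨_, rfl⟩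
      have h1 := congrFun (congrFun h p) w
      rw [Cc.cup_def, co_pull, co_pull] at h1
      subst hw
      exact h1
    · have h1 : ex C ((a, z.2) : Sheet l K p) (b, z.2) = 0 := dif_neg hab
      have h2 : exco c a b = 0 := dif_neg hab
      rw [h1, h2]
      refine (sum_eq_zero fun J _ => ?_).symm
      rw [Pi.zero_apply, zero_mul]

/-- **the assembly of the quadratic correction**, strictly -/
theorem asm_KK {y : Cc K} (hy : Vn A y) {r : ℕ}
    (hr : ∀ j, Cc.cup j y y = if j = r + 1 then y else 0) {j m : ℕ} (hj : j ≤ r) :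
    Cc.pull (asm l A) (KK l A j m y) =
      Cc.cup 1 (Cc.pull (SS.fst (GL l) K) (trl l (vol l (m + (r - j)))))
        (Cc.pull (SS.snd (GL l) K) y) := by
  rw [← asm_Tr (A := A) (C := ∑ k ∈ range (r + 1), qt l j m y k) (c := vol l (m + (r - j)))
    (y := y) hy]
  · funext p z
    rw [pull_apply, pull_apply]
    have h1 : KK l A j m y p = Tr A (∑ k ∈ range (p + r + 1), qt l j m y k) p :=
      KK_eq j m y (by omega)
    rw [h1]
    have h2 : Cc.pull (dgl l K) (∑ k ∈ range (p + r + 1), qt l j m y k) =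
        Cc.pull (dgl l K) (∑ k ∈ range (r + 1), qt l j m y k) := by
      rw [pull_sum, pull_sum]
      refine (sum_subset (range_subset_range.2 (by omega)) fun k _ hk => ?_).symm
      rw [mem_range] at hk
      rw [dgl_qt, hr, if_neg (by omega), pull_zero, cup_zero_right]
    rw [Tr_apply, Tr_apply, asm_app]
    by_cases hx : A.mem z.2
    · rw [asmF_base hx, sum_empty, sum_empty]
    · rw [sum_asmF hx, sum_asmF hx]
      refine sum_congr rfl fun a ha => ?_
      rw [sum_asmF hx, sum_asmF hx]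
      refine sum_congr rfl fun b hb => ?_
      unfold ex
      split_ifs with hab
      · exact congrFun (congrFun h2 p) ((⟨(a, b), hab⟩, z.2) : ((PL l).prod K).obj p)
      · rfl
  · rw [pull_sum, sum_eq_single (r - j)]
    · rw [dgl_qt, hr, if_pos (by omega)]
    · intro k _ hk
      rw [dgl_qt, hr, if_neg (by omega), pull_zero, cup_zero_right]
    · intro h
      exact absurd (mem_range.2 (by omega)) h

end Vale.Agent.P263.TJ
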