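import Vale.Agent.P263.TJ.L1A
import Vale.Agent.P263.TJ.SCup
import Vale.Agent.P263.TJ.SN

/-!
# P263, block EB: the assembled quadratic correction depends only on the class

`asmn l A n : GLn l n × K → Gam l A`.  For `n` even the pull-back of `KK l A j 0 b` is a cocycle
(`d_asmn_KK`), and it only depends on the class of the relative cocycle `b` (`asmn_KK_coh`).
For the fundamental cochain of the sphere `SN r` it is the external product
`trl (vol (r - j)) × s_r` (`asmn_KK_sC`).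
-/

open Finset

namespace Vale.Agent.P263.TJ

open Vale.Agent.P263.S Vale.Agent.P263.E Vale.Agent.P263.H83

variable {l : LabS} {K K' : SS}

variable (l) in
/-- functoriality of the pairs -/
def PrM (g : SS.Map K K') : SS.Map (Pr l K) (Pr l K') :=
  ⟨fun x => ⟨((x.1.1.1, g.app x.1.1.2), (x.1.2.1, g.app x.1.2.2)), x.2⟩, fun f x => by
    refine Subtype.ext (Prod.ext (Prod.ext rfl ?_) (Prod.ext rfl ?_))
    · exact g.nat f x.1.1.2
    · exact g.nat f x.1.2.2⟩

theorem PrM_oo (g : SS.Map K K') : Cc.pull (PrM l g) (oo l K') = oo l K := rfl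

theorem PrM_vo (g : SS.Map K K') (k : ℕ) : Cc.pull (PrM l g) (vo l K' k) = vo l K k := by
  induction k with
  | zero => rfl
  | succ k ih =>
    show Cc.pull (PrM l g) (Cc.cup 1 (vv l K') (vo l K' k)) = Cc.cup 1 (vv l K) (vo l K k)
    rw [pull_cup, ih, vv, pull_d, PrM_oo]
    rfl

theorem PrM_ww (g : SS.Map K K') (y : Cc K') (i : ℕ) :
    Cc.pull (PrM l g) (ww l y i) = ww l (Cc.pull g y) i := pull_cup _ _ _ _

theorem PrM_qt (g : SS.Map K K') (j m : ℕ) (y : Cc K') (k : ℕ) :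
    Cc.pull (PrM l g) (qt l j m y k) = qt l j m (Cc.pull g y) k := by
  rw [qt, pull_cup, PrM_vo, PrM_ww]
  rfl

theorem ex_pull (g : SS.Map K K') (c : Cc (Pr l K')) {p : ℕ} (a b : l.L.obj p) (x x' : K.obj p) :
    ex c ((a, g.app x) : Sheet l K' p) (b, g.app x') =
      ex (Cc.pull (PrM l g) c) ((a, x) : Sheet l K p) (b, x') := by
  unfold ex
  by_cases h : ∀ i, l.at' a i ≠ l.at' b i
  · rw [dif_pos h, dif_pos h]
    rfl
  · rw [dif_neg h, dif_neg h]

/-- the map `1 × g` -/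
def idp (X : SS) (g : SS.Map K K') : SS.Map (X.prod K) (X.prod K') :=
  ⟨fun z => (z.1, g.app z.2), fun f z => Prod.ext rfl (g.nat f z.2)⟩

/-- the map `h × 1` -/
def pid {X Y : SS} (h : SS.Map X Y) (K : SS) : SS.Map (X.prod K) (Y.prod K) :=
  ⟨fun z => (h.app z.1, z.2), fun f z => Prod.ext (h.nat f z.1) rfl⟩

/-- naturality of the assembled correction -/
theorem asm_KK_nat (g : SS.Map K K') {A : Sb K} {A' : Sb K'}
    (h : ∀ (p : ℕ) (x : K.obj p), A.mem x ↔ A'.mem (g.app x)) (j m : ℕ) (y : Cc K') :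
    Cc.pull (idp (GL l) g) (Cc.pull (asm l A') (KK l A' j m y)) =
      Cc.pull (asm l A) (KK l A j m (Cc.pull g y)) := by
  funext p z
  show Tr A' (∑ k ∈ range (p + 1), qt l j m y k) p ((asm l A').app (z.1, g.app z.2)) =
    Tr A (∑ k ∈ range (p + 1), qt l j m (Cc.pull g y) k) p ((asm l A).app z)
  rw [Tr_apply, Tr_apply]
  show ∑ a ∈ asmF l A' z.1.1 (g.app z.2), ∑ b ∈ asmF l A' z.1.1 (g.app z.2),
      ex (∑ k ∈ range (p + 1), qt l j m y k) a b =
    ∑ a ∈ asmF l A z.1.1 z.2, ∑ b ∈ asmF l A z.1.1 z.2,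
      ex (∑ k ∈ range (p + 1), qt l j m (Cc.pull g y) k) a b
  by_cases hx : A.mem z.2
  · rw [asmF_base hx, asmF_base ((h p z.2).1 hx), sum_empty, sum_empty]
  · have hx' : ¬ A'.mem (g.app z.2) := fun hc => hx ((h p z.2).2 hc)
    refine (sum_asmF hx' _).trans ?_
    rw [sum_asmF hx]
    refine sum_congr rfl fun a _ => ?_
    refine (sum_asmF hx' _).trans ?_
    rw [sum_asmF hx]
    refine sum_congr rfl fun b _ => ?_
    rw [ex_pull, pull_sum]
    simp only [PrM_qt]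

/-! ### an even number of labels -/

variable (l) in
/-- the assembly map on sets of `n` labels -/
noncomputable def asmn (A : Sb K) (n : ℕ) : SS.Map ((GLn l n).prod K) (Gam l A) :=
  (asm l A).comp (pid (GLn.incl l n) K)

variable {A : Sb K} {n : ℕ}

theorem asmn_hat (hn : Even n) {y : Cc K} (hy : Vn A y) :
    Cc.pull (asmn l A n) (hat l A y) = 0 := by
  funext p z
  refine (asm_hat hy ((pid (GLn.incl l n) K).app z)).trans ?_
  have h1 : ((pid (GLn.incl l n) K).app z).1.1.card = n := z.1.2.2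
  rw [h1, (ZMod.natCast_eq_zero_iff_even).2 hn, zero_mul]
  rfl

/-- the base of the product -/
def Sb.right (X : SS) (A : Sb K) : Sb (X.prod K) := A.comap (SS.snd X K)

theorem vn_asmn (u : Cc (Gam l A)) (h0 : ∀ (p : ℕ) (F : (Gam l A).obj p), F.1 = ∅ → u p F = 0) :
    Vn (A.right (GLn l n)) (Cc.pull (asmn l A n) u) := by
  intro p z hz
  rw [pull_apply]
  refine h0 p _ ?_
  exact asmF_base hz

theorem Tr_empty (c : Cc (Pr l K)) {p : ℕ} (F : (Gam l A).obj p) (h : F.1 = ∅) :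
    Tr A c p F = 0 := by
  rw [Tr_apply, h, sum_empty]

theorem vn_asmn_KK (j m : ℕ) (y : Cc K) :
    Vn (A.right (GLn l n)) (Cc.pull (asmn l A n) (KK l A j m y)) :=
  vn_asmn _ fun _ F h => Tr_empty _ F h

theorem d_asmn_KK (hn : Even n) {b : Cc K} (hA : Vn A b) (hb : Cc.d b = 0) (j : ℕ) :
    Cc.d (Cc.pull (asmn l A n) (KK l A j 0 b)) = 0 := by
  rw [← pull_d, d_KK_sq hA hb, pull_add, pull_cup, asmn_hat hn hA, cup_zero_left,
    asmn_hat hn (hA.cup_left j b), add_zero]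

/-- reassociation `(X × K) × I → X × (K × I)` -/
def assI (X K : SS) : SS.Map (cylS (X.prod K)) (X.prod (cylS K)) :=
  ⟨fun z => (z.1.1, (z.1.2, z.2)), fun _ _ => rfl⟩

theorem asmn_KK_nat (g : SS.Map K K') {A : Sb K} {A' : Sb K'}
    (h : ∀ (p : ℕ) (x : K.obj p), A.mem x ↔ A'.mem (g.app x)) (j m : ℕ) (y : Cc K') :
    Cc.pull (idp (GLn l n) g) (Cc.pull (asmn l A' n) (KK l A' j m y)) =
      Cc.pull (asmn l A n) (KK l A j m (Cc.pull g y)) :=
  congrArg (Cc.pull (pid (GLn.incl l n) K)) (asm_KK_nat g h j m y)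

/-- **the assembled correction depends only on the class** -/
theorem asmn_KK_coh (hn : Even n) {b b' β : Cc K} (hA : Vn A b) (hb : Cc.d b = 0)
    (hβ : Vn A β) (h : b' = b + Cc.d β) (j : ℕ) :
    ∃ γ : Cc ((GLn l n).prod K), Vn (A.right (GLn l n)) γ ∧
      Cc.pull (asmn l A n) (KK l A j 0 b') + Cc.pull (asmn l A n) (KK l A j 0 b) = Cc.d γ := by
  have hA' : Vn A.cyl (Cc.pull (SS.fst K I1) b + Cc.d (Cc.tOp β)) :=
    Vn.add (hA.pull _) (Cc.vn_tOp hβ).d
  have hd : Cc.d (Cc.pull (SS.fst K I1) b + Cc.d (Cc.tOp β)) = 0 := by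
    rw [d_add, ← pull_d, hb, pull_zero, d_d, add_zero]
  have h0 : Cc.pull (end0 K) (Cc.pull (SS.fst K I1) b + Cc.d (Cc.tOp β)) = b' := by
    rw [pull_add, pull_d, Cc.pull_end0_tOp, h]
    rfl
  have h1 : Cc.pull (end1 K) (Cc.pull (SS.fst K I1) b + Cc.d (Cc.tOp β)) = b := by
    rw [pull_add, pull_d, Cc.pull_end1_tOp, d_zero, add_zero]
    rfl
  have h2 := d_asmn_KK (l := l) (A := A.cyl) hn hA' hd j
  have h3 := vn_asmn_KK (l := l) (A := A.cyl) (n := n) j 0
    (Cc.pull (SS.fst K I1) b + Cc.d (Cc.tOp β))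
  have e0 := asmn_KK_nat (l := l) (n := n) (end0 K) (A := A) (A' := A.cyl)
    (fun _ _ => Iff.rfl) j 0 (Cc.pull (SS.fst K I1) b + Cc.d (Cc.tOp β))
  have e1 := asmn_KK_nat (l := l) (n := n) (end1 K) (A := A) (A' := A.cyl)
    (fun _ _ => Iff.rfl) j 0 (Cc.pull (SS.fst K I1) b + Cc.d (Cc.tOp β))
  rw [h0] at e0
  rw [h1] at e1
  generalize Cc.pull (asmn l A.cyl n) (KK l A.cyl j 0
    (Cc.pull (SS.fst K I1) b + Cc.d (Cc.tOp β))) = κ at h2 h3 e0 e1
  refine ⟨Cc.sOp (Cc.pull (assI (GLn l n) K) κ), ?_, ?_⟩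
  · exact Cc.vn_sOp (fun p x hx => h3 p _ hx)
  · have h4 := Cc.sOp_d (Cc.pull (assI (GLn l n) K) κ)
    have h5 : Cc.sOp (0 : Cc (cylS ((GLn l n).prod K))) = 0 :=
      ((Cc.cyl ((GLn l n).prod K)).s).map_zero
    rw [← pull_d, h2, pull_zero, h5, add_zero] at h4
    rw [h4, ← e0, ← e1]
    rfl

/-! ### spheres -/

variable (l) in
/-- the sum of `v^k o` over the ordered pairs of different labels, on sets of `n` labels -/
noncomputable def tln (n k : ℕ) : Cc (GLn l n) := Cc.pull (GLn.incl l n) (trl l (vol l k))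

theorem cup_sC (r j : ℕ) : Cc.cup j (sC r) (sC r) = if j = r + 1 then sC r else 0 := by
  split_ifs with h
  · rw [h, cup_sC_top]
  · rcases Nat.lt_or_gt_of_ne h with h' | h'
    · exact cup_sC_of_le r j (Nat.lt_succ_iff.1 h')
    · exact cup_sC_of_gt r j h'

/-- **the assembled correction of the fundamental cochain of the sphere**, strictly -/
theorem asmn_KK_sC (n : ℕ) {r j : ℕ} (m : ℕ) (hj : j ≤ r) :
    Cc.pull (asmn l (SN.base r) n) (KK l (SN.base r) j m (sC r)) =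
      sn r (tln l n (m + (r - j))) := by
  have h := asm_KK (l := l) (Vn_sC r) (cup_sC r) (m := m) hj
  exact (congrArg (Cc.pull (pid (GLn.incl l n) (SN r))) h).trans (pull_cup _ _ _ _)

/-- **the assembled correction of any representative of the fundamental class** -/
theorem asmn_KK_sphere (hn : Even n) {r j : ℕ} (hj : j ≤ r) {β : Cc (SN r)}
    (hβ : Vn (SN.base r) β) :
    ∃ γ : Cc ((GLn l n).prod (SN r)), Vn ((SN.base r).right (GLn l n)) γ ∧
      Cc.pull (asmn l (SN.base r) n) (KK l (SN.base r) j 0 (sC r + Cc.d β)) +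
        sn r (tln l n (r - j)) = Cc.d γ := by
  obtain ⟨γ, h1, h2⟩ := asmn_KK_coh (l := l) hn (Vn_sC r) (d_sC r) hβ rfl j
  refine ⟨γ, h1, ?_⟩
  rw [← h2, asmn_KK_sC n 0 hj, zero_add]

end Vale.Agent.P263.TJ
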