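import Vale.Agent.P263.TJ.FSq

/-!
# P263: null structures of cup-i squares and the class theta

`Nul A i` : a cocycle `x` with a cochain `w` such that `x ∪_i x = d w`.
`Nul.act N e` : the null structure transported to `x + d e`.
`Nul.theta` : for `N, M` and `e` with `N.x = M.x + d e` the cocycle `N.w + (M.act e).w`.
The functional squares of `TJ/FSq` are the case `M.x = d η`, `M.w = q_i(η)` (`theta_coh_val`).
-/

namespace Vale.Agent.P263.TJ

set_option linter.unusedSimpArgs false

namespace CupC

variable {A U V U' V' : CupC} {i : ℕ}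

theorem two_left (A : CupC) (x y : A.C) : x + (x + y) = y := by
  rw [← add_assoc, A.two, zero_add]

/-- A null structure of the square `∪_i`. -/
structure Nul (A : CupC) (i : ℕ) where
  /-- the cocycle -/
  x : A.C
  /-- the null cochain of the square -/
  w : A.C
  d_x : A.d x = 0
  d_w : A.cup (i + 1) x x = A.d w

namespace Nul

/-- the null structure of a coboundary -/
def ofD (i : ℕ) (η : A.C) : Nul A i where
  x := A.d η
  w := A.q i η
  d_x := A.d_d η
  d_w := (A.d_q i η).symm

/-- the zero null structure -/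
def zero (A : CupC) (i : ℕ) : Nul A i where
  x := 0
  w := 0
  d_x := map_zero _
  d_w := by rw [map_zero, map_zero]

/-- a cocycle with strictly vanishing square -/
def strict (x : A.C) (hx : A.d x = 0) (hs : A.cup (i + 1) x x = 0) : Nul A i where
  x := x
  w := 0
  d_x := hx
  d_w := by rw [hs, map_zero]

/-- image of a null structure -/
def map (N : Nul A i) (g : Hom A U) : Nul U i where
  x := g.f N.x
  w := g.f N.w
  d_x := by rw [← g.f_d, N.d_x, map_zero]
  d_w := by rw [← g.f_cup, N.d_w, g.f_d]

/-- change of the null cochain by a cocycle -/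
def changeW (N : Nul A i) (z : A.C) (hz : A.d z = 0) : Nul A i where
  x := N.x
  w := N.w + z
  d_x := N.d_x
  d_w := by rw [map_add, hz, add_zero, N.d_w]

/-- the null structure transported along `e` -/
def act (N : Nul A i) (e : A.C) : Nul A i where
  x := N.x + A.d e
  w := N.w + A.q i e + A.cup (i + 1) N.x e + A.cup (i + 1) e N.x
  d_x := by rw [map_add, N.d_x, A.d_d, add_zero]
  d_w := by
    simp only [map_add, d_q, ← N.d_w, A.d_cup, N.d_x, map_zero,
      AddMonoidHom.add_apply, AddMonoidHom.zero_apply, zero_add]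
    generalize A.cup i N.x e = P
    generalize A.cup i e N.x = Q
    have h1 := A.two P
    have h2 := A.two Q
    calc _ = A.cup (i + 1) N.x N.x + A.cup (i + 1) (A.d e) N.x + (A.cup (i + 1) N.x (A.d e) +
          A.cup (i + 1) (A.d e) (A.d e)) + (P + P) + (Q + Q) := by rw [h1, h2]; abel
      _ = _ := by abel

/-- sum of null structures -/
def add (N M : Nul A i) : Nul A i where
  x := N.x + M.x
  w := N.w + M.w + A.cup (i + 2) N.x M.x
  d_x := by rw [map_add, N.d_x, M.d_x, add_zero]
  d_w := by
    have h := A.cup_comm_coh (i + 1) N.d_x M.d_x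
    rw [map_add A.d, map_add A.d, ← h, ← N.d_w, ← M.d_w]
    simp only [map_add, AddMonoidHom.add_apply]
    abel

@[simp] theorem ofD_x (i : ℕ) (η : A.C) : (ofD i η).x = A.d η := rfl
@[simp] theorem ofD_w (i : ℕ) (η : A.C) : (ofD i η).w = A.q i η := rfl
@[simp] theorem zero_x (i : ℕ) : (zero A i).x = 0 := rfl
@[simp] theorem zero_w (i : ℕ) : (zero A i).w = 0 := rfl
@[simp] theorem map_x (N : Nul A i) (g : Hom A U) : (N.map g).x = g.f N.x := rfl
@[simp] theorem map_w (N : Nul A i) (g : Hom A U) : (N.map g).w = g.f N.w := rfl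
@[simp] theorem changeW_x (N : Nul A i) (z : A.C) (hz : A.d z = 0) :
    (N.changeW z hz).x = N.x := rfl
@[simp] theorem changeW_w (N : Nul A i) (z : A.C) (hz : A.d z = 0) :
    (N.changeW z hz).w = N.w + z := rfl
@[simp] theorem act_x (N : Nul A i) (e : A.C) : (N.act e).x = N.x + A.d e := rfl
theorem act_w (N : Nul A i) (e : A.C) :
    (N.act e).w = N.w + A.q i e + A.cup (i + 1) N.x e + A.cup (i + 1) e N.x := rfl
@[simp] theorem add_x (N M : Nul A i) : (N.add M).x = N.x + M.x := rfl
theorem add_w (N M : Nul A i) : (N.add M).w = N.w + M.w + A.cup (i + 2) N.x M.x := rfl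

theorem act_zero_w (N : Nul A i) : (N.act 0).w = N.w := by
  simp only [act_w, q_zero, map_zero, AddMonoidHom.zero_apply, add_zero]

theorem map_act_w (N : Nul A i) (g : Hom A U) (e : A.C) :
    ((N.act e).map g).w = ((N.map g).act (g.f e)).w := by
  simp only [map_w, act_w, map_add, g.f_q, g.f_cup, map_x]

/-- transport twice -/
theorem act_act (N : Nul A i) (e e' : A.C) :
    A.Coh ((N.act e).act e').w (N.act (e + e')).w := by
  refine ⟨A.cup (i + 1) e e', ?_⟩
  have h := A.q_add i e e'
  have h' : A.d (A.cup (i + 1) e e') = A.q i (e + e') + A.q i e + A.q i e' +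
      A.cup (i + 1) (A.d e) e' + A.cup (i + 1) e' (A.d e) := by
    rw [h]
    generalize A.d (A.cup (i + 1) e e') = a
    generalize A.cup (i + 1) (A.d e) e' = b
    generalize A.cup (i + 1) e' (A.d e) = c
    simp only [add_assoc, add_comm, add_left_comm, A.two, A.two_left, add_zero]
  rw [h']
  simp only [act_w, act_x, map_add, AddMonoidHom.add_apply]
  generalize A.q i (e + e') = a1
  generalize A.q i e = a2
  generalize A.q i e' = a3
  generalize A.cup (i + 1) (A.d e) e' = a4
  generalize A.cup (i + 1) e' (A.d e) = a5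
  generalize A.cup (i + 1) N.x e = a6
  generalize A.cup (i + 1) N.x e' = a7
  generalize A.cup (i + 1) e N.x = a8
  generalize A.cup (i + 1) e' N.x = a9
  generalize N.w = a0
  simp only [add_assoc, add_comm, add_left_comm, A.two_left, A.two, add_zero]

/-- transport of the class of the null cochain -/
theorem act_coh {N N' : Nul A i} (hx : N.x = N'.x) (hw : A.Coh N.w N'.w) (e : A.C) :
    A.Coh (N.act e).w (N'.act e).w := by
  simp only [act_w, hx]
  exact ((hw.add_right _).add_right _).add_right _

theorem act_cocycle (N : Nul A i) {z : A.C} (hz : A.d z = 0) :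
    A.Coh (N.act z).w (N.w + A.cup i z z) := by
  refine ⟨A.cup (i + 2) N.x z, ?_⟩
  rw [← A.cup_comm_coh (i + 1) N.d_x hz, act_w, q, hz, map_zero, add_zero]
  generalize A.cup (i + 1) N.x z = a
  generalize A.cup (i + 1) z N.x = b
  generalize A.cup i z z = c
  generalize N.w = w
  simp only [add_assoc, add_comm, add_left_comm, A.two_left, A.two, add_zero]

/-- the cocycle `theta` -/
def theta (N M : Nul A i) (e : A.C) : A.C := N.w + (M.act e).w

theorem d_theta {N M : Nul A i} {e : A.C} (h : N.x = M.x + A.d e) :
    A.d (theta N M e) = 0 := by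
  rw [theta, map_add, ← N.d_w, ← (M.act e).d_w, act_x, h, A.two]

theorem theta_map (N M : Nul A i) (e : A.C) (g : Hom A U) :
    theta (N.map g) (M.map g) (g.f e) = g.f (theta N M e) := by
  rw [theta, theta, ← map_act_w, map_add]
  rfl

theorem theta_changeW (N M : Nul A i) (e z : A.C) (hz : A.d z = 0) :
    theta (N.changeW z hz) M e = theta N M e + z := by
  simp only [theta, changeW_w]
  abel

theorem theta_changeW' (N M : Nul A i) (e z : A.C) (hz : A.d z = 0) :
    theta N (M.changeW z hz) e = theta N M e + z := by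
  simp only [theta, act_w, changeW_w, changeW_x]
  abel

/-- change of the null cochains in their classes -/
theorem theta_coh {N N' M M' : Nul A i} (hN : A.Coh N.w N'.w) (hM : M.x = M'.x)
    (hMw : A.Coh M.w M'.w) (e : A.C) : A.Coh (theta N M e) (theta N' M' e) :=
  hN.add (act_coh hM hMw e)

/-- change of `e` by a cocycle -/
theorem theta_add_cocycle {N M : Nul A i} {e z : A.C} (hz : A.d z = 0) :
    A.Coh (theta N M (e + z)) (theta N M e + A.cup i z z) := by
  have h1 := (act_act M e z).symm.trans ((M.act e).act_cocycle hz)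
  rw [theta, theta, add_assoc]
  exact h1.add_left _

/-- **Change of both structures in their classes.** -/
theorem theta_act {N M : Nul A i} (e a a' : A.C) (hx : N.x = M.x + A.d e) :
    A.Coh (theta (N.act a) (M.act a') (e + a + a')) (theta N M e) := by
  -- `(M.act a').act (e + a + a')` is `M.act (e + a)` is `(M.act e).act a`
  have h1 := act_act M a' (e + a + a')
  have h2 : a' + (e + a + a') = e + a := by
    rw [add_comm a', add_add_self]
  rw [h2] at h1
  have h3 := h1.trans (act_act M e a).symm
  have h4 := h3.add_left (N.act a).w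
  refine h4.trans (Coh.of_eq ?_)
  rw [act_w, act_w (M.act e), theta, act_x, hx]
  generalize A.cup (i + 1) (M.x + A.d e) a = b1
  generalize A.cup (i + 1) a (M.x + A.d e) = b2
  generalize A.q i a = b3
  generalize (M.act e).w = b4
  generalize N.w = b5
  simp only [add_assoc, add_comm, add_left_comm, A.two_left, A.two, add_zero]

/-- transport of a sum -/
theorem add_act (M M' : Nul A i) (e e' : A.C) :
    A.Coh ((M.add M').act (e + e')).w ((M.act e).add (M'.act e')).w := by
  refine ⟨A.cup (i + 1) e e' + A.cup (i + 2) M.x e' + A.cup (i + 2) e M'.x +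
    A.cup (i + 2) (A.d e) e', ?_⟩
  have h := A.q_add i e e'
  have h0 : A.d (A.cup (i + 1) e e') = A.q i (e + e') + A.q i e + A.q i e' +
      A.cup (i + 1) (A.d e) e' + A.cup (i + 1) e' (A.d e) := by
    rw [h]
    generalize A.d (A.cup (i + 1) e e') = a
    generalize A.cup (i + 1) (A.d e) e' = b
    generalize A.cup (i + 1) e' (A.d e) = c
    simp only [add_assoc, add_comm, add_left_comm, A.two, A.two_left, add_zero]
  have h1 : A.d (A.cup (i + 2) M.x e') = A.cup (i + 2) M.x (A.d e') + A.cup (i + 1) M.x e' +
      A.cup (i + 1) e' M.x := by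
    rw [A.d_cup, M.d_x]; simp only [map_zero, AddMonoidHom.zero_apply, zero_add]
  have h2 : A.d (A.cup (i + 2) e M'.x) = A.cup (i + 2) (A.d e) M'.x + A.cup (i + 1) e M'.x +
      A.cup (i + 1) M'.x e := by
    rw [A.d_cup, M'.d_x]; simp only [map_zero, add_zero]
  have h3 : A.d (A.cup (i + 2) (A.d e) e') = A.cup (i + 2) (A.d e) (A.d e') +
      A.cup (i + 1) (A.d e) e' + A.cup (i + 1) e' (A.d e) := by
    rw [A.d_cup, A.d_d]; simp only [map_zero, AddMonoidHom.zero_apply, zero_add]
  rw [map_add, map_add, map_add, h0, h1, h2, h3]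
  simp only [add_w, act_w, add_x, act_x, map_add, AddMonoidHom.add_apply]
  generalize A.q i (e + e') = a1
  generalize A.q i e = a2
  generalize A.q i e' = a3
  generalize A.cup (i + 1) (A.d e) e' = a4
  generalize A.cup (i + 1) e' (A.d e) = a5
  generalize A.cup (i + 1) M.x e = a6
  generalize A.cup (i + 1) M.x e' = a7
  generalize A.cup (i + 1) e M.x = a8
  generalize A.cup (i + 1) e' M.x = a9
  generalize A.cup (i + 1) M'.x e = b6
  generalize A.cup (i + 1) M'.x e' = b7
  generalize A.cup (i + 1) e M'.x = b8
  generalize A.cup (i + 1) e' M'.x = b9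
  generalize A.cup (i + 2) M.x M'.x = c1
  generalize A.cup (i + 2) M.x (A.d e') = c2
  generalize A.cup (i + 2) (A.d e) M'.x = c3
  generalize A.cup (i + 2) (A.d e) (A.d e') = c4
  generalize M.w = w2
  generalize M'.w = w4
  calc _ = a1 + a2 + a3 + a7 + b6 + a9 + b8 + c2 + c3 + c4 + (w2 + w2) + (w4 + w4) + (c1 + c1) +
        (a6 + a6) + (a8 + a8) + (b7 + b7) + (b9 + b9) := by abel
    _ = a1 + a2 + a3 + a7 + b6 + a9 + b8 + c2 + c3 + c4 + (a4 + a4) + (a5 + a5) := by
      simp only [A.two, add_zero]
    _ = _ := by abel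

/-- **Additivity.** -/
theorem theta_add {N M N' M' : Nul A i} (e e' : A.C) (hx : N.x = M.x + A.d e)
    (hx' : N'.x = M'.x + A.d e') :
    A.Coh (theta (N.add N') (M.add M') (e + e')) (theta N M e + theta N' M' e') := by
  refine ((add_act M M' e e').add_left (N.add N').w).trans (Coh.of_eq ?_)
  rw [add_w, add_w, act_x, act_x, ← hx, ← hx', theta, theta]
  generalize A.cup (i + 2) N.x N'.x = c
  generalize (M.act e).w = a
  generalize (M'.act e').w = b
  calc _ = N.w + a + (N'.w + b) + (c + c) := by abel
    _ = _ := by rw [A.two, add_zero]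

/-- equal cocycles: the difference of the null cochains -/
theorem theta_zero (N M : Nul A i) : theta N M 0 = N.w + M.w := by
  rw [theta, act_zero_w]

/-- transitivity -/
theorem theta_trans (N : Nul A i) {M L : Nul A i} (e e' : A.C)
    (hx' : M.x = L.x + A.d e') :
    A.Coh (theta N L (e' + e)) (theta N M e + theta M L e') := by
  have h1 := act_act L e' e
  have h2 : ((L.act e').act e).w + (L.act e').w = (M.act e).w + M.w := by
    rw [act_w (L.act e'), act_w M, act_x, ← hx']
    generalize A.cup (i + 1) M.x e = b1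
    generalize A.cup (i + 1) e M.x = b2
    generalize A.q i e = b3
    generalize (L.act e').w = b4
    generalize M.w = b5
    simp only [add_assoc, add_comm, add_left_comm, A.two, A.two_left, add_zero]
  have h3 : ((L.act e').act e).w = (M.act e).w + M.w + (L.act e').w := by
    rw [← h2, add_assoc, A.two, add_zero]
  rw [h3] at h1
  have h4 := h1.symm.add_left N.w
  refine h4.trans (Coh.of_eq ?_)
  simp only [theta]
  abel

end Nul

/-! ### Functional squares -/

namespace FSqD

variable {g : Hom V U}

/-- the null structure of the class `b` -/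
def nul (D : FSqD g i) : Nul V i := ⟨D.b, D.c, D.d_b, D.d_c⟩

theorem val_eq_theta (D : FSqD g i) :
    D.val = Nul.theta (D.nul.map g) (Nul.zero U i) D.e := by
  simp only [val, Nul.theta, Nul.act_w, Nul.map_w, Nul.zero_w, Nul.zero_x, map_zero,
    AddMonoidHom.zero_apply, add_zero, zero_add]
  rw [add_comm]
  rfl

end FSqD

namespace Nul

variable {g : Hom V U}

/-- the functional square of `b` when `g b = d η + d e` -/
def fsq (N : Nul V i) (g : Hom V U) (e : U.C) (he : U.d e = g.f N.x) : FSqD g i where
  b := N.x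
  e := e
  c := N.w
  d_b := N.d_x
  d_e := he
  d_c := N.d_w

/-- **Comparison with functional squares**: `g b = M.x + d e`, `M.x = d η`, `M.w ~ q_i(η)`. -/
theorem theta_coh_val (N : Nul V i) (g : Hom V U) {M : Nul U i} {e η : U.C}
    (h : g.f N.x = M.x + U.d e) (hM : M.x = U.d η) (hw : U.Coh M.w (U.q i η)) :
    U.Coh (theta (N.map g) M e)
      (N.fsq g (η + e) (by rw [map_add, h, hM])).val := by
  have h1 : U.Coh (theta (N.map g) M e) (theta (N.map g) (ofD i η) e) :=
    theta_coh (Coh.refl _) hM hw e
  refine h1.trans ?_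
  rw [FSqD.val_eq_theta]
  have h2 := act_act (Nul.zero U i) η e
  have h3 : (((Nul.zero U i).act η).act e).w = ((ofD i η).act e).w := by
    have e1 : ((Nul.zero U i).act η).w = (ofD i η).w := by
      simp only [act_w, zero_w, zero_x, map_zero, AddMonoidHom.zero_apply, add_zero, zero_add,
        ofD_w]
    have e2 : ((Nul.zero U i).act η).x = (ofD i η).x := by
      simp only [act_x, zero_x, zero_add, ofD_x]
    rw [act_w, act_w (ofD i η), e1, e2]
  rw [h3] at h2
  exact h2.add_left _

/-- **Homotopy invariance** -/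
theorem theta_homotopy {U : CupC} (cy : Cyl U) (N M : Nul cy.W i) (e : cy.W.C)
    (h : N.x = M.x + cy.W.d e) :
    U.Coh (theta (N.map cy.r0) (M.map cy.r0) (cy.r0.f e))
      (theta (N.map cy.r1) (M.map cy.r1) (cy.r1.f e)) := by
  rw [theta_map, theta_map]
  refine ⟨cy.s (theta N M e), ?_⟩
  have := cy.prism (theta N M e)
  rw [d_theta h, map_zero, add_zero] at this
  exact this.symm

end Nul

end CupC

end Vale.Agent.P263.TJ
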