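import Vale.Agent.P263.TJ.TSet
import Vale.Agent.P263.TJ.SCup

/-!
# P263, block EB: extension of singular cochains over open covers

* `inU U` : the simplices with image in `U`; `cover_small` : the small simplices theorem for an open
  cover.
* `extJ hj u` : extension by zero of a cochain along an embedding.
* `vanish_more` : a cochain `c` which vanishes on the simplices which are small of order `U i`, and
  with `d c = 0` on the simplices in `S = ⋃ U i`, can be changed by a coboundary such that it
  vanishes on the simplices in `S`.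
* `ext_over` : a cochain on an open subset `O` which vanishes on the simplices in `O ∩ U1` extends
  to the whole space, with prescribed coboundary.
-/

open Finset

namespace Vale.Agent.P263.TJ

open Vale.Agent.P263.S Vale.Agent.P263.E Vale.Agent.P263.H83 Vale.Agent.P263.G2

variable {Y O : Type} [TopologicalSpace Y] [TopologicalSpace O]

/-! ### simplices in a subset -/

/-- the simplices with image in `U` -/
def inU (U : Set Y) : Sb (sing Y) where
  mem {p} σ := ∀ t : Dl p, toC σ t ∈ U
  map_mem f _ h t := h (dmap f t)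

theorem inU_mono {U V : Set Y} (h : U ⊆ V) {p : ℕ} {σ : (sing Y).obj p} (hσ : (inU U).mem σ) :
    (inU V).mem σ := fun t => h (hσ t)

theorem loc_cover {ι : Type} {U : ι → Set Y} (hU : ∀ i, IsOpen (U i)) (hc : ∀ y, ∃ i, y ∈ U i) :
    (TSet.sing Y).Loc fun n => {σ : C(Dl n, Y) | ∃ i, ∀ t, σ t ∈ U i} where
  pull f _ h := by
    obtain ⟨i, hi⟩ := h
    exact ⟨i, fun t => hi (f t)⟩
  nhd x t := by
    obtain ⟨i, hi⟩ := hc ((show C(Dl _, Y) from x) t)
    exact ⟨(show C(Dl _, Y) from x) ⁻¹' U i, (hU i).preimage (ContinuousMap.continuous _), hi,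
      fun f hf => ⟨i, fun s => hf s⟩⟩

/-- the small simplices theorem for an open cover -/
theorem cover_small {ι : Type} {U : ι → Set Y} (hU : ∀ i, IsOpen (U i)) (hc : ∀ y, ∃ i, y ∈ U i)
    {u : Cc (sing Y)} (hu : Cc.d u = 0) (h0 : ∀ i, Vn (inU (U i)) u) :
    ∃ v : Cc (sing Y), Cc.d v = u ∧ ∀ i, Vn (inU (U i)) v := by
  obtain ⟨v, h1, h2⟩ := TSet.exists_small_cochain (loc_cover hU hc) u hu (by
    rintro p σ ⟨i, hi⟩
    exact h0 i p σ hi)
  exact ⟨v, h1, fun i p σ h => h2 p σ ⟨i, h⟩⟩

/-! ### extension by zero -/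

/-- a map with image in the image of an embedding lifts -/
noncomputable def liftE {j : C(O, Y)} (hj : Topology.IsEmbedding j) {T : Type} [TopologicalSpace T]
    (σ : C(T, Y)) (h : ∀ t, σ t ∈ Set.range j) : C(T, O) :=
  ⟨fun t => (h t).choose, by
    rw [hj.isInducing.continuous_iff]
    have h1 : (fun t => j (h t).choose) = σ := funext fun t => (h t).choose_spec
    show Continuous fun t => j (h t).choose
    rw [h1]
    exact σ.continuous⟩

theorem liftE_spec {j : C(O, Y)} (hj : Topology.IsEmbedding j) {T : Type} [TopologicalSpace T]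
    (σ : C(T, Y)) (h : ∀ t, σ t ∈ Set.range j) : j.comp (liftE hj σ h) = σ :=
  ContinuousMap.ext fun t => (h t).choose_spec

theorem liftE_comp {j : C(O, Y)} (hj : Topology.IsEmbedding j) {T : Type} [TopologicalSpace T]
    (τ : C(T, O)) (h : ∀ t, (j.comp τ) t ∈ Set.range j) : liftE hj (j.comp τ) h = τ :=
  ContinuousMap.ext fun t => hj.injective (h t).choose_spec

open Classical in
/-- extension by zero -/
noncomputable def extJ {j : C(O, Y)} (hj : Topology.IsEmbedding j) (u : Cc (sing O)) :
    Cc (sing Y) := fun p σ =>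
  if h : ∀ t, toC σ t ∈ Set.range j then u p (ofC (liftE hj (toC σ) h)) else 0

theorem pull_extJ {j : C(O, Y)} (hj : Topology.IsEmbedding j) (u : Cc (sing O)) :
    Cc.pull (singMap j) (extJ hj u) = u := by
  funext p τ
  show extJ hj u p ((singMap j).app τ) = u p τ
  have h : ∀ t, toC ((singMap j).app τ) t ∈ Set.range j := fun t => ⟨_, rfl⟩
  rw [extJ, dif_pos h]
  exact congrArg (u p) (liftE_comp hj (toC τ) h)

theorem Vn_extJ {j : C(O, Y)} (hj : Topology.IsEmbedding j) {u : Cc (sing O)} {A : Sb (sing Y)}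
    (h : Vn (A.comap (singMap j)) u) : Vn A (extJ hj u) := by
  intro p σ hσ
  rw [extJ]
  split_ifs with h1
  · refine h p _ ?_
    show A.mem (ofC (j.comp (liftE hj (toC σ) h1)))
    rw [liftE_spec]
    exact hσ
  · rfl

/-- the simplices in the image come from the source -/
theorem exists_of_inU_range {j : C(O, Y)} (hj : Topology.IsEmbedding j) {p : ℕ}
    {σ : (sing Y).obj p} (h : (inU (Set.range j)).mem σ) :
    ∃ τ : (sing O).obj p, (singMap j).app τ = σ :=
  ⟨ofC (liftE hj (toC σ) h), liftE_spec hj (toC σ) h⟩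

theorem Vn_range_iff {j : C(O, Y)} (hj : Topology.IsEmbedding j) {u : Cc (sing Y)} :
    Vn (inU (Set.range j)) u ↔ Cc.pull (singMap j) u = 0 := by
  constructor
  · intro h
    funext p τ
    exact h p _ fun t => ⟨_, rfl⟩
  · intro h p σ hσ
    obtain ⟨τ, rfl⟩ := exists_of_inU_range hj hσ
    exact congrFun (congrFun h p) τ

theorem isDeg_extJ {j : C(O, Y)} (hj : Topology.IsEmbedding j) {u : Cc (sing O)} {m : ℕ}
    (hu : Cc.IsDeg m u) : Cc.IsDeg m (extJ hj u) := by
  intro p hp σ
  rw [extJ]
  split_ifs with h1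
  · exact hu p hp _
  · rfl

/-! ### vanishing on more simplices -/

/-- **From small simplices to all simplices of a subset.** -/
theorem vanish_more {ι : Type} {S : Set Y} {U : ι → Set Y} (hU : ∀ i, IsOpen (U i))
    (hS : S ⊆ ⋃ i, U i) {c : Cc (sing Y)} (hd : Vn (inU S) (Cc.d c))
    (h0 : ∀ i, Vn (inU (U i)) c) :
    ∃ w : Cc (sing Y), (∀ i, Vn (inU (U i)) w) ∧ Vn (inU S) (c + Cc.d w) := by
  set j : C(S, Y) := ⟨Subtype.val, continuous_subtype_val⟩ with hjdef
  have hj : Topology.IsEmbedding j := Topology.IsEmbedding.subtypeVal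
  have hr : Set.range j = S := Subtype.range_coe
  obtain ⟨v, h1, h2⟩ := cover_small (Y := S) (U := fun i => Subtype.val ⁻¹' U i)
    (fun i => (hU i).preimage continuous_subtype_val)
    (fun y => by
      obtain ⟨i, hi⟩ := Set.mem_iUnion.1 (hS y.2)
      exact ⟨i, hi⟩) (u := Cc.pull (singMap j) c) (by
      rw [← pull_d]
      exact (Vn_range_iff hj).1 (by rwa [hr]))
    fun i p σ h => h0 i p _ h
  refine ⟨extJ hj v, fun i => Vn_extJ hj fun p σ h => h2 i p σ h, ?_⟩
  have h3 : Vn (inU (Set.range j)) (c + Cc.d (extJ hj v)) := by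
    rw [Vn_range_iff hj, pull_add, pull_d, pull_extJ, h1]
    funext p τ
    exact CharTwo.add_self_eq_zero _
  rwa [hr] at h3

/-! ### extension over an open cover by two sets -/

/-- **Extension with prescribed coboundary.** -/
theorem ext_over {j : C(O, Y)} (hj : Topology.IsOpenEmbedding j) {U1 : Set Y} (hU1 : IsOpen U1)
    (hc : ∀ y, y ∈ Set.range j ∨ y ∈ U1) {B : Cc (sing O)}
    (hB : Vn ((inU U1).comap (singMap j)) B) {G : Cc (sing Y)} (hG : Cc.d G = 0)
    (hG1 : Vn (inU U1) G) (hGB : Cc.pull (singMap j) G = Cc.d B) :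
    ∃ b : Cc (sing Y), Cc.pull (singMap j) b = B ∧ Vn (inU U1) b ∧ Cc.d b = G := by
  have hje := hj.isEmbedding
  have h1 : Vn (inU U1) (extJ hje B) := Vn_extJ hje hB
  have h2 : Vn (inU U1) (Cc.d (extJ hje B) + G) := h1.d.add hG1
  have h3 : Vn (inU (Set.range j)) (Cc.d (extJ hje B) + G) := by
    rw [Vn_range_iff hje, pull_add, pull_d, pull_extJ, hGB]
    funext p τ
    exact CharTwo.add_self_eq_zero _
  obtain ⟨v, h4, h5⟩ := cover_small (Y := Y) (U := fun i : Bool => if i then Set.range j else U1)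
    (fun i => by
      cases i
      · exact hU1
      · exact hj.isOpen_range)
    (fun y => (hc y).elim (fun h => ⟨true, h⟩) fun h => ⟨false, h⟩)
    (u := Cc.d (extJ hje B) + G) (by rw [d_add, d_d, hG, add_zero])
    (fun i => by
      cases i
      · exact h2
      · exact h3)
  refine ⟨extJ hje B + v, ?_, h1.add (h5 false), ?_⟩
  · rw [pull_add, pull_extJ, (Vn_range_iff hje).1 (h5 true), add_zero]
  · rw [d_add, h4]
    funext p σ
    show Cc.d (extJ hje B) p σ + (Cc.d (extJ hje B) p σ + G p σ) = G p σ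
    rw [← add_assoc, CharTwo.add_self_eq_zero, zero_add]

end Vale.Agent.P263.TJ
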