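import Vale.Agent.P263.TJ.TSet
import Vale.Agent.P263.TJ.SCup
import Vale.Agent.P263.TJ.Gamma

/-!
# P263, block EB: functional squares and small simplices

`Strict A' a M Sm` : maps `a : U → Gam l A` and `M : U → B` such that over a small simplex `u`
either `a u` consists of one sheet with the simplex `M u`, or all simplices of `B` which occur lie in
`A'`.  Then every functional square of `M` of a cocycle which vanishes on `A'` is cohomologous to a
functional square of `a` (of the additive extension, with the quadratic correction `KK`):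
`Strict.exists_FSqD`.
-/

open Finset

namespace Vale.Agent.P263.TJ

open Vale.Agent.P263.S Vale.Agent.P263.E Vale.Agent.P263.H83

variable {l : LabS} {B : SS} {A : Sb B}

/-- the empty configurations -/
def Gam.base (l : LabS) (A : Sb B) : Sb (Gam l A) where
  mem F := F.1 = ∅
  map_mem := by
    intro p q f F h
    have h1 : ∀ a, a ∉ gmap l A f F.1 := fun a ha => by
      obtain ⟨⟨b, hb, -⟩, -⟩ := mem_gmap.1 ha
      rw [h] at hb
      exact absurd hb (notMem_empty b)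
    exact eq_empty_iff_forall_notMem.2 h1

theorem Gam.hat_vn (y : Cc B) : Vn (Gam.base l A) (hat l A y) := fun _ F h => by
  have h' : F.1 = ∅ := h
  rw [hat_apply, h', sum_empty]

theorem Gam.Tr_vn (c : Cc (Pr l B)) : Vn (Gam.base l A) (Tr A c) := fun _ F h => by
  have h' : F.1 = ∅ := h
  rw [Tr_apply, h', sum_empty]

theorem Gam.KK_vn (j m : ℕ) (y : Cc B) : Vn (Gam.base l A) (KK l A j m y) := fun p F h =>
  Gam.Tr_vn _ p F h

/-- degrees -/
theorem isDeg_hat {n : ℕ} {y : Cc B} (hy : Cc.IsDeg n y) : Cc.IsDeg n (hat l A y) :=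
  fun p hp _ => sum_eq_zero fun a _ => hy p hp a.2

theorem isDeg_Tr {n : ℕ} {c : Cc (Pr l B)} (hc : Cc.IsDeg n c) : Cc.IsDeg n (Tr A c) :=
  fun p hp _ => by
    rw [Tr_apply]
    refine sum_eq_zero fun a _ => sum_eq_zero fun b _ => ?_
    unfold ex
    split_ifs
    · exact hc p hp _
    · rfl

namespace TSet

variable {X : TSet} {Sm : ∀ n : ℕ, Set (X.obj n)}

/-- the small simplices -/
noncomputable def Loc.sb (h : X.Loc Sm) : Sb X.ss where
  mem {n} x := x ∈ Sm n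
  map_mem := by
    intro p q f x hx
    exact h.pull _ hx

/-- `exists_small_cochain` with a sub simplicial set; homogeneous version -/
theorem Loc.exists_deg (h : X.Loc Sm) {n : ℕ} {u : Cc X.ss} (hu : Cc.d u = 0) (h0 : Vn h.sb u)
    (hn : Cc.IsDeg (n + 1) u) : ∃ v : Cc X.ss, Cc.d v = u ∧ Vn h.sb v ∧ Cc.IsDeg n v := by
  obtain ⟨v, hv, hv0⟩ := exists_small_cochain h u hu h0
  refine ⟨Cc.comp n v, ?_, Cc.vn_comp (A := h.sb) hv0 n, Cc.isDeg_comp n v⟩
  rw [← Cc.comp_d, hv, Cc.comp_eq hn]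

theorem Loc.exists' (h : X.Loc Sm) {u : Cc X.ss} (hu : Cc.d u = 0) (h0 : Vn h.sb u) :
    ∃ v : Cc X.ss, Cc.d v = u ∧ Vn h.sb v := exists_small_cochain h u hu h0

end TSet

/-- `a` and `M` agree strictly over the small simplices, up to `A'` -/
structure Strict {U : TSet} (A' : Sb B) (a : SS.Map U.ss (Gam l A)) (M : SS.Map U.ss B)
    (Sm : ∀ n : ℕ, Set (U.obj n)) : Prop where
  loc : U.Loc Sm
  cases : ∀ {p : ℕ} (u : U.ss.obj p), u ∈ Sm p →
    (∃ c : l.L.obj p, (a.app u).1 = {(c, M.app u)}) ∨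
      ((∀ s ∈ (a.app u).1, A'.mem s.2) ∧ A'.mem (M.app u))

namespace Strict

variable {U : TSet} {A' : Sb B} {a : SS.Map U.ss (Gam l A)} {M : SS.Map U.ss B}
  {Sm : ∀ n : ℕ, Set (U.obj n)}

theorem hat_small (hs : Strict A' a M Sm) {y : Cc B} (hy : Vn A' y) {p : ℕ} (u : U.ss.obj p)
    (hu : u ∈ Sm p) : Cc.pull a (hat l A y) p u = Cc.pull M y p u := by
  rw [pull_apply, pull_apply, hat_apply]
  rcases hs.cases u hu with ⟨c, hc⟩ | ⟨h1, h2⟩
  · rw [hc, sum_singleton]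
  · rw [hy p _ h2]
    exact sum_eq_zero fun s h => hy p _ (h1 s h)

theorem KK_small (hs : Strict A' a M Sm) {y : Cc B} (hy : Vn A' y) (j m : ℕ) {p : ℕ}
    (u : U.ss.obj p) (hu : u ∈ Sm p) : Cc.pull a (KK l A j m y) p u = 0 := by
  show Tr A (∑ k ∈ range (p + 1), qt l j m y k) p (a.app u) = 0
  rw [Tr_apply]
  rcases hs.cases u hu with ⟨c, hc⟩ | ⟨h1, -⟩
  · rw [hc, sum_singleton, sum_singleton, ex_self]
  · refine sum_eq_zero fun s h => sum_eq_zero fun t _ => ?_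
    unfold ex
    split_ifs with hst
    · exact Vn.sum (fun k _ => qt_vn (l := l) hy j m k) p _ (Or.inl (h1 s h))
    · rfl

/-- the two values agree on small simplices -/
theorem val_small (hs : Strict A' a M Sm) {b c : Cc B} (hb : Vn A' b) (hc : Vn A' c) (i : ℕ)
    (e : Cc U.ss) {η : Cc U.ss} (hη0 : Vn hs.loc.sb η) :
    Vn hs.loc.sb ((Cc.cup i e e + Cc.cup (i + 1) e (Cc.d e) + Cc.pull M c) +
        (Cc.cup i (e + η) (e + η) + Cc.cup (i + 1) (e + η) (Cc.d (e + η)) +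
          Cc.pull a (hat l A c + KK l A (i + 1) 0 b))) := by
  have h1 : Vn hs.loc.sb (Cc.pull M c + Cc.pull a (hat l A c + KK l A (i + 1) 0 b)) := by
    intro p u hu
    show Cc.pull M c p u + (Cc.pull a (hat l A c) p u + Cc.pull a (KK l A (i + 1) 0 b) p u) = 0
    rw [hs.hat_small hc u hu, hs.KK_small hb _ _ u hu, add_zero]
    exact CharTwo.add_self_eq_zero _
  have h2 : Vn hs.loc.sb (Cc.cup i e η + Cc.cup i η e + Cc.cup i η η +
      (Cc.cup (i + 1) e (Cc.d η) + Cc.cup (i + 1) η (Cc.d e) +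
        Cc.cup (i + 1) η (Cc.d η))) :=
    (((Vn.cup_right i e hη0).add (Vn.cup_left i hη0 e)).add (Vn.cup_left i hη0 η)).add
      (((Vn.cup_right (i + 1) e hη0.d).add (Vn.cup_left (i + 1) hη0 _)).add
        (Vn.cup_left (i + 1) hη0 _))
  have h3 : (Cc.cup i e e + Cc.cup (i + 1) e (Cc.d e) + Cc.pull M c) +
        (Cc.cup i (e + η) (e + η) + Cc.cup (i + 1) (e + η) (Cc.d (e + η)) +
          Cc.pull a (hat l A c + KK l A (i + 1) 0 b)) =
      (Cc.cup i e η + Cc.cup i η e + Cc.cup i η η +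
      (Cc.cup (i + 1) e (Cc.d η) + Cc.cup (i + 1) η (Cc.d e) +
        Cc.cup (i + 1) η (Cc.d η))) +
      (Cc.pull M c + Cc.pull a (hat l A c + KK l A (i + 1) 0 b)) := by
    rw [d_add]
    simp only [cup_add_left, cup_add_right]
    have e1 := cc_add_self (Cc.cup i e e)
    have e2 := cc_add_self (Cc.cup (i + 1) e (Cc.d e))
    obtain ⟨x, hx⟩ : ∃ x, x = Cc.cup i e e := ⟨_, rfl⟩
    obtain ⟨y, hy⟩ : ∃ y, y = Cc.cup (i + 1) e (Cc.d e) := ⟨_, rfl⟩
    rw [← hx] at e1 ⊢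
    rw [← hy] at e2 ⊢
    calc _ = (Cc.cup i e η + Cc.cup i η e + Cc.cup i η η +
          (Cc.cup (i + 1) e (Cc.d η) + Cc.cup (i + 1) η (Cc.d e) +
          Cc.cup (i + 1) η (Cc.d η))) +
          (Cc.pull M c + Cc.pull a (hat l A c + KK l A (i + 1) 0 b)) + (x + x) + (y + y) := by
          abel
      _ = _ := by rw [e1, e2, add_zero, add_zero]
  rw [h3]
  exact h2.add h1

/-- the difference of the two pull-backs of `b` -/
theorem exists_eta (hs : Strict A' a M Sm) {n : ℕ} {b : Cc B} (hbA : Vn A b) (hb : Vn A' b)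
    (db : Cc.d b = 0) (hbn : Cc.IsDeg (n + 1) b) :
    ∃ η : Cc U.ss, Cc.d η = Cc.pull a (hat l A b) + Cc.pull M b ∧ Vn hs.loc.sb η ∧
      Cc.IsDeg n η :=
  hs.loc.exists_deg (n := n) (u := Cc.pull a (hat l A b) + Cc.pull M b)
    (by rw [d_add, ← pull_d, ← pull_d, d_hat hbA, db, hat_zero, pull_zero, pull_zero, add_zero])
    (fun p u hu => by
      show Cc.pull a (hat l A b) p u + Cc.pull M b p u = 0
      rw [hs.hat_small hb u hu]
      exact CharTwo.add_self_eq_zero _)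
    (((isDeg_hat hbn).pull a).add (hbn.pull M))

/-- **The functional squares of `M` and `a` agree**, from `M` to `a`. -/
theorem exists_FSqD (hs : Strict A' a M Sm) (P : Sb U.ss)
    (hP : ∀ {p : ℕ} (u : U.ss.obj p), P.mem u → u ∈ Sm p)
    (hPM : ∀ {p : ℕ} (u : U.ss.obj p), P.mem u → A.mem (M.app u))
    (hPa : ∀ {p : ℕ} (u : U.ss.obj p), P.mem u → (Gam.base l A).mem (a.app u)) {i n : ℕ}
    (D : CupC.FSqD (Cc.relHom M P A hPM) i) (hb : Vn A' (Cc.val D.b)) (hc : Vn A' (Cc.val D.c))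
    (hbn : Cc.IsDeg (n + 1) (Cc.val D.b)) (hen : Cc.IsDeg n (Cc.val D.e)) :
    ∃ D' : CupC.FSqD (Cc.relHom a P (Gam.base l A) hPa) i,
      Cc.val D'.b = hat l A (Cc.val D.b) ∧
      Cc.val D'.c = hat l A (Cc.val D.c) + KK l A (i + 1) 0 (Cc.val D.b) ∧
      Cc.IsDeg n (Cc.val D'.e) ∧ (Cc.rel P).Coh D.val D'.val := by
  obtain ⟨b, hbdef⟩ : ∃ b, b = Cc.val D.b := ⟨_, rfl⟩
  obtain ⟨c, hcdef⟩ : ∃ c, c = Cc.val D.c := ⟨_, rfl⟩
  obtain ⟨e, hedef⟩ : ∃ e, e = Cc.val D.e := ⟨_, rfl⟩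
  have hbA : Vn A b := by rw [hbdef]; exact Cc.vn_val D.b
  have hcA : Vn A c := by rw [hcdef]; exact Cc.vn_val D.c
  have heP : Vn P e := by rw [hedef]; exact Cc.vn_val D.e
  have db : Cc.d b = 0 := by rw [hbdef]; exact congrArg Cc.val D.d_b
  have de : Cc.d e = Cc.pull M b := by rw [hedef, hbdef]; exact congrArg Cc.val D.d_e
  have dc : Cc.cup (i + 1) b b = Cc.d c := by
    rw [hcdef, hbdef]; exact congrArg Cc.val D.d_c
  rw [← hbdef] at hb hbn
  rw [← hcdef] at hc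
  rw [← hedef] at hen
  have hP' : ∀ {w : Cc U.ss}, Vn hs.loc.sb w → Vn P w := fun hw => hw.mono fun u hu => hP u hu
  obtain ⟨η, hη, hη0, hηn⟩ := hs.exists_eta hbA hb db hbn
  have de' : Cc.d (e + η) = Cc.pull a (hat l A b) := by
    rw [d_add, de, hη, add_comm (Cc.pull a _), ← add_assoc, cc_add_self, zero_add]
  have dc' : Cc.cup (i + 1) (hat l A b) (hat l A b) =
      Cc.d (hat l A c + KK l A (i + 1) 0 b) := by
    rw [d_add, d_hat hcA, d_KK_sq hbA db, ← dc, add_comm (Cc.cup _ _ _), ← add_assoc, cc_add_self,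
      zero_add]
  have hePη : Vn P (e + η) := heP.add (hP' hη0)
  let D' : CupC.FSqD (Cc.relHom a P (Gam.base l A) hPa) i :=
    { b := Cc.mkRel _ (hat l A b) (Gam.hat_vn b)
      e := Cc.mkRel _ (e + η) hePη
      c := Cc.mkRel _ (hat l A c + KK l A (i + 1) 0 b) ((Gam.hat_vn c).add (Gam.KK_vn _ _ b))
      d_b := Cc.rel_ext (by
        show Cc.d (hat l A b) = 0
        rw [d_hat hbA, db, hat_zero])
      d_e := Cc.rel_ext de'
      d_c := Cc.rel_ext dc' }
  have hsm : Vn hs.loc.sb (Cc.val (D.val + D'.val)) := by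
    have h1 := hs.val_small hb hc i e hη0
    subst hbdef hcdef hedef
    exact h1
  have hcoc : Cc.d (Cc.val (D.val + D'.val)) = 0 := by
    have h1 : (Cc.rel P).d (D.val + D'.val) = 0 := by rw [map_add, D.d_val, D'.d_val, add_zero]
    exact congrArg Cc.val h1
  obtain ⟨ζ, hζ, hζ0⟩ := hs.loc.exists' hcoc hsm
  refine ⟨D', by rw [← hbdef]; rfl, by rw [← hbdef, ← hcdef]; rfl, hen.add hηn,
    Cc.mkRel P ζ (hP' hζ0), Cc.rel_ext ?_⟩
  exact hζ.symm

/-- **The functional squares of `M` and `a` agree**, from `a` to `M`. -/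
theorem exists_FSqD_rev (hs : Strict A' a M Sm) (P : Sb U.ss)
    (hP : ∀ {p : ℕ} (u : U.ss.obj p), P.mem u → u ∈ Sm p)
    (hPM : ∀ {p : ℕ} (u : U.ss.obj p), P.mem u → A.mem (M.app u))
    (hPa : ∀ {p : ℕ} (u : U.ss.obj p), P.mem u → (Gam.base l A).mem (a.app u)) {i n : ℕ}
    {b c : (Cc.rel A).C} (hb : Vn A' (Cc.val b)) (hc : Vn A' (Cc.val c))
    (db : (Cc.rel A).d b = 0) (dc : (Cc.rel A).cup (i + 1) b b = (Cc.rel A).d c)
    (hbn : Cc.IsDeg (n + 1) (Cc.val b))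
    (D' : CupC.FSqD (Cc.relHom a P (Gam.base l A) hPa) i)
    (hb' : Cc.val D'.b = hat l A (Cc.val b))
    (hc' : Cc.val D'.c = hat l A (Cc.val c) + KK l A (i + 1) 0 (Cc.val b))
    (hen : Cc.IsDeg n (Cc.val D'.e)) :
    ∃ D : CupC.FSqD (Cc.relHom M P A hPM) i, D.b = b ∧ D.c = c ∧ Cc.IsDeg n (Cc.val D.e) ∧
      (Cc.rel P).Coh D.val D'.val := by
  obtain ⟨e, hedef⟩ : ∃ e, e = Cc.val D'.e := ⟨_, rfl⟩
  have heP : Vn P e := by rw [hedef]; exact Cc.vn_val D'.e
  have db' : Cc.d (Cc.val b) = 0 := congrArg Cc.val db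
  have de : Cc.d e = Cc.pull a (hat l A (Cc.val b)) := by
    rw [hedef, ← hb']; exact congrArg Cc.val D'.d_e
  have hP' : ∀ {w : Cc U.ss}, Vn hs.loc.sb w → Vn P w := fun hw => hw.mono fun u hu => hP u hu
  obtain ⟨η, hη, hη0, hηn⟩ := hs.exists_eta (Cc.vn_val b) hb db' hbn
  have de' : Cc.d (e + η) = Cc.pull M (Cc.val b) := by
    rw [d_add, de, hη, ← add_assoc, cc_add_self, zero_add]
  have hePη : Vn P (e + η) := heP.add (hP' hη0)
  have hee : e + η + η = e := by rw [add_assoc, cc_add_self, add_zero]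
  let D : CupC.FSqD (Cc.relHom M P A hPM) i :=
    { b := b
      e := Cc.mkRel _ (e + η) hePη
      c := c
      d_b := db
      d_e := Cc.rel_ext de'
      d_c := dc }
  have hval : Cc.val (D.val + D'.val) =
      (Cc.cup i (e + η) (e + η) + Cc.cup (i + 1) (e + η) (Cc.d (e + η)) + Cc.pull M (Cc.val c)) +
        (Cc.cup i e e + Cc.cup (i + 1) e (Cc.d e) +
          Cc.pull a (hat l A (Cc.val c) + KK l A (i + 1) 0 (Cc.val b))) := by
    subst hedef
    rw [← hc']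
    rfl
  have hsm : Vn hs.loc.sb (Cc.val (D.val + D'.val)) := by
    have h1 := hs.val_small hb hc i (e + η) hη0
    rw [hee] at h1
    rw [hval]
    exact h1
  have hcoc : Cc.d (Cc.val (D.val + D'.val)) = 0 := by
    have h1 : (Cc.rel P).d (D.val + D'.val) = 0 := by rw [map_add, D.d_val, D'.d_val, add_zero]
    exact congrArg Cc.val h1
  obtain ⟨ζ, hζ, hζ0⟩ := hs.loc.exists' hcoc hsm
  refine ⟨D, rfl, rfl, ?_, Cc.mkRel P ζ (hP' hζ0), Cc.rel_ext hζ.symm⟩
  subst hedef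
  exact hen.add hηn

end Strict

end Vale.Agent.P263.TJ
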