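import Vale.Agent.P263.T0.Small2
import Vale.Agent.P263.G2.SingSS
import Vale.Agent.P263.TJ.SCo

/-!
# P263, block EB: small simplices in simplicial sets of continuous families

`TSet` : sets `X_n` of families over `Δⁿ` which can be pulled back along all continuous maps
`Δᵖ → Δ^q`.  `Local X Sm` : a class of small simplices, closed under pull-back, such that every
simplex is locally small.  Then every cocycle (mod 2) which vanishes on the small simplices is the
coboundary of a cochain which vanishes on the small simplices.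
-/

namespace Vale.Agent.P263.TJ

open Finsupp
open Vale.Agent.P263.S Vale.Agent.P263.E Vale.Agent.P263.T0.Tuple Vale.Agent.P263.T0.Small

/-- Sets of families over the simplices, with pull-backs along all continuous maps. -/
structure TSet where
  /-- the families over `Δⁿ` -/
  obj : ℕ → Type
  /-- the pull-back -/
  pull : ∀ {p q : ℕ}, C(Dl p, Dl q) → obj q → obj p
  pull_id : ∀ {p : ℕ} (x : obj p), pull (ContinuousMap.id _) x = x
  pull_comp : ∀ {p q r : ℕ} (f : C(Dl q, Dl r)) (g : C(Dl p, Dl q)) (x : obj r),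
    pull (f.comp g) x = pull g (pull f x)

namespace TSet

/-- the underlying simplicial set -/
noncomputable def ss (X : TSet) : SS where
  obj := X.obj
  map f x := X.pull (G2.dmap f) x
  map_id x := by rw [G2.dmap_id, X.pull_id]
  map_comp f g x := by rw [G2.dmap_comp, X.pull_comp]

theorem dmap_dl (n : ℕ) (i : Fin (n + 2)) : G2.dmap (dl n i) = fc n i := by
  apply ContinuousMap.ext
  intro t
  rw [G2.dmap_apply, fc_eq_map]
  have h : (⇑(dl n i) : Fin (n + 1) → Fin (n + 2)) = i.succAbove := by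
    funext j
    apply Fin.ext
    rw [dl_val]
    by_cases h : j.1 < i.1
    · rw [if_pos h, Fin.succAbove_of_castSucc_lt i j (by rwa [Fin.lt_def])]
      rfl
    · rw [if_neg h, Fin.succAbove_of_le_castSucc i j (by rw [Fin.le_def]; exact not_lt.1 h)]
      rfl
  rw [h]

/-- the family of all continuous maps to a space -/
def sing (Y : Type) [TopologicalSpace Y] : TSet where
  obj p := C(Dl p, Y)
  pull f σ := σ.comp f
  pull_id _ := rfl
  pull_comp _ _ _ := rfl

theorem sing_ss (Y : Type) [TopologicalSpace Y] : (sing Y).ss = G2.sing Y := rfl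

/-- the product -/
def prod (X Y : TSet) : TSet where
  obj p := X.obj p × Y.obj p
  pull f x := (X.pull f x.1, Y.pull f x.2)
  pull_id x := by rw [X.pull_id, Y.pull_id]
  pull_comp f g x := by rw [X.pull_comp, Y.pull_comp]

theorem prod_ss (X Y : TSet) : (X.prod Y).ss = X.ss.prod Y.ss := rfl

/-! ### Chains -/

variable (X : TSet)

/-- chains, mod 2 -/
abbrev Ch (n : ℕ) : Type := X.obj n →₀ ZMod 2

variable {X}

theorem ch_add_self {n : ℕ} (c : X.Ch n) : c + c = 0 := by
  rw [← two_nsmul, ← Nat.cast_smul_eq_nsmul (ZMod 2)]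
  have : ((2 : ℕ) : ZMod 2) = 0 := rfl
  rw [this, zero_smul]

theorem ch_ext {n : ℕ} {M : Type*} [AddCommMonoid M] [Module (ZMod 2) M]
    {f g : X.Ch n →ₗ[ZMod 2] M} (h : ∀ σ, f (single σ 1) = g (single σ 1)) : f = g :=
  Finsupp.lhom_ext' fun v => LinearMap.ext_ring (h v)

/-- the boundary -/
noncomputable def bdr (n : ℕ) : X.Ch (n + 1) →ₗ[ZMod 2] X.Ch n :=
  linearCombination (ZMod 2) fun σ => ∑ i : Fin (n + 2), single (X.pull (fc n i) σ) 1

@[simp] theorem bdr_single (n : ℕ) (σ : X.obj (n + 1)) :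
    bdr n (single σ 1) = ∑ i : Fin (n + 2), single (X.pull (fc n i) σ) 1 := by
  simp [bdr]

/-- The chain `σ_*(c)` of a simplex `σ` and an affine chain `c`. -/
noncomputable def act {n k : ℕ} (σ : X.obj n) : L (Dl n) k →ₗ[ZMod 2] X.Ch k :=
  linearCombination (ZMod 2) fun v => single (X.pull (aff v) σ) 1

@[simp] theorem act_sg {n k : ℕ} (σ : X.obj n) (v : Fin (k + 1) → Dl n) :
    act σ (T0.Tuple.sg v) = single (X.pull (aff v) σ) 1 := by
  simp [act]

theorem act_bd {n k : ℕ} (σ : X.obj n) (c : L (Dl n) (k + 1)) :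
    bdr k (act σ c) = act σ (bd k c) := by
  have : (bdr k).comp (act (k := k + 1) σ) = (act σ).comp (bd k) := by
    refine T0.Tuple.hom_ext fun v => ?_
    rw [LinearMap.comp_apply, act_sg, bdr_single, LinearMap.comp_apply, bd_sg, map_sum]
    refine Finset.sum_congr rfl fun i _ => ?_
    rw [act_sg, ← X.pull_comp, fc, aff_comp]
    simp_rw [comb_vx]
  exact LinearMap.congr_fun this c

theorem act_pf {m n k : ℕ} (σ : X.obj m) (w : Fin (n + 1) → Dl m) (c : L (Dl n) k) :
    act σ (pf (comb w) c) = act (X.pull (aff w) σ) c := by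
  have : (act σ).comp (pf (k := k) (comb w)) = act (X.pull (aff w) σ) := by
    refine T0.Tuple.hom_ext fun v => ?_
    rw [LinearMap.comp_apply, pf_sg, act_sg, act_sg, ← X.pull_comp, aff_comp]
  exact LinearMap.congr_fun this c

/-- the subdivision -/
noncomputable def sd (n : ℕ) : X.Ch n →ₗ[ZMod 2] X.Ch n :=
  linearCombination (ZMod 2) fun σ => act σ (S br n (T0.Tuple.sg (vx n)))

/-- the homotopy -/
noncomputable def td (n : ℕ) : X.Ch n →ₗ[ZMod 2] X.Ch (n + 1) :=
  linearCombination (ZMod 2) fun σ => act σ (T br n (T0.Tuple.sg (vx n)))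

@[simp] theorem sd_single (n : ℕ) (σ : X.obj n) :
    sd n (single σ 1) = act σ (S br n (T0.Tuple.sg (vx n))) := by simp [sd]

@[simp] theorem td_single (n : ℕ) (σ : X.obj n) :
    td n (single σ 1) = act σ (T br n (T0.Tuple.sg (vx n))) := by simp [td]

theorem act_S {n k : ℕ} (σ : X.obj n) (c : L (Dl n) k) : act σ (S br k c) = sd k (act σ c) := by
  have : (act σ).comp (S (P := Dl n) br k) = (sd k).comp (act σ) := by
    refine T0.Tuple.hom_ext fun v => ?_
    rw [LinearMap.comp_apply, LinearMap.comp_apply, act_sg, sd_single, ← act_pf,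
      pf_S (P := Dl k) (Q := Dl n) br br (comb v) (fun w => comb_br v w), pf_sg]
    simp_rw [comb_vx]
  exact LinearMap.congr_fun this c

theorem act_T {n k : ℕ} (σ : X.obj n) (c : L (Dl n) k) : act σ (T br k c) = td k (act σ c) := by
  have : (act σ).comp (T (P := Dl n) br k) = (td k).comp (act σ) := by
    refine T0.Tuple.hom_ext fun v => ?_
    rw [LinearMap.comp_apply, LinearMap.comp_apply, act_sg, td_single, ← act_pf,
      pf_T (P := Dl k) (Q := Dl n) br br (comb v) (fun w => comb_br v w), pf_sg]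
    simp_rw [comb_vx]
  exact LinearMap.congr_fun this c

theorem act_vx (n : ℕ) (σ : X.obj n) : act σ (T0.Tuple.sg (vx n)) = single σ 1 := by
  rw [act_sg, aff_vx, X.pull_id]

/-- `sd` is a chain map. -/
theorem bdr_sd (n : ℕ) (c : X.Ch (n + 1)) : bdr n (sd (n + 1) c) = sd n (bdr n c) := by
  have : (bdr n).comp (sd (X := X) (n + 1)) = (sd n).comp (bdr n) := by
    refine ch_ext fun σ => ?_
    rw [LinearMap.comp_apply, sd_single, act_bd, bd_S, act_S, LinearMap.comp_apply, ← act_bd,
      act_vx]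
  exact LinearMap.congr_fun this c

/-- The chain homotopy. -/
theorem bdr_td (n : ℕ) (c : X.Ch (n + 1)) :
    bdr (n + 1) (td (n + 1) c) + td n (bdr n c) = c + sd (n + 1) c := by
  have : (bdr (n + 1)).comp (td (X := X) (n + 1)) + (td n).comp (bdr n) =
      LinearMap.id + sd (n + 1) := by
    refine ch_ext fun σ => ?_
    have h := congrArg (act σ) (bd_T (P := Dl (n + 1)) br n (T0.Tuple.sg (vx (n + 1))))
    rw [map_add, map_add, act_vx, act_T, ← act_bd, ← act_bd, act_vx] at h
    rw [LinearMap.add_apply, LinearMap.comp_apply, td_single, LinearMap.comp_apply, h,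
      LinearMap.add_apply, LinearMap.id_apply, sd_single]
  exact LinearMap.congr_fun this c

/-! ### Small simplices -/

variable (X)

/-- A class of small simplices. -/
structure Loc (Sm : ∀ n : ℕ, Set (X.obj n)) : Prop where
  pull : ∀ {p q : ℕ} (f : C(Dl p, Dl q)) {x : X.obj q}, x ∈ Sm q → X.pull f x ∈ Sm p
  nhd : ∀ {n : ℕ} (x : X.obj n) (t : Dl n), ∃ V : Set (Dl n), IsOpen V ∧ t ∈ V ∧
    ∀ {k : ℕ} (f : C(Dl k, Dl n)), (∀ s, f s ∈ V) → X.pull f x ∈ Sm k

variable {X} {Sm : ∀ n : ℕ, Set (X.obj n)}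

/-- the small chains -/
noncomputable def SubC (Sm : ∀ n : ℕ, Set (X.obj n)) (n : ℕ) : Submodule (ZMod 2) (X.Ch n) :=
  supported (ZMod 2) (ZMod 2) (Sm n)

theorem act_small (h : X.Loc Sm) {n k : ℕ} {σ : X.obj n} (hσ : σ ∈ Sm n) (c : L (Dl n) k) :
    act σ c ∈ SubC Sm k := by
  refine lin_supported (act σ) (s := Set.univ) (fun v _ => ?_) (by simp)
  rw [act_sg]
  exact single_mem_supported _ _ (h.pull _ hσ)

theorem bdr_small (h : X.Loc Sm) {n : ℕ} {c : X.Ch (n + 1)} (hc : c ∈ SubC Sm (n + 1)) :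
    bdr n c ∈ SubC Sm n := by
  refine lin_supported (bdr n) (fun σ hσ => ?_) hc
  rw [bdr_single]
  exact Submodule.sum_mem _ fun i _ => single_mem_supported _ _ (h.pull _ hσ)

theorem sd_small (h : X.Loc Sm) {n : ℕ} {c : X.Ch n} (hc : c ∈ SubC Sm n) :
    sd n c ∈ SubC Sm n := by
  refine lin_supported (sd n) (fun σ hσ => ?_) hc
  rw [sd_single]
  exact act_small h hσ _

theorem td_small (h : X.Loc Sm) {n : ℕ} {c : X.Ch n} (hc : c ∈ SubC Sm n) :
    td n c ∈ SubC Sm (n + 1) := by
  refine lin_supported (td n) (fun σ hσ => ?_) hc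
  rw [td_single]
  exact act_small h hσ _

theorem sd_iter_small (h : X.Loc Sm) {n : ℕ} {c : X.Ch n} (hc : c ∈ SubC Sm n) (m : ℕ) :
    (sd n)^[m] c ∈ SubC Sm n := by
  induction m with
  | zero => exact hc
  | succ m ih => rw [Function.iterate_succ_apply']; exact sd_small h ih

theorem act_S_iter {n k : ℕ} (σ : X.obj n) (c : L (Dl n) k) (m : ℕ) :
    act σ ((S (P := Dl n) br k)^[m] c) = (sd k)^[m] (act σ c) := by
  induction m with
  | zero => rfl
  | succ m ih => rw [Function.iterate_succ_apply', Function.iterate_succ_apply', act_S, ih]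

/-- One simplex becomes small. -/
theorem exists_small_single (h : X.Loc Sm) {n : ℕ} (σ : X.obj n) :
    ∃ m, (sd n)^[m] (single σ 1) ∈ SubC Sm n := by
  choose V hV htV hsm using fun t : Dl n => h.nhd σ t
  obtain ⟨δ, hδ, hball⟩ := lebesgue_number_lemma_of_metric (s := (Set.univ : Set (Dl n)))
    isCompact_univ (c := V) hV (fun x _ => Set.mem_iUnion.2 ⟨x, htV x⟩)
  have hq : (n : ℝ) / (n + 1) < 1 := by
    rw [div_lt_one (by positivity)]
    linarith
  obtain ⟨m, hm⟩ := exists_pow_lt_of_lt_one hδ hq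
  refine ⟨m, ?_⟩
  have h1 : T0.Tuple.sg (vx n) ∈
      supported (ZMod 2) (ZMod 2) {v : Fin (n + 1) → Dl n | Near 1 v} := by
    refine single_mem_supported _ _ fun i j => ?_
    refine dist_le zero_le_one fun l => ?_
    rw [abs_le]
    have a := stdSimplex.zero_le (vx n i) l
    have b := stdSimplex.zero_le (vx n j) l
    have a' := stdSimplex.le_one (vx n i) l
    have b' := stdSimplex.le_one (vx n j) l
    constructor <;> linarith
  have h2 := S_iter_near zero_le_one h1 m
  rw [mul_one] at h2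
  rw [← act_vx, ← act_S_iter]
  refine lin_supported (act σ) (fun v hv => ?_) h2
  rw [act_sg]
  refine single_mem_supported _ _ ?_
  obtain ⟨i, hi⟩ := hball (v 0) (Set.mem_univ _)
  refine hsm i (aff v) fun t => ?_
  have h3 : aff v t ∈ Metric.ball (v 0) δ := by
    rw [Metric.mem_ball, dist_comm]
    exact (dom_comb v t (v 0) _ fun j => hv 0 j).trans_lt hm
  exact hi h3

/-- **Small simplices**: every chain becomes small. -/
theorem exists_small (h : X.Loc Sm) {n : ℕ} (c : X.Ch n) : ∃ m, (sd n)^[m] c ∈ SubC Sm n := by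
  have hlin : ∀ (m : ℕ), (sd (X := X) n)^[m] = ⇑((sd (X := X) n) ^ m) := fun m => by
    funext c
    rw [Module.End.pow_apply]
  induction c using Finsupp.induction_linear with
  | zero => exact ⟨0, Submodule.zero_mem _⟩
  | add c c' h1 h1' =>
    obtain ⟨m, hm⟩ := h1
    obtain ⟨m', hm'⟩ := h1'
    refine ⟨m' + m, ?_⟩
    rw [hlin, map_add, ← hlin]
    refine Submodule.add_mem _ ?_ ?_
    · rw [Function.iterate_add_apply]; exact sd_iter_small h hm _
    · rw [add_comm m' m, Function.iterate_add_apply]; exact sd_iter_small h hm' _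
  | single σ a =>
    obtain ⟨m, hm⟩ := exists_small_single h σ
    refine ⟨m, ?_⟩
    have : (single σ a : X.Ch n) = a • single σ 1 := by rw [smul_single, smul_eq_mul, mul_one]
    rw [this, hlin, map_smul, ← hlin]
    exact Submodule.smul_mem _ _ hm

/-- the homotopy from the identity to the `m`-fold subdivision -/
noncomputable def tdm (n m : ℕ) (c : X.Ch n) : X.Ch (n + 1) :=
  ∑ j ∈ Finset.range m, td n ((sd n)^[j] c)

theorem tdm_small (h : X.Loc Sm) {n : ℕ} {c : X.Ch n} (hc : c ∈ SubC Sm n) (m : ℕ) :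
    tdm n m c ∈ SubC Sm (n + 1) :=
  Submodule.sum_mem _ fun j _ => td_small h (sd_iter_small h hc j)

theorem bdr_sd_iter (n : ℕ) (c : X.Ch (n + 1)) (m : ℕ) :
    bdr n ((sd (n + 1))^[m] c) = (sd n)^[m] (bdr n c) := by
  induction m with
  | zero => rfl
  | succ m ih => rw [Function.iterate_succ_apply', Function.iterate_succ_apply', bdr_sd, ih]

theorem bdr_tdm (n m : ℕ) (c : X.Ch (n + 1)) :
    bdr (n + 1) (tdm (n + 1) m c) + tdm n m (bdr n c) = c + (sd (n + 1))^[m] c := by
  induction m with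
  | zero =>
    simp only [tdm, Finset.range_zero, Finset.sum_empty, map_zero, add_zero,
      Function.iterate_zero, id_eq]
    exact (ch_add_self c).symm
  | succ m ih =>
    have h1 := bdr_td n ((sd (n + 1))^[m] c)
    rw [bdr_sd_iter] at h1
    have h2 : bdr (n + 1) (tdm (n + 1) (m + 1) c) + tdm n (m + 1) (bdr n c) =
        (bdr (n + 1) (tdm (n + 1) m c) + tdm n m (bdr n c)) +
          (bdr (n + 1) (td (n + 1) ((sd (n + 1))^[m] c)) + td n ((sd n)^[m] (bdr n c))) := by
      rw [tdm, tdm, Finset.sum_range_succ, Finset.sum_range_succ, map_add, tdm, tdm]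
      abel
    rw [h2, ih, h1, Function.iterate_succ_apply', add_assoc, ← add_assoc ((sd (n + 1))^[m] c),
      ch_add_self, zero_add]

/-- **Relative cycles modulo small chains are relative boundaries.** -/
theorem exists_of_bdr_small (h : X.Loc Sm) {n : ℕ} (c : X.Ch (n + 1))
    (hc : bdr n c ∈ SubC Sm n) :
    ∃ (e : X.Ch (n + 1)) (b : X.Ch (n + 2)), e ∈ SubC Sm (n + 1) ∧ c = e + bdr (n + 1) b := by
  obtain ⟨m, hm⟩ := exists_small h c
  refine ⟨tdm n m (bdr n c) + (sd (n + 1))^[m] c, tdm (n + 1) m c,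
    Submodule.add_mem _ (tdm_small h hc m) hm, ?_⟩
  have h1 := bdr_tdm n m c
  have h3 : c + (sd (n + 1))^[m] c + (sd (n + 1))^[m] c = c := by
    rw [add_assoc, ch_add_self, add_zero]
  have h4 : tdm n m (bdr n c) + (sd (n + 1))^[m] c + bdr (n + 1) (tdm (n + 1) m c) =
      (bdr (n + 1) (tdm (n + 1) m c) + tdm n m (bdr n c)) + (sd (n + 1))^[m] c := by abel
  rw [h4, h1, h3]

theorem Loc.zero (h : X.Loc Sm) (σ : X.obj 0) : σ ∈ Sm 0 := by
  obtain ⟨V, -, ht, hf⟩ := h.nhd σ (vx 0 0)
  have h1 := hf (ContinuousMap.id _) fun s => by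
    have : Unique (Fin (0 + 1)) := inferInstanceAs (Unique (Fin 1))
    rwa [show ContinuousMap.id (Dl 0) s = vx 0 0 from Subsingleton.elim _ _]
  rwa [X.pull_id] at h1

/-! ### Cochains -/

/-- the coboundary of a function cochain -/
noncomputable def cob (n : ℕ) (c : X.obj n → ZMod 2) (σ : X.obj (n + 1)) : ZMod 2 :=
  ∑ i : Fin (n + 2), c (X.pull (fc n i) σ)

/-- the linear functional of a cochain -/
noncomputable def ev {n : ℕ} (c : X.obj n → ZMod 2) : X.Ch n →ₗ[ZMod 2] ZMod 2 :=
  linearCombination (ZMod 2) c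

@[simp] theorem ev_single {n : ℕ} (c : X.obj n → ZMod 2) (σ : X.obj n) :
    ev c (single σ 1) = c σ := by simp [ev]

theorem ev_bdr {n : ℕ} (c : X.obj n → ZMod 2) (b : X.Ch (n + 1)) :
    ev c (bdr n b) = ev (cob n c) b := by
  have : (ev c).comp (bdr n) = ev (cob n c) := by
    refine ch_ext fun σ => ?_
    rw [LinearMap.comp_apply, bdr_single, map_sum, ev_single, cob]
    simp_rw [ev_single]
  exact LinearMap.congr_fun this b

theorem ev_small {n : ℕ} {c : X.obj n → ZMod 2} (h : ∀ σ ∈ Sm n, c σ = 0)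
    {b : X.Ch n} (hb : b ∈ SubC Sm n) : ev c b = 0 := by
  rw [SubC, supported_eq_span_single] at hb
  induction hb using Submodule.span_induction with
  | mem x hx => obtain ⟨a, ha, rfl⟩ := hx; rw [ev_single, h a ha]
  | zero => rw [map_zero]
  | add x y _ _ hx hy => rw [map_add, hx, hy, add_zero]
  | smul r x _ hx => rw [map_smul, hx, smul_zero]

/-- **The small simplices theorem for cochains**: a cocycle which vanishes on the small simplices
is the coboundary of a cochain which vanishes on the small simplices. -/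
theorem small_cochain (h : X.Loc Sm) {n : ℕ} (c : X.obj (n + 1) → ZMod 2)
    (h0 : ∀ σ ∈ Sm (n + 1), c σ = 0) (h1 : ∀ τ, cob (n + 1) c τ = 0) :
    ∃ b : X.obj n → ZMod 2, (∀ σ ∈ Sm n, b σ = 0) ∧ ∀ τ, cob n b τ = c τ := by
  let φ : (SubC Sm n) × X.Ch (n + 1) →ₗ[ZMod 2] X.Ch n :=
    LinearMap.coprod (SubC Sm n).subtype (bdr n)
  let ψ : (SubC Sm n) × X.Ch (n + 1) →ₗ[ZMod 2] ZMod 2 := (ev c).comp (LinearMap.snd _ _ _)
  have hcob : ∀ b, ev c (bdr (n + 1) b) = 0 := fun b => by
    rw [ev_bdr]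
    have : cob (n + 1) c = fun _ => 0 := funext h1
    rw [this]
    have h2 : ev (fun _ : X.obj (n + 2) => (0 : ZMod 2)) = 0 := ch_ext fun σ => by
      rw [ev_single, LinearMap.zero_apply]
    rw [h2, LinearMap.zero_apply]
  have hψ : ∀ v, φ v = 0 → ψ v = 0 := by
    rintro ⟨e, x⟩ hx
    have hx' : (e : X.Ch n) + bdr n x = 0 := hx
    have hx2 : bdr n x ∈ SubC Sm n := by
      have : bdr n x = (e : X.Ch n) := by
        rw [← add_zero (bdr n x), ← hx', add_comm (e : X.Ch n), ← add_assoc, ch_add_self,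
          zero_add]
      rw [this]
      exact e.2
    obtain ⟨e', b, he', rfl⟩ := exists_of_bdr_small h x hx2
    show ev c (e' + bdr (n + 1) b) = 0
    rw [map_add, hcob, add_zero, ev_small h0 he']
  obtain ⟨B, hB'⟩ := exists_functional2 (V := (SubC Sm n) × X.Ch (n + 1)) (W := X.Ch n) φ ψ hψ
  refine ⟨fun σ => B (single σ 1), fun σ hσ => ?_, fun τ => ?_⟩
  · have := hB' (⟨single σ 1, single_mem_supported _ _ hσ⟩, 0)
    simpa [φ, ψ] using this
  · have := hB' (0, single τ 1)
    have h3 : φ (0, single τ 1) = bdr n (single τ 1) := by simp [φ]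
    rw [h3, bdr_single, map_sum] at this
    rw [cob, this]
    show ev c (single τ 1) = c τ
    rw [ev_single]

theorem d_eq_cob (u : Cc X.ss) {p : ℕ} (σ : X.ss.obj (p + 1)) :
    Cc.d u (p + 1) σ = cob (X := X) p (u p) σ := by
  refine (d_succ_apply u σ).trans ?_
  show _ = ∑ i : Fin (p + 2), u p (X.pull (fc p i) σ)
  rw [Finset.sum_range]
  refine Finset.sum_congr rfl fun i _ => ?_
  rw [← dmap_dl]
  rfl

/-- Mixed degree form: a cocycle which vanishes on the small simplices is the coboundary of a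
cochain which vanishes on the small simplices. -/
theorem exists_small_cochain (h : X.Loc Sm) (u : Cc X.ss) (hu : Cc.d u = 0)
    (h0 : ∀ p, ∀ σ ∈ Sm p, u p σ = 0) :
    ∃ v : Cc X.ss, Cc.d v = u ∧ ∀ p, ∀ σ ∈ Sm p, v p σ = 0 := by
  have h1 : ∀ n : ℕ, ∃ b : X.obj n → ZMod 2, (∀ σ ∈ Sm n, b σ = 0) ∧
      ∀ τ, cob n b τ = u (n + 1) τ := fun n =>
    small_cochain h (u (n + 1)) (h0 (n + 1)) fun τ =>
      (d_eq_cob u τ).symm.trans (congrFun (congrFun hu (n + 2)) τ)
  choose b hb hb' using h1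
  refine ⟨b, ?_, hb⟩
  funext p σ
  cases p with
  | zero => exact (d_zero_apply (X := X.ss) b σ).trans (h0 0 σ (h.zero σ)).symm
  | succ p => exact (d_eq_cob (X := X) b σ).trans (hb' p σ)

end TSet

end Vale.Agent.P263.TJ
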