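import Vale.Agent.P263.TJ.FSq
import Mathlib.Algebra.Module.ZMod
import Mathlib.Tactic.Module

/-!
# P263, block K: the generalised functional square

`g : Hom V U`, a cocycle `b` of `V` with `b cup_i b = d c`, and `g b = s + d e` where `s` is of
suspension type: `Nar U M` is a class `N` of cochains of `U` (those of the form `x.s_M` on
`X x (Delta^1)^M` relative to the boundary of the cube) with `x cup_j y = 0` for `x, y` in `N`
and `j <= M` break points, which computes the cohomology of `U`.  For `i + 1 <= M` the cochain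
`theta = g c + q_i(e) + e cup_i s + s cup_i e` is a cocycle, and its class depends only on
`g`, on the class of `b` and on `c` (`ThD.val_coh`).
-/

namespace Vale.Agent.P263.TJ

namespace CupC

variable {A U V U' V' : CupC}

/-- cochain objects are vector spaces over `F_2` -/
abbrev zmod2 (A : CupC) : Module (ZMod 2) A.C :=
  AddCommGroup.zmodModule fun x => by rw [two_nsmul]; exact A.two x

attribute [local instance] zmod2

/-- cochains of suspension type -/
structure Nar (U : CupC) (M : ℕ) where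
  /-- the class of cochains -/
  N : AddSubgroup U.C
  d_mem : ∀ x ∈ N, U.d x ∈ N
  cup_N : ∀ j, j ≤ M → ∀ x ∈ N, ∀ y ∈ N, U.cup j x y = 0
  inj : ∀ s ∈ N, (∃ w, s = U.d w) → ∃ n ∈ N, s = U.d n
  surj : ∀ z, U.d z = 0 → ∃ n ∈ N, ∃ k, z + n = U.d k

/-- data of a generalised functional square -/
structure ThD (g : Hom V U) (i : ℕ) {M : ℕ} (N : Nar U M) where
  /-- the cocycle -/
  b : V.C
  /-- the part of its image which is of suspension type -/
  s : U.C
  /-- the correction -/
  e : U.C
  /-- the null cochain of its square -/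
  c : V.C
  d_b : V.d b = 0
  s_mem : s ∈ N.N
  g_b : g.f b = s + U.d e
  d_c : V.cup (i + 1) b b = V.d c

namespace ThD

variable {g : Hom V U} {i M : ℕ} {N : Nar U M}

/-- the generalised functional square -/
def val (D : ThD g i N) : U.C :=
  U.q i D.e + g.f D.c + U.cup (i + 1) D.e D.s + U.cup (i + 1) D.s D.e

theorem d_s (D : ThD g i N) : U.d D.s = 0 := by
  have h : U.d (g.f D.b) = U.d (D.s + U.d D.e) := by rw [D.g_b]
  rw [← g.f_d, D.d_b, map_zero, map_add, U.d_d, add_zero] at h
  exact h.symm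

theorem d_val (hi : i + 1 ≤ M) (D : ThD g i N) : U.d D.val = 0 := by
  have h1 := N.cup_N (i + 1) hi D.s D.s_mem D.s D.s_mem
  rw [val, map_add, map_add, map_add, U.d_q, ← g.f_d, ← D.d_c, g.f_cup, D.g_b, U.d_cup, U.d_cup,
    D.d_s]
  simp only [map_add, map_zero, AddMonoidHom.add_apply, AddMonoidHom.zero_apply, h1]
  refine (one_smul (ZMod 2) _).symm.trans ?_
  match_scalars <;> decide

/-- the value for `s = 0` is the functional square -/
theorem val_of_s_zero (D : ThD g i N) (h : D.s = 0) : D.val = U.q i D.e + g.f D.c := by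
  simp only [val, h, map_zero, AddMonoidHom.zero_apply, add_zero]

/-- the value for `e = 0` -/
theorem val_of_e_zero (D : ThD g i N) (h : D.e = 0) : D.val = g.f D.c := by
  simp only [val, h, q_zero, map_zero, AddMonoidHom.zero_apply, add_zero, zero_add]

/-- change of `b` in its class -/
def changeB (D : ThD g i N) (a : V.C) : ThD g i N where
  b := D.b + V.d a
  s := D.s
  e := D.e + g.f a
  c := D.c + V.q i a + V.cup (i + 1) D.b a + V.cup (i + 1) a D.b
  d_b := by rw [map_add, V.d_d, D.d_b, add_zero]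
  s_mem := D.s_mem
  g_b := by rw [map_add, D.g_b, map_add, g.f_d, add_assoc]
  d_c := by
    simp only [map_add, d_q, ← D.d_c, V.d_cup, D.d_b, map_zero,
      AddMonoidHom.add_apply, AddMonoidHom.zero_apply, zero_add]
    refine (one_smul (ZMod 2) _).symm.trans ?_
    match_scalars <;> decide

theorem val_changeB (D : ThD g i N) (a : V.C) : U.Coh (D.changeB a).val D.val := by
  refine ⟨U.cup (i + 1) D.e (g.f a), ?_⟩
  have hde : U.d D.e = g.f D.b + D.s := by
    rw [D.g_b]
    refine (one_smul (ZMod 2) _).symm.trans ?_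
    match_scalars <;> decide
  have q1 := U.q_add i D.e (g.f a)
  rw [hde] at q1
  have q2 : U.q i (D.e + g.f a) = U.q i D.e + U.q i (g.f a) +
      (U.d (U.cup (i + 1) D.e (g.f a)) + U.cup (i + 1) (g.f D.b + D.s) (g.f a) +
        U.cup (i + 1) (g.f a) (g.f D.b + D.s)) := by
    rw [← q1]
    refine (one_smul (ZMod 2) _).symm.trans ?_
    match_scalars <;> decide
  change U.q i (D.e + g.f a) + g.f (D.c + V.q i a + V.cup (i + 1) D.b a + V.cup (i + 1) a D.b) +
    U.cup (i + 1) (D.e + g.f a) D.s + U.cup (i + 1) D.s (D.e + g.f a) + D.val = _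
  rw [q2, val]
  simp only [map_add, AddMonoidHom.add_apply, g.f_cup, g.f_q]
  refine (one_smul (ZMod 2) _).symm.trans ?_
  match_scalars <;> decide

/-- change of `c` by a cocycle -/
def changeC (D : ThD g i N) (z : V.C) (hz : V.d z = 0) : ThD g i N :=
  { D with c := D.c + z, d_c := by rw [map_add, hz, add_zero, D.d_c] }

theorem val_changeC (D : ThD g i N) (z : V.C) (hz : V.d z = 0) :
    (D.changeC z hz).val = D.val + g.f z := by
  simp only [val, changeC, map_add]
  refine (one_smul (ZMod 2) _).symm.trans ?_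
  match_scalars <;> decide

/-- change of the decomposition `s + d e` -/
def changeS (D : ThD g i N) (n : U.C) (hn : n ∈ N.N) : ThD g i N :=
  { D with
    s := D.s + U.d n
    e := D.e + n
    s_mem := N.N.add_mem D.s_mem (N.d_mem n hn)
    g_b := by
      rw [D.g_b, map_add]
      refine (one_smul (ZMod 2) _).symm.trans ?_
      match_scalars <;> decide }

theorem val_changeS (hi : i + 1 ≤ M) (D : ThD g i N) (n : U.C) (hn : n ∈ N.N) :
    U.Coh (D.changeS n hn).val D.val := by
  refine ⟨U.cup (i + 1) n D.e, ?_⟩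
  have h1 : ∀ j, j ≤ i + 1 → ∀ x ∈ N.N, ∀ y ∈ N.N, U.cup j x y = 0 :=
    fun j hj x hx y hy => N.cup_N j (hj.trans hi) x hx y hy
  have hdn := N.d_mem n hn
  have q1 := U.q_add i D.e n
  have q2 : U.q i n = 0 := by
    rw [q, h1 i (Nat.le_succ i) n hn n hn, h1 (i + 1) le_rfl n hn _ hdn, add_zero]
  have q3 : U.q i (D.e + n) = U.q i D.e +
      (U.d (U.cup (i + 1) D.e n) + U.cup (i + 1) (U.d D.e) n + U.cup (i + 1) n (U.d D.e)) := by
    rw [← q1, q2]
    refine (one_smul (ZMod 2) _).symm.trans ?_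
    match_scalars <;> decide
  change U.q i (D.e + n) + g.f D.c + U.cup (i + 1) (D.e + n) (D.s + U.d n) +
    U.cup (i + 1) (D.s + U.d n) (D.e + n) + D.val = _
  rw [q3, val, U.d_cup, U.d_cup]
  simp only [map_add, AddMonoidHom.add_apply, h1 (i + 1) le_rfl n hn _ D.s_mem,
    h1 (i + 1) le_rfl n hn _ hdn, h1 (i + 1) le_rfl _ D.s_mem n hn,
    h1 (i + 1) le_rfl _ hdn n hn]
  refine (one_smul (ZMod 2) _).symm.trans ?_
  match_scalars <;> decide

/-- change of `e` by a cocycle -/
def changeE (D : ThD g i N) (z : U.C) (hz : U.d z = 0) : ThD g i N :=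
  { D with e := D.e + z, g_b := by rw [map_add, hz, add_zero, D.g_b] }

theorem val_changeE (hi : i + 1 ≤ M) (D : ThD g i N) (z : U.C) (hz : U.d z = 0) :
    U.Coh (D.changeE z hz).val D.val := by
  obtain ⟨n, hn, k, hk⟩ := N.surj z hz
  have hzn : U.d n = 0 := by
    have h := congrArg U.d hk
    rwa [map_add, hz, zero_add, U.d_d] at h
  have hsq : U.Coh (U.cup i z z) 0 := by
    have h := U.cup_self_coh i hz ⟨k, hk⟩
    rwa [N.cup_N i ((Nat.le_succ i).trans hi) n hn n hn] at h
  obtain ⟨w, hw⟩ := hsq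
  rw [add_zero] at hw
  have hgb : U.d (g.f D.b) = 0 := by rw [← g.f_d, D.d_b, map_zero]
  have hcomm := U.cup_comm_coh (i + 1) hgb hz
  refine ⟨w + U.cup (i + 1) D.e z + U.cup (i + 1 + 1) (g.f D.b) z, ?_⟩
  have hde : U.d D.e = g.f D.b + D.s := by
    rw [D.g_b]
    refine (one_smul (ZMod 2) _).symm.trans ?_
    match_scalars <;> decide
  have q1 := U.q_add i D.e z
  rw [hde] at q1
  have qz : U.q i z = U.cup i z z := by rw [q, hz, map_zero, add_zero]
  have q2 : U.q i (D.e + z) = U.q i D.e + U.cup i z z +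
      (U.d (U.cup (i + 1) D.e z) + U.cup (i + 1) (g.f D.b + D.s) z +
        U.cup (i + 1) z (g.f D.b + D.s)) := by
    rw [← q1, qz]
    refine (one_smul (ZMod 2) _).symm.trans ?_
    match_scalars <;> decide
  change U.q i (D.e + z) + g.f D.c + U.cup (i + 1) (D.e + z) D.s + U.cup (i + 1) D.s (D.e + z) +
    D.val = _
  rw [q2, val, map_add U.d, map_add U.d, ← hcomm, ← hw]
  simp only [map_add, AddMonoidHom.add_apply]
  refine (one_smul (ZMod 2) _).symm.trans ?_
  match_scalars <;> decide

/-- two data with the same `b` and `c` -/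
theorem val_coh_of_eq (hi : i + 1 ≤ M) (D D' : ThD g i N) (hb : D.b = D'.b) (hc : D.c = D'.c) :
    U.Coh D.val D'.val := by
  have h1 : D.s + D'.s = U.d (D.e + D'.e) := by
    have h := D.g_b
    rw [hb, D'.g_b] at h
    have h2 : D.s + D'.s + (D.s + U.d D.e) = D.s + D'.s + (D'.s + U.d D'.e) := by rw [h]
    rw [map_add]
    have h3 : D.s + D'.s + (D.s + U.d D.e) = D'.s + U.d D.e := by
      refine (one_smul (ZMod 2) _).symm.trans ?_
      match_scalars <;> decide
    have h4 : D.s + D'.s + (D'.s + U.d D'.e) = D.s + U.d D'.e := by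
      refine (one_smul (ZMod 2) _).symm.trans ?_
      match_scalars <;> decide
    rw [h3, h4] at h2
    have h5 : D.s + D'.s = (D'.s + U.d D.e) + (D.s + U.d D.e) := by
      refine (one_smul (ZMod 2) _).symm.trans ?_
      match_scalars <;> decide
    rw [h5, h2]
    refine (one_smul (ZMod 2) _).symm.trans ?_
    match_scalars <;> decide
  obtain ⟨n, hn, hn'⟩ := N.inj _ (N.N.add_mem D.s_mem D'.s_mem) ⟨_, h1⟩
  have hz : U.d (D.e + n + D'.e) = 0 := by
    rw [map_add, map_add, ← hn', h1, map_add]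
    refine (one_smul (ZMod 2) _).symm.trans ?_
    match_scalars <;> decide
  have hD : ((D.changeS n hn).changeE (D.e + n + D'.e) hz).val = D'.val := by
    change U.q i (D.e + n + (D.e + n + D'.e)) + g.f D.c +
      U.cup (i + 1) (D.e + n + (D.e + n + D'.e)) (D.s + U.d n) +
      U.cup (i + 1) (D.s + U.d n) (D.e + n + (D.e + n + D'.e)) = _
    have e1 : D.e + n + (D.e + n + D'.e) = D'.e := by
      refine (one_smul (ZMod 2) _).symm.trans ?_
      match_scalars <;> decide
    have e2 : D.s + U.d n = D'.s := by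
      rw [← hn']
      refine (one_smul (ZMod 2) _).symm.trans ?_
      match_scalars <;> decide
    rw [e1, e2, hc, val]
  have h2 := (D.changeS n hn).val_changeE hi (D.e + n + D'.e) hz
  rw [hD] at h2
  exact (h2.trans (D.val_changeS hi n hn)).symm

/-- **Independence.** The class of `theta` depends only on the class of `b` and on `c`. -/
theorem val_coh (hi : i + 1 ≤ M) (D D' : ThD g i N) {a : V.C} (h : D.b + D'.b = V.d a) :
    V.d (D.c + D'.c + V.q i a + V.cup (i + 1) D.b a + V.cup (i + 1) a D.b) = 0 ∧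
    U.Coh (D.val + D'.val)
      (g.f (D.c + D'.c + V.q i a + V.cup (i + 1) D.b a + V.cup (i + 1) a D.b)) := by
  have hb' : D'.b = D.b + V.d a := by
    rw [← h]
    refine (one_smul (ZMod 2) _).symm.trans ?_
    match_scalars <;> decide
  obtain ⟨y, hy⟩ : ∃ y, y = D.c + D'.c + V.q i a + V.cup (i + 1) D.b a + V.cup (i + 1) a D.b :=
    ⟨_, rfl⟩
  have hcy : (D.changeB a).c + y = D'.c := by
    change D.c + V.q i a + V.cup (i + 1) D.b a + V.cup (i + 1) a D.b + y = _
    rw [hy]
    refine (one_smul (ZMod 2) _).symm.trans ?_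
    match_scalars <;> decide
  have hdy : V.d y = 0 := by
    have h1 : V.d ((D.changeB a).c + y) = V.d (D.changeB a).c := by
      rw [hcy, ← D'.d_c, ← (D.changeB a).d_c]
      change V.cup (i + 1) D'.b D'.b = V.cup (i + 1) (D.b + V.d a) (D.b + V.d a)
      rw [hb']
    rw [map_add] at h1
    exact add_eq_left.1 h1
  rw [← hy]
  refine ⟨hdy, ?_⟩
  have h1 := ((D.changeB a).changeC y hdy).val_coh_of_eq hi D' hb'.symm hcy
  rw [val_changeC] at h1
  have h2 := D.val_changeB a
  obtain ⟨u, hu⟩ := h1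
  obtain ⟨w, hw⟩ := h2
  refine ⟨u + w, ?_⟩
  rw [map_add, ← hu, ← hw]
  refine (one_smul (ZMod 2) _).symm.trans ?_
  match_scalars <;> decide

/-- **Naturality** in commutative squares -/
def map (D : ThD g i N) {g' : Hom V' U'} {N' : Nar U' M} (v : Hom V V') (u : Hom U U')
    (h : ∀ x, g'.f (v.f x) = u.f (g.f x)) (hN : ∀ x ∈ N.N, u.f x ∈ N'.N) : ThD g' i N' where
  b := v.f D.b
  s := u.f D.s
  e := u.f D.e
  c := v.f D.c
  d_b := by rw [← v.f_d, D.d_b, map_zero]
  s_mem := hN _ D.s_mem
  g_b := by rw [h, D.g_b, map_add, u.f_d]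
  d_c := by rw [← v.f_cup, D.d_c, v.f_d]

theorem val_map (D : ThD g i N) {g' : Hom V' U'} {N' : Nar U' M} (v : Hom V V') (u : Hom U U')
    (h : ∀ x, g'.f (v.f x) = u.f (g.f x)) (hN : ∀ x ∈ N.N, u.f x ∈ N'.N) :
    (D.map v u h hN).val = u.f D.val := by
  simp only [val, map, map_add, u.f_q, h, u.f_cup]

/-- data of a functional square are data with `s = 0` -/
def ofFSqD (D : FSqD g i) (N : Nar U M) : ThD g i N where
  b := D.b
  s := 0
  e := D.e
  c := D.c
  d_b := D.d_b
  s_mem := N.N.zero_mem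
  g_b := by rw [zero_add, D.d_e]
  d_c := D.d_c

theorem val_ofFSqD (D : FSqD g i) (N : Nar U M) : (ofFSqD D N).val = D.val :=
  (ofFSqD D N).val_of_s_zero rfl

/-- if the suspension part is null, `s = d n` with `n` of suspension type, then `theta` is
cohomologous to the functional square with `e + n` -/
theorem exists_fsq (hi : i + 1 ≤ M) (D : ThD g i N) (h : ∃ w, D.s = U.d w) :
    ∃ D' : FSqD g i, D'.b = D.b ∧ D'.c = D.c ∧ U.Coh D'.val D.val := by
  obtain ⟨n, hn, hs⟩ := N.inj _ D.s_mem h
  refine ⟨⟨D.b, D.e + n, D.c, D.d_b, ?_, D.d_c⟩, rfl, rfl, ?_⟩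
  · rw [D.g_b, map_add, hs]
    refine (one_smul (ZMod 2) _).symm.trans ?_
    match_scalars <;> decide
  · have h1 := D.val_changeS hi n hn
    have h2 : (D.changeS n hn).s = 0 := by
      change D.s + U.d n = 0
      rw [hs]
      exact U.two _
    rw [val_of_s_zero _ h2] at h1
    exact h1

end ThD

end CupC

end Vale.Agent.P263.TJ
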