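import Vale.Agent.P263.TJ.Theta
import Vale.Agent.P263.TJ.Dstar
import Vale.Agent.P263.TJ.SmallSq
import Vale.Agent.P263.TJ.GamSusp

/-!
# P263, block K: the generalised functional square of a map `X x (Delta^1)^n -> T`

`SqD T₀ j` : a cocycle `b` of `(T, T₀)` with `b cup b = d c` (`j` break points).
`theta D m hm : Cc X` (for `m : X x SN (i+1) -> T`, boundary to `T₀`, `D : SqD T₀ (i+1)`): the
integral over the cube of the generalised functional square. It is a cocycle; its class does not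
depend on any choice (`theta_eq`), is natural in `X` (`theta_pull`), in `T` (`theta_map`),
homotopy invariant (`theta_htpy`), and on the free-sum model it is the quadratic correction
(`theta_asmW`).
-/

open Finset

namespace Vale.Agent.P263.TJ

open Vale.Agent.P263.S Vale.Agent.P263.E Vale.Agent.P263.H83 CupC

variable {X X' T T' : SS}

/-- the relative cochains `x.s_n` -/
def narS (X : SS) (n : ℕ) : AddSubgroup (Cc.rel (bdX X n)).C where
  carrier := {u | ∃ x : Cc X, Cc.val u = sn n x}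
  zero_mem' := ⟨0, (sn_zero' n).symm⟩
  add_mem' := by
    rintro u v ⟨x, hx⟩ ⟨y, hy⟩
    exact ⟨x + y, by rw [Cc.val_add, hx, hy, sn_add]⟩
  neg_mem' := by
    rintro u ⟨x, hx⟩
    exact ⟨x, by rw [CupC.neg_eq, hx]⟩

/-- the relative cochains `x.s_n` on `X x SN n` -/
def narX (X : SS) (n : ℕ) : Nar (Cc.rel (bdX X n)) n where
  N := narS X n
  d_mem := by
    rintro u ⟨x, hx⟩
    exact ⟨Cc.d x, by rw [Cc.val_d, hx, d_sn]⟩
  cup_N := by
    rintro j hj u ⟨x, hx⟩ v ⟨y, hy⟩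
    exact Cc.rel_ext (by rw [Cc.val_cup, hx, hy, cup_sn_of_le n j hj]; rfl)
  inj := by
    rintro u ⟨x, hx⟩ ⟨w, hw⟩
    refine ⟨Cc.mkRel _ (sn n (DstN n (Cc.val w))) (Vn_sn n _), ⟨_, rfl⟩, Cc.rel_ext ?_⟩
    rw [Cc.val_d, Cc.val_mkRel, d_sn, ← DstN_d (Cc.vn_val w), ← Cc.val_d, ← hw, hx, DstN_sn]
  surj := by
    intro z hz
    have hd : Cc.d (Cc.val z) = 0 := congrArg Cc.val hz
    obtain ⟨w', h1, h2⟩ := DstN_retract n (Cc.vn_val z) hd
    refine ⟨Cc.mkRel _ (sn n (DstN n (Cc.val z))) (Vn_sn n _), ⟨_, rfl⟩, Cc.mkRel _ w' h1,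
      Cc.rel_ext ?_⟩
    rw [Cc.val_add, Cc.val_d, Cc.val_mkRel, Cc.val_mkRel]
    nth_rewrite 1 [h2]
    funext p x
    show sn n (DstN n (Cc.val z)) p x + Cc.d w' p x + sn n (DstN n (Cc.val z)) p x = Cc.d w' p x
    have := CharTwo.add_self_eq_zero (sn n (DstN n (Cc.val z)) p x)
    linear_combination this

/-- a relative cocycle whose square with `j` break points is a coboundary -/
structure SqD (T₀ : Sb T) (j : ℕ) where
  /-- the cocycle -/
  b : Cc T
  /-- the null cochain of the square -/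
  c : Cc T
  vn_b : Vn T₀ b
  vn_c : Vn T₀ c
  d_b : Cc.d b = 0
  d_c : Cc.cup j b b = Cc.d c

variable {T₀ : Sb T} {T₀' : Sb T'} {i : ℕ}

section Def

variable (D : SqD T₀ (i + 1)) (m : SS.Map (X.prod (SN (i + 1))) T)
  (hm : ∀ {p : ℕ} (x : (X.prod (SN (i + 1))).obj p), (bdX X (i + 1)).mem x → T₀.mem (m.app x))

include hm in
theorem SqD.exists_e : ∃ e : Cc (X.prod (SN (i + 1))), Vn (bdX X (i + 1)) e ∧
    Cc.pull m D.b = sn (i + 1) (DstN (i + 1) (Cc.pull m D.b)) + Cc.d e :=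
  DstN_retract (i + 1) ((D.vn_b.pull m).mono fun x hx => hm x hx)
    (by rw [← pull_d, D.d_b, pull_zero])

/-- the data of the generalised functional square -/
noncomputable def SqD.toThD : ThD (Cc.relHom m (bdX X (i + 1)) T₀ hm) i (narX X (i + 1)) where
  b := Cc.mkRel T₀ D.b D.vn_b
  s := Cc.mkRel _ (sn (i + 1) (DstN (i + 1) (Cc.pull m D.b))) (Vn_sn _ _)
  e := Cc.mkRel _ (D.exists_e m hm).choose (D.exists_e m hm).choose_spec.1
  c := Cc.mkRel T₀ D.c D.vn_c
  d_b := Cc.rel_ext D.d_b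
  s_mem := ⟨_, rfl⟩
  g_b := Cc.rel_ext (D.exists_e m hm).choose_spec.2
  d_c := Cc.rel_ext D.d_c

/-- **the generalised functional square** -/
noncomputable def theta : Cc X := DstN (i + 1) (Cc.val (D.toThD m hm).val)

theorem d_theta : Cc.d (theta D m hm) = 0 := by
  rw [theta, ← DstN_d (Cc.vn_val _)]
  have h := congrArg Cc.val ((D.toThD m hm).d_val le_rfl)
  rw [Cc.val_d] at h
  rw [h, Cc.val_zero, DstN_zero]

end Def

/-- integration respects relative cohomology -/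
theorem coh_DstN {n : ℕ} {u v : (Cc.rel (bdX X n)).C} (h : (Cc.rel (bdX X n)).Coh u v) :
    (Cc.cupC X).Coh (DstN n (Cc.val u)) (DstN n (Cc.val v)) := by
  obtain ⟨w, hw⟩ := h
  refine ⟨DstN n (Cc.val w), ?_⟩
  show DstN n (Cc.val u) + DstN n (Cc.val v) = Cc.d (DstN n (Cc.val w))
  rw [← DstN_add, ← Cc.val_add, hw, Cc.val_d, DstN_d (Cc.vn_val w)]

section Thm

variable (D : SqD T₀ (i + 1)) {m : SS.Map (X.prod (SN (i + 1))) T}
  {hm : ∀ {p : ℕ} (x : (X.prod (SN (i + 1))).obj p), (bdX X (i + 1)).mem x → T₀.mem (m.app x)}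

/-- the class of `theta` can be computed from any data -/
theorem theta_eq (E : ThD (Cc.relHom m (bdX X (i + 1)) T₀ hm) i (narX X (i + 1)))
    (hb : Cc.val E.b = D.b) (hc : Cc.val E.c = D.c) :
    (Cc.cupC X).Coh (theta D m hm) (DstN (i + 1) (Cc.val E.val)) :=
  coh_DstN ((D.toThD m hm).val_coh_of_eq le_rfl E (Cc.rel_ext hb.symm) (Cc.rel_ext hc.symm))

/-- change of the class of `b` and of `c` -/
theorem theta_coh (D' : SqD T₀ (i + 1)) {a : Cc T} (ha : Vn T₀ a) (h : D.b + D'.b = Cc.d a) :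
    (Cc.cupC X).Coh (theta D m hm + theta D' m hm) (DstN (i + 1) (Cc.pull m
      (D.c + D'.c + (Cc.cup i a a + Cc.cup (i + 1) a (Cc.d a)) + Cc.cup (i + 1) D.b a +
        Cc.cup (i + 1) a D.b))) := by
  have h1 := ((D.toThD m hm).val_coh le_rfl (D'.toThD m hm) (a := Cc.mkRel T₀ a ha)
    (Cc.rel_ext h)).2
  have h2 := coh_DstN h1
  rw [Cc.val_add, DstN_add] at h2
  exact h2

/-- **Naturality in `X`** -/
theorem theta_pull (f : SS.Map X' X) {m' : SS.Map (X'.prod (SN (i + 1))) T}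
    {hm' : ∀ {p : ℕ} (x : (X'.prod (SN (i + 1))).obj p), (bdX X' (i + 1)).mem x →
      T₀.mem (m'.app x)}
    (h : m' = m.comp (SS.pair (f.comp (SS.fst X' (SN (i + 1)))) (SS.snd X' (SN (i + 1))))) :
    (Cc.cupC X').Coh (theta D m' hm') (Cc.pull f (theta D m hm)) := by
  subst h
  have hF : ∀ {p : ℕ} (x : (X'.prod (SN (i + 1))).obj p), (bdX X' (i + 1)).mem x →
      (bdX X (i + 1)).mem ((SS.pair (f.comp (SS.fst X' (SN (i + 1))))
        (SS.snd X' (SN (i + 1)))).app x) := fun x hx => hx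
  obtain ⟨E, hE⟩ : ∃ E : ThD (Cc.relHom (m.comp (SS.pair (f.comp (SS.fst X' (SN (i + 1))))
      (SS.snd X' (SN (i + 1))))) (bdX X' (i + 1)) T₀ hm') i (narX X' (i + 1)),
      E = (D.toThD m hm).map ⟨AddMonoidHom.id _, fun _ => rfl, fun _ _ _ => rfl⟩
        (Cc.relHom _ (bdX X' (i + 1)) (bdX X (i + 1)) hF) (fun x => rfl) (by
          rintro u ⟨x, hx⟩
          refine ⟨Cc.pull f x, ?_⟩
          rw [Cc.val_relHom, hx, pull_sn]) := ⟨_, rfl⟩
  have h1 := theta_eq D E (by rw [hE]; rfl) (by rw [hE]; rfl)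
  have h3 : E.val = (Cc.relHom _ (bdX X' (i + 1)) (bdX X (i + 1)) hF).f (D.toThD m hm).val := by
    rw [hE]
    exact ThD.val_map _ _ _ _ _
  rw [h3, Cc.val_relHom, DstN_pull] at h1
  exact h1

/-- the pull back of data along a map of pairs -/
def SqD.pull (k : SS.Map T T') (hk : ∀ {p : ℕ} (x : T.obj p), T₀.mem x → T₀'.mem (k.app x))
    {j : ℕ} (D : SqD T₀' j) : SqD T₀ j where
  b := Cc.pull k D.b
  c := Cc.pull k D.c
  vn_b := (D.vn_b.pull k).mono fun x hx => hk x hx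
  vn_c := (D.vn_c.pull k).mono fun x hx => hk x hx
  d_b := by rw [← pull_d, D.d_b, pull_zero]
  d_c := by rw [← pull_cup, D.d_c, pull_d]

/-- **Naturality in `T`** -/
theorem theta_map (k : SS.Map T T') (hk : ∀ {p : ℕ} (x : T.obj p), T₀.mem x → T₀'.mem (k.app x))
    (D' : SqD T₀' (i + 1)) {m' : SS.Map (X.prod (SN (i + 1))) T'}
    {hm' : ∀ {p : ℕ} (x : (X.prod (SN (i + 1))).obj p), (bdX X (i + 1)).mem x →
      T₀'.mem (m'.app x)}
    (h : m' = k.comp m) :
    (Cc.cupC X).Coh (theta (D'.pull k hk) m hm) (theta D' m' hm') := by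
  subst h
  have h1 := theta_eq D' (m := k.comp m) (hm := hm')
    { b := Cc.mkRel T₀' D'.b D'.vn_b
      s := ((D'.pull k hk).toThD m hm).s
      e := ((D'.pull k hk).toThD m hm).e
      c := Cc.mkRel T₀' D'.c D'.vn_c
      d_b := Cc.rel_ext D'.d_b
      s_mem := ((D'.pull k hk).toThD m hm).s_mem
      g_b := ((D'.pull k hk).toThD m hm).g_b
      d_c := Cc.rel_ext D'.d_c } rfl rfl
  exact h1.symm

end Thm

/-- **Homotopy invariance** -/
theorem theta_htpy (D : SqD T₀ (i + 1)) (H : SS.Map ((cylS X).prod (SN (i + 1))) T)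
    (hH : ∀ {p : ℕ} (x : ((cylS X).prod (SN (i + 1))).obj p), (bdX (cylS X) (i + 1)).mem x →
      T₀.mem (H.app x))
    {m0 m1 : SS.Map (X.prod (SN (i + 1))) T}
    {hm0 : ∀ {p : ℕ} (x : (X.prod (SN (i + 1))).obj p), (bdX X (i + 1)).mem x →
      T₀.mem (m0.app x)}
    {hm1 : ∀ {p : ℕ} (x : (X.prod (SN (i + 1))).obj p), (bdX X (i + 1)).mem x →
      T₀.mem (m1.app x)}
    (h0 : m0 = H.comp (SS.pair ((end0 X).comp (SS.fst X (SN (i + 1)))) (SS.snd X (SN (i + 1)))))
    (h1 : m1 = H.comp (SS.pair ((end1 X).comp (SS.fst X (SN (i + 1)))) (SS.snd X (SN (i + 1))))) :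
    (Cc.cupC X).Coh (theta D m0 hm0) (theta D m1 hm1) := by
  have e0 := theta_pull D (m := H) (hm := hH) (end0 X) (m' := m0) (hm' := hm0) h0
  have e1 := theta_pull D (m := H) (hm := hH) (end1 X) (m' := m1) (hm' := hm1) h1
  refine e0.trans (CupC.Coh.trans ?_ e1.symm)
  refine ⟨Cc.sOp (theta D H hH), ?_⟩
  have h := Cc.sOp_d (theta D H hH)
  rw [d_theta] at h
  have hz : Cc.sOp (0 : Cc (cylS X)) = 0 := by
    have := Cc.sOp_add (0 : Cc (cylS X)) 0
    rw [add_zero] at this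
    exact left_eq_add.1 this
  rw [hz, add_zero] at h
  exact h.symm

/-! ### the value on the free-sum model -/

variable {l : LabS} {B : SS} {A : Sb B}

/-- the assembly maps the boundary of the cube to the empty configurations -/
theorem asmW_bd (n : ℕ) {p : ℕ} (x : ((Gam l A).prod (SN n)).obj p)
    (hx : (bdX (Gam l A) n).mem x) :
    (Gam.base l (prodB A (SN.base n))).mem ((asmW l A (SN.base n)).app x) := by
  show gas A (SN.base n) (p2 x) (shs (p1 x)) = ∅
  refine eq_empty_of_forall_notMem fun a ha => ?_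
  obtain ⟨⟨b, -, rfl⟩, h⟩ := (mem_gas _).1 ha
  exact h (Or.inr hx)

/-- the data on the free-sum model -/
noncomputable def SqD.gam {y : Cc B} (hy : Vn A y) (hd : Cc.d y = 0) (n : ℕ) :
    SqD (Gam.base l (prodB A (SN.base n))) n where
  b := hat l (prodB A (SN.base n)) (sn n y)
  c := KK l (prodB A (SN.base n)) n 0 (sn n y)
  vn_b := Gam.hat_vn _
  vn_c := Gam.KK_vn _ _ _
  d_b := by rw [d_hat (Vn_sn_prodB hy n), d_sn, hd, sn_zero', hat_zero]
  d_c := by
    rw [d_KK_sq (Vn_sn_prodB hy n) (by rw [d_sn, hd, sn_zero']), cup_sn_of_le n n le_rfl,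
      hat_zero, add_zero]

/-- **The value on the free-sum model**: for `f : X -> Gam l A` and a cocycle `y` of `(B, A)` the
generalised functional square of `X x SN (i+1) -> Gam (B x SN (i+1))` is the quadratic
correction `KK 0 0 y`, pulled back along `f`. -/
theorem theta_asmW (f : SS.Map X (Gam l A)) {y : Cc B} (hy : Vn A y) (hd : Cc.d y = 0)
    {m : SS.Map (X.prod (SN (i + 1))) (Gam l (prodB A (SN.base (i + 1))))}
    {hm : ∀ {p : ℕ} (x : (X.prod (SN (i + 1))).obj p), (bdX X (i + 1)).mem x →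
      (Gam.base l (prodB A (SN.base (i + 1)))).mem (m.app x)}
    (h : m = (asmW l A (SN.base (i + 1))).comp
      (SS.pair (f.comp (SS.fst X (SN (i + 1)))) (SS.snd X (SN (i + 1))))) :
    (Cc.cupC X).Coh (theta (SqD.gam hy hd (i + 1)) m hm) (Cc.pull f (KK l A 0 0 y)) := by
  subst h
  have hb : ∀ u : Cc (Gam l (prodB A (SN.base (i + 1)))), ∀ v : Cc (Gam l A),
      Cc.pull (asmW l A (SN.base (i + 1))) u = sn (i + 1) v →
      Cc.pull ((asmW l A (SN.base (i + 1))).comp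
        (SS.pair (f.comp (SS.fst X (SN (i + 1)))) (SS.snd X (SN (i + 1))))) u =
        sn (i + 1) (Cc.pull f v) := by
    intro u v huv
    rw [← pull_sn, ← huv]
    rfl
  obtain ⟨E, hE⟩ : ∃ E : ThD (Cc.relHom ((asmW l A (SN.base (i + 1))).comp
      (SS.pair (f.comp (SS.fst X (SN (i + 1)))) (SS.snd X (SN (i + 1))))) (bdX X (i + 1))
      (Gam.base l (prodB A (SN.base (i + 1)))) hm) i (narX X (i + 1)),
      E =
    { b := Cc.mkRel _ (hat l (prodB A (SN.base (i + 1))) (sn (i + 1) y)) (Gam.hat_vn _)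
      s := Cc.mkRel _ (sn (i + 1) (Cc.pull f (hat l A y))) (Vn_sn _ _)
      e := 0
      c := Cc.mkRel _ (KK l (prodB A (SN.base (i + 1))) (i + 1) 0 (sn (i + 1) y)) (Gam.KK_vn _ _ _)
      d_b := Cc.rel_ext (SqD.gam (l := l) hy hd (i + 1)).d_b
      s_mem := ⟨_, rfl⟩
      g_b := by
        rw [map_zero, add_zero]
        exact Cc.rel_ext (hb _ _ (asmW_hat hy (i + 1)))
      d_c := Cc.rel_ext (SqD.gam (l := l) hy hd (i + 1)).d_c } := ⟨_, rfl⟩
  have h1 := theta_eq (SqD.gam (l := l) hy hd (i + 1)) E (by rw [hE]; rfl) (by rw [hE]; rfl)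
  refine h1.trans (Coh.of_eq ?_)
  have h2 : Cc.pull (asmW l A (SN.base (i + 1)))
      (KK l (prodB A (SN.base (i + 1))) (i + 1) 0 (sn (i + 1) y)) =
      sn (i + 1) (KK l A 0 0 y) := by
    rw [asmW_KK hy, Nat.sub_self, Nat.add_zero]
  have h3 : Cc.val E.c = KK l (prodB A (SN.base (i + 1))) (i + 1) 0 (sn (i + 1) y) := by
    rw [hE]
    rfl
  rw [E.val_of_e_zero (by rw [hE]), Cc.val_relHom, h3, hb _ _ h2, DstN_sn]

end Vale.Agent.P263.TJ
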