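import Vale.Agent.P263.TJ.KKvar
import Vale.Agent.P263.TJ.ThetaX

/-!
# P263, block K, (TG): the generalised functional square of a sum of sheets

`Y : B x (Delta^1)^(i+1) -> T` : the universal sheet map. `D.hatD l` : the data on the free-sum
model `Gam l T₀` given by data `D` on `(T, T₀)`. `ShD D A Y` : `Y^* b = z.s + d e`, and the
generalised functional square of `Y` is `kap.s + d w`. For every `f : X -> Gam l A` the generalised
functional square of `X x cube -> Gam l (B x cube) -> Gam l T` is the class of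
`f^* (KK 0 0 z + hat kap)` (`theta_gen`). If `A` is empty then `z` and `kap` only need to be in
the classes of the integrals (`theta_gen_of_coh`).
-/

open Finset

namespace Vale.Agent.P263.TJ

open Vale.Agent.P263.S Vale.Agent.P263.E Vale.Agent.P263.H83 CupC

variable {T B X : SS} {T₀ : Sb T} {A : Sb B} {i : ℕ}

/-- the data on the free-sum model -/
noncomputable def SqD.hatD (l : LabS) {j : ℕ} (D : SqD T₀ j) : SqD (Gam.base l T₀) j where
  b := hat l T₀ D.b
  c := hat l T₀ D.c + KK l T₀ j 0 D.b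
  vn_b := Gam.hat_vn _
  vn_c := (Gam.hat_vn _).add (Gam.KK_vn _ _ _)
  d_b := by rw [d_hat D.vn_b, D.d_b, hat_zero]
  d_c := by
    rw [d_add, d_hat D.vn_c, d_KK_sq D.vn_b D.d_b, ← D.d_c, add_comm (Cc.cup _ _ _), ← add_assoc,
      cc_add_self, zero_add]

/-- the universal sheet map and its classes -/
structure ShD (D : SqD T₀ (i + 1)) (A : Sb B) (Y : SS.Map (B.prod (SN (i + 1))) T) where
  /-- the suspension part of `Y^* b` -/
  z : Cc B
  hz : Vn A z
  /-- the correction -/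
  e : Cc (B.prod (SN (i + 1)))
  he : Vn (prodB A (SN.base (i + 1))) e
  g_b : Cc.pull Y D.b = sn (i + 1) z + Cc.d e
  /-- the generalised functional square of `Y` -/
  kap : Cc B
  hkap : Vn A kap
  /-- the correction -/
  w : Cc (B.prod (SN (i + 1)))
  hw : Vn (prodB A (SN.base (i + 1))) w
  g_c : Cc.pull Y D.c + (Cc.cup i e e + Cc.cup (i + 1) e (Cc.d e) +
    Cc.cup (i + 1) e (sn (i + 1) z) + Cc.cup (i + 1) (sn (i + 1) z) e) =
      sn (i + 1) kap + Cc.d w

theorem ShD.d_z {D : SqD T₀ (i + 1)} {Y : SS.Map (B.prod (SN (i + 1))) T} (E : ShD D A Y) :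
    Cc.d E.z = 0 := by
  have h1 : Cc.d (sn (i + 1) E.z) = 0 := by
    have h2 := congrArg Cc.d E.g_b
    rw [← pull_d, D.d_b, pull_zero, d_add, d_d, add_zero] at h2
    exact h2.symm
  have h3 := congrArg (DstN (i + 1)) h1
  rwa [d_sn, DstN_sn, DstN_zero] at h3

theorem cc_cancel (u v : Cc X) : u + v + u = v := by
  rw [add_comm, ← add_assoc, cc_add_self, zero_add]

theorem coh_fin {t t0 k r w : Cc X} (h2 : (Cc.cupC X).Coh (t + t0) (r + Cc.d w))
    (h3 : (Cc.cupC X).Coh t0 k) : (Cc.cupC X).Coh t (k + r) := by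
  obtain ⟨u, hu⟩ := h2
  obtain ⟨v, hv⟩ := h3
  have hu' : t + t0 + (r + Cc.d w) = Cc.d u := hu
  have hv' : t0 + k = Cc.d v := hv
  refine ⟨(show Cc X from u) + (show Cc X from v) + w, ?_⟩
  show t + (k + r) = Cc.d ((show Cc X from u) + (show Cc X from v) + w)
  rw [d_add, d_add]
  show t + (k + r) = Cc.d u + Cc.d v + Cc.d w
  rw [← hu', ← hv']
  funext p x
  simp only [Pi.add_apply]
  grind

variable {l : LabS}

/-- **The generalised functional square of a sum of sheets.** -/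
theorem theta_gen (D : SqD T₀ (i + 1)) {Y : SS.Map (B.prod (SN (i + 1))) T}
    (hY : ∀ {p : ℕ} (x : (B.prod (SN (i + 1))).obj p), (prodB A (SN.base (i + 1))).mem x →
      T₀.mem (Y.app x)) (E : ShD D A Y) (f : SS.Map X (Gam l A))
    {m : SS.Map (X.prod (SN (i + 1))) (Gam l T₀)}
    {hm : ∀ {p : ℕ} (x : (X.prod (SN (i + 1))).obj p), (bdX X (i + 1)).mem x →
      (Gam.base l T₀).mem (m.app x)}
    (h : m = (gamMap l Y hY).comp ((asmW l A (SN.base (i + 1))).comp
      (SS.pair (f.comp (SS.fst X (SN (i + 1)))) (SS.snd X (SN (i + 1)))))) :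
    (Cc.cupC X).Coh (theta (D.hatD l) m hm)
      (Cc.pull f (KK l A 0 0 E.z + hat l A E.kap)) := by
  obtain ⟨m1, hm1d⟩ : ∃ m1, m1 = (asmW l A (SN.base (i + 1))).comp
      (SS.pair (f.comp (SS.fst X (SN (i + 1)))) (SS.snd X (SN (i + 1)))) := ⟨_, rfl⟩
  have hm1 : ∀ {p : ℕ} (x : (X.prod (SN (i + 1))).obj p), (bdX X (i + 1)).mem x →
      (Gam.base l (prodB A (SN.base (i + 1)))).mem (m1.app x) := by
    intro p x hx
    rw [hm1d]
    exact asmW_bd (i + 1) _ hx
  have hk : ∀ {p : ℕ} (x : (Gam l (prodB A (SN.base (i + 1)))).obj p),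
      (Gam.base l (prodB A (SN.base (i + 1)))).mem x →
      (Gam.base l T₀).mem ((gamMap l Y hY).app x) := by
    intro p x hx
    show gim T₀ Y x.1 = ∅
    have hx' : x.1 = ∅ := hx
    refine eq_empty_of_forall_notMem fun a ha => ?_
    obtain ⟨⟨b, hb, -⟩, -⟩ := (mem_gim Y).1 ha
    rw [hx'] at hb
    exact notMem_empty b hb
  rw [← hm1d] at h
  have h1 := theta_map (gamMap l Y hY) hk (D.hatD l) (m := m1) (hm := hm1) (hm' := hm) h
  have hzd := E.d_z
  have hsz : Vn (prodB A (SN.base (i + 1))) (sn (i + 1) E.z) := Vn_sn_prodB E.hz (i + 1)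
  have hbb : Cc.pull (gamMap l Y hY) (hat l T₀ D.b) =
      hat l (prodB A (SN.base (i + 1))) (sn (i + 1) E.z + Cc.d E.e) := by
    rw [pull_hat Y hY D.vn_b, E.g_b]
  have hcc : Cc.pull (gamMap l Y hY) (hat l T₀ D.c + KK l T₀ (i + 1) 0 D.b) =
      hat l (prodB A (SN.base (i + 1))) (Cc.pull Y D.c) +
        KK l (prodB A (SN.base (i + 1))) (i + 1) 0 (sn (i + 1) E.z + Cc.d E.e) := by
    rw [pull_add, pull_hat Y hY D.vn_c, pull_KK Y hY D.vn_b, E.g_b]
  have h2 := theta_coh ((D.hatD l).pull (gamMap l Y hY) hk) (m := m1) (hm := hm1)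
    (SqD.gam (l := l) E.hz hzd (i + 1)) (a := hat l (prodB A (SN.base (i + 1))) E.e)
    (Gam.hat_vn _) (by
      show Cc.pull (gamMap l Y hY) (hat l T₀ D.b) +
        hat l (prodB A (SN.base (i + 1))) (sn (i + 1) E.z) = _
      rw [hbb, hat_add, d_hat E.he, cc_cancel])
  have h3 := theta_asmW (i := i) f E.hz hzd (m := m1) (hm := hm1) hm1d
  have hR : ((D.hatD l).pull (gamMap l Y hY) hk).c + (SqD.gam (l := l) E.hz hzd (i + 1)).c +
      (Cc.cup i (hat l (prodB A (SN.base (i + 1))) E.e) (hat l (prodB A (SN.base (i + 1))) E.e) +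
        Cc.cup (i + 1) (hat l (prodB A (SN.base (i + 1))) E.e)
          (Cc.d (hat l (prodB A (SN.base (i + 1))) E.e))) +
      Cc.cup (i + 1) ((D.hatD l).pull (gamMap l Y hY) hk).b
        (hat l (prodB A (SN.base (i + 1))) E.e) +
      Cc.cup (i + 1) (hat l (prodB A (SN.base (i + 1))) E.e)
        ((D.hatD l).pull (gamMap l Y hY) hk).b =
      hat l (prodB A (SN.base (i + 1))) (sn (i + 1) E.kap) +
        Cc.d (hat l (prodB A (SN.base (i + 1))) E.w +
          (KKv l (prodB A (SN.base (i + 1))) (sn (i + 1) E.z) E.e i +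
            hat l (prodB A (SN.base (i + 1))) (Cc.cup (i + 1) E.e E.e))) := by
    have h4 := KK_var_hat (l := l) i hsz E.he (by rw [d_sn, hzd, sn_zero'])
    have h5 : hat l (prodB A (SN.base (i + 1))) (Cc.pull Y D.c) +
        hat l (prodB A (SN.base (i + 1))) (Cc.cup i E.e E.e + Cc.cup (i + 1) E.e (Cc.d E.e) +
          Cc.cup (i + 1) E.e (sn (i + 1) E.z) + Cc.cup (i + 1) (sn (i + 1) E.z) E.e) =
        hat l (prodB A (SN.base (i + 1))) (sn (i + 1) E.kap) +
          Cc.d (hat l (prodB A (SN.base (i + 1))) E.w) := by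
      rw [← hat_add, E.g_c, hat_add, d_hat E.hw]
    show Cc.pull (gamMap l Y hY) (hat l T₀ D.c + KK l T₀ (i + 1) 0 D.b) +
      KK l (prodB A (SN.base (i + 1))) (i + 1) 0 (sn (i + 1) E.z) + _ +
      Cc.cup (i + 1) (Cc.pull (gamMap l Y hY) (hat l T₀ D.b)) _ +
      Cc.cup (i + 1) _ (Cc.pull (gamMap l Y hY) (hat l T₀ D.b)) = _
    rw [hcc, hbb, d_add]
    funext p F
    have h6 := congrFun (congrFun h4 p) F
    have h7 := congrFun (congrFun h5 p) F
    simp only [Pi.add_apply] at h6 h7 ⊢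
    grind
  rw [hR] at h2
  have hb : ∀ v : Cc (Gam l A), ∀ u : Cc (Gam l (prodB A (SN.base (i + 1)))),
      Cc.pull (asmW l A (SN.base (i + 1))) u = sn (i + 1) v →
      Cc.pull m1 u = sn (i + 1) (Cc.pull f v) := by
    intro v u huv
    rw [hm1d, ← pull_sn, ← huv]
    rfl
  rw [pull_add, hb _ _ (asmW_hat E.hkap (i + 1)), DstN_add, DstN_sn, pull_d,
    DstN_d (((Gam.hat_vn _).add ((KKv_vn _ _ _).add (Gam.hat_vn _))).pull m1 |>.mono
      fun x hx => hm1 x hx)] at h2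
  rw [pull_add]
  exact h1.symm.trans (coh_fin h2 h3)

/-! ### sheets without base -/

section Empty

variable (D : SqD T₀ (i + 1)) {Y : SS.Map (B.prod (SN (i + 1))) T}
  {hY : ∀ {p : ℕ} (x : (B.prod (SN (i + 1))).obj p), (bdX B (i + 1)).mem x → T₀.mem (Y.app x)}

theorem vn_prodB_empty {n : ℕ} {u : Cc (B.prod (SN n))} (hu : Vn (bdX B n) u) :
    Vn (prodB (Sb.empty B) (SN.base n)) u := hu.mono fun _ hx => hx.elim False.elim id

/-- `z` and `kap` only need to be in the classes of the integrals -/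
theorem exists_ShD {z kap : Cc B} (hz : (Cc.cupC B).Coh z (DstN (i + 1) (Cc.pull Y D.b)))
    (hk : (Cc.cupC B).Coh kap (theta D Y hY)) :
    ∃ E : ShD D (Sb.empty B) Y, E.z = z ∧ E.kap = kap := by
  obtain ⟨a, ha⟩ : ∃ a : Cc B, z + DstN (i + 1) (Cc.pull Y D.b) = Cc.d a := hz
  obtain ⟨E0, hE0⟩ : ∃ E0, E0 = D.toThD Y hY := ⟨_, rfl⟩
  have hs0 : Cc.val E0.s = sn (i + 1) (DstN (i + 1) (Cc.pull Y D.b)) := by rw [hE0]; rfl
  obtain ⟨E, hE⟩ : ∃ E, E = E0.changeS (Cc.mkRel _ (sn (i + 1) a) (Vn_sn (i + 1) a)) ⟨a, rfl⟩ :=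
    ⟨_, rfl⟩
  have hs : Cc.val E.s = sn (i + 1) z := by
    have h1 : Cc.val E.s = Cc.val E0.s + Cc.d (sn (i + 1) a) := by rw [hE]; rfl
    rw [h1, hs0, d_sn, ← ha, ← sn_add]
    congr 1
    rw [add_comm z, ← add_assoc, cc_add_self, zero_add]
  have hb : Cc.val E.b = D.b := by rw [hE, hE0]; rfl
  have hc : Cc.val E.c = D.c := by rw [hE, hE0]; rfl
  have hcoh := theta_eq D E hb hc
  have hd : Cc.d (Cc.val E.val) = 0 := congrArg Cc.val (E.d_val le_rfl)
  obtain ⟨w, hw, hw'⟩ := DstN_retract (i + 1) (Cc.vn_val E.val) hd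
  obtain ⟨a', ha'⟩ : ∃ a' : Cc B, kap + DstN (i + 1) (Cc.val E.val) = Cc.d a' := hk.trans hcoh
  refine ⟨⟨z, fun p x hx => hx.elim, Cc.val E.e, vn_prodB_empty (Cc.vn_val E.e), ?_, kap,
    fun p x hx => hx.elim, w + sn (i + 1) a',
    vn_prodB_empty (hw.add (Vn_sn (i + 1) a')), ?_⟩, rfl, rfl⟩
  · have h1 : Cc.pull Y (Cc.val E.b) = Cc.val E.s + Cc.d (Cc.val E.e) := congrArg Cc.val E.g_b
    rw [hb, hs] at h1
    exact h1
  · have h1 : Cc.val E.val = Cc.cup i (Cc.val E.e) (Cc.val E.e) +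
        Cc.cup (i + 1) (Cc.val E.e) (Cc.d (Cc.val E.e)) + Cc.pull Y (Cc.val E.c) +
        Cc.cup (i + 1) (Cc.val E.e) (Cc.val E.s) + Cc.cup (i + 1) (Cc.val E.s) (Cc.val E.e) := rfl
    rw [hc, hs] at h1
    have h2 : sn (i + 1) kap + sn (i + 1) (DstN (i + 1) (Cc.val E.val)) =
        Cc.d (sn (i + 1) a') := by rw [← sn_add, ha', d_sn]
    rw [d_add, ← h2]
    rw [h1] at hw' ⊢
    funext p x
    have h3 := congrFun (congrFun hw' p) x
    simp only [Pi.add_apply] at h3 ⊢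
    grind

/-- **The generalised functional square of a sum of sheets**, sheets without base. -/
theorem theta_gen_of_coh {z kap : Cc B}
    (hz : (Cc.cupC B).Coh z (DstN (i + 1) (Cc.pull Y D.b)))
    (hk : (Cc.cupC B).Coh kap (theta D Y hY)) (f : SS.Map X (Gam l (Sb.empty B)))
    {m : SS.Map (X.prod (SN (i + 1))) (Gam l T₀)}
    {hm : ∀ {p : ℕ} (x : (X.prod (SN (i + 1))).obj p), (bdX X (i + 1)).mem x →
      (Gam.base l T₀).mem (m.app x)}
    (h : m = (gamMap l (A := prodB (Sb.empty B) (SN.base (i + 1))) Y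
      (fun x hx => hY x (hx.elim False.elim id))).comp
      ((asmW l (Sb.empty B) (SN.base (i + 1))).comp
      (SS.pair (f.comp (SS.fst X (SN (i + 1)))) (SS.snd X (SN (i + 1)))))) :
    (Cc.cupC X).Coh (theta (D.hatD l) m hm)
      (Cc.pull f (KK l (Sb.empty B) 0 0 z + hat l (Sb.empty B) kap)) := by
  obtain ⟨E, rfl, rfl⟩ := exists_ShD D hz hk
  exact theta_gen D _ E f h

end Empty

end Vale.Agent.P263.TJ
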