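import Vale.Agent.P263.TJ.ThetaX

/-!
# P263, block K: the generalised functional square and small simplices (TS)

`SqD.hat l D` : the data on the free sum `Gam l A` of the data `D` on `(B, A)`.
`Strict.theta_coh` : if `a : U → Gam l A` and `M : U → B` agree over the small simplices, up to `A'`,
and `D.b`, `D.c` vanish on `A'`, then the generalised functional squares `theta` of `M ∘ m` and of
`a ∘ m` are cohomologous, for every `m : X × SN (i+1) → U` (boundary of the cube to the base `P`).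
-/

open Finset

namespace Vale.Agent.P263.TJ

open Vale.Agent.P263.S Vale.Agent.P263.E Vale.Agent.P263.H83 CupC

variable {l : LabS} {B : SS} {A : Sb B}

variable (l) in
/-- the data on the free sum -/
noncomputable def SqD.hat {j : ℕ} (D : SqD A j) : SqD (Gam.base l A) j where
  b := TJ.hat l A D.b
  c := TJ.hat l A D.c + KK l A j 0 D.b
  vn_b := Gam.hat_vn _
  vn_c := (Gam.hat_vn _).add (Gam.KK_vn _ _ _)
  d_b := by rw [d_hat D.vn_b, D.d_b, hat_zero]
  d_c := by
    rw [d_add, d_hat D.vn_c, d_KK_sq D.vn_b D.d_b, ← D.d_c, add_comm (Cc.cup _ _ _), ← add_assoc,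
      cc_add_self, zero_add]

/-- two data which differ by a cochain which vanishes on small simplices -/
theorem CupC.d_diff (U : CupC) (i : ℕ) {b b' c c' η : U.C} (db : U.d b = 0)
    (h : b + b' = U.d η) (dc : U.cup (i + 1) b b = U.d c) (dc' : U.cup (i + 1) b' b' = U.d c') :
    U.d (c + c' + U.q i η + U.cup (i + 1) b η + U.cup (i + 1) η b) = 0 := by
  have hb' : b' = b + U.d η := by rw [← h, ← add_assoc, U.two, zero_add]
  rw [map_add, map_add, map_add, map_add, ← dc, ← dc', U.d_q, U.d_cup, U.d_cup, db, hb']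
  simp only [map_add, AddMonoidHom.add_apply, map_zero, AddMonoidHom.zero_apply, zero_add,
    add_zero]
  have e1 := U.two (U.cup (i + 1) b b)
  have e2 := U.two (U.cup (i + 1) b (U.d η))
  have e3 := U.two (U.cup (i + 1) (U.d η) b)
  have e4 := U.two (U.cup (i + 1) (U.d η) (U.d η))
  have e5 := U.two (U.cup i b η)
  have e6 := U.two (U.cup i η b)
  calc _ = (U.cup (i + 1) b b + U.cup (i + 1) b b) +
        (U.cup (i + 1) b (U.d η) + U.cup (i + 1) b (U.d η)) +
        (U.cup (i + 1) (U.d η) b + U.cup (i + 1) (U.d η) b) +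
        (U.cup (i + 1) (U.d η) (U.d η) + U.cup (i + 1) (U.d η) (U.d η)) +
        (U.cup i b η + U.cup i b η) + (U.cup i η b + U.cup i η b) := by abel
    _ = 0 := by rw [e1, e2, e3, e4, e5, e6]; simp only [add_zero]

namespace Strict

variable {U : TSet} {A' : Sb B} {a : SS.Map U.ss (Gam l A)} {M : SS.Map U.ss B}
  {Sm : ∀ n : ℕ, Set (U.obj n)} {i : ℕ}

/-- **(TS)** The generalised functional squares of `M` and of `a` agree. -/
theorem theta_coh (hs : Strict A' a M Sm) (D : SqD A (i + 1)) (hb : Vn A' D.b) (hc : Vn A' D.c)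
    (P : Sb U.ss) (hP : ∀ {p : ℕ} (u : U.ss.obj p), P.mem u → u ∈ Sm p)
    (hPM : ∀ {p : ℕ} (u : U.ss.obj p), P.mem u → A.mem (M.app u))
    (hPa : ∀ {p : ℕ} (u : U.ss.obj p), P.mem u → (Gam.base l A).mem (a.app u))
    {X : SS} (m : SS.Map (X.prod (SN (i + 1))) U.ss)
    (hm : ∀ {p : ℕ} (x : (X.prod (SN (i + 1))).obj p), (bdX X (i + 1)).mem x → P.mem (m.app x))
    {mM : SS.Map (X.prod (SN (i + 1))) B} {ma : SS.Map (X.prod (SN (i + 1))) (Gam l A)}
    (hmM : mM = M.comp m) (hma : ma = a.comp m)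
    {hM : ∀ {p : ℕ} (x : (X.prod (SN (i + 1))).obj p), (bdX X (i + 1)).mem x → A.mem (mM.app x)}
    {ha : ∀ {p : ℕ} (x : (X.prod (SN (i + 1))).obj p), (bdX X (i + 1)).mem x →
      (Gam.base l A).mem (ma.app x)} :
    (Cc.cupC X).Coh (theta D mM hM) (theta (D.hat l) ma ha) := by
  have h1 := theta_map (m := m) (hm := hm) M hPM D (hm' := hM) hmM
  have h2 := theta_map (m := m) (hm := hm) a hPa (D.hat l) (hm' := ha) hma
  have hP' : ∀ {w : Cc U.ss}, Vn hs.loc.sb w → Vn P w := fun hw => hw.mono fun u hu => hP u hu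
  -- the difference of `b`
  obtain ⟨η, hη, hη0⟩ := hs.loc.exists'
    (u := Cc.pull M D.b + Cc.pull a (TJ.hat l A D.b))
    (by rw [d_add, ← pull_d, ← pull_d, d_hat D.vn_b, D.d_b, hat_zero, pull_zero, pull_zero,
      add_zero])
    (fun p u hu => by
      show Cc.pull M D.b p u + Cc.pull a (TJ.hat l A D.b) p u = 0
      rw [hs.hat_small hb u hu]
      exact CharTwo.add_self_eq_zero _)
  have h3 := TJ.theta_coh (D.pull M hPM) (m := m) (hm := hm) ((D.hat l).pull a hPa) (hP' hη0)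
    hη.symm
  -- the difference of `c`
  obtain ⟨κ, hκ⟩ : ∃ κ, κ = (D.pull M hPM).c + ((D.hat l).pull a hPa).c +
    (Cc.cup i η η + Cc.cup (i + 1) η (Cc.d η)) + Cc.cup (i + 1) (D.pull M hPM).b η +
    Cc.cup (i + 1) η (D.pull M hPM).b := ⟨_, rfl⟩
  have hκd : Cc.d κ = 0 := by
    rw [hκ]
    exact CupC.d_diff (Cc.cupC U.ss) i (D.pull M hPM).d_b hη.symm (D.pull M hPM).d_c
      ((D.hat l).pull a hPa).d_c
  have hκ0 : Vn hs.loc.sb κ := by
    have h4 : Vn hs.loc.sb ((D.pull M hPM).c + ((D.hat l).pull a hPa).c) := by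
      intro p u hu
      show Cc.pull M D.c p u + (Cc.pull a (TJ.hat l A D.c) p u +
        Cc.pull a (KK l A (i + 1) 0 D.b) p u) = 0
      rw [hs.hat_small hc u hu, hs.KK_small hb _ _ u hu, add_zero]
      exact CharTwo.add_self_eq_zero _
    rw [hκ]
    exact ((h4.add ((Vn.cup_right i η hη0).add (Vn.cup_right (i + 1) η hη0.d))).add
      (Vn.cup_right (i + 1) _ hη0)).add (Vn.cup_left (i + 1) hη0 _)
  obtain ⟨ζ, hζ, hζ0⟩ := hs.loc.exists' hκd hκ0
  rw [← hκ, ← hζ] at h3
  have h5 : DstN (i + 1) (Cc.pull m (Cc.d ζ)) = Cc.d (DstN (i + 1) (Cc.pull m ζ)) := by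
    rw [pull_d]
    exact DstN_d (((hP' hζ0).pull m).mono fun x hx => hm x hx)
  rw [h5] at h3
  have h6 : (Cc.cupC X).Coh (theta (D.pull M hPM) m hm + theta ((D.hat l).pull a hPa) m hm) 0 :=
    h3.trans ((Cc.cupC X).coh_d _)
  exact (h1.symm.trans (coh_iff_add.2 h6)).trans h2

end Strict

end Vale.Agent.P263.TJ
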